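import Crest.Agent.R89.Fock
/-!
# Row 89 (S0118): common definitions (group, letters, C*-algebra, tuples)
-/

set_option autoImplicit false
open scoped InnerProductSpace

namespace Crest.Agent.R89

section alg
variable {G I : Type} [Group G]

noncomputable def lam (g : G) : HH G I →L[ℂ] HH G I := push (T.lmul g) (T.lmul_inj g)
noncomputable def rho (g : G) : HH G I →L[ℂ] HH G I := push (T.rmul g) (T.rmul_inj g)
noncomputable def cre (i : I) : HH G I →L[ℂ] HH G I := push (T.lcr i) (T.lcr_inj i)
noncomputable def rcre (i : I) : HH G I →L[ℂ] HH G I := push (T.rcr i) (T.rcr_inj i)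
/-- semicircular operators -/
noncomputable def Sop (i : I) : HH G I →L[ℂ] HH G I := cre i + star (cre i)
/-- right semicircular operators -/
noncomputable def Srop (i : I) : HH G I →L[ℂ] HH G I := rcre i + star (rcre i)
/-- the vacuum vector -/
noncomputable def Om : HH G I := dl T.vac

variable (G I)

/-- the star algebra generated by the `lam g` and the `Sop i` -/
noncomputable def A0 : StarSubalgebra ℂ (HH G I →L[ℂ] HH G I) :=
  StarAlgebra.adjoin ℂ (Set.range (lam : G → HH G I →L[ℂ] HH G I) ∪
    Set.range (Sop : I → HH G I →L[ℂ] HH G I))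

/-- its norm closure -/
noncomputable def AA : StarSubalgebra ℂ (HH G I →L[ℂ] HH G I) := (A0 G I).topologicalClosure

instance isClosed_AA : IsClosed (AA G I : Set (HH G I →L[ℂ] HH G I)) :=
  (A0 G I).isClosed_topologicalClosure

/-- the C*-algebra -/
abbrev AT : Type := AA G I

noncomputable instance cstarAT : CStarAlgebra (AT G I) := StarSubalgebra.cstarAlgebra (AA G I)

variable {G I}

theorem lam_mem (g : G) : (lam g : HH G I →L[ℂ] HH G I) ∈ AA G I :=
  (A0 G I).le_topologicalClosure (StarAlgebra.subset_adjoin ℂ _ (Or.inl ⟨g, rfl⟩))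

theorem Sop_mem (i : I) : (Sop i : HH G I →L[ℂ] HH G I) ∈ AA G I :=
  (A0 G I).le_topologicalClosure (StarAlgebra.subset_adjoin ℂ _ (Or.inr ⟨i, rfl⟩))

noncomputable def lamA (g : G) : AT G I := ⟨lam g, lam_mem g⟩
noncomputable def sA (i : I) : AT G I := ⟨Sop i, Sop_mem i⟩

/-- the vector state of the vacuum -/
noncomputable def tau : AT G I →ₗ[ℂ] ℂ where
  toFun x := ⟪(Om : HH G I), x.1 Om⟫_ℂ
  map_add' x y := by
    rw [← inner_add_right]; rfl
  map_smul' c x := by
    simp only [RingHom.id_apply, smul_eq_mul]
    rw [← inner_smul_right]; rfl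

end alg

/-! ### The group -/

/-- reduced words over `Fin k` -/
def RW (k : ℕ) : Type := {l : List (Fin k) // l.IsChain (· ≠ ·)}

namespace RW
variable {k : ℕ}

/-- the generator `i` acts on reduced words by cancelling or prepending `i` -/
def act (i : Fin k) : RW k → RW k
  | ⟨[], _⟩ => ⟨[i], List.isChain_singleton i⟩
  | ⟨a :: l, h⟩ => if hi : i = a then ⟨l, h.tail⟩ else ⟨i :: a :: l, List.IsChain.cons_cons hi h⟩

theorem act_act (i : Fin k) : Function.Involutive (act i : RW k → RW k) := by
  rintro ⟨l, h⟩
  cases l with
  | nil => simp [act]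
  | cons a l =>
    by_cases hi : i = a
    · subst hi
      simp only [act, dite_true]
      cases l with
      | nil => simp
      | cons b l =>
        have hb : i ≠ b := by
          have := h
          simp only [List.isChain_cons_cons] at this
          exact this.1
        simp [act, hb]
    · simp [act, hi]

/-- the involution of the tree attached to a generator -/
def sig (i : Fin k) : Equiv.Perm (RW k) := (act_act i).toPerm

/-- the root of the tree -/
def root : RW k := ⟨[], List.isChain_nil⟩

end RW

/-- the group `Perm (RW k) × D_M` -/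
abbrev GG (k M : ℕ) : Type := Equiv.Perm (RW k) × DihedralGroup M

/-- the `k + 2` involutions: `k` free ones and two reflections of the dihedral group -/
def yy (k M : ℕ) : Fin (k + 2) → GG k M :=
  Fin.addCases (fun i => (RW.sig i, 1)) (fun j => (1, DihedralGroup.sr ((j : ℕ) : ZMod M)))

/-- index set of the semicircular elements: `(j, false)` noise inside `X`, `(j, true)` = heat noise -/
abbrev II (n : ℕ) : Type := Fin n × Bool

section tuples
variable {G : Type} [Group G] {n : ℕ}

/-- `X_j = y_j + σ_j S_(j,false)` -/
noncomputable def Xt (y : Fin n → G) (σ : Fin n → ℝ) : Fin n → AT G (II n) :=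
  fun j => lamA (y j) + ((σ j : ℝ) : ℂ) • sA (j, false)

/-- the heat noise `S_j = S_(j,true)` -/
noncomputable def St : Fin n → AT G (II n) := fun j => sA (j, true)

end tuples

end Crest.Agent.R89
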