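import Mathlib
/-!
# Row 89, B1: a linear map with small Hilbert-Schmidt norm is small off a low-dimensional subspace

PIECE B1. Proof: let `K = L ∘ Lᵀ` (symmetric, positive; `Lᵀ` = `LinearMap.adjoint L`), `b` its
`IsSymmetric.eigenvectorBasis`, `ev i ≥ 0` the eigenvalues, `∑ ev i = trace K = ∑_p ‖L e_p‖²`
(`∑_i ‖Lᵀ b_i‖² = ∑_p ‖L e_p‖²`, Parseval twice), `W = span {b i | θ² < ev i}`: so
`θ² finrank W ≤ ∑_{ev i > θ²} ev i ≤ c`. For `x`: take `w` = the orthogonal projection of `L x` to `W`;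
`‖L x - w‖² = ∑_{ev i ≤ θ²} ⟪b i, L x⟫²`, and for `y = L x - w` (in the span of the `b i` with
`ev i ≤ θ²`): `‖y‖² = ⟪y, L x⟫ = ⟪Lᵀ y, x⟫ ≤ ‖Lᵀ y‖ ‖x‖`, `‖Lᵀ y‖² = ⟪K y, y⟫ ≤ θ² ‖y‖²`.
-/

set_option autoImplicit false
open scoped InnerProductSpace

namespace Crest.Agent.R89

theorem exists_lowdim {ι : Type} [Fintype ι] [DecidableEq ι]
    (L : EuclideanSpace ℝ ι →ₗ[ℝ] EuclideanSpace ℝ ι) (c θ : ℝ) (hθ : 0 < θ)
    (hL : ∑ p, ‖L (EuclideanSpace.single p (1 : ℝ))‖ ^ 2 ≤ c) :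
    ∃ W : Submodule ℝ (EuclideanSpace ℝ ι), (Module.finrank ℝ W : ℝ) * θ ^ 2 ≤ c ∧
      ∀ x, ∃ w ∈ W, ‖L x - w‖ ≤ θ * ‖x‖ := by
  classical
  set A := LinearMap.adjoint L with hA
  have hadj : ∀ x y, ⟪A y, x⟫_ℝ = ⟪y, L x⟫_ℝ := fun x y => LinearMap.adjoint_inner_left L x y
  have hadj' : ∀ x y, ⟪x, A y⟫_ℝ = ⟪L x, y⟫_ℝ := fun x y => LinearMap.adjoint_inner_right L x y
  have hK : (L ∘ₗ A).IsSymmetric := by
    intro x y
    simp only [LinearMap.comp_apply]
    rw [← hadj', ← hadj]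
  set n := Module.finrank ℝ (EuclideanSpace ℝ ι) with hn
  let b := hK.eigenvectorBasis hn.symm
  let ev : Fin n → ℝ := fun i => hK.eigenvalues hn.symm i
  have hb : ∀ i, L (A (b i)) = ev i • b i := fun i => hK.apply_eigenvectorBasis hn.symm i
  have hev : ∀ i, ev i = ‖A (b i)‖ ^ 2 := by
    intro i
    have h1 : ⟪L (A (b i)), b i⟫_ℝ = ev i := by
      rw [hb, inner_smul_left, real_inner_self_eq_norm_sq, b.norm_eq_one]
      simp
    rw [← h1, ← hadj', real_inner_self_eq_norm_sq]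
  have hsum : ∑ i, ev i ≤ c := by
    refine le_of_eq_of_le ?_ hL
    have h1 : ∀ i, ev i = ∑ p : ι, ‖⟪EuclideanSpace.basisFun ι ℝ p, A (b i)⟫_ℝ‖ ^ 2 := by
      intro i
      rw [OrthonormalBasis.sum_sq_norm_inner_right, hev]
    have h2 : ∀ p : ι, ‖L (EuclideanSpace.single p (1 : ℝ))‖ ^ 2 =
        ∑ i, ‖⟪b i, L (EuclideanSpace.single p (1 : ℝ))⟫_ℝ‖ ^ 2 := by
      intro p
      rw [OrthonormalBasis.sum_sq_norm_inner_right]
    simp_rw [h1, h2]
    rw [Finset.sum_comm]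
    refine Finset.sum_congr rfl fun p _ => Finset.sum_congr rfl fun i _ => ?_
    rw [EuclideanSpace.basisFun_apply, hadj', real_inner_comm]
  set S : Finset (Fin n) := Finset.univ.filter fun i => θ ^ 2 < ev i with hS
  refine ⟨Submodule.span ℝ (S.image b : Finset (EuclideanSpace ℝ ι)), ?_, ?_⟩
  · have h1 : Module.finrank ℝ (Submodule.span ℝ
        ((S.image b : Finset (EuclideanSpace ℝ ι)) : Set (EuclideanSpace ℝ ι))) ≤ S.card :=
      (finrank_span_finset_le_card _).trans Finset.card_image_le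
    have h2 : (S.card : ℝ) * θ ^ 2 ≤ ∑ i ∈ S, ev i := by
      rw [← nsmul_eq_mul]
      refine Finset.card_nsmul_le_sum _ _ _ fun i hi => ?_
      exact (Finset.mem_filter.1 hi).2.le
    have h3 : ∑ i ∈ S, ev i ≤ ∑ i, ev i :=
      Finset.sum_le_sum_of_subset_of_nonneg (Finset.subset_univ _) fun i _ _ => by
        rw [hev]; positivity
    have h4 : (Module.finrank ℝ (Submodule.span ℝ
        ((S.image b : Finset (EuclideanSpace ℝ ι)) : Set (EuclideanSpace ℝ ι))) : ℝ) ≤ S.card := by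
      exact_mod_cast h1
    have h5 := mul_le_mul_of_nonneg_right h4 (sq_nonneg θ)
    linarith
  · intro x
    refine ⟨∑ i ∈ S, ⟪b i, L x⟫_ℝ • b i, ?_, ?_⟩
    · refine Submodule.sum_mem _ fun i hi => Submodule.smul_mem _ _ (Submodule.subset_span ?_)
      exact Finset.mem_coe.2 (Finset.mem_image_of_mem _ hi)
    · have hy : L x - ∑ i ∈ S, ⟪b i, L x⟫_ℝ • b i = ∑ i ∈ Sᶜ, ⟪b i, L x⟫_ℝ • b i := by
        rw [sub_eq_iff_eq_add, Finset.sum_compl_add_sum, b.sum_repr']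
      rw [hy]
      set y := ∑ i ∈ Sᶜ, ⟪b i, L x⟫_ℝ • b i with hydef
      have hyin : ∀ i ∈ Sᶜ, ⟪b i, y⟫_ℝ = ⟪b i, L x⟫_ℝ := by
        intro i hi
        rw [hydef, inner_sum]
        simp_rw [inner_smul_right, OrthonormalBasis.inner_eq_ite]
        simp only [mul_ite, mul_one, mul_zero, Finset.sum_ite_eq, if_pos hi]
      have hy1 : ‖y‖ ^ 2 = ∑ i ∈ Sᶜ, ⟪b i, L x⟫_ℝ ^ 2 := by
        rw [← real_inner_self_eq_norm_sq]
        nth_rewrite 1 [hydef]
        rw [sum_inner]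
        refine Finset.sum_congr rfl fun i hi => ?_
        rw [inner_smul_left, hyin i hi]
        simp [sq]
      have hy2 : ‖y‖ ^ 2 = ⟪A y, x⟫_ℝ := by
        rw [hadj, hy1, hydef, sum_inner]
        refine Finset.sum_congr rfl fun i hi => ?_
        rw [inner_smul_left]
        simp [sq]
      have hy3 : ‖A y‖ ^ 2 ≤ θ ^ 2 * ‖y‖ ^ 2 := by
        rw [← real_inner_self_eq_norm_sq, hadj', hy1, Finset.mul_sum]
        have h1 : L (A y) = ∑ i ∈ Sᶜ, (⟪b i, L x⟫_ℝ * ev i) • b i := by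
          rw [hydef, map_sum, map_sum]
          refine Finset.sum_congr rfl fun i _ => ?_
          rw [map_smul, map_smul, hb, smul_smul]
        rw [h1, sum_inner]
        refine Finset.sum_le_sum fun i hi => ?_
        rw [inner_smul_left, hyin i hi]
        have h2 : ev i ≤ θ ^ 2 := by
          have := Finset.mem_compl.1 hi
          rw [hS, Finset.mem_filter] at this
          push Not at this
          exact this (Finset.mem_univ _)
        have h3 := mul_le_mul_of_nonneg_right h2 (sq_nonneg ⟪b i, L x⟫_ℝ)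
        simp only [conj_trivial]
        linarith
      have hy4 : ‖A y‖ ≤ θ * ‖y‖ := by
        refine le_of_sq_le_sq ?_ (by positivity)
        rw [mul_pow]; exact hy3
      have hy5 : ‖y‖ ^ 2 ≤ (θ * ‖x‖) * ‖y‖ := by
        rw [hy2]
        refine (real_inner_le_norm _ _).trans ?_
        have := mul_le_mul_of_nonneg_right hy4 (norm_nonneg x)
        linarith
      by_cases h0 : ‖y‖ = 0
      · rw [h0]; positivity
      · have hpos : 0 < ‖y‖ := lt_of_le_of_ne (norm_nonneg _) (Ne.symm h0)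
        rw [sq] at hy5
        exact le_of_mul_le_mul_right hy5 hpos

end Crest.Agent.R89
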