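import Mathlib
/-!
# Row 89, B2b: Gaussian integral in an orthonormal basis

PIECE B2B. (Context:) Choose an orthonormal basis of `EuclideanSpace ℝ ι` adapted to `W` (orthonormal basis of
`W` and of `Wᗮ`, e.g. `OrthonormalBasis` from `DirectSum.IsInternal.collectedOrthonormalBasis` or
`Orthonormal.exists_orthonormalBasis_extension_of_card_eq`), so that there are an orthonormal basis
`b : OrthonormalBasis ι ℝ E` and a finset `J ⊆ ι`, `J.card = finrank W`, with `W = span {b i | i ∈ J}`.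
Then `‖w-part‖² = ∑_{i∈J} ⟪b i,x⟫²`, `‖x - P_W x‖² = ∑_{i∉J} ⟪b i,x⟫²`; `b.repr` preserves volume
(`OrthonormalBasis.measurePreserving_repr`), `EuclideanSpace.volume_preserving_symm_measurableEquiv_toLp` (or the current name) turns it into the product
Lebesgue measure, and the lintegral of a product of functions of one coordinate is the product
(`MeasureTheory.lintegral_fintype_prod_eq_prod` or via `integral_fintype_prod_eq_prod`), with
`∫ exp (-b x²) = √(π/b)` (`integral_gaussian`).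
-/

set_option autoImplicit false
open scoped InnerProductSpace ENNReal
open MeasureTheory

namespace Crest.Agent.R89

/-- Gaussian integral in adapted coordinates. -/
theorem lintegral_adapted {ι : Type} [Fintype ι] [DecidableEq ι]
    (b : OrthonormalBasis ι ℝ (EuclideanSpace ℝ ι)) (J : Finset ι) (lam mu : ℝ) (hl : 0 < lam)
    (hm : 0 < mu) :
    ∫⁻ x : EuclideanSpace ℝ ι, ENNReal.ofReal
      (Real.exp (-lam * ∑ i ∈ J, (b.repr x i) ^ 2 - mu * ∑ i ∈ Jᶜ, (b.repr x i) ^ 2)) =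
    ENNReal.ofReal (Real.sqrt (Real.pi / lam) ^ J.card * Real.sqrt (Real.pi / mu) ^ (Jᶜ).card) := by
  set c : ι → ℝ := fun i => if i ∈ J then lam else mu with hc
  have hcpos : ∀ i, 0 < c i := fun i => by
    simp only [hc]; split_ifs <;> assumption
  -- the integrand as a product
  have hsum : ∀ y : ι → ℝ, -lam * ∑ i ∈ J, (y i) ^ 2 - mu * ∑ i ∈ Jᶜ, (y i) ^ 2 =
      ∑ i, -c i * (y i) ^ 2 := by
    intro y
    rw [← Finset.sum_add_sum_compl J (fun i => -c i * (y i) ^ 2), Finset.mul_sum, Finset.mul_sum,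
      sub_eq_add_neg, ← Finset.sum_neg_distrib]
    congr 1
    · refine Finset.sum_congr rfl fun i hi => ?_
      simp [hc, hi]
    · refine Finset.sum_congr rfl fun i hi => ?_
      simp only [Finset.mem_compl] at hi
      simp [hc, hi]
  have hprod : ∀ y : ι → ℝ, Real.exp (-lam * ∑ i ∈ J, (y i) ^ 2 - mu * ∑ i ∈ Jᶜ, (y i) ^ 2) =
      ∏ i, Real.exp (-c i * (y i) ^ 2) := by
    intro y
    rw [hsum, Real.exp_sum]
  have hint : Integrable (fun y : ι → ℝ => ∏ i, Real.exp (-c i * (y i) ^ 2)) :=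
    Integrable.fintype_prod (f := fun i (t : ℝ) => Real.exp (-c i * t ^ 2))
      fun i => integrable_exp_neg_mul_sq (hcpos i)
  have hI : ∫ y : ι → ℝ, ∏ i, Real.exp (-c i * (y i) ^ 2) =
      Real.sqrt (Real.pi / lam) ^ J.card * Real.sqrt (Real.pi / mu) ^ (Jᶜ).card := by
    rw [integral_fintype_prod_volume_eq_prod (fun i (t : ℝ) => Real.exp (-c i * t ^ 2))]
    simp only [integral_gaussian]
    rw [← Finset.prod_mul_prod_compl J]
    congr 1
    · rw [Finset.prod_congr rfl (g := fun _ => Real.sqrt (Real.pi / lam)) (fun i hi => by simp [hc, hi]),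
        Finset.prod_const]
    · rw [Finset.prod_congr rfl (g := fun _ => Real.sqrt (Real.pi / mu))
        (fun i hi => by simp only [Finset.mem_compl] at hi; simp [hc, hi]), Finset.prod_const]
  have h1 : ∫⁻ x : EuclideanSpace ℝ ι, ENNReal.ofReal
      (Real.exp (-lam * ∑ i ∈ J, (b.repr x i) ^ 2 - mu * ∑ i ∈ Jᶜ, (b.repr x i) ^ 2)) =
      ∫⁻ x : EuclideanSpace ℝ ι, ENNReal.ofReal
      (Real.exp (-lam * ∑ i ∈ J, (x i) ^ 2 - mu * ∑ i ∈ Jᶜ, (x i) ^ 2)) :=
    b.measurePreserving_repr.lintegral_comp_emb b.measurableEquiv.measurableEmbedding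
      (fun x : EuclideanSpace ℝ ι => ENNReal.ofReal
      (Real.exp (-lam * ∑ i ∈ J, (x i) ^ 2 - mu * ∑ i ∈ Jᶜ, (x i) ^ 2)))
  have h2 : ∫⁻ x : EuclideanSpace ℝ ι, ENNReal.ofReal
      (Real.exp (-lam * ∑ i ∈ J, (x i) ^ 2 - mu * ∑ i ∈ Jᶜ, (x i) ^ 2)) =
      ∫⁻ y : ι → ℝ, ENNReal.ofReal
      (Real.exp (-lam * ∑ i ∈ J, (y i) ^ 2 - mu * ∑ i ∈ Jᶜ, (y i) ^ 2)) :=
    (PiLp.volume_preserving_ofLp ι).lintegral_comp_emb
      (MeasurableEquiv.toLp 2 (ι → ℝ)).symm.measurableEmbedding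
      (fun y : ι → ℝ => ENNReal.ofReal
      (Real.exp (-lam * ∑ i ∈ J, (y i) ^ 2 - mu * ∑ i ∈ Jᶜ, (y i) ^ 2)))
  rw [h1, h2]
  simp only [hprod]
  rw [← hI, ofReal_integral_eq_lintegral_ofReal hint
    (Filter.Eventually.of_forall fun y => Finset.prod_nonneg fun i _ => (Real.exp_pos _).le)]

end Crest.Agent.R89
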