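import Crest.Agent.R89.B2a
import Crest.Agent.R89.B2b
/-!
# Row 89, B2: volume of the points of a ball which are near a low-dimensional subspace

PIECE B2. Chernoff: on the set, `exp (lam c1 + mu c2 - lam ∑_J x_i² - mu ∑_{Jᶜ} x_i²) ≥ 1`
(`∑_J ≤ ‖x‖² ≤ c1`, `∑_{Jᶜ} ≤ ‖x-w‖² ≤ c2`), so volume ≤ the integral (B2a), with
`mu = D/(2 c2)`, `lam = β D / c1`: the bound is
`exp (β D + D/2) (π c1/(β D))^{r/2} (2 π c2/D)^{(D-r)/2} = exp(βD) (2πe c2/D)^{D/2} (c1/(2βc2))^{r/2}`,
`r = finrank W ≤ β D`, `c1/(2 β c2) ≥ 1`. `vol_ball`: the case without subspace (`mu` only).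
-/

set_option autoImplicit false
open scoped InnerProductSpace ENNReal
open MeasureTheory

namespace Crest.Agent.R89

theorem B2_markov {ι : Type} [Fintype ι] [DecidableEq ι]
    (b : OrthonormalBasis ι ℝ (EuclideanSpace ℝ ι)) (J : Finset ι) (lam mu A : ℝ) (hl : 0 < lam)
    (hm : 0 < mu) (S : Set (EuclideanSpace ℝ ι))
    (hS : ∀ x ∈ S, lam * ∑ i ∈ J, (b.repr x i) ^ 2 + mu * ∑ i ∈ Jᶜ, (b.repr x i) ^ 2 ≤ A) :
    volume S ≤ ENNReal.ofReal
      (Real.exp A * (Real.sqrt (Real.pi / lam) ^ J.card * Real.sqrt (Real.pi / mu) ^ (Jᶜ).card)) := by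
  have hmeas : Measurable (fun x : EuclideanSpace ℝ ι => ENNReal.ofReal
      (Real.exp (-lam * ∑ i ∈ J, (b.repr x i) ^ 2 - mu * ∑ i ∈ Jᶜ, (b.repr x i) ^ 2))) := by
    apply ENNReal.measurable_ofReal.comp
    apply Continuous.measurable
    have hc : ∀ i, Continuous (fun x : EuclideanSpace ℝ ι => b.repr x i) := by
      intro i
      exact (continuous_apply i).comp ((PiLp.continuous_ofLp 2 _).comp b.repr.continuous)
    fun_prop
  have h1 := mul_meas_ge_le_lintegral (μ := volume) hmeas (ENNReal.ofReal (Real.exp (-A)))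
  rw [lintegral_adapted b J lam mu hl hm] at h1
  have hsub : S ⊆ {x : EuclideanSpace ℝ ι | ENNReal.ofReal (Real.exp (-A)) ≤ ENNReal.ofReal
      (Real.exp (-lam * ∑ i ∈ J, (b.repr x i) ^ 2 - mu * ∑ i ∈ Jᶜ, (b.repr x i) ^ 2))} := by
    intro x hx
    have := hS x hx
    apply ENNReal.ofReal_le_ofReal
    apply Real.exp_le_exp.mpr
    linarith
  have h2 : ENNReal.ofReal (Real.exp (-A)) * volume S ≤ ENNReal.ofReal
      (Real.sqrt (Real.pi / lam) ^ J.card * Real.sqrt (Real.pi / mu) ^ (Jᶜ).card) :=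
    le_trans (mul_le_mul_right (measure_mono hsub) _) h1
  have h3 : ENNReal.ofReal (Real.exp A) * ENNReal.ofReal (Real.exp (-A)) = 1 := by
    rw [← ENNReal.ofReal_mul (Real.exp_pos _).le, ← Real.exp_add]
    simp
  calc volume S = (ENNReal.ofReal (Real.exp A) * ENNReal.ofReal (Real.exp (-A))) * volume S := by
        rw [h3, one_mul]
    _ = ENNReal.ofReal (Real.exp A) * (ENNReal.ofReal (Real.exp (-A)) * volume S) := by
        rw [mul_assoc]
    _ ≤ ENNReal.ofReal (Real.exp A) * ENNReal.ofReal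
      (Real.sqrt (Real.pi / lam) ^ J.card * Real.sqrt (Real.pi / mu) ^ (Jᶜ).card) :=
        mul_le_mul_right h2 _
    _ = _ := by rw [← ENNReal.ofReal_mul (Real.exp_pos _).le]

theorem B2_sqrt_pow (a : ℝ) (ha : 0 < a) (n : ℕ) :
    Real.sqrt a ^ n = Real.exp ((n : ℝ) / 2 * Real.log a) := by
  have : Real.sqrt a = Real.exp (1 / 2 * Real.log a) := by
    rw [Real.sqrt_eq_rpow, Real.rpow_def_of_pos ha, mul_comm]
  rw [this, ← Real.exp_nat_mul]
  congr 1
  ring

theorem B2_sumsq {ι : Type} [Fintype ι] [DecidableEq ι]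
    (b : OrthonormalBasis ι ℝ (EuclideanSpace ℝ ι)) (x : EuclideanSpace ℝ ι) :
    ∑ i, (b.repr x i) ^ 2 = ‖x‖ ^ 2 := by
  rw [← b.repr.norm_map x, EuclideanSpace.norm_sq_eq]
  apply Finset.sum_congr rfl
  intro i _
  rw [Real.norm_eq_abs, sq_abs]

theorem vol_near {ι : Type} [Fintype ι] [DecidableEq ι] [Nonempty ι]
    (W : Submodule ℝ (EuclideanSpace ℝ ι)) (c1 c2 β : ℝ) (h1 : 0 < c1) (h2 : 0 < c2) (hβ : 0 < β)
    (hr : (Module.finrank ℝ W : ℝ) ≤ β * Fintype.card ι) (hc : 2 * β * c2 ≤ c1) :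
    volume {x : EuclideanSpace ℝ ι | ‖x‖ ^ 2 ≤ c1 ∧ ∃ w ∈ W, ‖x - w‖ ^ 2 ≤ c2} ≤
      ENNReal.ofReal (Real.exp ((Fintype.card ι : ℝ) *
        (β + 1 / 2 * Real.log (2 * Real.pi * Real.exp 1 * c2 / Fintype.card ι) +
          β / 2 * Real.log (c1 / (2 * β * c2))))) := by
  obtain ⟨b, J, hJ, hb⟩ := exists_adapted_basis W
  have hD : (0 : ℝ) < Fintype.card ι := by exact_mod_cast Fintype.card_pos
  set D : ℝ := (Fintype.card ι : ℝ) with hDdef
  have hpi := Real.pi_pos
  have hl : 0 < β * D / c1 := by positivity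
  have hm : 0 < D / (2 * c2) := by positivity
  refine le_trans (B2_markov b J (β * D / c1) (D / (2 * c2)) (β * D + D / 2) hl hm _ ?_) ?_
  · rintro x ⟨hx1, w, hw, hx2⟩
    have e1 : ∑ i ∈ J, (b.repr x i) ^ 2 ≤ c1 := by
      refine le_trans ?_ hx1
      rw [← B2_sumsq b x]
      exact Finset.sum_le_univ_sum_of_nonneg (fun i => sq_nonneg _)
    have e2 : ∑ i ∈ Jᶜ, (b.repr x i) ^ 2 ≤ c2 := le_trans (hb x w hw) hx2
    have e3 : β * D / c1 * ∑ i ∈ J, (b.repr x i) ^ 2 ≤ β * D / c1 * c1 :=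
      mul_le_mul_of_nonneg_left e1 hl.le
    have e4 : D / (2 * c2) * ∑ i ∈ Jᶜ, (b.repr x i) ^ 2 ≤ D / (2 * c2) * c2 :=
      mul_le_mul_of_nonneg_left e2 hm.le
    have e5 : β * D / c1 * c1 = β * D := by field_simp
    have e6 : D / (2 * c2) * c2 = D / 2 := by field_simp
    linarith
  · apply ENNReal.ofReal_le_ofReal
    have hcard : ((Jᶜ).card : ℝ) = D - J.card := by
      rw [Finset.card_compl, Nat.cast_sub (Finset.card_le_univ J)]
    have hp1 : 0 < Real.pi / (β * D / c1) := by positivity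
    have hp2 : 0 < Real.pi / (D / (2 * c2)) := by positivity
    rw [B2_sqrt_pow _ hp1, B2_sqrt_pow _ hp2, ← Real.exp_add, ← Real.exp_add]
    apply Real.exp_le_exp.mpr
    rw [hcard]
    have l1 : Real.log (Real.pi / (β * D / c1)) =
        Real.log (c1 / (2 * β * c2)) + Real.log (Real.pi / (D / (2 * c2))) := by
      rw [← Real.log_mul (by positivity) (by positivity)]
      congr 1
      field_simp
    have l2 : Real.log (2 * Real.pi * Real.exp 1 * c2 / D) =
        1 + Real.log (Real.pi / (D / (2 * c2))) := by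
      have : 2 * Real.pi * Real.exp 1 * c2 / D = Real.exp 1 * (Real.pi / (D / (2 * c2))) := by
        field_simp
      rw [this, Real.log_mul (by positivity) (by positivity), Real.log_exp]
    have l3 : 0 ≤ Real.log (c1 / (2 * β * c2)) := by
      apply Real.log_nonneg
      rw [le_div_iff₀ (by positivity)]
      linarith
    have hJ' : (J.card : ℝ) ≤ β * D := by rw [hJ]; exact hr
    rw [l1, l2]
    have l4 : (J.card : ℝ) * Real.log (c1 / (2 * β * c2)) ≤ β * D * Real.log (c1 / (2 * β * c2)) :=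
      mul_le_mul_of_nonneg_right hJ' l3
    nlinarith [l4]

theorem vol_ball {ι : Type} [Fintype ι] [DecidableEq ι] [Nonempty ι] (c : ℝ) (hc : 0 < c) :
    volume {x : EuclideanSpace ℝ ι | ‖x‖ ^ 2 ≤ c} ≤
      ENNReal.ofReal (Real.exp ((Fintype.card ι : ℝ) *
        (1 / 2 * Real.log (2 * Real.pi * Real.exp 1 * c / Fintype.card ι)))) := by
  have hD : (0 : ℝ) < Fintype.card ι := by exact_mod_cast Fintype.card_pos
  have hcD : ((Finset.univ : Finset ι).card : ℝ) = (Fintype.card ι : ℝ) := rfl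
  set D : ℝ := (Fintype.card ι : ℝ) with hDdef
  have hpi := Real.pi_pos
  have hm : 0 < D / (2 * c) := by positivity
  refine le_trans (B2_markov (EuclideanSpace.basisFun ι ℝ) ∅ 1 (D / (2 * c)) (D / 2) one_pos hm _ ?_) ?_
  · intro x hx
    rw [Finset.sum_empty, Finset.compl_empty, B2_sumsq, mul_zero, zero_add]
    have hx' : ‖x‖ ^ 2 ≤ c := hx
    have e4 : D / (2 * c) * ‖x‖ ^ 2 ≤ D / (2 * c) * c :=
      mul_le_mul_of_nonneg_left hx' hm.le
    have e6 : D / (2 * c) * c = D / 2 := by field_simp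
    linarith
  · apply ENNReal.ofReal_le_ofReal
    have hp2 : 0 < Real.pi / (D / (2 * c)) := by positivity
    rw [Finset.card_empty, pow_zero, one_mul, Finset.compl_empty, B2_sqrt_pow _ hp2, hcD,
      ← Real.exp_add]
    apply Real.exp_le_exp.mpr
    have l2 : Real.log (2 * Real.pi * Real.exp 1 * c / D) =
        1 + Real.log (Real.pi / (D / (2 * c))) := by
      have : 2 * Real.pi * Real.exp 1 * c / D = Real.exp 1 * (Real.pi / (D / (2 * c))) := by
        field_simp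
      rw [this, Real.log_mul (by positivity) (by positivity), Real.log_exp]
    rw [l2]
    apply le_of_eq
    ring

end Crest.Agent.R89
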