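import Mathlib
/-!
# Row 89, B2a: Gaussian integral adapted to a subspace

PIECE B2A. Choose an orthonormal basis of `EuclideanSpace ℝ ι` adapted to `W` (orthonormal basis of
`W` and of `Wᗮ`, e.g. `OrthonormalBasis` from `DirectSum.IsInternal.collectedOrthonormalBasis` or
`Orthonormal.exists_orthonormalBasis_extension_of_card_eq`), so that there are an orthonormal basis
`b : OrthonormalBasis ι ℝ E` and a finset `J ⊆ ι`, `J.card = finrank W`, with `W = span {b i | i ∈ J}`.
Then `‖w-part‖² = ∑_{i∈J} ⟪b i,x⟫²`, `‖x - P_W x‖² = ∑_{i∉J} ⟪b i,x⟫²`; `b.repr` preserves volume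
(`OrthonormalBasis.measurePreserving_repr`), `EuclideanSpace.volume_preserving_symm_measurableEquiv_toLp` (or the current name) turns it into the product
Lebesgue measure, and the lintegral of a product of functions of one coordinate is the product
(`MeasureTheory.lintegral_fintype_prod_eq_prod` or via `integral_fintype_prod_eq_prod`), with
`∫ exp (-b x²) = √(π/b)` (`integral_gaussian`).
-/

set_option autoImplicit false
open scoped InnerProductSpace ENNReal
open MeasureTheory

namespace Crest.Agent.R89

/-- `W` in adapted coordinates. -/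
theorem exists_adapted_basis {ι : Type} [Fintype ι] [DecidableEq ι]
    (W : Submodule ℝ (EuclideanSpace ℝ ι)) :
    ∃ (b : OrthonormalBasis ι ℝ (EuclideanSpace ℝ ι)) (J : Finset ι),
      J.card = Module.finrank ℝ W ∧ ∀ x w : EuclideanSpace ℝ ι, w ∈ W →
        ∑ i ∈ Jᶜ, (b.repr x i) ^ 2 ≤ ‖x - w‖ ^ 2 := by
  classical
  set k := Module.finrank ℝ W with hk
  have hcard : Module.finrank ℝ (EuclideanSpace ℝ ι) = Fintype.card ι := finrank_euclideanSpace
  have hkle : k ≤ (Finset.univ : Finset ι).card := by
    rw [Finset.card_univ, ← hcard]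
    exact Submodule.finrank_le W
  obtain ⟨J, -, hJ⟩ := Finset.exists_subset_card_eq hkle
  let e : J ≃ Fin k := Finset.equivFinOfCardEq hJ
  let u : OrthonormalBasis (Fin k) ℝ W := stdOrthonormalBasis ℝ W
  let v : ι → EuclideanSpace ℝ ι := fun i => if h : i ∈ J then (u (e ⟨i, h⟩) : EuclideanSpace ℝ ι) else 0
  have hv : Orthonormal ℝ ((J : Set ι).restrict v) := by
    have h1 : Orthonormal ℝ (fun j : Fin k => (u j : EuclideanSpace ℝ ι)) :=
      u.orthonormal.comp_linearIsometry W.subtypeₗᵢ
    have h2 : Orthonormal ℝ (fun j : (J : Set ι) => (u (e ⟨j.1, by simpa using j.2⟩) : EuclideanSpace ℝ ι)) := by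
      apply h1.comp (fun j : (J : Set ι) => e ⟨j.1, by simpa using j.2⟩)
      intro a b hab
      have := e.injective hab
      simp only [Subtype.mk.injEq] at this
      exact Subtype.ext this
    convert h2 using 1
    ext j : 1
    have hj : (j : ι) ∈ J := by simpa using j.2
    show (if h : (j : ι) ∈ J then (u (e ⟨(j : ι), h⟩) : EuclideanSpace ℝ ι) else 0) = _
    rw [dif_pos hj]
  obtain ⟨b, hb⟩ := hv.exists_orthonormalBasis_extension_of_card_eq hcard
  refine ⟨b, J, hJ, ?_⟩
  intro x w hw
  have hw0 : ∀ i ∈ Jᶜ, b.repr w i = 0 := by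
    intro i hi
    rw [b.repr_apply_apply]
    have hsum : w = ∑ j : Fin k, (u.repr ⟨w, hw⟩ j) • (u j : EuclideanSpace ℝ ι) := by
      have := u.sum_repr ⟨w, hw⟩
      have h2 := congrArg (Submodule.subtype W) this
      rw [map_sum] at h2
      simpa using h2.symm
    rw [hsum, inner_sum]
    apply Finset.sum_eq_zero
    intro j _
    rw [inner_smul_right]
    have hj : (u j : EuclideanSpace ℝ ι) = b (e.symm j : ι) := by
      rw [hb _ (by simp)]
      simp only [v]
      rw [dif_pos (e.symm j).2]
      simp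
    rw [hj, b.orthonormal.2, mul_zero]
    intro hij
    have : i ∈ J := by rw [hij]; exact (e.symm j).2
    exact (Finset.mem_compl.mp hi) this
  have h1 : ∑ i ∈ Jᶜ, (b.repr x i) ^ 2 = ∑ i ∈ Jᶜ, (b.repr (x - w) i) ^ 2 := by
    apply Finset.sum_congr rfl
    intro i hi
    rw [map_sub]
    simp [hw0 i hi]
  rw [h1, ← b.repr.norm_map (x - w), EuclideanSpace.real_norm_sq_eq]
  apply Finset.sum_le_sum_of_subset_of_nonneg (Finset.subset_univ _)
  intro i _ _
  positivity

end Crest.Agent.R89
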