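import Crest.Agent.R89.B1
import Crest.Agent.R89.B2
/-!
# Row 89, B3: volume of `{‖x‖² ≤ c1, ‖x - L x‖² ≤ c3}` for `L` with small Hilbert-Schmidt norm

PIECE B3. `exists_lowdim` with `c = γ card`, so `finrank W ≤ (γ/θ²) card`; for `x` in the set
`‖x - w‖ ≤ ‖x - L x‖ + ‖L x - w‖ ≤ √c3 + θ √c1`; apply `vol_near` with `β = γ/θ²`.
-/

set_option autoImplicit false
open scoped InnerProductSpace ENNReal
open MeasureTheory

namespace Crest.Agent.R89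

theorem vol_almost_fixed {ι : Type} [Fintype ι] [DecidableEq ι] [Nonempty ι]
    (L : EuclideanSpace ℝ ι →ₗ[ℝ] EuclideanSpace ℝ ι) (γ θ c1 c3 : ℝ) (hγ : 0 < γ) (hθ : 0 < θ)
    (h1 : 0 < c1) (h3 : 0 < c3)
    (hL : ∑ p, ‖L (EuclideanSpace.single p (1 : ℝ))‖ ^ 2 ≤ γ * Fintype.card ι)
    (hc : 2 * (γ / θ ^ 2) * (Real.sqrt c3 + θ * Real.sqrt c1) ^ 2 ≤ c1) :
    volume {x : EuclideanSpace ℝ ι | ‖x‖ ^ 2 ≤ c1 ∧ ‖x - L x‖ ^ 2 ≤ c3} ≤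
      ENNReal.ofReal (Real.exp ((Fintype.card ι : ℝ) *
        (γ / θ ^ 2 + 1 / 2 * Real.log (2 * Real.pi * Real.exp 1 *
            (Real.sqrt c3 + θ * Real.sqrt c1) ^ 2 / Fintype.card ι) +
          γ / θ ^ 2 / 2 * Real.log (c1 / (2 * (γ / θ ^ 2) *
            (Real.sqrt c3 + θ * Real.sqrt c1) ^ 2))))) := by
  obtain ⟨W, hW, hWx⟩ := exists_lowdim L (γ * Fintype.card ι) θ hθ hL
  have hr : (Module.finrank ℝ W : ℝ) ≤ γ / θ ^ 2 * Fintype.card ι := by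
    rw [div_mul_eq_mul_div, le_div_iff₀ (by positivity)]
    exact hW
  have h2 : 0 < (Real.sqrt c3 + θ * Real.sqrt c1) ^ 2 := by
    have := Real.sqrt_pos.mpr h3
    positivity
  have hβ : 0 < γ / θ ^ 2 := by positivity
  refine le_trans (measure_mono ?_) (vol_near W c1 _ _ h1 h2 hβ hr hc)
  rintro x ⟨hx1, hx2⟩
  refine ⟨hx1, ?_⟩
  obtain ⟨w, hw, hxw⟩ := hWx x
  refine ⟨w, hw, ?_⟩
  have e1 : ‖x‖ ≤ Real.sqrt c1 := Real.le_sqrt_of_sq_le hx1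
  have e2 : ‖x - L x‖ ≤ Real.sqrt c3 := Real.le_sqrt_of_sq_le hx2
  have e3 : ‖x - w‖ ≤ Real.sqrt c3 + θ * Real.sqrt c1 := by
    calc ‖x - w‖ = ‖(x - L x) + (L x - w)‖ := by congr 1; abel
      _ ≤ ‖x - L x‖ + ‖L x - w‖ := norm_add_le _ _
      _ ≤ Real.sqrt c3 + θ * Real.sqrt c1 :=
        add_le_add e2 (hxw.trans (mul_le_mul_of_nonneg_left e1 hθ.le))
  exact pow_le_pow_left₀ (norm_nonneg _) e3 2

end Crest.Agent.R89
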