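import Crest.Agent.R89.B4a
/-!
# Row 89, B4: the averaging map on Hermitian matrices

PIECE B4. `LV V M a = coordsOf (conjAvg V M (herm a))`, `conjAvg V M A = M⁻¹ ∑_{j<M} V^{j+1} A (Vᴴ)^{j+1}`.
`hs_LV`: `‖LV e_p‖² = Tr (B_p B_p)`, `B_p = conjAvg E_p`; expand and use `sum_trace_basis`:
`∑_p ‖LV e_p‖² = M⁻² ∑_{j,l} Tr((Vᴴ)^{j+1}V^{l+1}) Tr((Vᴴ)^{l+1}V^{j+1})` and the two traces are conjugate.
-/

set_option autoImplicit false
open Crest.OpAlg Matrix

namespace Crest.Agent.R89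

/-- average of conjugates -/
noncomputable def conjAvg {d : ℕ} (V : Matrix (Fin d) (Fin d) ℂ) (M : ℕ)
    (A : Matrix (Fin d) (Fin d) ℂ) : Matrix (Fin d) (Fin d) ℂ :=
  ((M : ℂ)⁻¹) • ∑ j ∈ Finset.range M, V ^ (j + 1) * A * (Vᴴ) ^ (j + 1)

theorem conjAvg_isHermitian {d : ℕ} (V : Matrix (Fin d) (Fin d) ℂ) (M : ℕ)
    (A : Matrix (Fin d) (Fin d) ℂ) (hA : A.IsHermitian) : (conjAvg V M A).IsHermitian := by
  unfold Matrix.IsHermitian conjAvg
  rw [conjTranspose_smul, conjTranspose_sum]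
  have h1 : star ((M : ℂ)⁻¹) = (M : ℂ)⁻¹ := by
    rw [star_inv₀, Complex.star_def, Complex.conj_natCast]
  rw [h1]
  congr 1
  refine Finset.sum_congr rfl fun j _ => ?_
  rw [conjTranspose_mul, conjTranspose_mul, conjTranspose_pow, conjTranspose_pow, conjTranspose_conjTranspose,
    hA.eq, mul_assoc]

/-- the averaging map in real coordinates -/
noncomputable def LV {d : ℕ} (V : Matrix (Fin d) (Fin d) ℂ) (M : ℕ) :
    EuclideanSpace ℝ (Fin d × Fin d) →ₗ[ℝ] EuclideanSpace ℝ (Fin d × Fin d) where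
  toFun a := coordsOf (conjAvg V M (hermitianOfCoords a))
  map_add' a b := by
    rw [herm_add, ← coordsOf_add]
    congr 1
    simp [conjAvg, mul_add, add_mul, Finset.sum_add_distrib]
  map_smul' c a := by
    rw [herm_smul, RingHom.id_apply, ← coordsOf_smul]
    congr 1
    simp only [conjAvg, Matrix.mul_smul, Matrix.smul_mul, Finset.smul_sum]
    refine Finset.sum_congr rfl fun j _ => ?_
    rw [smul_comm]

theorem herm_LV {d : ℕ} (V : Matrix (Fin d) (Fin d) ℂ) (M : ℕ)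
    (a : EuclideanSpace ℝ (Fin d × Fin d)) :
    hermitianOfCoords (LV V M a) = conjAvg V M (hermitianOfCoords a) := by
  show hermitianOfCoords (coordsOf (conjAvg V M (hermitianOfCoords a))) = _
  exact herm_coordsOf _ (conjAvg_isHermitian V M _ (herm_isHermitian a))

private theorem b4_trace_conj {d : ℕ} (V : Matrix (Fin d) (Fin d) ℂ) (j l : ℕ) :
    Matrix.trace ((Vᴴ) ^ (j + 1) * V ^ (l + 1)) * Matrix.trace ((Vᴴ) ^ (l + 1) * V ^ (j + 1)) =
      ((‖Matrix.trace ((Vᴴ) ^ (l + 1) * V ^ (j + 1))‖ ^ 2 : ℝ) : ℂ) := by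
  have h1 : (Vᴴ) ^ (j + 1) * V ^ (l + 1) = ((Vᴴ) ^ (l + 1) * V ^ (j + 1))ᴴ := by
    rw [conjTranspose_mul, conjTranspose_pow, conjTranspose_pow, conjTranspose_conjTranspose]
  rw [h1, trace_conjTranspose, Complex.star_def, ← Complex.normSq_eq_conj_mul_self, Complex.normSq_eq_norm_sq]

private theorem b4_trace_sq {d : ℕ} (V : Matrix (Fin d) (Fin d) ℂ) (M : ℕ) (E : Matrix (Fin d) (Fin d) ℂ) :
    Matrix.trace (conjAvg V M E * conjAvg V M E) =
      ((M : ℂ)⁻¹ * (M : ℂ)⁻¹) * ∑ j ∈ Finset.range M, ∑ l ∈ Finset.range M,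
        Matrix.trace (E * ((Vᴴ) ^ (j + 1) * V ^ (l + 1)) * E * ((Vᴴ) ^ (l + 1) * V ^ (j + 1))) := by
  unfold conjAvg
  rw [smul_mul_smul_comm, trace_smul, smul_eq_mul, Finset.sum_mul_sum, trace_sum]
  congr 1
  refine Finset.sum_congr rfl fun j _ => ?_
  rw [trace_sum]
  refine Finset.sum_congr rfl fun l _ => ?_
  rw [show V ^ (j + 1) * E * Vᴴ ^ (j + 1) * (V ^ (l + 1) * E * Vᴴ ^ (l + 1)) =
    V ^ (j + 1) * (E * Vᴴ ^ (j + 1) * V ^ (l + 1) * E * Vᴴ ^ (l + 1)) by simp only [mul_assoc],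
    Matrix.trace_mul_comm]
  congr 1
  simp only [mul_assoc]

private theorem b4_herm_sub {d : ℕ} (a b : EuclideanSpace ℝ (Fin d × Fin d)) :
    hermitianOfCoords (a - b) = hermitianOfCoords a - hermitianOfCoords b := by
  have h1 : a - b = a + (-1 : ℝ) • b := by rw [neg_one_smul, sub_eq_add_neg]
  rw [h1, herm_add, herm_smul]
  simp [sub_eq_add_neg]

/-- Hilbert-Schmidt norm of the averaging map -/
theorem hs_LV {d : ℕ} (V : Matrix (Fin d) (Fin d) ℂ) (M : ℕ) :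
    ∑ p, ‖LV V M (EuclideanSpace.single p (1 : ℝ))‖ ^ 2 =
      ((M : ℝ) ^ 2)⁻¹ * ∑ j ∈ Finset.range M, ∑ l ∈ Finset.range M,
        ‖Matrix.trace ((Vᴴ) ^ (l + 1) * V ^ (j + 1))‖ ^ 2 := by
  have key : ((∑ p, ‖LV V M (EuclideanSpace.single p (1 : ℝ))‖ ^ 2 : ℝ) : ℂ) =
      ((((M : ℝ) ^ 2)⁻¹ * ∑ j ∈ Finset.range M, ∑ l ∈ Finset.range M,
        ‖Matrix.trace ((Vᴴ) ^ (l + 1) * V ^ (j + 1))‖ ^ 2 : ℝ) : ℂ) := by
    rw [Complex.ofReal_sum]
    have e1 : ∀ p : Fin d × Fin d, ((‖LV V M (EuclideanSpace.single p (1 : ℝ))‖ ^ 2 : ℝ) : ℂ) =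
        ((M : ℂ)⁻¹ * (M : ℂ)⁻¹) * ∑ j ∈ Finset.range M, ∑ l ∈ Finset.range M,
        Matrix.trace (hermitianOfCoords (EuclideanSpace.single p (1 : ℝ)) *
          ((Vᴴ) ^ (j + 1) * V ^ (l + 1)) * hermitianOfCoords (EuclideanSpace.single p (1 : ℝ)) *
            ((Vᴴ) ^ (l + 1) * V ^ (j + 1))) := by
      intro p
      rw [norm_sq_herm, herm_LV, b4_trace_sq]
    rw [Finset.sum_congr rfl fun p _ => e1 p, ← Finset.mul_sum, Finset.sum_comm, Complex.ofReal_mul]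
    congr 1
    · push_cast
      rw [sq, mul_inv]
    · rw [Complex.ofReal_sum]
      refine Finset.sum_congr rfl fun j _ => ?_
      rw [Finset.sum_comm, Complex.ofReal_sum]
      refine Finset.sum_congr rfl fun l _ => ?_
      rw [sum_trace_basis, b4_trace_conj]
  exact_mod_cast key

theorem norm_sub_LV {d : ℕ} (V : Matrix (Fin d) (Fin d) ℂ) (M : ℕ)
    (a : EuclideanSpace ℝ (Fin d × Fin d)) :
    ((‖a - LV V M a‖ ^ 2 : ℝ) : ℂ) = Matrix.trace
      ((hermitianOfCoords a - conjAvg V M (hermitianOfCoords a)) *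
        (hermitianOfCoords a - conjAvg V M (hermitianOfCoords a))) := by
  rw [norm_sq_herm, b4_herm_sub, herm_LV]

end Crest.Agent.R89
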