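import Crest.Statements.S0118
/-!
# Row 89, B4a: coordinates of Hermitian matrices

PIECE B4A. `hermitianOfCoords` is a real-linear isometric bijection onto Hermitian matrices;
basis identity `∑_p (E_p)_{xy} (E_p)_{zw} = [x = w][y = z]`. All by cases `i = j`, `i < j`, `j < i`.
-/

set_option autoImplicit false
open Crest.OpAlg Matrix

namespace Crest.Agent.R89

/-- real coordinates of a Hermitian matrix -/
noncomputable def coordsOf {d : ℕ} (A : Matrix (Fin d) (Fin d) ℂ) :
    EuclideanSpace ℝ (Fin d × Fin d) :=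
  WithLp.toLp 2 fun p => if p.1 = p.2 then (A p.1 p.1).re
    else if p.1 < p.2 then Real.sqrt 2 * (A p.1 p.2).re else Real.sqrt 2 * (A p.2 p.1).im

private theorem sqrt2_ne : ((Real.sqrt 2 : ℝ) : ℂ) ≠ 0 := by
  rw [Complex.ofReal_ne_zero]; positivity

private theorem sqrt2_sq : ((Real.sqrt 2 : ℝ) : ℂ) * ((Real.sqrt 2 : ℝ) : ℂ) = 2 := by
  rw [← Complex.ofReal_mul, Real.mul_self_sqrt (by norm_num)]; norm_num

private theorem herm_self {d : ℕ} (a : EuclideanSpace ℝ (Fin d × Fin d)) (i : Fin d) :
    hermitianOfCoords a i i = (a (i, i) : ℂ) := by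
  simp [hermitianOfCoords]

private theorem herm_lt {d : ℕ} (a : EuclideanSpace ℝ (Fin d × Fin d)) {i j : Fin d} (h : i < j) :
    hermitianOfCoords a i j = ((a (i, j) : ℂ) + (a (j, i) : ℂ) * Complex.I) / (Real.sqrt 2 : ℂ) := by
  simp [hermitianOfCoords, h, h.ne]

private theorem herm_gt {d : ℕ} (a : EuclideanSpace ℝ (Fin d × Fin d)) {i j : Fin d} (h : j < i) :
    hermitianOfCoords a i j = ((a (j, i) : ℂ) - (a (i, j) : ℂ) * Complex.I) / (Real.sqrt 2 : ℂ) := by
  simp [hermitianOfCoords, h.ne', not_lt.2 h.le]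

private theorem coords_apply {d : ℕ} (A : Matrix (Fin d) (Fin d) ℂ) (p : Fin d × Fin d) :
    coordsOf A p = if p.1 = p.2 then (A p.1 p.1).re
    else if p.1 < p.2 then Real.sqrt 2 * (A p.1 p.2).re else Real.sqrt 2 * (A p.2 p.1).im := rfl

theorem herm_isHermitian {d : ℕ} (a : EuclideanSpace ℝ (Fin d × Fin d)) :
    (hermitianOfCoords a).IsHermitian := by
  ext i j
  rw [Matrix.conjTranspose_apply]
  rcases lt_trichotomy i j with h | h | h
  · rw [herm_lt a h, herm_gt a h]
    simp [Complex.star_def]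
  · subst h
    rw [herm_self]
    simp
  · rw [herm_gt a h, herm_lt a h]
    simp [Complex.star_def, sub_eq_add_neg]

theorem herm_coordsOf {d : ℕ} (A : Matrix (Fin d) (Fin d) ℂ) (hA : A.IsHermitian) :
    hermitianOfCoords (coordsOf A) = A := by
  ext i j
  have h2 := sqrt2_ne
  rcases lt_trichotomy i j with h | h | h
  · rw [herm_lt _ h, coords_apply, coords_apply]
    simp only [h.ne, h.ne', h, not_lt.2 h.le, if_true, if_false]
    push_cast
    rw [show (((Real.sqrt 2 : ℝ) : ℂ) * ((A i j).re : ℂ) +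
      ((Real.sqrt 2 : ℝ) : ℂ) * ((A i j).im : ℂ) * Complex.I) =
      ((Real.sqrt 2 : ℝ) : ℂ) * (((A i j).re : ℂ) + ((A i j).im : ℂ) * Complex.I) by ring,
      Complex.re_add_im, mul_div_cancel_left₀ _ h2]
  · subst h
    rw [herm_self, coords_apply]
    simp only [if_true]
    have h3 := congrFun (congrFun hA i) i
    rw [Matrix.conjTranspose_apply, Complex.star_def] at h3
    exact Complex.conj_eq_iff_re.1 h3
  · rw [herm_gt _ h, coords_apply, coords_apply]
    simp only [h.ne, h.ne', h, not_lt.2 h.le, if_true, if_false]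
    push_cast
    have h3 := congrFun (congrFun hA i) j
    rw [Matrix.conjTranspose_apply, Complex.star_def] at h3
    rw [show (((Real.sqrt 2 : ℝ) : ℂ) * ((A j i).re : ℂ) -
      ((Real.sqrt 2 : ℝ) : ℂ) * ((A j i).im : ℂ) * Complex.I) =
      ((Real.sqrt 2 : ℝ) : ℂ) * (((A j i).re : ℂ) - ((A j i).im : ℂ) * Complex.I) by ring,
      mul_div_cancel_left₀ _ h2, ← h3]
    apply Complex.ext
    · simp
    · simp

theorem coordsOf_herm {d : ℕ} (a : EuclideanSpace ℝ (Fin d × Fin d)) :
    coordsOf (hermitianOfCoords a) = a := by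
  have h2 : Real.sqrt 2 ≠ 0 := by positivity
  ext p
  obtain ⟨i, j⟩ := p
  rw [coords_apply]
  rcases lt_trichotomy i j with h | h | h
  · simp only [h.ne, h, if_true, if_false]
    rw [herm_lt a h]
    have : (((a (i, j) : ℂ) + (a (j, i) : ℂ) * Complex.I) / (Real.sqrt 2 : ℂ)).re =
        a (i, j) / Real.sqrt 2 := by
      rw [Complex.div_ofReal_re]; simp
    rw [this, mul_div_cancel₀ _ h2]
  · subst h
    simp only [if_true]
    rw [herm_self]; simp
  · simp only [h.ne', not_lt.2 h.le, if_false]
    rw [herm_lt a h]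
    have : (((a (j, i) : ℂ) + (a (i, j) : ℂ) * Complex.I) / (Real.sqrt 2 : ℂ)).im =
        a (i, j) / Real.sqrt 2 := by
      rw [Complex.div_ofReal_im]; simp
    rw [this, mul_div_cancel₀ _ h2]

theorem herm_add {d : ℕ} (a b : EuclideanSpace ℝ (Fin d × Fin d)) :
    hermitianOfCoords (a + b) = hermitianOfCoords a + hermitianOfCoords b := by
  ext i j
  rw [Matrix.add_apply]
  rcases lt_trichotomy i j with h | h | h
  · rw [herm_lt _ h, herm_lt _ h, herm_lt _ h]
    simp only [PiLp.add_apply]
    push_cast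
    ring
  · subst h
    rw [herm_self, herm_self, herm_self]
    simp only [PiLp.add_apply]
    push_cast
    ring
  · rw [herm_gt _ h, herm_gt _ h, herm_gt _ h]
    simp only [PiLp.add_apply]
    push_cast
    ring

theorem herm_smul {d : ℕ} (c : ℝ) (a : EuclideanSpace ℝ (Fin d × Fin d)) :
    hermitianOfCoords (c • a) = (c : ℂ) • hermitianOfCoords a := by
  ext i j
  rw [Matrix.smul_apply, smul_eq_mul]
  rcases lt_trichotomy i j with h | h | h
  · rw [herm_lt _ h, herm_lt _ h]
    simp only [PiLp.smul_apply, smul_eq_mul]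
    push_cast
    ring
  · subst h
    rw [herm_self, herm_self]
    simp only [PiLp.smul_apply, smul_eq_mul]
    push_cast
    ring
  · rw [herm_gt _ h, herm_gt _ h]
    simp only [PiLp.smul_apply, smul_eq_mul]
    push_cast
    ring

theorem coordsOf_add {d : ℕ} (A B : Matrix (Fin d) (Fin d) ℂ) :
    coordsOf (A + B) = coordsOf A + coordsOf B := by
  ext p
  rw [PiLp.add_apply, coords_apply, coords_apply, coords_apply]
  simp only [Matrix.add_apply, Complex.add_re, Complex.add_im]
  split_ifs <;> ring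

theorem coordsOf_smul {d : ℕ} (c : ℝ) (A : Matrix (Fin d) (Fin d) ℂ) :
    coordsOf ((c : ℂ) • A) = c • coordsOf A := by
  ext p
  rw [PiLp.smul_apply, coords_apply, coords_apply]
  simp only [Matrix.smul_apply, smul_eq_mul, Complex.re_ofReal_mul, Complex.im_ofReal_mul]
  split_ifs <;> ring

private theorem herm_mul_swap {d : ℕ} (a : EuclideanSpace ℝ (Fin d × Fin d)) (i j : Fin d) :
    hermitianOfCoords a i j * hermitianOfCoords a j i =
      ((a (i, j) : ℂ) ^ 2 + (a (j, i) : ℂ) ^ 2) / 2 := by
  have h2 := sqrt2_ne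
  have h3 : ∀ u v : ℂ, u / ((Real.sqrt 2 : ℝ) : ℂ) * (v / ((Real.sqrt 2 : ℝ) : ℂ)) = u * v / 2 := by
    intro u v
    rw [div_mul_div_comm, sqrt2_sq]
  have hI : Complex.I ^ 2 = -1 := Complex.I_sq
  rcases lt_trichotomy i j with h | h | h
  · rw [herm_lt _ h, herm_gt _ h, h3]
    ring_nf
    rw [hI]; ring
  · subst h
    rw [herm_self]; ring
  · rw [herm_lt _ h, herm_gt _ h, h3]
    ring_nf
    rw [hI]; ring

/-- the squared Euclidean norm is the unnormalised Hilbert-Schmidt norm -/
theorem norm_sq_herm {d : ℕ} (a : EuclideanSpace ℝ (Fin d × Fin d)) :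
    ((‖a‖ ^ 2 : ℝ) : ℂ) = Matrix.trace (hermitianOfCoords a * hermitianOfCoords a) := by
  rw [EuclideanSpace.norm_sq_eq, Fintype.sum_prod_type, Matrix.trace]
  simp only [Matrix.diag_apply, Matrix.mul_apply, herm_mul_swap]
  push_cast
  have h1 : ∀ i j : Fin d, ((‖a.ofLp (i, j)‖ : ℝ) : ℂ) ^ 2 = (a (i, j) : ℂ) ^ 2 := by
    intro i j
    rw [← Complex.ofReal_pow, Real.norm_eq_abs, sq_abs, Complex.ofReal_pow]
  simp only [h1, add_div, Finset.sum_add_distrib]
  rw [Finset.sum_comm (f := fun i j : Fin d => (a (j, i) : ℂ) ^ 2 / 2), ← Finset.sum_add_distrib]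
  refine Finset.sum_congr rfl fun i _ => ?_
  rw [← Finset.sum_add_distrib]
  refine Finset.sum_congr rfl fun j _ => ?_
  ring

private noncomputable def uu {d : ℕ} (x y : Fin d) : ℂ :=
  if x = y then 1 else if x < y then 1 / ((Real.sqrt 2 : ℝ) : ℂ) else -Complex.I / ((Real.sqrt 2 : ℝ) : ℂ)

private noncomputable def vv {d : ℕ} (x y : Fin d) : ℂ :=
  if x = y then 0 else if x < y then Complex.I / ((Real.sqrt 2 : ℝ) : ℂ) else 1 / ((Real.sqrt 2 : ℝ) : ℂ)

private theorem herm_single {d : ℕ} (p : Fin d × Fin d) (x y : Fin d) :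
    hermitianOfCoords (EuclideanSpace.single p (1 : ℝ)) x y =
      uu x y * (if p = (x, y) then 1 else 0) + vv x y * (if p = (y, x) then 1 else 0) := by
  have hs : ∀ q : Fin d × Fin d, ((EuclideanSpace.single p (1 : ℝ) q : ℝ) : ℂ) =
      if p = q then 1 else 0 := by
    intro q
    rw [PiLp.single_apply]
    by_cases h : p = q
    · simp [h]
    · simp [h, Ne.symm h]
  rcases lt_trichotomy x y with h | h | h
  · rw [herm_lt _ h, hs, hs]
    simp only [uu, vv, h.ne, h, if_true, if_false]
    ring
  · subst h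
    rw [herm_self, hs]
    simp [uu, vv]
  · rw [herm_gt _ h, hs, hs]
    simp only [uu, vv, h.ne', not_lt.2 h.le, if_false]
    ring

/-- the swap identity for the orthonormal basis `E_p = hermitianOfCoords (single p 1)` -/
theorem sum_basis {d : ℕ} (x y z w : Fin d) :
    ∑ p : Fin d × Fin d, hermitianOfCoords (EuclideanSpace.single p (1 : ℝ)) x y *
      hermitianOfCoords (EuclideanSpace.single p (1 : ℝ)) z w =
    if x = w ∧ y = z then 1 else 0 := by
  simp only [herm_single]
  have h0 : ∀ q q' : Fin d × Fin d, ∑ p : Fin d × Fin d,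
      (if p = q then (1 : ℂ) else 0) * (if p = q' then 1 else 0) = if q = q' then 1 else 0 := by
    intro q q'
    by_cases h : q = q'
    · simp [h]
    · simp [h, Ne.symm h]
  have h1 : ∑ p : Fin d × Fin d,
      (uu x y * (if p = (x, y) then 1 else 0) + vv x y * (if p = (y, x) then 1 else 0)) *
      (uu z w * (if p = (z, w) then 1 else 0) + vv z w * (if p = (w, z) then 1 else 0)) =
      uu x y * uu z w * (if (x, y) = (z, w) then 1 else 0) +
      uu x y * vv z w * (if (x, y) = (w, z) then 1 else 0) +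
      vv x y * uu z w * (if (y, x) = (z, w) then 1 else 0) +
      vv x y * vv z w * (if (y, x) = (w, z) then 1 else 0) := by
    rw [← h0, ← h0, ← h0, ← h0]
    simp only [Finset.mul_sum, ← Finset.sum_add_distrib]
    refine Finset.sum_congr rfl fun p _ => ?_
    ring
  rw [h1]
  simp only [Prod.mk.injEq]
  have h2 := sqrt2_ne
  have h3 : ∀ u v : ℂ, u / ((Real.sqrt 2 : ℝ) : ℂ) * (v / ((Real.sqrt 2 : ℝ) : ℂ)) = u * v / 2 := by
    intro u v
    rw [div_mul_div_comm, sqrt2_sq]
  have hI : Complex.I * Complex.I = -1 := Complex.I_mul_I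
  by_cases hA : x = z ∧ y = w
  · obtain ⟨rfl, rfl⟩ := hA
    rcases lt_trichotomy x y with h | h | h
    · have hxy' := h.ne
      simp only [uu, vv, h.ne, h.ne', h, if_true, if_false, and_self, true_and, false_and]
      simp only [h3, neg_mul, mul_neg, hI, hxy', if_true, if_false]
      norm_num
    · subst h
      simp [uu, vv]
    · have hxy' := h.ne
      simp only [uu, vv, h.ne, h.ne', not_lt.2 h.le, if_true, if_false, and_self, true_and,
        false_and]
      simp only [h3, neg_mul, mul_neg, hI, hxy', if_true, if_false]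
      norm_num
  · by_cases hB : x = w ∧ y = z
    · obtain ⟨rfl, rfl⟩ := hB
      have hxy : x ≠ y := fun h => hA ⟨h, h.symm⟩
      rcases lt_trichotomy x y with h | h | h
      · simp only [uu, vv, h.ne, h.ne', h, not_lt.2 h.le, if_true, if_false, and_self, true_and,
          false_and]
        simp only [h3, neg_mul, mul_neg, hI, if_true, if_false]
        norm_num
      · exact absurd h hxy
      · simp only [uu, vv, h.ne, h.ne', h, not_lt.2 h.le, if_true, if_false, and_self, true_and,
          false_and]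
        simp only [h3, neg_mul, mul_neg, hI, if_true, if_false]
        norm_num
    · have hA' : ¬ (y = w ∧ x = z) := fun h => hA ⟨h.2, h.1⟩
      have hB' : ¬ (y = z ∧ x = w) := fun h => hB ⟨h.2, h.1⟩
      simp only [hA, hB, hA', hB', if_false]
      ring

/-- `∑_p Tr (E_p A E_p B) = Tr A · Tr B` -/
theorem sum_trace_basis {d : ℕ} (A B : Matrix (Fin d) (Fin d) ℂ) :
    ∑ p : Fin d × Fin d, Matrix.trace (hermitianOfCoords (EuclideanSpace.single p (1 : ℝ)) * A *
      hermitianOfCoords (EuclideanSpace.single p (1 : ℝ)) * B) = Matrix.trace A * Matrix.trace B := by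
  have h1 : ∀ E : Matrix (Fin d) (Fin d) ℂ, Matrix.trace (E * A * E * B) =
      ∑ x, ∑ w, ∑ z, ∑ y, (E x y * E z w) * (A y z * B w x) := by
    intro E
    rw [Matrix.trace]
    refine Finset.sum_congr rfl fun x _ => ?_
    rw [Matrix.diag_apply, Matrix.mul_apply]
    refine Finset.sum_congr rfl fun w _ => ?_
    rw [Matrix.mul_apply, Finset.sum_mul]
    refine Finset.sum_congr rfl fun z _ => ?_
    rw [Matrix.mul_apply, Finset.sum_mul, Finset.sum_mul]
    refine Finset.sum_congr rfl fun y _ => ?_
    ring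
  simp only [h1]
  rw [Finset.sum_comm]
  have h2 : ∀ x : Fin d, ∑ p : Fin d × Fin d, ∑ w, ∑ z, ∑ y,
      (hermitianOfCoords (EuclideanSpace.single p (1 : ℝ)) x y *
        hermitianOfCoords (EuclideanSpace.single p (1 : ℝ)) z w) * (A y z * B w x) =
      Matrix.trace A * B x x := by
    intro x
    rw [Finset.sum_comm]
    have h3 : ∀ w : Fin d, ∑ p : Fin d × Fin d, ∑ z, ∑ y,
      (hermitianOfCoords (EuclideanSpace.single p (1 : ℝ)) x y *
        hermitianOfCoords (EuclideanSpace.single p (1 : ℝ)) z w) * (A y z * B w x) =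
      if x = w then Matrix.trace A * B w x else 0 := by
      intro w
      rw [Finset.sum_comm]
      have h4 : ∀ z : Fin d, ∑ p : Fin d × Fin d, ∑ y,
        (hermitianOfCoords (EuclideanSpace.single p (1 : ℝ)) x y *
          hermitianOfCoords (EuclideanSpace.single p (1 : ℝ)) z w) * (A y z * B w x) =
        if x = w then A z z * B w x else 0 := by
        intro z
        rw [Finset.sum_comm]
        simp only [← Finset.sum_mul, sum_basis]
        by_cases hxw : x = w
        · simp [hxw]
        · simp [hxw]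
      simp only [h4]
      by_cases hxw : x = w
      · simp only [hxw, if_true, ← Finset.sum_mul]
        rfl
      · simp [hxw]
    simp only [h3]
    simp
  simp only [h2, ← Finset.mul_sum]
  rfl

end Crest.Agent.R89
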