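import Crest.Agent.R89.B4
/-!
# Row 89, B5: polynomials and transfer of traces from the algebra to microstates

PIECE B5. `polyEval_transfer`: `P` is a finite linear combination of words; `m` = maximal length of a
word of `P`, `C = ∑ ‖coefficient‖`. `eval_*`: `polyEval X` is an algebra homomorphism
(`MonoidAlgebra.lift`), `polyEval X (ltr j) = X j`.
-/

set_option autoImplicit false
open Crest.OpAlg Matrix

namespace Crest.Agent.R89

/-- the letter `j` -/
noncomputable def ltr {n : ℕ} (j : Fin n) : NCPoly n := MonoidAlgebra.single (FreeMonoid.of j) 1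

/-- `V = X_{b1} X_{b2}` -/
noncomputable def pV (k : ℕ) : NCPoly (k + 2) := ltr (Fin.natAdd k 0) * ltr (Fin.natAdd k 1)

/-- `V* = X_{b2} X_{b1}` -/
noncomputable def pVs (k : ℕ) : NCPoly (k + 2) := ltr (Fin.natAdd k 1) * ltr (Fin.natAdd k 0)

/-- `L(X_a)` -/
noncomputable def pL (k M : ℕ) (i : Fin k) : NCPoly (k + 2) :=
  ((M : ℂ)⁻¹) • ∑ j ∈ Finset.range M, pV k ^ (j + 1) * ltr (Fin.castAdd 2 i) * pVs k ^ (j + 1)

/-- `(X_a - L X_a)²` -/
noncomputable def pD (k M : ℕ) (i : Fin k) : NCPoly (k + 2) :=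
  (ltr (Fin.castAdd 2 i) - pL k M i) * (ltr (Fin.castAdd 2 i) - pL k M i)

/-- `V*^{l+1} V^{j+1}` -/
noncomputable def pT (k j l : ℕ) : NCPoly (k + 2) := pVs k ^ (l + 1) * pV k ^ (j + 1)

section eval
variable {A : Type*} [Ring A] [Algebra ℂ A]

theorem polyEval_ltr {n : ℕ} (X : Fin n → A) (j : Fin n) : polyEval X (ltr j) = X j := by
  unfold polyEval ltr
  rw [MonoidAlgebra.lift_single, one_smul, FreeMonoid.lift_eval_of]

/-- `polyEval` as an algebra homomorphism -/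
noncomputable def pEv {n : ℕ} (X : Fin n → A) : NCPoly n →ₐ[ℂ] A :=
  MonoidAlgebra.lift ℂ A (FreeMonoid (Fin n)) (FreeMonoid.lift X)

theorem pEv_eq {n : ℕ} (X : Fin n → A) (P : NCPoly n) : pEv X P = polyEval X P := rfl

theorem pEv_ltr {n : ℕ} (X : Fin n → A) (j : Fin n) : pEv X (ltr j) = X j := polyEval_ltr X j

theorem pEv_pV {k : ℕ} (X : Fin (k + 2) → A) :
    pEv X (pV k) = X (Fin.natAdd k 0) * X (Fin.natAdd k 1) := by
  unfold pV
  rw [map_mul, pEv_ltr, pEv_ltr]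

theorem pEv_pVs {k : ℕ} (X : Fin (k + 2) → A) :
    pEv X (pVs k) = X (Fin.natAdd k 1) * X (Fin.natAdd k 0) := by
  unfold pVs
  rw [map_mul, pEv_ltr, pEv_ltr]

theorem polyEval_pT {k : ℕ} (X : Fin (k + 2) → A) (j l : ℕ) :
    polyEval X (pT k j l) = (X (Fin.natAdd k 1) * X (Fin.natAdd k 0)) ^ (l + 1) *
      (X (Fin.natAdd k 0) * X (Fin.natAdd k 1)) ^ (j + 1) := by
  rw [← pEv_eq]
  unfold pT
  rw [map_mul, map_pow, map_pow, pEv_pV, pEv_pVs]

theorem polyEval_pD {k M : ℕ} (X : Fin (k + 2) → A) (i : Fin k) :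
    polyEval X (pD k M i) =
      (X (Fin.castAdd 2 i) - ((M : ℂ)⁻¹) • ∑ j ∈ Finset.range M,
        (X (Fin.natAdd k 0) * X (Fin.natAdd k 1)) ^ (j + 1) * X (Fin.castAdd 2 i) *
          (X (Fin.natAdd k 1) * X (Fin.natAdd k 0)) ^ (j + 1)) *
      (X (Fin.castAdd 2 i) - ((M : ℂ)⁻¹) • ∑ j ∈ Finset.range M,
        (X (Fin.natAdd k 0) * X (Fin.natAdd k 1)) ^ (j + 1) * X (Fin.castAdd 2 i) *
          (X (Fin.natAdd k 1) * X (Fin.natAdd k 0)) ^ (j + 1)) := by
  have h : pEv X (pL k M i) = ((M : ℂ)⁻¹) • ∑ j ∈ Finset.range M,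
        (X (Fin.natAdd k 0) * X (Fin.natAdd k 1)) ^ (j + 1) * X (Fin.castAdd 2 i) *
          (X (Fin.natAdd k 1) * X (Fin.natAdd k 0)) ^ (j + 1) := by
    unfold pL
    rw [map_smul, map_sum]
    congr 1
    refine Finset.sum_congr rfl fun j _ => ?_
    rw [map_mul, map_mul, map_pow, map_pow, pEv_pV, pEv_pVs, pEv_ltr]
  rw [← pEv_eq]
  unfold pD
  rw [map_mul, map_sub, pEv_ltr, h]

end eval

/-- transfer of the trace of a polynomial -/
theorem polyEval_transfer {n : ℕ} (P : NCPoly n) : ∃ m : ℕ, ∃ C : ℝ, 0 ≤ C ∧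
    ∀ {A : Type} [Ring A] [Algebra ℂ A] (τ : A →ₗ[ℂ] ℂ) (X : Fin n → A) (R : ℝ) (m' : ℕ)
      (_ : m ≤ m') (d : ℕ) (ε : ℝ) (a : EuclideanSpace ℝ (Fin n × (Fin d × Fin d))),
      a ∈ microstates τ X R m' d ε →
      ‖(d : ℂ)⁻¹ * Matrix.trace (polyEval (matrixTuple a) P) - τ (polyEval X P)‖ ≤ C * ε := by
  refine ⟨P.coeff.support.sup fun w => (FreeMonoid.toList w).length,
    ∑ w ∈ P.coeff.support, ‖P.coeff w‖, Finset.sum_nonneg fun _ _ => norm_nonneg _, ?_⟩
  intro A _ _ τ X R m' hm' d ε a ha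
  have h1 : (d : ℂ)⁻¹ * Matrix.trace (polyEval (matrixTuple a) P) =
      ∑ w ∈ P.coeff.support, P.coeff w * matrixMoment (matrixTuple a) w := by
    unfold polyEval
    rw [MonoidAlgebra.lift_apply, Finsupp.sum, Matrix.trace_sum, Finset.mul_sum]
    refine Finset.sum_congr rfl fun w _ => ?_
    rw [Matrix.trace_smul, smul_eq_mul]
    unfold matrixMoment wordEval
    ring
  have h2 : τ (polyEval X P) = ∑ w ∈ P.coeff.support, P.coeff w * τ (wordEval X w) := by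
    unfold polyEval
    rw [MonoidAlgebra.lift_apply, Finsupp.sum, map_sum]
    refine Finset.sum_congr rfl fun w _ => ?_
    rw [map_smul, smul_eq_mul]
    rfl
  rw [h1, h2, ← Finset.sum_sub_distrib, Finset.sum_mul]
  refine (norm_sum_le _ _).trans (Finset.sum_le_sum fun w hw => ?_)
  rw [← mul_sub, norm_mul]
  refine mul_le_mul_of_nonneg_left ?_ (norm_nonneg _)
  refine (ha.2 w ?_).le
  exact (Finset.le_sup (f := fun w => (FreeMonoid.toList w).length) hw).trans hm'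

end Crest.Agent.R89
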