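import Crest.Statements.S0118
/-!
# Row 89, B6: Fubini

PIECE B6. `EuclideanSpace ℝ (Fin (k+2) × ι)`: up to measure preserving measurable equivalences
(`EuclideanSpace.volume_preserving...` / `WithLp` to the pi type, `(Fin (k+2) × ι → ℝ) ≃ (Fin (k+2) → ι → ℝ)`,
`Fin (k+2) = Fin k ⊕ Fin 2`) the volume is the product of the volumes of the blocks. For fixed
`(b1, b2)` the section is contained in a product of `k` sets of volume `≤ va`
(`measure_pi_le_of...`/`Measure.pi_pi` works for arbitrary sets as an outer measure bound), so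
`volume S = ∫⁻ (b1,b2), volume (section) ≤ ∫⁻ 1_B(b1) 1_B(b2) va^k`.
-/

set_option autoImplicit false
open scoped ENNReal
open MeasureTheory

namespace Crest.Agent.R89

/-- block `l` of a coordinate vector -/
noncomputable def blk {n : ℕ} {ι : Type} [Fintype ι] (x : EuclideanSpace ℝ (Fin n × ι)) (l : Fin n) :
    EuclideanSpace ℝ ι := WithLp.toLp 2 fun p => x (l, p)

namespace B6aux

/-- gluing of the blocks -/
def glue {k : ℕ} {ι : Type} (y : (Fin k → ι → ℝ) × ((ι → ℝ) × (ι → ℝ))) : Fin (k + 2) × ι → ℝ :=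
  fun p => Fin.addCases (motive := fun _ => ℝ) (fun l => y.1 l p.2)
    (fun j : Fin 2 => if j = 0 then y.2.1 p.2 else y.2.2 p.2) p.1

theorem glue_castAdd {k : ℕ} {ι : Type} (y : (Fin k → ι → ℝ) × ((ι → ℝ) × (ι → ℝ))) (l : Fin k)
    (i : ι) : glue y (Fin.castAdd 2 l, i) = y.1 l i := by
  simp [glue]

theorem glue_zero {k : ℕ} {ι : Type} (y : (Fin k → ι → ℝ) × ((ι → ℝ) × (ι → ℝ)))
    (i : ι) : glue y (Fin.natAdd k 0, i) = y.2.1 i := by
  simp only [glue, Fin.addCases_right, if_true]

theorem glue_one {k : ℕ} {ι : Type} (y : (Fin k → ι → ℝ) × ((ι → ℝ) × (ι → ℝ)))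
    (i : ι) : glue y (Fin.natAdd k 1, i) = y.2.2 i := by
  simp only [glue, Fin.addCases_right]
  rw [if_neg (by decide)]

theorem glue_cases {k : ℕ} {ι : Type} {P : Fin (k + 2) × ι → Prop}
    (h1 : ∀ (l : Fin k) (i : ι), P (Fin.castAdd 2 l, i)) (h2 : ∀ i, P (Fin.natAdd k 0, i))
    (h3 : ∀ i, P (Fin.natAdd k 1, i)) : ∀ p, P p := by
  rintro ⟨l, i⟩
  refine Fin.addCases (motive := fun l => P (l, i)) (fun l => h1 l i) (fun j => ?_) l
  fin_cases j
  · exact h2 i
  · exact h3 i

theorem measurable_glue {k : ℕ} {ι : Type} [Fintype ι] :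
    Measurable (glue : (Fin k → ι → ℝ) × ((ι → ℝ) × (ι → ℝ)) → Fin (k + 2) × ι → ℝ) := by
  rw [measurable_pi_iff]
  refine glue_cases (fun l i => ?_) (fun i => ?_) (fun i => ?_)
  · simp only [glue_castAdd]
    fun_prop
  · simp only [glue_zero]
    fun_prop
  · simp only [glue_one]
    fun_prop

theorem map_glue {k : ℕ} {ι : Type} [Fintype ι] :
    Measure.map (glue : (Fin k → ι → ℝ) × ((ι → ℝ) × (ι → ℝ)) → Fin (k + 2) × ι → ℝ)
      volume = volume := by
  refine (Measure.pi_eq fun s hs => ?_).symm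
  rw [Measure.map_apply measurable_glue (MeasurableSet.univ_pi hs)]
  have e : glue ⁻¹' (Set.univ.pi s) =
      (Set.univ.pi fun l : Fin k => Set.univ.pi fun i : ι => s (Fin.castAdd 2 l, i)) ×ˢ
        ((Set.univ.pi fun i : ι => s (Fin.natAdd k 0, i)) ×ˢ
          (Set.univ.pi fun i : ι => s (Fin.natAdd k 1, i))) := by
    ext y
    simp only [Set.mem_preimage, Set.mem_univ_pi, Set.mem_prod]
    constructor
    · intro h
      refine ⟨fun l i => ?_, fun i => ?_, fun i => ?_⟩
      · rw [← glue_castAdd y l i]; exact h _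
      · rw [← glue_zero y i]; exact h _
      · rw [← glue_one y i]; exact h _
    · rintro ⟨h1, h2, h3⟩
      refine glue_cases (fun l i => ?_) (fun i => ?_) (fun i => ?_)
      · rw [glue_castAdd]; exact h1 l i
      · rw [glue_zero]; exact h2 i
      · rw [glue_one]; exact h3 i
  rw [e, Measure.volume_eq_prod, Measure.prod_prod, Measure.volume_eq_prod, Measure.prod_prod]
  simp only [volume_pi_pi]
  rw [Fintype.prod_prod_type, Fin.prod_univ_add, Fin.prod_univ_two]

theorem volume_toLp_preimage {ι : Type} [Fintype ι] (A : Set (EuclideanSpace ℝ ι)) :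
    volume ((WithLp.toLp 2 : (ι → ℝ) → EuclideanSpace ℝ ι) ⁻¹' A) = volume A :=
  (EuclideanSpace.volume_preserving_symm_measurableEquiv_toLp ι).symm.measure_preimage_equiv A

end B6aux

open B6aux

theorem vol_fubini {k : ℕ} {ι : Type} [Fintype ι]
    (S : Set (EuclideanSpace ℝ (Fin (k + 2) × ι))) (hS : MeasurableSet S)
    (B : Set (EuclideanSpace ℝ ι)) (hB : MeasurableSet B) (va : ℝ≥0∞)
    (A : EuclideanSpace ℝ ι → EuclideanSpace ℝ ι → Set (EuclideanSpace ℝ ι))
    (hA : ∀ b1 ∈ B, ∀ b2 ∈ B, volume (A b1 b2) ≤ va)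
    (hSB : ∀ x ∈ S, blk x (Fin.natAdd k 0) ∈ B ∧ blk x (Fin.natAdd k 1) ∈ B ∧
      ∀ i : Fin k, blk x (Fin.castAdd 2 i) ∈ A (blk x (Fin.natAdd k 0)) (blk x (Fin.natAdd k 1))) :
    volume S ≤ volume B ^ 2 * va ^ k := by
  classical
  rw [← volume_toLp_preimage S, ← map_glue,
    Measure.map_apply measurable_glue ((PiLp.volume_preserving_toLp _).measurable hS)]
  set R : Set ((Fin k → ι → ℝ) × ((ι → ℝ) × (ι → ℝ))) :=
    glue ⁻¹' ((WithLp.toLp 2 : (Fin (k + 2) × ι → ℝ) → EuclideanSpace ℝ (Fin (k + 2) × ι)) ⁻¹' S)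
    with hR
  have hRm : MeasurableSet R :=
    measurable_glue ((PiLp.volume_preserving_toLp _).measurable hS)
  set B' : Set (ι → ℝ) := (WithLp.toLp 2 : (ι → ℝ) → EuclideanSpace ℝ ι) ⁻¹' B with hB'
  have hB'm : MeasurableSet B' := (PiLp.volume_preserving_toLp _).measurable hB
  have hB'v : volume B' = volume B := volume_toLp_preimage B
  have hsec : ∀ y : (ι → ℝ) × (ι → ℝ), volume ((fun x : Fin k → ι → ℝ => (x, y)) ⁻¹' R) ≤
      (B' ×ˢ B').indicator (fun _ => va ^ k) y := by
    intro y
    by_cases hy : y ∈ B' ×ˢ B'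
    · rw [Set.indicator_of_mem hy]
      set A' : Set (ι → ℝ) := (WithLp.toLp 2 : (ι → ℝ) → EuclideanSpace ℝ ι) ⁻¹'
        (A (WithLp.toLp 2 y.1) (WithLp.toLp 2 y.2)) with hA'
      have hv : volume A' ≤ va := by
        rw [hA', volume_toLp_preimage]
        exact hA _ hy.1 _ hy.2
      have hsub : (fun x : Fin k → ι → ℝ => (x, y)) ⁻¹' R ⊆ Set.univ.pi fun _ => A' := by
        intro x hx
        have hx' := (hSB _ hx).2.2
        rw [Set.mem_univ_pi]
        intro l
        have h1 := hx' l
        have e1 : blk (WithLp.toLp 2 (glue (x, y)) : EuclideanSpace ℝ (Fin (k + 2) × ι))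
            (Fin.castAdd 2 l) = WithLp.toLp 2 (x l) := by
          unfold blk
          congr 1
          funext i
          exact glue_castAdd (x, y) l i
        have e2 : blk (WithLp.toLp 2 (glue (x, y)) : EuclideanSpace ℝ (Fin (k + 2) × ι))
            (Fin.natAdd k 0) = WithLp.toLp 2 y.1 := by
          unfold blk
          congr 1
          funext i
          exact glue_zero (x, y) i
        have e3 : blk (WithLp.toLp 2 (glue (x, y)) : EuclideanSpace ℝ (Fin (k + 2) × ι))
            (Fin.natAdd k 1) = WithLp.toLp 2 y.2 := by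
          unfold blk
          congr 1
          funext i
          exact glue_one (x, y) i
        rw [e1, e2, e3] at h1
        exact h1
      calc _ ≤ volume (Set.univ.pi fun _ : Fin k => A') := measure_mono hsub
        _ = ∏ _l : Fin k, volume A' := volume_pi_pi _
        _ ≤ ∏ _l : Fin k, va := Finset.prod_le_prod' fun _ _ => hv
        _ = va ^ k := by simp
    · rw [Set.indicator_of_notMem hy]
      refine le_of_eq ?_
      have : (fun x : Fin k → ι → ℝ => (x, y)) ⁻¹' R = ∅ := by
        rw [Set.eq_empty_iff_forall_notMem]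
        intro x hx
        have hx' := hSB _ hx
        apply hy
        have e2 : blk (WithLp.toLp 2 (glue (x, y)) : EuclideanSpace ℝ (Fin (k + 2) × ι))
            (Fin.natAdd k 0) = WithLp.toLp 2 y.1 := by
          unfold blk
          congr 1
          funext i
          exact glue_zero (x, y) i
        have e3 : blk (WithLp.toLp 2 (glue (x, y)) : EuclideanSpace ℝ (Fin (k + 2) × ι))
            (Fin.natAdd k 1) = WithLp.toLp 2 y.2 := by
          unfold blk
          congr 1
          funext i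
          exact glue_one (x, y) i
        refine ⟨?_, ?_⟩
        · have := hx'.1
          rw [e2] at this
          exact this
        · have := hx'.2.1
          rw [e3] at this
          exact this
      rw [this, measure_empty]
  calc volume R = ∫⁻ y, volume ((fun x : Fin k → ι → ℝ => (x, y)) ⁻¹' R) := by
        rw [Measure.volume_eq_prod]
        exact Measure.prod_apply_symm hRm
    _ ≤ ∫⁻ y, (B' ×ˢ B').indicator (fun _ => va ^ k) y := lintegral_mono hsec
    _ = va ^ k * volume (B' ×ˢ B') := by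
        rw [lintegral_indicator (hB'm.prod hB'm), setLIntegral_const]
    _ = volume B ^ 2 * va ^ k := by
        rw [Measure.volume_eq_prod, Measure.prod_prod, hB'v, pow_two, mul_comm]

end Crest.Agent.R89
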