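import Crest.Agent.R89.B4a
import Crest.Agent.R89.B6
/-!
# Row 89, B6b: microstate sets are measurable

PIECE B6B. `a ↦ matrixTuple a l` is continuous (linear in finitely many coordinates), hence so are
`a ↦ ‖toEuclideanCLM (matrixTuple a l)‖` and `a ↦ matrixMoment (matrixTuple a) w`; the set is an
intersection over finitely many `l` and countably many words `w` (`FreeMonoid (Fin n)` is countable)
of closed/open sets.
-/

set_option autoImplicit false
open Crest.OpAlg MeasureTheory

namespace Crest.Agent.R89

namespace B6b

theorem continuous_matrixTuple {n d : ℕ} (l : Fin n) :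
    Continuous fun a : EuclideanSpace ℝ (Fin n × (Fin d × Fin d)) => matrixTuple a l := by
  refine continuous_pi fun i => continuous_pi fun j => ?_
  unfold matrixTuple hermitianOfCoords
  by_cases h1 : i = j
  · simp only [h1, if_true]
    fun_prop
  · by_cases h2 : i < j
    · simp only [h1, h2, if_true, if_false]
      fun_prop
    · simp only [h1, h2, if_false]
      fun_prop

theorem continuous_wordEval {n d : ℕ} (w : FreeMonoid (Fin n)) :
    Continuous fun a : EuclideanSpace ℝ (Fin n × (Fin d × Fin d)) =>
      wordEval (matrixTuple a) w := by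
  induction w using FreeMonoid.inductionOn' with
  | one =>
    simp only [wordEval, map_one]
    exact continuous_const
  | of_mul x xs ih =>
    simp only [wordEval, map_mul, FreeMonoid.lift_eval_of] at ih ⊢
    exact (continuous_matrixTuple x).matrix_mul ih

theorem continuous_norm {n d : ℕ} (l : Fin n) :
    Continuous fun a : EuclideanSpace ℝ (Fin n × (Fin d × Fin d)) =>
      ‖Matrix.toEuclideanCLM (n := Fin d) (𝕜 := ℂ) (matrixTuple a l)‖ := by
  refine Continuous.norm ?_
  have h : Continuous fun M : Matrix (Fin d) (Fin d) ℂ =>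
      Matrix.toEuclideanCLM (n := Fin d) (𝕜 := ℂ) M :=
    LinearMap.continuous_of_finiteDimensional
      ((Matrix.toEuclideanCLM (n := Fin d) (𝕜 := ℂ)).toAlgEquiv.toLinearMap)
  exact h.comp (continuous_matrixTuple l)

end B6b

theorem measurableSet_microstates {n : ℕ} {A : Type} [Ring A] [Algebra ℂ A] (τ : A →ₗ[ℂ] ℂ)
    (X : Fin n → A) (R : ℝ) (m d : ℕ) (ε : ℝ) : MeasurableSet (microstates τ X R m d ε) := by
  have h : microstates τ X R m d ε =
      (⋂ l : Fin n, {a | ‖Matrix.toEuclideanCLM (n := Fin d) (𝕜 := ℂ) (matrixTuple a l)‖ ≤ R}) ∩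
      ⋂ w : FreeMonoid (Fin n), ⋂ _ : (FreeMonoid.toList w).length ≤ m,
        {a | ‖matrixMoment (matrixTuple a) w - τ (wordEval X w)‖ < ε} := by
    ext a
    simp only [microstates, Set.mem_ofPred_eq, Set.mem_inter_iff, Set.mem_iInter]
  rw [h]
  have : Countable (FreeMonoid (Fin n)) := inferInstanceAs (Countable (List (Fin n)))
  refine MeasurableSet.inter (MeasurableSet.iInter fun l => ?_)
    (MeasurableSet.iInter fun w => MeasurableSet.iInter fun _ => ?_)
  · exact (isClosed_le (B6b.continuous_norm l) continuous_const).measurableSet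
  · refine (isOpen_lt ?_ continuous_const).measurableSet
    refine Continuous.norm (Continuous.sub ?_ continuous_const)
    unfold matrixMoment
    exact continuous_const.mul (B6b.continuous_wordEval w).matrix_trace

theorem matrixTuple_eq {n d : ℕ} (a : EuclideanSpace ℝ (Fin n × (Fin d × Fin d))) (l : Fin n) :
    matrixTuple a l = hermitianOfCoords (blk a l) := rfl

end Crest.Agent.R89
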