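import Crest.Agent.R89.B7a
import Crest.Agent.R89.B5
/-!
# Row 89, B7: the limit values needed for the volume bound, noise `σ_a = 1/2`, `σ_b = 1/M²`

PIECE B7. Norm estimates in the C*-algebra: `V = X_{b1} X_{b2}`, `Vs = X_{b2} X_{b1}`, `v = lamA vv`.
`‖X_b - b‖ ≤ 2σ_b`, `‖V - v‖ ≤ 6 σ_b`, `‖V^j‖ ≤ (1+6σ_b)^j ≤ exp (6/M) ≤ 2` (`j ≤ M`, `M ≥ 10`),
`‖V^j - v^j‖ ≤ j · 6 σ_b · 2 ≤ 12/M`; same for `Vs` and `v⁻¹`. Hence
`‖V^j X_a Vs^j - v^j X_a v^{-j}‖ ≤ ‖X_a‖ (12/M · 2 + 12/M) ≤ 72/M` (`‖X_a‖ ≤ 2`), so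
`‖(X_a - L X_a) Ω‖ ≤ 1/2 + 72/M` (with `norm_X_sub_L0`) and `X_a - L X_a` is self-adjoint.
`|τ(Vs^{l+1}V^{j+1}) - [j=l]| ≤ ‖Vs^{l+1}V^{j+1} - v^{-(l+1)}v^{j+1}‖ ≤ 36/M` (`|τ x| ≤ ‖x‖`).
-/

set_option autoImplicit false
open scoped InnerProductSpace
open Crest.OpAlg

namespace Crest.Agent.R89

/-- noise levels -/
noncomputable def sg (k M : ℕ) : Fin (k + 2) → ℝ :=
  Fin.addCases (fun _ => 1 / 2) (fun _ => 1 / (M : ℝ) ^ 2)

theorem sg_castAdd (k M : ℕ) (i : Fin k) : sg k M (Fin.castAdd 2 i) = 1 / 2 := by simp [sg]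

theorem sg_natAdd (k M : ℕ) (j : Fin 2) : sg k M (Fin.natAdd k j) = 1 / (M : ℝ) ^ 2 := by simp [sg]

section pert
variable {R : Type*} [NormedRing R]

private theorem b7_pow_le (hone : ‖(1 : R)‖ ≤ 1) {V v : R} {δ : ℝ} (hv : ‖v‖ ≤ 1) (hδ : ‖V - v‖ ≤ δ) (j : ℕ) :
    ‖V ^ j‖ ≤ (1 + δ) ^ j := by
  have h1 : ‖V‖ ≤ 1 + δ := by
    calc ‖V‖ = ‖v + (V - v)‖ := by rw [add_sub_cancel]
      _ ≤ ‖v‖ + ‖V - v‖ := norm_add_le _ _
      _ ≤ 1 + δ := add_le_add hv hδ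
  have hδ0 : 0 ≤ δ := (norm_nonneg _).trans hδ
  induction j with
  | zero => simpa using hone
  | succ j ih =>
    rw [pow_succ, pow_succ]
    exact (norm_mul_le _ _).trans (mul_le_mul ih h1 (norm_nonneg _) (by positivity))

private theorem b7_pow_sub (hone : ‖(1 : R)‖ ≤ 1) {V v : R} {δ : ℝ} (hv : ‖v‖ ≤ 1) (hδ : ‖V - v‖ ≤ δ) (j : ℕ) :
    ‖V ^ j - v ^ j‖ ≤ j * δ * (1 + δ) ^ j := by
  have hδ0 : 0 ≤ δ := (norm_nonneg _).trans hδ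
  induction j with
  | zero => simp
  | succ j ih =>
    have e : V ^ (j + 1) - v ^ (j + 1) = (V ^ j - v ^ j) * v + V ^ j * (V - v) := by
      rw [pow_succ, pow_succ, sub_mul, mul_sub]; abel
    have hp : (0 : ℝ) ≤ (1 + δ) ^ j := by positivity
    have hp1 : (1 + δ) ^ j ≤ (1 + δ) ^ (j + 1) := pow_le_pow_right₀ (by linarith) (Nat.le_succ j)
    rw [e]
    calc ‖(V ^ j - v ^ j) * v + V ^ j * (V - v)‖ ≤ ‖(V ^ j - v ^ j) * v‖ + ‖V ^ j * (V - v)‖ := norm_add_le _ _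
      _ ≤ ‖V ^ j - v ^ j‖ * ‖v‖ + ‖V ^ j‖ * ‖V - v‖ := add_le_add (norm_mul_le _ _) (norm_mul_le _ _)
      _ ≤ (j * δ * (1 + δ) ^ j) * 1 + (1 + δ) ^ j * δ := by
          have := b7_pow_le hone hv hδ j
          gcongr
      _ = (j + 1) * δ * (1 + δ) ^ j := by ring
      _ ≤ ((j + 1 : ℕ) : ℝ) * δ * (1 + δ) ^ (j + 1) := by
          push_cast
          gcongr

private theorem b7_two {P p Q q : R} {e : ℝ} (hP : ‖P - p‖ ≤ e) (hQ : ‖Q‖ ≤ 2) (hp : ‖p‖ ≤ 1)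
    (hQq : ‖Q - q‖ ≤ e) : ‖P * Q - p * q‖ ≤ 3 * e := by
  have e3 : P * Q - p * q = (P - p) * Q + p * (Q - q) := by
    rw [sub_mul, mul_sub]; abel
  have he : 0 ≤ e := (norm_nonneg _).trans hP
  rw [e3]
  calc ‖(P - p) * Q + p * (Q - q)‖ ≤ ‖(P - p) * Q‖ + ‖p * (Q - q)‖ := norm_add_le _ _
    _ ≤ ‖P - p‖ * ‖Q‖ + ‖p‖ * ‖Q - q‖ := add_le_add (norm_mul_le _ _) (norm_mul_le _ _)
    _ ≤ e * 2 + 1 * e := by gcongr
    _ = 3 * e := by ring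

private theorem b7_three {P p Q q x : R} {e : ℝ} (hP : ‖P - p‖ ≤ e) (hQ : ‖Q‖ ≤ 2) (hp : ‖p‖ ≤ 1)
    (hQq : ‖Q - q‖ ≤ e) (hx : ‖x‖ ≤ 2) : ‖P * x * Q - p * x * q‖ ≤ 6 * e := by
  have e3 : P * x * Q - p * x * q = (P - p) * x * Q + p * x * (Q - q) := by
    rw [sub_mul, sub_mul, mul_sub]; abel
  have he : 0 ≤ e := (norm_nonneg _).trans hP
  rw [e3]
  calc ‖(P - p) * x * Q + p * x * (Q - q)‖ ≤ ‖(P - p) * x * Q‖ + ‖p * x * (Q - q)‖ := norm_add_le _ _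
    _ ≤ ‖P - p‖ * ‖x‖ * ‖Q‖ + ‖p‖ * ‖x‖ * ‖Q - q‖ := by
        refine add_le_add ?_ ?_
        · exact (norm_mul_le _ _).trans (mul_le_mul_of_nonneg_right (norm_mul_le _ _) (norm_nonneg _))
        · exact (norm_mul_le _ _).trans (mul_le_mul_of_nonneg_right (norm_mul_le _ _) (norm_nonneg _))
    _ ≤ e * 2 * 2 + 1 * 2 * e := by gcongr
    _ = 6 * e := by ring

private theorem b7_avg [NormedAlgebra ℂ R] (M : ℕ) (hM : 10 ≤ M) (x : R) (f g : ℕ → R) {E : ℝ}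
    (h : ∀ j ∈ Finset.range M, ‖f j - g j‖ ≤ E) :
    ‖(x - ((M : ℂ)⁻¹) • ∑ j ∈ Finset.range M, f j) - (x - ((M : ℂ)⁻¹) • ∑ j ∈ Finset.range M, g j)‖ ≤ E := by
  have hM0 : (10 : ℝ) ≤ M := by exact_mod_cast hM
  have hMp : (0 : ℝ) < M := by linarith
  have e1 : (x - ((M : ℂ)⁻¹) • ∑ j ∈ Finset.range M, f j) - (x - ((M : ℂ)⁻¹) • ∑ j ∈ Finset.range M, g j) =
      -(((M : ℂ)⁻¹) • ∑ j ∈ Finset.range M, (f j - g j)) := by
    rw [Finset.sum_sub_distrib, smul_sub]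
    abel
  rw [e1, norm_neg, norm_smul, norm_inv, Complex.norm_natCast]
  calc (M : ℝ)⁻¹ * ‖∑ j ∈ Finset.range M, (f j - g j)‖
      ≤ (M : ℝ)⁻¹ * ∑ j ∈ Finset.range M, E := by
        gcongr
        exact (norm_sum_le _ _).trans (Finset.sum_le_sum h)
    _ = E := by
        rw [Finset.sum_const, Finset.card_range, nsmul_eq_mul]
        field_simp

end pert

/-- numerical bound -/
private theorem b7_exp (M : ℕ) (hM : 10 ≤ M) (j : ℕ) (hj : j ≤ M) : (1 + 6 / (M : ℝ) ^ 2) ^ j ≤ 2 := by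
  have hM0 : (10 : ℝ) ≤ M := by exact_mod_cast hM
  have hMp : (0 : ℝ) < M := by linarith
  have h1 : (1 + 6 / (M : ℝ) ^ 2) ≤ Real.exp (6 / (M : ℝ) ^ 2) := by
    have := Real.add_one_le_exp (6 / (M : ℝ) ^ 2)
    linarith
  have h2 : (1 + 6 / (M : ℝ) ^ 2) ^ j ≤ Real.exp (6 / (M : ℝ) ^ 2 * j) := by
    calc (1 + 6 / (M : ℝ) ^ 2) ^ j ≤ (Real.exp (6 / (M : ℝ) ^ 2)) ^ j := by gcongr
      _ = Real.exp (6 / (M : ℝ) ^ 2 * j) := by rw [← Real.exp_nat_mul, mul_comm]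
  have h3 : 6 / (M : ℝ) ^ 2 * j ≤ 6 / 10 := by
    have hjM : (j : ℝ) ≤ M := by exact_mod_cast hj
    calc 6 / (M : ℝ) ^ 2 * (j : ℝ) ≤ 6 / (M : ℝ) ^ 2 * (M : ℝ) := by gcongr
      _ = 6 / (M : ℝ) := by field_simp
      _ ≤ 6 / 10 := by gcongr
  have h4 : Real.exp (6 / 10) ≤ 2 := by
    have h5 : (0.6931471803 : ℝ) < Real.log 2 := Real.log_two_gt_d9
    calc Real.exp (6 / 10) ≤ Real.exp (Real.log 2) := Real.exp_le_exp.2 (by norm_num at h5 ⊢; linarith)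
      _ = 2 := Real.exp_log (by norm_num)
  exact h2.trans ((Real.exp_le_exp.2 h3).trans h4)

section alg
variable {G : Type} [Group G] {n : ℕ}

private theorem b7_star_X (y : Fin n → G) (hy : ∀ j, y j * y j = 1) (σ : Fin n → ℝ) (j : Fin n) :
    star (Xt y σ j) = Xt y σ j := by
  have h1 : (y j)⁻¹ = y j := inv_eq_of_mul_eq_one_left (hy j)
  unfold Xt
  rw [star_add, star_smul, star_lamA, star_sA, h1, Complex.star_def, Complex.conj_ofReal]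

private theorem b7_X_sub (y : Fin n → G) (σ : Fin n → ℝ) (j : Fin n) (hσ : 0 ≤ σ j) :
    ‖Xt y σ j - lamA (y j)‖ ≤ 2 * σ j := by
  unfold Xt
  rw [add_sub_cancel_left, norm_smul, Complex.norm_real, Real.norm_of_nonneg hσ, mul_comm]
  have := norm_sA_le (G := G) ((j, false) : II n)
  gcongr

private theorem b7_norm_X (y : Fin n → G) (σ : Fin n → ℝ) (j : Fin n) (hσ : 0 ≤ σ j) :
    ‖Xt y σ j‖ ≤ 1 + 2 * σ j := by
  calc ‖Xt y σ j‖ = ‖lamA (y j) + (Xt y σ j - lamA (y j))‖ := by rw [add_sub_cancel]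
    _ ≤ ‖(lamA (y j) : AT G (II n))‖ + ‖Xt y σ j - lamA (y j)‖ := norm_add_le _ _
    _ ≤ 1 + 2 * σ j := add_le_add (norm_lamA_le _) (b7_X_sub y σ j hσ)

private theorem b7_prod_sub (y : Fin n → G) (σ : Fin n → ℝ) (i j : Fin n) {s : ℝ} (hs : 0 ≤ s) (hs2 : s ≤ 1 / 2)
    (hi : σ i = s) (hj : σ j = s) :
    ‖Xt y σ i * Xt y σ j - lamA (y i * y j)‖ ≤ 6 * s := by
  have e : Xt y σ i * Xt y σ j - lamA (y i * y j) =
      (Xt y σ i - lamA (y i)) * lamA (y j) + Xt y σ i * (Xt y σ j - lamA (y j)) := by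
    rw [lamA_mul, sub_mul, mul_sub]; abel
  have h1 := b7_X_sub y σ i (by rw [hi]; exact hs)
  have h2 := b7_X_sub y σ j (by rw [hj]; exact hs)
  have h3 := b7_norm_X y σ i (by rw [hi]; exact hs)
  rw [hi] at h1 h3
  rw [hj] at h2
  have h4 := norm_lamA_le (G := G) (I := II n) (y j)
  rw [e]
  calc _ ≤ ‖(Xt y σ i - lamA (y i)) * lamA (y j)‖ + ‖Xt y σ i * (Xt y σ j - lamA (y j))‖ := norm_add_le _ _
    _ ≤ ‖Xt y σ i - lamA (y i)‖ * ‖(lamA (y j) : AT G (II n))‖ + ‖Xt y σ i‖ * ‖Xt y σ j - lamA (y j)‖ :=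
        add_le_add (norm_mul_le _ _) (norm_mul_le _ _)
    _ ≤ (2 * s) * 1 + (1 + 2 * s) * (2 * s) := by gcongr
    _ ≤ 6 * s := by nlinarith

private theorem b7_lamA_pow (g : G) (j : ℕ) : (lamA (g ^ j) : AT G (II n)) = lamA g ^ j := by
  induction j with
  | zero => rw [pow_zero, pow_zero, lamA_one]
  | succ j ih => rw [pow_succ, pow_succ, lamA_mul, ih]

private theorem b7_one : ‖(1 : AT G (II n))‖ ≤ 1 := by
  rw [← lamA_one]; exact norm_lamA_le _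

private theorem b7_norm_tau (x : AT G (II n)) : ‖tau x‖ ≤ ‖x‖ := by
  have h0 : tau x = ⟪(Om : HH G (II n)), x.1 Om⟫_ℂ := rfl
  have h1 : ‖tau x‖ ≤ ‖(Om : HH G (II n))‖ * ‖x.1 Om‖ := by
    rw [h0]; exact norm_inner_le_norm _ _
  have h2 : ‖x.1 Om‖ ≤ ‖x.1‖ * ‖(Om : HH G (II n))‖ := x.1.le_opNorm _
  rw [norm_Om] at h1 h2
  rw [one_mul] at h1
  rw [mul_one] at h2
  exact h1.trans h2

end alg

section model
variable (k M : ℕ)

private noncomputable abbrev XX : Fin (k + 2) → AT (GG k M) (II (k + 2)) := Xt (yy k M) (sg k M)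

private theorem b7_VV (hM : 10 ≤ M) :
    ‖XX k M (Fin.natAdd k 0) * XX k M (Fin.natAdd k 1) - lamA (vv k M)‖ ≤ 6 / (M : ℝ) ^ 2 := by
  have hM0 : (10 : ℝ) ≤ M := by exact_mod_cast hM
  have hs : (0 : ℝ) ≤ 1 / (M : ℝ) ^ 2 := by positivity
  have hs2 : 1 / (M : ℝ) ^ 2 ≤ 1 / 2 := by
    apply one_div_le_one_div_of_le (by norm_num)
    nlinarith
  have := b7_prod_sub (yy k M) (sg k M) (Fin.natAdd k 0) (Fin.natAdd k 1) hs hs2 (sg_natAdd k M 0)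
    (sg_natAdd k M 1)
  calc _ ≤ 6 * (1 / (M : ℝ) ^ 2) := this
    _ = 6 / (M : ℝ) ^ 2 := by ring

private theorem b7_vv_inv : (vv k M)⁻¹ = yy k M (Fin.natAdd k 1) * yy k M (Fin.natAdd k 0) := by
  unfold vv
  rw [mul_inv_rev, inv_eq_of_mul_eq_one_left (yy_mul_self k M _), inv_eq_of_mul_eq_one_left (yy_mul_self k M _)]

private theorem b7_VVs (hM : 10 ≤ M) :
    ‖XX k M (Fin.natAdd k 1) * XX k M (Fin.natAdd k 0) - lamA (vv k M)⁻¹‖ ≤ 6 / (M : ℝ) ^ 2 := by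
  have hM0 : (10 : ℝ) ≤ M := by exact_mod_cast hM
  have hs : (0 : ℝ) ≤ 1 / (M : ℝ) ^ 2 := by positivity
  have hs2 : 1 / (M : ℝ) ^ 2 ≤ 1 / 2 := by
    apply one_div_le_one_div_of_le (by norm_num)
    nlinarith
  have := b7_prod_sub (yy k M) (sg k M) (Fin.natAdd k 1) (Fin.natAdd k 0) hs hs2 (sg_natAdd k M 1)
    (sg_natAdd k M 0)
  rw [b7_vv_inv]
  calc _ ≤ 6 * (1 / (M : ℝ) ^ 2) := this
    _ = 6 / (M : ℝ) ^ 2 := by ring

private theorem b7_main {R : Type*} [NormedRing R] (hone : ‖(1 : R)‖ ≤ 1) {V v : R} (hM : 10 ≤ M) (hv : ‖v‖ ≤ 1)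
    (hδ : ‖V - v‖ ≤ 6 / (M : ℝ) ^ 2) (j : ℕ) (hj : j ≤ M) : ‖V ^ j‖ ≤ 2 ∧ ‖V ^ j - v ^ j‖ ≤ 12 / (M : ℝ) := by
  have hM0 : (10 : ℝ) ≤ M := by exact_mod_cast hM
  have hMp : (0 : ℝ) < M := by linarith
  have h2 := b7_exp M hM j hj
  refine ⟨(b7_pow_le hone hv hδ j).trans h2, (b7_pow_sub hone hv hδ j).trans ?_⟩
  have hjM : (j : ℝ) ≤ M := by exact_mod_cast hj
  calc (j : ℝ) * (6 / (M : ℝ) ^ 2) * (1 + 6 / (M : ℝ) ^ 2) ^ j ≤ (M : ℝ) * (6 / (M : ℝ) ^ 2) * 2 := by gcongr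
    _ = 12 / (M : ℝ) := by field_simp; norm_num

end model

theorem tau_pD (k M : ℕ) (hM : 10 ≤ M) (i : Fin k) :
    ‖tau (polyEval (Xt (yy k M) (sg k M)) (pD k M i))‖ ≤ (1 / 2 + 72 / (M : ℝ)) ^ 2 := by
  have hM0 : (10 : ℝ) ≤ M := by exact_mod_cast hM
  have hMp : (0 : ℝ) < M := by linarith
  rw [polyEval_pD]
  set Xa : AT (GG k M) (II (k + 2)) := Xt (yy k M) (sg k M) (Fin.castAdd 2 i) with hXa
  set V : AT (GG k M) (II (k + 2)) := Xt (yy k M) (sg k M) (Fin.natAdd k 0) *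
    Xt (yy k M) (sg k M) (Fin.natAdd k 1) with hV
  set Vs : AT (GG k M) (II (k + 2)) := Xt (yy k M) (sg k M) (Fin.natAdd k 1) *
    Xt (yy k M) (sg k M) (Fin.natAdd k 0) with hVs
  have hstar := b7_star_X (yy k M) (yy_mul_self k M) (sg k M)
  have hXas : star Xa = Xa := hstar _
  have hVst : star V = Vs := by rw [hV, star_mul, hstar, hstar]
  have hVsst : star Vs = V := by rw [← hVst, star_star]
  set D : AT (GG k M) (II (k + 2)) :=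
    Xa - ((M : ℂ)⁻¹) • ∑ j ∈ Finset.range M, V ^ (j + 1) * Xa * Vs ^ (j + 1) with hD
  have hDs : star D = D := by
    rw [hD, star_sub, star_smul, star_sum, hXas, star_inv₀, Complex.star_def, Complex.conj_natCast]
    congr 2
    refine Finset.sum_congr rfl fun j _ => ?_
    rw [star_mul, star_mul, star_pow, star_pow, hVst, hVsst, hXas, mul_assoc]
  have h1 : tau (D * D) = ⟪D.1 Om, D.1 Om⟫_ℂ := by
    conv_lhs => rw [← hDs]
    conv_lhs => rw [show star D * star D = star D * D by rw [hDs]]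
    exact tau_star_mul D D
  rw [h1]
  refine (norm_inner_le_norm _ _).trans ?_
  rw [← sq]
  refine pow_le_pow_left₀ (norm_nonneg _) ?_ 2
  -- the norm of `D Om`
  set D0 : AT (GG k M) (II (k + 2)) := Xa - ((M : ℂ)⁻¹) • ∑ j ∈ Finset.range M,
      lamA (vv k M ^ (j + 1)) * Xa * lamA ((vv k M ^ (j + 1))⁻¹) with hD0
  have h2 : ‖D0.1 Om‖ ≤ 1 / 2 := by
    have := norm_X_sub_L0 k M (by omega) (sg k M) i
    rw [sg_castAdd, abs_of_nonneg (by norm_num : (0 : ℝ) ≤ 1 / 2)] at this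
    exact this
  have hXan : ‖Xa‖ ≤ 2 := by
    have := b7_norm_X (yy k M) (sg k M) (Fin.castAdd 2 i) (by rw [sg_castAdd]; norm_num)
    rw [sg_castAdd] at this
    refine this.trans (by norm_num)
  have h3 : ‖D - D0‖ ≤ 72 / (M : ℝ) := by
    refine b7_avg M hM Xa _ _ fun j hj => ?_
    have hj' : j + 1 ≤ M := Finset.mem_range.1 hj
    obtain ⟨a1, a2⟩ := b7_main M b7_one hM (norm_lamA_le (G := GG k M) (I := II (k + 2)) (vv k M)) (b7_VV k M hM)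
      (j + 1) hj'
    obtain ⟨b1, b2⟩ := b7_main M b7_one hM (norm_lamA_le (G := GG k M) (I := II (k + 2)) (vv k M)⁻¹) (b7_VVs k M hM)
      (j + 1) hj'
    rw [← b7_lamA_pow] at a2 b2
    rw [inv_pow] at b2
    have c1 := norm_lamA_le (G := GG k M) (I := II (k + 2)) (vv k M ^ (j + 1))
    have := b7_three a2 b1 c1 b2 hXan
    refine this.trans (le_of_eq ?_)
    ring
  have h4 : D.1 Om = D0.1 Om + (D - D0).1 Om := by
    have : (D - D0).1 = D.1 - D0.1 := rfl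
    rw [this, sub_apply, add_sub_cancel]
  have h5 : ‖(D - D0).1 Om‖ ≤ 72 / (M : ℝ) := by
    have h6 : ‖(D - D0).1 Om‖ ≤ ‖(D - D0).1‖ * ‖(Om : HH (GG k M) (II (k + 2)))‖ := (D - D0).1.le_opNorm _
    rw [norm_Om, mul_one] at h6
    exact h6.trans h3
  rw [h4]
  exact (norm_add_le _ _).trans (add_le_add h2 h5)

theorem tau_pT (k M : ℕ) (hM : 10 ≤ M) (j l : ℕ) (hj : j < M) (hl : l < M) :
    ‖tau (polyEval (Xt (yy k M) (sg k M)) (pT k j l))‖ ≤ (if j = l then 1 else 0) + 36 / (M : ℝ) := by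
  rw [polyEval_pT]
  have h0 := tau_vv k M (by omega) j l hj hl
  set V : AT (GG k M) (II (k + 2)) := Xt (yy k M) (sg k M) (Fin.natAdd k 0) *
    Xt (yy k M) (sg k M) (Fin.natAdd k 1) with hV
  set Vs : AT (GG k M) (II (k + 2)) := Xt (yy k M) (sg k M) (Fin.natAdd k 1) *
    Xt (yy k M) (sg k M) (Fin.natAdd k 0) with hVs
  obtain ⟨a1, a2⟩ := b7_main M b7_one hM (norm_lamA_le (G := GG k M) (I := II (k + 2)) (vv k M)) (b7_VV k M hM)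
    (j + 1) hj
  obtain ⟨b1, b2⟩ := b7_main M b7_one hM (norm_lamA_le (G := GG k M) (I := II (k + 2)) (vv k M)⁻¹) (b7_VVs k M hM)
    (l + 1) hl
  rw [← b7_lamA_pow] at a2 b2
  rw [inv_pow] at b2
  have c1 := norm_lamA_le (G := GG k M) (I := II (k + 2)) ((vv k M ^ (l + 1))⁻¹)
  have h1 : ‖Vs ^ (l + 1) * V ^ (j + 1) - lamA ((vv k M ^ (l + 1))⁻¹) * lamA (vv k M ^ (j + 1))‖ ≤
      36 / (M : ℝ) := by
    refine (b7_two b2 a1 c1 a2).trans (le_of_eq ?_)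
    ring
  have e4 : tau (Vs ^ (l + 1) * V ^ (j + 1)) =
      tau (lamA ((vv k M ^ (l + 1))⁻¹) * lamA (vv k M ^ (j + 1)) : AT (GG k M) (II (k + 2))) +
      tau (Vs ^ (l + 1) * V ^ (j + 1) - lamA ((vv k M ^ (l + 1))⁻¹) * lamA (vv k M ^ (j + 1))) := by
    rw [map_sub, add_sub_cancel]
  rw [e4, h0]
  refine (norm_add_le _ _).trans (add_le_add ?_ ((b7_norm_tau _).trans h1))
  split_ifs <;> simp

end Crest.Agent.R89
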