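import Crest.Agent.R89.Api
/-!
# Row 89, GDa: the involutions `yy k M : Fin (k+2) → Perm (RW k) × D_M`

PIECE GDA. `sig i` moves the root to `[i]`; `sig i (sig j root) = root ↔ i = j`; dihedral products: `sr 0 * sr 1 = r 1`.
-/

set_option autoImplicit false

namespace Crest.Agent.R89

theorem yy_castAdd (k M : ℕ) (i : Fin k) : yy k M (Fin.castAdd 2 i) = (RW.sig i, 1) := by
  simp [yy]

theorem yy_natAdd (k M : ℕ) (j : Fin 2) :
    yy k M (Fin.natAdd k j) = (1, DihedralGroup.sr ((j : ℕ) : ZMod M)) := by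
  simp [yy]

namespace GDaAux

theorem sig_mul_self {k : ℕ} (i : Fin k) : RW.sig i * RW.sig i = 1 := by
  ext x : 1
  exact RW.act_act i x

theorem sig_root {k : ℕ} (i : Fin k) : RW.sig i RW.root = ⟨[i], List.isChain_singleton i⟩ := rfl

theorem sig_inj {k : ℕ} {i j : Fin k} (h : RW.sig i = RW.sig j) : i = j := by
  have h1 := congrArg (fun f : Equiv.Perm (RW k) => (f RW.root).1) h
  simp only [sig_root] at h1
  simpa using h1

theorem sig_ne_one {k : ℕ} (i : Fin k) : RW.sig i ≠ 1 := by
  intro h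
  have h1 := congrArg (fun f : Equiv.Perm (RW k) => (f RW.root).1) h
  simp only [sig_root, Equiv.Perm.one_apply, RW.root] at h1
  exact absurd h1 (List.cons_ne_nil _ _)

theorem sr_ne_one {M : ℕ} (a : ZMod M) : DihedralGroup.sr a ≠ 1 := by
  rw [DihedralGroup.one_def]
  intro h
  cases h

theorem r_eq_one {M : ℕ} (a : ZMod M) : DihedralGroup.r a = 1 ↔ a = 0 := by
  rw [DihedralGroup.one_def, DihedralGroup.r.injEq]

theorem cast_inj {M : ℕ} (hM : 2 ≤ M) (a b : Fin 2) (h : (((b : ℕ) : ZMod M) - ((a : ℕ) : ZMod M)) = 0) :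
    a = b := by
  have h1 : ((b : ℕ) : ZMod M) = ((a : ℕ) : ZMod M) := sub_eq_zero.1 h
  rw [ZMod.natCast_eq_natCast_iff'] at h1
  rw [Nat.mod_eq_of_lt (lt_of_lt_of_le b.2 hM), Nat.mod_eq_of_lt (lt_of_lt_of_le a.2 hM)] at h1
  exact Fin.ext h1.symm

end GDaAux

open GDaAux

/-- involutions -/
theorem yy_mul_self (k M : ℕ) (j : Fin (k + 2)) : yy k M j * yy k M j = 1 := by
  induction j using Fin.addCases with
  | left i =>
    rw [yy_castAdd, Prod.mk_mul_mk, sig_mul_self, one_mul]
    rfl
  | right j =>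
    rw [yy_natAdd, Prod.mk_mul_mk, DihedralGroup.sr_mul_self, one_mul]
    rfl

theorem yy_ne_one (k M : ℕ) (j : Fin (k + 2)) : yy k M j ≠ 1 := by
  induction j using Fin.addCases with
  | left i =>
    rw [yy_castAdd]
    intro h
    exact sig_ne_one i (congrArg Prod.fst h)
  | right j =>
    rw [yy_natAdd]
    intro h
    exact sr_ne_one _ (congrArg Prod.snd h)

/-- distinct generators have product `≠ 1` -/
theorem yy_mul_eq_one (k M : ℕ) (hM : 2 ≤ M) (i j : Fin (k + 2)) :
    yy k M i * yy k M j = 1 ↔ i = j := by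
  constructor
  · intro h
    induction i using Fin.addCases with
    | left i =>
      induction j using Fin.addCases with
      | left j =>
        rw [yy_castAdd, yy_castAdd, Prod.mk_mul_mk] at h
        have h1 : RW.sig i * RW.sig j = 1 := congrArg Prod.fst h
        have h2 : RW.sig i = RW.sig j := by
          calc RW.sig i = RW.sig i * (RW.sig j * RW.sig j) := by rw [sig_mul_self, mul_one]
            _ = (RW.sig i * RW.sig j) * RW.sig j := (mul_assoc _ _ _).symm
            _ = RW.sig j := by rw [h1, one_mul]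
        rw [sig_inj h2]
      | right j =>
        rw [yy_castAdd, yy_natAdd, Prod.mk_mul_mk] at h
        have h1 : (1 : DihedralGroup M) * DihedralGroup.sr ((j : ℕ) : ZMod M) = 1 :=
          congrArg Prod.snd h
        rw [one_mul] at h1
        exact absurd h1 (sr_ne_one _)
    | right i =>
      induction j using Fin.addCases with
      | left j =>
        rw [yy_castAdd, yy_natAdd, Prod.mk_mul_mk] at h
        have h1 : DihedralGroup.sr ((i : ℕ) : ZMod M) * (1 : DihedralGroup M) = 1 :=
          congrArg Prod.snd h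
        rw [mul_one] at h1
        exact absurd h1 (sr_ne_one _)
      | right j =>
        rw [yy_natAdd, yy_natAdd, Prod.mk_mul_mk] at h
        have h1 : DihedralGroup.sr ((i : ℕ) : ZMod M) * DihedralGroup.sr ((j : ℕ) : ZMod M) = 1 :=
          congrArg Prod.snd h
        rw [DihedralGroup.sr_mul_sr, r_eq_one] at h1
        rw [cast_inj hM i j h1]
  · rintro rfl
    exact yy_mul_self k M i

/-- the `a`'s commute with the `b`'s -/
theorem yy_comm (k M : ℕ) (i : Fin k) (j : Fin 2) :
    yy k M (Fin.castAdd 2 i) * yy k M (Fin.natAdd k j) =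
      yy k M (Fin.natAdd k j) * yy k M (Fin.castAdd 2 i) := by
  rw [yy_castAdd, yy_natAdd]
  simp

/-- `v = b1 b2` has order exactly `M` -/
theorem yy_pow_eq_one (k M : ℕ) (j : ℕ) :
    (yy k M (Fin.natAdd k 0) * yy k M (Fin.natAdd k 1)) ^ j = 1 ↔ M ∣ j := by
  have h : yy k M (Fin.natAdd k 0) * yy k M (Fin.natAdd k 1)
      = ((1 : Equiv.Perm (RW k)), (DihedralGroup.r 1 : DihedralGroup M)) := by
    rw [yy_natAdd, yy_natAdd, Prod.mk_mul_mk, one_mul, DihedralGroup.sr_mul_sr]
    simp
  rw [h, Prod.pow_mk, one_pow, DihedralGroup.r_one_pow, Prod.mk_eq_one, r_eq_one,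
    ZMod.natCast_eq_zero_iff]
  simp

end Crest.Agent.R89
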