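import Crest.Agent.R89.Iface
import Crest.Agent.R89.GDa
/-!
# Row 89, B7a: second moments, and the averaging over `v = b1 b2` at zero noise

PIECE B7A. `vec x = x.1 Om`. `tau x = ⟪Om, x.1 Om⟫`. `lamA g Om = dl (base g)`,
`sA i Om = dl (cons 1 i (base 1))`, all basis vectors, so second moments are immediate
(`tau (x*x) = ‖x.1 Om‖²` for self-adjoint `x`, `tau_star_mul`). `v^j S v^{-j} Om = dl (cons (v^j) i (base (v^{-j})))`:
these are distinct basis vectors for `1 ≤ j ≤ M` (`yy_pow_eq_one`), so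
`‖S Om - M⁻¹ ∑_{j<M} (v^{j+1} S v^{-(j+1)}) Om‖² = (1-1/M)² + (M-1)/M² ≤ 1`
(for `j+1 = M` the vector is `S Om` itself); and `v^j a v^{-j} = a`.
-/

set_option autoImplicit false
open scoped InnerProductSpace

namespace Crest.Agent.R89

section
variable {G : Type} [Group G] {n : ℕ}

theorem B7a_Xt_Om (y : Fin n → G) (σ : Fin n → ℝ) (j : Fin n) :
    (Xt y σ j).1 (Om : HH G (II n)) =
      dl (T.base (y j)) + ((σ j : ℝ) : ℂ) • dl (T.cons 1 (j, false) (T.base 1)) := by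
  show lam (y j) (Om : HH G (II n)) + ((σ j : ℝ) : ℂ) • (Sop (j, false) (Om : HH G (II n))) = _
  rw [lam_Om, Sop_Om]

/-- `τ(X_j²) = 1 + σ_j²` -/
theorem tau_Xt_sq (y : Fin n → G) (hy : ∀ j, y j * y j = 1) (σ : Fin n → ℝ) (j : Fin n) :
    tau (Xt y σ j * Xt y σ j) = ((1 + σ j ^ 2 : ℝ) : ℂ) := by
  classical
  have h1 := tau_star_mul_self (Xt y σ j)
  rw [(isSelfAdjoint_Xt y hy σ j).star_eq] at h1
  rw [h1, B7a_Xt_Om, @norm_add_sq ℂ, inner_smul_right, inner_dl_dl, norm_smul, norm_dl, norm_dl,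
    if_neg (by simp)]
  simp

end

/-- the unitary `v = b1 b2` in the group -/
def vv (k M : ℕ) : GG k M := yy k M (Fin.natAdd k 0) * yy k M (Fin.natAdd k 1)

theorem B7a_commute (k M : ℕ) (i : Fin k) (j : ℕ) :
    Commute (vv k M ^ j) (yy k M (Fin.castAdd 2 i)) := by
  have h0 : Commute (yy k M (Fin.natAdd k 0)) (yy k M (Fin.castAdd 2 i)) := (yy_comm k M i 0).symm
  have h1 : Commute (yy k M (Fin.natAdd k 1)) (yy k M (Fin.castAdd 2 i)) := (yy_comm k M i 1).symm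
  exact (h0.mul_left h1).pow_left j

/-- `a`-letters are fixed by conjugation with `v` -/
theorem vv_conj (k M : ℕ) (i : Fin k) (j : ℕ) :
    vv k M ^ j * yy k M (Fin.castAdd 2 i) * (vv k M ^ j)⁻¹ = yy k M (Fin.castAdd 2 i) := by
  rw [(B7a_commute k M i j).eq, mul_inv_cancel_right]

theorem B7a_pow_inj (k M : ℕ) {j l : ℕ} (hj : j < M) (hl : l < M)
    (h : vv k M ^ (j + 1) = vv k M ^ (l + 1)) : j = l := by
  have ho : orderOf (vv k M) = M := by
    apply Nat.dvd_antisymm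
    · rw [orderOf_dvd_iff_pow_eq_one]
      exact (yy_pow_eq_one k M M).2 dvd_rfl
    · exact (yy_pow_eq_one k M _).1 (pow_orderOf_eq_one (vv k M))
  rw [pow_succ, pow_succ] at h
  have h2 := mul_right_cancel h
  refine pow_injOn_Iio_orderOf ?_ ?_ h2
  · rw [ho]; exact hj
  · rw [ho]; exact hl

/-- the basis vectors -/
noncomputable def B7a_e (k M : ℕ) (i : Fin k) (j : ℕ) : HH (GG k M) (II (k + 2)) :=
  dl (T.cons (vv k M ^ j) (Fin.castAdd 2 i, false) (T.base ((vv k M ^ j)⁻¹)))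

theorem B7a_inner (k M : ℕ) (i : Fin k) {j l : ℕ} (hj : j < M) (hl : l < M) :
    ⟪B7a_e k M i (j + 1), B7a_e k M i (l + 1)⟫_ℂ = if j = l then 1 else 0 := by
  classical
  unfold B7a_e
  rw [inner_dl_dl]
  by_cases h : j = l
  · subst h; simp
  · rw [if_neg h, if_neg]
    intro h2
    rw [T.cons.injEq] at h2
    exact h (B7a_pow_inj k M hj hl h2.1)

theorem B7a_term (k M : ℕ) (σ : Fin (k + 2) → ℝ) (i : Fin k) (j : ℕ) :
    (lamA (vv k M ^ j) * Xt (yy k M) σ (Fin.castAdd 2 i) * lamA ((vv k M ^ j)⁻¹)).1 Om =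
      dl (T.base (yy k M (Fin.castAdd 2 i))) +
        ((σ (Fin.castAdd 2 i) : ℝ) : ℂ) • B7a_e k M i j := by
  have h1 : (lamA (vv k M ^ j) * Xt (yy k M) σ (Fin.castAdd 2 i) * lamA ((vv k M ^ j)⁻¹)).1 Om =
      lam (vv k M ^ j) (lam (yy k M (Fin.castAdd 2 i)) (lam ((vv k M ^ j)⁻¹) Om) +
        ((σ (Fin.castAdd 2 i) : ℝ) : ℂ) • Sop (Fin.castAdd 2 i, false) (lam ((vv k M ^ j)⁻¹) Om)) := rfl
  have h2 : Sop (Fin.castAdd 2 i, false) (lam ((vv k M ^ j)⁻¹) (Om : HH (GG k M) (II (k + 2)))) =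
      dl (T.cons 1 (Fin.castAdd 2 i, false) (T.base ((vv k M ^ j)⁻¹))) := by
    show cre (Fin.castAdd 2 i, false) (lam ((vv k M ^ j)⁻¹) Om) +
      star (cre (Fin.castAdd 2 i, false)) (lam ((vv k M ^ j)⁻¹) Om) = _
    rw [star_cre_lam_Om, add_zero, lam_Om, cre_dl]
    rfl
  rw [h1, h2, map_add, map_smul, lam_dl, lam_Om, lam_dl, lam_dl]
  congr 1
  · simp only [T.lmul]
    rw [← mul_assoc, vv_conj]
  · unfold B7a_e
    simp only [T.lmul, mul_one]

/-- the zero-noise average: `‖(X_a - L₀ X_a) Ω‖ ≤ |σ_a|` -/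
theorem norm_X_sub_L0 (k M : ℕ) (hM : 2 ≤ M) (σ : Fin (k + 2) → ℝ) (i : Fin k) :
    ‖(Xt (yy k M) σ (Fin.castAdd 2 i) - ((M : ℂ)⁻¹) • ∑ j ∈ Finset.range M,
      lamA (vv k M ^ (j + 1)) * Xt (yy k M) σ (Fin.castAdd 2 i) *
        lamA ((vv k M ^ (j + 1))⁻¹)).1 Om‖ ≤ |σ (Fin.castAdd 2 i)| := by
  classical
  have hM0 : (M : ℂ) ≠ 0 := by
    have : M ≠ 0 := by omega
    exact_mod_cast this
  -- evaluation on the vacuum is linear
  let ev : AT (GG k M) (II (k + 2)) →ₗ[ℂ] HH (GG k M) (II (k + 2)) :=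
    { toFun := fun x => x.1 Om
      map_add' := fun x y => rfl
      map_smul' := fun c x => rfl }
  have hev : ∀ x : AT (GG k M) (II (k + 2)), x.1 Om = ev x := fun x => rfl
  set s : ℂ := ((σ (Fin.castAdd 2 i) : ℝ) : ℂ) with hs
  set u : HH (GG k M) (II (k + 2)) := dl (T.base (yy k M (Fin.castAdd 2 i))) with hu
  have h1 : (Xt (yy k M) σ (Fin.castAdd 2 i) - ((M : ℂ)⁻¹) • ∑ j ∈ Finset.range M,
      lamA (vv k M ^ (j + 1)) * Xt (yy k M) σ (Fin.castAdd 2 i) *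
        lamA ((vv k M ^ (j + 1))⁻¹)).1 Om =
      s • (B7a_e k M i M - (M : ℂ)⁻¹ • ∑ j ∈ Finset.range M, B7a_e k M i (j + 1)) := by
    rw [hev, map_sub, map_smul, map_sum]
    have h2 : ∀ j ∈ Finset.range M, ev (lamA (vv k M ^ (j + 1)) * Xt (yy k M) σ (Fin.castAdd 2 i) *
        lamA ((vv k M ^ (j + 1))⁻¹)) = u + s • B7a_e k M i (j + 1) := by
      intro j _
      rw [← hev, B7a_term]
    rw [Finset.sum_congr rfl h2, Finset.sum_add_distrib, Finset.sum_const, Finset.card_range,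
      ← Finset.smul_sum, ← hev, B7a_Xt_Om, ← hu, ← hs]
    have h3 : B7a_e k M i M = dl (T.cons 1 (Fin.castAdd 2 i, false) (T.base 1)) := by
      unfold B7a_e
      rw [show vv k M ^ M = 1 from (yy_pow_eq_one k M M).2 dvd_rfl, inv_one]
    rw [← h3, ← Nat.cast_smul_eq_nsmul ℂ, smul_add, smul_smul, inv_mul_cancel₀ hM0, one_smul,
      smul_sub, smul_comm s]
    abel
  rw [h1, norm_smul]
  have h4 : ‖s‖ = |σ (Fin.castAdd 2 i)| := by rw [hs, Complex.norm_real, Real.norm_eq_abs]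
  rw [h4]
  have h5 : ‖B7a_e k M i M - (M : ℂ)⁻¹ • ∑ j ∈ Finset.range M, B7a_e k M i (j + 1)‖ ^ 2 ≤ 1 := by
    have hn : ‖B7a_e k M i M‖ = 1 := norm_dl _
    have hi : ⟪B7a_e k M i M, ∑ j ∈ Finset.range M, B7a_e k M i (j + 1)⟫_ℂ = 1 := by
      rw [inner_sum]
      obtain ⟨M', rfl⟩ : ∃ M', M = M' + 1 := ⟨M - 1, by omega⟩
      rw [Finset.sum_congr rfl (fun j hj => B7a_inner k (M' + 1) i (j := M') (l := j) (by omega)
        (Finset.mem_range.1 hj))]
      simp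
    have hw : ‖∑ j ∈ Finset.range M, B7a_e k M i (j + 1)‖ ^ 2 = M := by
      have h6 : ⟪∑ j ∈ Finset.range M, B7a_e k M i (j + 1),
          ∑ j ∈ Finset.range M, B7a_e k M i (j + 1)⟫_ℂ = (M : ℂ) := by
        rw [sum_inner]
        have h7 : ∀ j ∈ Finset.range M, ⟪B7a_e k M i (j + 1),
            ∑ j ∈ Finset.range M, B7a_e k M i (j + 1)⟫_ℂ = 1 := by
          intro j hj
          rw [inner_sum, Finset.sum_congr rfl (fun l hl => B7a_inner k M i
            (Finset.mem_range.1 hj) (Finset.mem_range.1 hl))]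
          simp [Finset.mem_range.1 hj]
        rw [Finset.sum_congr rfl h7]
        simp
      have h7 := @norm_sq_eq_re_inner ℂ (HH (GG k M) (II (k + 2))) _ _ _
        (∑ j ∈ Finset.range M, B7a_e k M i (j + 1))
      rw [h7, h6]
      exact Complex.natCast_re M
    rw [@norm_sub_sq ℂ, hn, inner_smul_right, hi, norm_smul, mul_pow, hw, mul_one]
    have h8 : RCLike.re ((M : ℂ)⁻¹) = (M : ℝ)⁻¹ := by
      rw [← Complex.ofReal_natCast, ← Complex.ofReal_inv]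
      exact Complex.ofReal_re _
    have h9 : ‖(M : ℂ)⁻¹‖ = (M : ℝ)⁻¹ := by simp
    rw [h8, h9]
    have hMr : (0 : ℝ) < M := by
      have : 0 < M := by omega
      exact_mod_cast this
    have h10 : ((M : ℝ)⁻¹) ^ 2 * M = (M : ℝ)⁻¹ := by field_simp
    rw [h10]
    have : 0 < (M : ℝ)⁻¹ := by positivity
    linarith
  have h6 : ‖B7a_e k M i M - (M : ℂ)⁻¹ • ∑ j ∈ Finset.range M, B7a_e k M i (j + 1)‖ ≤ 1 := by
    have := norm_nonneg (B7a_e k M i M - (M : ℂ)⁻¹ • ∑ j ∈ Finset.range M, B7a_e k M i (j + 1))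
    nlinarith
  calc |σ (Fin.castAdd 2 i)| * _ ≤ |σ (Fin.castAdd 2 i)| * 1 :=
        mul_le_mul_of_nonneg_left h6 (abs_nonneg _)
    _ = _ := mul_one _

/-- `τ(v^{-(l+1)} v^{j+1}) = [j = l]` for `j, l < M` -/
theorem tau_vv (k M : ℕ) (hM : 2 ≤ M) (j l : ℕ) (hj : j < M) (hl : l < M) :
    tau (lamA ((vv k M ^ (l + 1))⁻¹) * lamA (vv k M ^ (j + 1)) : AT (GG k M) (II (k + 2))) =
      if j = l then 1 else 0 := by
  classical
  rw [← lamA_mul, tau_lamA]
  by_cases h : j = l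
  · subst h; simp
  · rw [if_neg h, if_neg]
    intro h2
    exact h (B7a_pow_inj k M hl hj (inv_mul_eq_one.1 h2)).symm

end Crest.Agent.R89
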