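import Crest.Agent.R89.B3
import Crest.Agent.R89.B4
/-!
# Row 89, B8b: volume for one `a`-letter

PIECE B8B. `vol_almost_fixed` with `ι = Fin d × Fin d` (`card = d²`), `γ = 3/m0⁴`, `θ = 1/m0`,
`c1 = 2d`, `c3 = d (1/2+73/m0⁴)²`. Then `γ/θ² = 3/m0²`,
`√c3 + θ√c1 = √d (1/2 + 73/m0⁴ + √2/m0) ≤ √d (1/2 + 2/m0)`, and
`1/2 log(2πe (1/2+2/m0)² d/d²) ≤ 1/2 log(2πe/(4d)) + 4/m0` (`log (1+x) ≤ x`),
`c1/(2 (3/m0²) (·)²) ≤ 4 m0²/3`, `log (4 m0²/3) ≤ 2 m0`, total `≤ 1/2 log(2πe/(4d)) + 10/m0`.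
The monotonicity hypothesis `2 (γ/θ²) (·)² ≤ c1`: `6/m0² · d · 0.49 ≤ 2 d`.
-/

set_option autoImplicit false
open Crest.OpAlg MeasureTheory
open scoped ENNReal

namespace Crest.Agent.R89

theorem vol_letter (m0 d : ℕ) (hm : 10 ≤ m0) (hd : 0 < d)
    (L : EuclideanSpace ℝ (Fin d × Fin d) →ₗ[ℝ] EuclideanSpace ℝ (Fin d × Fin d))
    (hL : ∑ p, ‖L (EuclideanSpace.single p (1 : ℝ))‖ ^ 2 ≤ 3 / (m0 : ℝ) ^ 4 * (d : ℝ) ^ 2) :
    volume {x : EuclideanSpace ℝ (Fin d × Fin d) | ‖x‖ ^ 2 ≤ 2 * (d : ℝ) ∧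
        ‖x - L x‖ ^ 2 ≤ (d : ℝ) * (1 / 2 + 73 / (m0 : ℝ) ^ 4) ^ 2} ≤
      ENNReal.ofReal (Real.exp ((d : ℝ) ^ 2 *
        (1 / 2 * Real.log (2 * Real.pi * Real.exp 1 / (4 * d)) + 10 / m0))) := by
  have hmR : (10 : ℝ) ≤ (m0 : ℝ) := by exact_mod_cast hm
  have hm0 : (0 : ℝ) < (m0 : ℝ) := by linarith
  have hdR : (0 : ℝ) < (d : ℝ) := by exact_mod_cast hd
  have : Nonempty (Fin d × Fin d) := ⟨(⟨0, hd⟩, ⟨0, hd⟩)⟩
  set m : ℝ := (m0 : ℝ) with hmdef
  set D : ℝ := (d : ℝ) with hDdef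
  have hcard : (Fintype.card (Fin d × Fin d) : ℝ) = D ^ 2 := by
    rw [Fintype.card_prod, Fintype.card_fin]; push_cast; ring
  -- the scale
  obtain ⟨s, hs⟩ : ∃ s : ℝ, s = 1 / 2 + 73 / m ^ 4 + Real.sqrt 2 / m := ⟨_, rfl⟩
  have hq1 : Real.sqrt 2 ≤ 1.4143 := by
    rw [Real.sqrt_le_left (by norm_num)]; norm_num
  have hq0 : 0 ≤ Real.sqrt 2 := Real.sqrt_nonneg 2
  have hinv : 1 / m ≤ 1 / 10 := one_div_le_one_div_of_le (by norm_num) hmR
  have hinv0 : 0 < 1 / m := by positivity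
  have h4 : 73 / m ^ 4 ≤ 0.073 * (1 / m) := by
    have e : 73 / m ^ 4 = 73 * (1 / m) ^ 3 * (1 / m) := by field_simp
    rw [e]
    have : (1 / m) ^ 3 ≤ (1 / 10) ^ 3 := pow_le_pow_left₀ hinv0.le hinv 3
    have h5 : 73 * (1 / m) ^ 3 ≤ 0.073 := by norm_num at this ⊢; linarith
    exact mul_le_mul_of_nonneg_right h5 hinv0.le
  have h40 : 0 < 73 / m ^ 4 := by positivity
  have hs0 : 1 / 2 ≤ s := by
    rw [hs]
    have : 0 ≤ Real.sqrt 2 / m := by positivity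
    linarith
  have hs1 : s ≤ 1 / 2 + 1.5 * (1 / m) := by
    have e : Real.sqrt 2 / m = Real.sqrt 2 * (1 / m) := by ring
    rw [hs, e]
    nlinarith
  have hspos : 0 < s := by linarith
  have hsle : s ≤ 0.65 := by linarith
  have hsq : Real.sqrt (D * (1 / 2 + 73 / m ^ 4) ^ 2) + 1 / m * Real.sqrt (2 * D) =
      Real.sqrt D * s := by
    rw [Real.sqrt_mul hdR.le, Real.sqrt_sq (by linarith), Real.sqrt_mul (by norm_num), hs]
    ring
  have hsq2 : (Real.sqrt D * s) ^ 2 = D * s ^ 2 := by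
    rw [mul_pow, Real.sq_sqrt hdR.le]
  have hg : 3 / m ^ 4 / (1 / m) ^ 2 = 3 / m ^ 2 := by
    field_simp
  have hm2 : 3 / m ^ 2 ≤ 0.3 * (1 / m) := by
    have e : 3 / m ^ 2 = 3 * (1 / m) * (1 / m) := by field_simp
    rw [e]
    nlinarith
  have hm20 : 0 < 3 / m ^ 2 := by positivity
  have main := vol_almost_fixed L (3 / m ^ 4) (1 / m) (2 * D) (D * (1 / 2 + 73 / m ^ 4) ^ 2)
    (by positivity) (by positivity) (by positivity) (by positivity)
    (by rw [hcard]; exact hL)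
    (by
      rw [hsq, hg, hsq2]
      have h6 : 3 / m ^ 2 ≤ 1 := by linarith
      have h7 : s ^ 2 ≤ 1 := by nlinarith
      have h8 : 3 / m ^ 2 * s ^ 2 ≤ 1 := by
        calc 3 / m ^ 2 * s ^ 2 ≤ 1 * 1 := mul_le_mul h6 h7 (by positivity) (by norm_num)
          _ = 1 := by norm_num
      have h9 := mul_le_mul_of_nonneg_left h8 hdR.le
      nlinarith)
  refine main.trans ?_
  apply ENNReal.ofReal_le_ofReal
  apply Real.exp_le_exp.2
  rw [hcard, hsq, hg, hsq2]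
  apply mul_le_mul_of_nonneg_left _ (by positivity)
  have hpi := Real.pi_pos
  have he := Real.exp_pos 1
  -- first log
  have l1 : Real.log (2 * Real.pi * Real.exp 1 * (D * s ^ 2) / D ^ 2) =
      Real.log (2 * Real.pi * Real.exp 1 / (4 * D)) + 2 * Real.log (2 * s) := by
    have e : 2 * Real.pi * Real.exp 1 * (D * s ^ 2) / D ^ 2 =
        2 * Real.pi * Real.exp 1 / (4 * D) * (2 * s) ^ 2 := by
      field_simp
      ring
    rw [e, Real.log_mul (by positivity) (by positivity), Real.log_pow]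
    norm_num
  have l2 : Real.log (2 * s) ≤ 3 * (1 / m) := by
    have := Real.log_le_sub_one_of_pos (show 0 < 2 * s by positivity)
    linarith
  have l3 : Real.log (2 * D / (2 * (3 / m ^ 2) * (D * s ^ 2))) ≤ 2 * m := by
    have e : 2 * D / (2 * (3 / m ^ 2) * (D * s ^ 2)) = (m / s) ^ 2 / 3 := by
      field_simp
    rw [e]
    have h1 : (m / s) ^ 2 / 3 ≤ m ^ 2 * (4 / 3) := by
      rw [div_pow, div_div, div_le_iff₀ (by positivity)]
      have : (1:ℝ) / 4 ≤ s ^ 2 := by nlinarith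
      have hmm : 0 ≤ m ^ 2 := by positivity
      nlinarith
    calc Real.log ((m / s) ^ 2 / 3) ≤ Real.log (m ^ 2 * (4 / 3)) :=
          Real.log_le_log (by positivity) h1
      _ = 2 * Real.log m + Real.log (4 / 3) := by
          rw [Real.log_mul (by positivity) (by norm_num), Real.log_pow]; norm_num
      _ ≤ 2 * (m - 1) + (4 / 3 - 1) := by
          have a1 := Real.log_le_sub_one_of_pos hm0
          have a2 := Real.log_le_sub_one_of_pos (show (0:ℝ) < 4 / 3 by norm_num)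
          linarith
      _ ≤ 2 * m := by linarith
  have l4 : 3 / m ^ 2 / 2 * Real.log (2 * D / (2 * (3 / m ^ 2) * (D * s ^ 2))) ≤ 3 * (1 / m) := by
    have := mul_le_mul_of_nonneg_left l3 (show 0 ≤ 3 / m ^ 2 / 2 by positivity)
    refine this.trans (le_of_eq ?_)
    field_simp
  rw [l1]
  have e10 : 10 / m = 10 * (1 / m) := by ring
  rw [e10]
  linarith

end Crest.Agent.R89
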