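import Crest.Agent.R89.B8a
import Crest.Agent.R89.B8b
/-!
# Row 89, B8: volume of the microstate set, every `d` and every cutoff `R`

PIECE B8. `m, ε` from `micro_facts`; `vol_fubini` with `B = {‖x‖² ≤ d (1+2/M⁴)}` (closed, `vol_ball`),
`A b1 b2 = {x | ∑_p ‖LV (mV b1 b2) M e_p‖² ≤ 3/m0⁴ d² ∧ ‖x‖² ≤ 2d ∧ ‖x - LV x‖² ≤ d (1/2+73/m0⁴)²}`
(empty if the Hilbert-Schmidt condition fails, else `vol_letter`), `measurableSet_microstates`.
`ofReal (exp a)^2 * ofReal (exp b)^k = ofReal (exp (2a + k b))`.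
-/

set_option autoImplicit false
open Crest.OpAlg MeasureTheory
open scoped ENNReal

namespace Crest.Agent.R89

theorem vol_microstates (k m0 : ℕ) (hm : 10 ≤ m0) :
    ∃ m : ℕ, ∃ ε : ℝ, 0 < ε ∧ ∀ (R : ℝ) (d : ℕ) (_ : 0 < d),
      volume (microstates tau (Xt (yy k (m0 ^ 4)) (sg k (m0 ^ 4))) R m d ε) ≤
        ENNReal.ofReal (Real.exp ((d : ℝ) ^ 2 *
          (Real.log (2 * Real.pi * Real.exp 1 * (1 + 2 / ((m0 : ℝ) ^ 4) ^ 4) / d) +
            k * (1 / 2 * Real.log (2 * Real.pi * Real.exp 1 / (4 * d)) + 10 / m0)))) := by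
  obtain ⟨m, ε, hε, hfacts⟩ := micro_facts k m0 hm
  refine ⟨m, ε, hε, fun R d hd => ?_⟩
  classical
  have hdR : (0 : ℝ) < (d : ℝ) := by exact_mod_cast hd
  have hm0 : (0 : ℝ) < (m0 : ℝ) := by exact_mod_cast (by omega : 0 < m0)
  haveI : Nonempty (Fin d × Fin d) := ⟨(⟨0, hd⟩, ⟨0, hd⟩)⟩
  set c : ℝ := (d : ℝ) * (1 + 2 / ((m0 : ℝ) ^ 4) ^ 4) with hc
  have hcpos : 0 < c := by positivity
  set B : Set (EuclideanSpace ℝ (Fin d × Fin d)) := {x | ‖x‖ ^ 2 ≤ c} with hB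
  have hBm : MeasurableSet B :=
    (isClosed_le (by fun_prop) (by fun_prop)).measurableSet
  set b : ℝ := (d : ℝ) ^ 2 * (1 / 2 * Real.log (2 * Real.pi * Real.exp 1 / (4 * d)) + 10 / m0)
    with hb
  set A : EuclideanSpace ℝ (Fin d × Fin d) → EuclideanSpace ℝ (Fin d × Fin d) →
      Set (EuclideanSpace ℝ (Fin d × Fin d)) := fun b1 b2 =>
    {x | (∑ p, ‖LV (mV (k := k) b1 b2) (m0 ^ 4) (EuclideanSpace.single p (1 : ℝ))‖ ^ 2 ≤
        3 / (m0 : ℝ) ^ 4 * (d : ℝ) ^ 2) ∧ (‖x‖ ^ 2 ≤ 2 * (d : ℝ) ∧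
        ‖x - LV (mV (k := k) b1 b2) (m0 ^ 4) x‖ ^ 2 ≤
          (d : ℝ) * (1 / 2 + 73 / (m0 : ℝ) ^ 4) ^ 2)} with hA
  have hAvol : ∀ b1 ∈ B, ∀ b2 ∈ B, volume (A b1 b2) ≤ ENNReal.ofReal (Real.exp b) := by
    intro b1 _ b2 _
    by_cases h : ∑ p, ‖LV (mV (k := k) b1 b2) (m0 ^ 4) (EuclideanSpace.single p (1 : ℝ))‖ ^ 2 ≤
        3 / (m0 : ℝ) ^ 4 * (d : ℝ) ^ 2
    · refine (measure_mono ?_).trans (vol_letter m0 d hm hd _ h)
      intro x hx
      exact hx.2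
    · have : A b1 b2 = ∅ := by
        ext x
        simp only [hA, Set.mem_setOf_eq, Set.mem_empty_iff_false, iff_false]
        exact fun hx => h hx.1
      rw [this, measure_empty]
      exact bot_le
  have hSB : ∀ x ∈ microstates tau (Xt (yy k (m0 ^ 4)) (sg k (m0 ^ 4))) R m d ε,
      blk x (Fin.natAdd k 0) ∈ B ∧ blk x (Fin.natAdd k 1) ∈ B ∧
      ∀ i : Fin k, blk x (Fin.castAdd 2 i) ∈
        A (blk x (Fin.natAdd k 0)) (blk x (Fin.natAdd k 1)) := by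
    intro x hx
    obtain ⟨h1, h2, h3, h4⟩ := hfacts R d hd x hx
    exact ⟨h1 0, h1 1, fun i => ⟨h4, h2 i, h3 i⟩⟩
  refine (vol_fubini _ (measurableSet_microstates _ _ _ _ _ _) B hBm _ A hAvol hSB).trans ?_
  have hball := vol_ball (ι := Fin d × Fin d) c hcpos
  set a : ℝ := (Fintype.card (Fin d × Fin d) : ℝ) *
    (1 / 2 * Real.log (2 * Real.pi * Real.exp 1 * c / Fintype.card (Fin d × Fin d))) with ha
  have hcard : ((Fintype.card (Fin d × Fin d) : ℕ) : ℝ) = (d : ℝ) ^ 2 := by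
    rw [Fintype.card_prod, Fintype.card_fin]; push_cast; ring
  have ha' : 2 * a = (d : ℝ) ^ 2 *
      Real.log (2 * Real.pi * Real.exp 1 * (1 + 2 / ((m0 : ℝ) ^ 4) ^ 4) / d) := by
    rw [ha, hcard]
    have : 2 * Real.pi * Real.exp 1 * c / (d : ℝ) ^ 2 =
        2 * Real.pi * Real.exp 1 * (1 + 2 / ((m0 : ℝ) ^ 4) ^ 4) / d := by
      rw [hc]; field_simp
    rw [this]; ring
  calc volume B ^ 2 * ENNReal.ofReal (Real.exp b) ^ k
      ≤ ENNReal.ofReal (Real.exp a) ^ 2 * ENNReal.ofReal (Real.exp b) ^ k := by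
        gcongr
    _ = ENNReal.ofReal (Real.exp (2 * a + k * b)) := by
        rw [← ENNReal.ofReal_pow (Real.exp_pos _).le, ← ENNReal.ofReal_pow (Real.exp_pos _).le,
          ← Real.exp_nat_mul, ← Real.exp_nat_mul, ← ENNReal.ofReal_mul (Real.exp_pos _).le,
          ← Real.exp_add]
        push_cast
        ring_nf
    _ = _ := by
        congr 2
        rw [ha', hb]
        ring

end Crest.Agent.R89
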