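import Crest.Agent.R89.B7
import Crest.Agent.R89.B6b
/-!
# Row 89, B8a: what microstates satisfy

PIECE B8A. `transfer_finset`: `polyEval_transfer` for finitely many polynomials (max of the `m`'s,
`ε = η / (1 + max C)`). `micro_facts`: apply it to `ltr l * ltr l`, `pD k M i`, `pT k j l` (`j, l < M`)
with a small `η = 1/M⁴`-ish, use `norm_sq_herm`, `norm_sub_LV`, `hs_LV`, `tau_Xt_sq`, `tau_pD`, `tau_pT`
(`V = herm b1 * herm b2`, `Vᴴ = herm b2 * herm b1` as both are Hermitian). Numbers, `M = m0⁴ ≥ 10⁴`: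
`1 + σ_b² + η ≤ 1 + 2/M⁴`; `1 + 1/4 + η ≤ 2`; `(1/2+72/M)² + η ≤ (1/2+73/M)²` for `η ≤ 1/M`;
`(d²/M²)[M (1+37/M)² + M² (37/M)²] ≤ (3/M) d²`.
-/

set_option autoImplicit false
open Crest.OpAlg

namespace Crest.Agent.R89

theorem transfer_finset {n : ℕ} (s : Finset (NCPoly n)) (η : ℝ) (hη : 0 < η) :
    ∃ m : ℕ, ∃ ε : ℝ, 0 < ε ∧ ∀ P ∈ s,
    ∀ {A : Type} [Ring A] [Algebra ℂ A] (τ : A →ₗ[ℂ] ℂ) (X : Fin n → A) (R : ℝ) (d : ℕ)
      (a : EuclideanSpace ℝ (Fin n × (Fin d × Fin d))), a ∈ microstates τ X R m d ε →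
      ‖(d : ℂ)⁻¹ * Matrix.trace (polyEval (matrixTuple a) P) - τ (polyEval X P)‖ ≤ η := by
  choose m C hC h using fun P : NCPoly n => polyEval_transfer P
  have hS : 0 ≤ ∑ P ∈ s, C P := Finset.sum_nonneg fun P _ => hC P
  refine ⟨s.sup m, η / (1 + ∑ P ∈ s, C P), by positivity, ?_⟩
  intro P hP A _ _ τ X R d a ha
  refine (h P τ X R (s.sup m) (Finset.le_sup hP) d _ a ha).trans ?_
  have h1 : C P ≤ ∑ P ∈ s, C P := Finset.single_le_sum (fun Q _ => hC Q) hP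
  rw [mul_div_assoc', div_le_iff₀ (by positivity)]
  nlinarith [hC P]

/-- the matrix `V = Z_{b1} Z_{b2}` of a microstate -/
noncomputable def mV {k d : ℕ} (b1 b2 : EuclideanSpace ℝ (Fin d × Fin d)) :
    Matrix (Fin d) (Fin d) ℂ := hermitianOfCoords b1 * hermitianOfCoords b2

private theorem b8a_norm_le {d : ℕ} (hd : 0 < d) (T t : ℂ) (η c : ℝ) (ht : ‖t‖ ≤ c)
    (h : ‖(d : ℂ)⁻¹ * T - t‖ ≤ η) : ‖T‖ ≤ (d : ℝ) * (c + η) := by
  have hd' : (0 : ℝ) < d := by exact_mod_cast hd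
  have h1 : ‖(d : ℂ)⁻¹ * T‖ ≤ c + η := by
    calc ‖(d : ℂ)⁻¹ * T‖ = ‖((d : ℂ)⁻¹ * T - t) + t‖ := by ring_nf
      _ ≤ ‖(d : ℂ)⁻¹ * T - t‖ + ‖t‖ := norm_add_le _ _
      _ ≤ c + η := by linarith
  rw [norm_mul, norm_inv, Complex.norm_natCast] at h1
  rw [inv_mul_le_iff₀ hd'] at h1
  exact h1

private theorem b8a_real {d : ℕ} (hd : 0 < d) (r : ℝ) (hr : 0 ≤ r) (t : ℂ) (η c : ℝ) (ht : ‖t‖ ≤ c)
    (T : ℂ) (hT : (r : ℂ) = T) (h : ‖(d : ℂ)⁻¹ * T - t‖ ≤ η) : r ≤ (d : ℝ) * (c + η) := by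
  have := b8a_norm_le hd T t η c ht h
  rw [← hT, Complex.norm_real, Real.norm_of_nonneg hr] at this
  exact this

theorem micro_facts (k m0 : ℕ) (hm : 10 ≤ m0) :
    ∃ m : ℕ, ∃ ε : ℝ, 0 < ε ∧ ∀ (R : ℝ) (d : ℕ) (_ : 0 < d)
      (a : EuclideanSpace ℝ (Fin (k + 2) × (Fin d × Fin d))),
      a ∈ microstates tau (Xt (yy k (m0 ^ 4)) (sg k (m0 ^ 4))) R m d ε →
      (∀ j : Fin 2, ‖blk a (Fin.natAdd k j)‖ ^ 2 ≤ (d : ℝ) * (1 + 2 / ((m0 : ℝ) ^ 4) ^ 4)) ∧
      (∀ i : Fin k, ‖blk a (Fin.castAdd 2 i)‖ ^ 2 ≤ 2 * (d : ℝ)) ∧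
      (∀ i : Fin k, ‖blk a (Fin.castAdd 2 i) - LV (mV (k := k) (blk a (Fin.natAdd k 0))
          (blk a (Fin.natAdd k 1))) (m0 ^ 4) (blk a (Fin.castAdd 2 i))‖ ^ 2 ≤
          (d : ℝ) * (1 / 2 + 73 / (m0 : ℝ) ^ 4) ^ 2) ∧
      ∑ p, ‖LV (mV (k := k) (blk a (Fin.natAdd k 0)) (blk a (Fin.natAdd k 1))) (m0 ^ 4)
          (EuclideanSpace.single p (1 : ℝ))‖ ^ 2 ≤ 3 / (m0 : ℝ) ^ 4 * (d : ℝ) ^ 2 := by
  classical
  set M : ℕ := m0 ^ 4 with hMdef
  have hM4 : 10000 ≤ M := by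
    calc 10000 = 10 ^ 4 := by norm_num
      _ ≤ m0 ^ 4 := Nat.pow_le_pow_left hm 4
  have hMR : (10000 : ℝ) ≤ (M : ℝ) := by exact_mod_cast hM4
  have hMpos : (0 : ℝ) < (M : ℝ) := by linarith
  have hMc : ((m0 : ℝ) ^ 4) = (M : ℝ) := by rw [hMdef]; push_cast; rfl
  rw [hMc]
  set η : ℝ := 1 / (M : ℝ) ^ 4 with hη
  have hηpos : 0 < η := by positivity
  have hη1 : η ≤ 1 / (M : ℝ) := by
    rw [hη]
    apply one_div_le_one_div_of_le hMpos
    calc (M : ℝ) = (M : ℝ) ^ 1 := (pow_one _).symm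
      _ ≤ (M : ℝ) ^ 4 := pow_le_pow_right₀ (by linarith) (by norm_num)
  have hinv : 1 / (M : ℝ) ≤ 1 / 10000 := one_div_le_one_div_of_le (by norm_num) hMR
  have hinvpos : 0 < 1 / (M : ℝ) := by positivity
  obtain ⟨m, ε, hε, H⟩ := transfer_finset
    ((Finset.univ.image fun l : Fin (k + 2) => (ltr l * ltr l : NCPoly (k + 2))) ∪
      (Finset.univ.image fun i : Fin k => pD k M i) ∪
      ((Finset.range M ×ˢ Finset.range M).image fun p => pT k p.1 p.2)) η hηpos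
  refine ⟨m, ε, hε, ?_⟩
  intro R d hd a ha
  have hd' : (0 : ℝ) < d := by exact_mod_cast hd
  have hsq : ∀ l : Fin (k + 2), ∀ c : ℝ, 1 + sg k M l ^ 2 ≤ c → ‖blk a l‖ ^ 2 ≤ (d : ℝ) * (c + η) := by
    intro l c hc
    have h1 := H (ltr l * ltr l) (by simp) tau (Xt (yy k M) (sg k M)) R d a ha
    have e1 : polyEval (matrixTuple a) (ltr l * ltr l) =
        hermitianOfCoords (blk a l) * hermitianOfCoords (blk a l) := by
      rw [← pEv_eq, map_mul, pEv_ltr]; rfl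
    have e2 : polyEval (Xt (yy k M) (sg k M)) (ltr l * ltr l) =
        Xt (yy k M) (sg k M) l * Xt (yy k M) (sg k M) l := by
      rw [← pEv_eq, map_mul, pEv_ltr]
    rw [e1, e2, tau_Xt_sq _ (yy_mul_self k M)] at h1
    refine b8a_real hd _ (by positivity) _ η c ?_ _ (norm_sq_herm _) h1
    rw [Complex.norm_real, Real.norm_of_nonneg (by positivity)]
    exact hc
  have hVH : (mV (k := k) (blk a (Fin.natAdd k 0)) (blk a (Fin.natAdd k 1))).conjTranspose =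
      matrixTuple a (Fin.natAdd k 1) * matrixTuple a (Fin.natAdd k 0) := by
    unfold mV
    rw [Matrix.conjTranspose_mul, (herm_isHermitian _).eq, (herm_isHermitian _).eq]
    rfl
  have hV : mV (k := k) (blk a (Fin.natAdd k 0)) (blk a (Fin.natAdd k 1)) =
      matrixTuple a (Fin.natAdd k 0) * matrixTuple a (Fin.natAdd k 1) := rfl
  refine ⟨?_, ?_, ?_, ?_⟩
  · intro j
    have h1 := hsq (Fin.natAdd k j) (1 + 1 / (M : ℝ) ^ 4) (by
      rw [sg_natAdd]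
      have : (1 / (M : ℝ) ^ 2) ^ 2 = 1 / (M : ℝ) ^ 4 := by
        rw [div_pow, one_pow, ← pow_mul]
      rw [this])
    refine h1.trans (le_of_eq ?_)
    rw [hη]; ring
  · intro i
    have h1 := hsq (Fin.castAdd 2 i) (5 / 4) (by
      rw [sg_castAdd]; norm_num)
    refine h1.trans ?_
    nlinarith
  · intro i
    have h1 := H (pD k M i) (by simp) tau (Xt (yy k M) (sg k M)) R d a ha
    rw [polyEval_pD (matrixTuple a) i] at h1
    have e := norm_sub_LV (mV (k := k) (blk a (Fin.natAdd k 0)) (blk a (Fin.natAdd k 1))) M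
      (blk a (Fin.castAdd 2 i))
    have e3 : conjAvg (mV (k := k) (blk a (Fin.natAdd k 0)) (blk a (Fin.natAdd k 1))) M
        (hermitianOfCoords (blk a (Fin.castAdd 2 i))) =
        ((M : ℂ)⁻¹) • ∑ j ∈ Finset.range M,
        (matrixTuple a (Fin.natAdd k 0) * matrixTuple a (Fin.natAdd k 1)) ^ (j + 1) *
          matrixTuple a (Fin.castAdd 2 i) *
          (matrixTuple a (Fin.natAdd k 1) * matrixTuple a (Fin.natAdd k 0)) ^ (j + 1) := by
      unfold conjAvg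
      rw [hVH, hV]
      rfl
    refine (b8a_real hd (‖blk a (Fin.castAdd 2 i) - LV (mV (k := k) (blk a (Fin.natAdd k 0))
      (blk a (Fin.natAdd k 1))) M (blk a (Fin.castAdd 2 i))‖ ^ 2) (by positivity) _ η _
      (tau_pD k M (by omega) i) _ (by rw [e, e3]; rfl) h1).trans ?_
    apply mul_le_mul_of_nonneg_left _ hd'.le
    have e4 : (73 : ℝ) / M = 72 / M + 1 / M := by ring
    have e5 : (72 : ℝ) / M = 72 * (1 / M) := by ring
    rw [e4, e5]
    nlinarith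
  · rw [hs_LV]
    have hb : ∀ j ∈ Finset.range M, ∀ l ∈ Finset.range M,
        ‖Matrix.trace (((mV (k := k) (blk a (Fin.natAdd k 0)) (blk a (Fin.natAdd k 1))).conjTranspose) ^ (l + 1) *
          (mV (k := k) (blk a (Fin.natAdd k 0)) (blk a (Fin.natAdd k 1))) ^ (j + 1))‖ ^ 2 ≤
          (d : ℝ) ^ 2 * ((if j = l then 1 + 74 / (M : ℝ) else 0) + (37 / (M : ℝ)) ^ 2) := by
      intro j hj l hl
      have h1 := H (pT k j l) (by
        simp only [Finset.mem_union, Finset.mem_image]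
        right
        exact ⟨(j, l), Finset.mem_product.2 ⟨hj, hl⟩, rfl⟩) tau (Xt (yy k M) (sg k M)) R d a ha
      rw [polyEval_pT (matrixTuple a)] at h1
      have h2 := b8a_norm_le hd _ _ η _ (tau_pT k M (by omega) j l (Finset.mem_range.1 hj)
        (Finset.mem_range.1 hl)) h1
      rw [hVH, hV]
      have h3 : (if j = l then (1 : ℝ) else 0) + 36 / (M : ℝ) + η ≤
          (if j = l then (1 : ℝ) else 0) + 37 / (M : ℝ) := by
        have : (37 : ℝ) / M = 36 / M + 1 / M := by ring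
        rw [this]; linarith
      have h4 := h2.trans (mul_le_mul_of_nonneg_left h3 hd'.le)
      calc _ ≤ ((d : ℝ) * ((if j = l then (1 : ℝ) else 0) + 37 / (M : ℝ))) ^ 2 :=
            pow_le_pow_left₀ (norm_nonneg _) h4 2
        _ = _ := by
          split_ifs <;> ring
    calc ((M : ℝ) ^ 2)⁻¹ * ∑ j ∈ Finset.range M, ∑ l ∈ Finset.range M, _
        ≤ ((M : ℝ) ^ 2)⁻¹ * ∑ j ∈ Finset.range M, ∑ l ∈ Finset.range M,
          (d : ℝ) ^ 2 * ((if j = l then 1 + 74 / (M : ℝ) else 0) + (37 / (M : ℝ)) ^ 2) := by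
          apply mul_le_mul_of_nonneg_left _ (by positivity)
          exact Finset.sum_le_sum fun j hj => Finset.sum_le_sum fun l hl => hb j hj l hl
      _ = ((M : ℝ) ^ 2)⁻¹ * ((d : ℝ) ^ 2 * (M * (1 + 74 / (M : ℝ)) + M * (M * (37 / (M : ℝ)) ^ 2))) := by
          congr 1
          rw [Finset.sum_congr rfl (g := fun j => (d : ℝ) ^ 2 * ((1 + 74 / (M : ℝ)) + M * (37 / (M : ℝ)) ^ 2))]
          · rw [Finset.sum_const, Finset.card_range, nsmul_eq_mul]; ring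
          · intro j hj
            rw [← Finset.mul_sum, Finset.sum_add_distrib, Finset.sum_ite_eq, if_pos hj,
              Finset.sum_const, Finset.card_range, nsmul_eq_mul]
      _ ≤ 3 / (M : ℝ) * (d : ℝ) ^ 2 := by
          have hM0 : (M : ℝ) ≠ 0 := hMpos.ne'
          have e6 : ((M : ℝ) ^ 2)⁻¹ * ((d : ℝ) ^ 2 * (M * (1 + 74 / (M : ℝ)) + M * (M * (37 / (M : ℝ)) ^ 2))) =
              (1 / M * (1 + 1443 * (1 / M))) * (d : ℝ) ^ 2 := by
            field_simp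
            ring
          rw [e6]
          apply mul_le_mul_of_nonneg_right _ (by positivity)
          have e7 : (3 : ℝ) / M = 3 * (1 / M) := by ring
          rw [e7]
          nlinarith

end Crest.Agent.R89
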