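import Crest.Agent.R89.B8
/-!
# Row 89, B9: upper bound for `χ`

PIECE B9. `chi = ⨆ R > 0, ⨅ m ε, limsup …`: for each `R` take `m, ε` of `vol_microstates`; for `d ≥ 1`
`(d²)⁻¹ log vol + (k+2)/2 log d ≤ log(2πe(1+2/M⁴)) + k (1/2 log(2πe/4) + 10/m0)` exactly
(`ENNReal.log (ofReal (exp x)) = x` in `EReal`; `log (c/d) = log c - log d`), so the limsup is at most that
(`Filter.limsup_le_of_le` with an eventually bound).
-/

set_option autoImplicit false
open Crest.OpAlg MeasureTheory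
open scoped ENNReal

namespace Crest.Agent.R89

private theorem log_upper (n d : ℕ) (hd : 0 < d) (x y : ℝ) (V : ℝ≥0∞)
    (hV : V ≤ ENNReal.ofReal (Real.exp ((d : ℝ) ^ 2 * x)))
    (hxy : x + (n : ℝ) / 2 * Real.log d = y) :
    ((((d : ℝ) ^ 2)⁻¹ : ℝ) : EReal) * V.log + (((n : ℝ) / 2 * Real.log d : ℝ) : EReal) ≤
      ((y : ℝ) : EReal) := by
  have hd' : (0 : ℝ) < d := by exact_mod_cast hd
  have hlogV : V.log ≤ (((d : ℝ) ^ 2 * x : ℝ) : EReal) := by
    have h1 := ENNReal.log_monotone hV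
    rwa [ENNReal.log_ofReal_of_pos (Real.exp_pos _), Real.log_exp] at h1
  have hmul : ((((d : ℝ) ^ 2)⁻¹ : ℝ) : EReal) * V.log ≤
      ((((d : ℝ) ^ 2)⁻¹ : ℝ) : EReal) * (((d : ℝ) ^ 2 * x : ℝ) : EReal) := by
    apply mul_le_mul_of_nonneg_left hlogV
    exact_mod_cast (by positivity : (0 : ℝ) ≤ ((d : ℝ) ^ 2)⁻¹)
  refine le_trans (add_le_add_left hmul _) ?_
  rw [← EReal.coe_mul, ← EReal.coe_add, EReal.coe_le_coe_iff, ← hxy]
  apply le_of_eq
  field_simp

theorem chi_upper (k m0 : ℕ) (hm : 10 ≤ m0) :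
    chi tau (Xt (yy k (m0 ^ 4)) (sg k (m0 ^ 4))) ≤
      ((Real.log (2 * Real.pi * Real.exp 1 * (1 + 2 / ((m0 : ℝ) ^ 4) ^ 4)) +
        k * (1 / 2 * Real.log (2 * Real.pi * Real.exp 1 / 4) + 10 / m0) : ℝ) : EReal) := by
  obtain ⟨m, ε, hε, hvol⟩ := vol_microstates k m0 hm
  unfold chi chiCutoff
  refine iSup_le fun R => iSup_le fun _ => ?_
  refine (iInf_le _ m).trans ((iInf_le _ ε).trans ((iInf_le _ hε).trans ?_))
  refine Filter.limsup_le_of_le (h := ?_)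
  filter_upwards [Filter.eventually_gt_atTop 0] with d hd
  refine log_upper (k + 2) d hd _ _ _ (hvol R d hd) ?_
  have hd' : (0 : ℝ) < d := by exact_mod_cast hd
  have hpi := Real.pi_pos
  have he := Real.exp_pos 1
  have hm0 : (0 : ℝ) < m0 := by exact_mod_cast (by omega : 0 < m0)
  have h1 : Real.log (2 * Real.pi * Real.exp 1 * (1 + 2 / ((m0 : ℝ) ^ 4) ^ 4) / d) =
      Real.log (2 * Real.pi * Real.exp 1 * (1 + 2 / ((m0 : ℝ) ^ 4) ^ 4)) - Real.log d := by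
    rw [Real.log_div (by positivity) hd'.ne']
  have h2 : Real.log (2 * Real.pi * Real.exp 1 / (4 * d)) =
      Real.log (2 * Real.pi * Real.exp 1 / 4) - Real.log d := by
    rw [← Real.log_div (by positivity) hd'.ne', div_div]
  rw [h1, h2]
  push_cast
  ring

end Crest.Agent.R89
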