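import Mathlib
/-!
# Row 89, C1: integrability of `n/(1+s) - Φ(s)` on `(0,∞)`

PIECE C1. Upper bound of the integrand: `≤ ∑ v_j/(1+s)²` (from `h2`); lower bound: `≥ ∑ (1/(1+s) - 1/(v_j+s))
= ∑ (v_j - 1)/((1+s)(v_j+s))`, absolute value `≤ ∑ |v_j - 1| / (min 1 v_j + s)²`. So the absolute value is at most
an explicit integrable function (`integrableOn_Ioi_rpow`-type lemmas / `1/(a+s)²` has antiderivative `-1/(a+s)`);
measurable by `hm`.
-/

set_option autoImplicit false
open MeasureTheory
open scoped ENNReal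

namespace Crest.Agent.R89

private theorem c1_integ_inv_sq {a : ℝ} (ha : 0 < a) :
    IntegrableOn (fun s : ℝ => 1 / (a + s) ^ 2) (Set.Ioi 0) := by
  have h := integrableOn_add_rpow_Ioi_of_lt (a := -2) (c := 0) (m := a) (by norm_num) (by linarith)
  refine h.congr_fun ?_ measurableSet_Ioi
  intro s hs
  have hs' : 0 < s := hs
  have h0 : 0 < s + a := by linarith
  show (s + a) ^ (-2 : ℝ) = 1 / (a + s) ^ 2
  rw [Real.rpow_neg h0.le, add_comm a s, one_div]
  norm_num

theorem integ_fisher {n : ℕ} (v : Fin n → ℝ) (hv : ∀ j, 0 < v j) (Φ : ℝ → ℝ≥0∞)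
    (hm : Measurable Φ)
    (h1 : ∀ s : ℝ, 0 < s → Φ s ≤ ENNReal.ofReal (∑ j, 1 / (v j + s)))
    (h2 : ∀ s : ℝ, 0 < s → ENNReal.ofReal ((n : ℝ) / (1 + s) - ∑ j, v j / (1 + s) ^ 2) ≤ Φ s) :
    IntegrableOn (fun s : ℝ => (n : ℝ) / (1 + s) - (Φ s).toReal) (Set.Ioi 0) := by
  have hg : IntegrableOn (fun s : ℝ => ∑ j, (v j * (1 / (1 + s) ^ 2) +
      |v j - 1| * (1 / (min 1 (v j) + s) ^ 2))) (Set.Ioi 0) := by
    refine integrable_finsetSum _ fun j _ => ?_
    exact ((c1_integ_inv_sq one_pos).const_mul (v j)).add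
      ((c1_integ_inv_sq (lt_min one_pos (hv j))).const_mul |v j - 1|)
  refine Integrable.mono' hg ?_ ?_
  · exact ((measurable_const.div (measurable_const.add measurable_id)).sub
      hm.ennreal_toReal).aestronglyMeasurable
  · refine (ae_restrict_iff' measurableSet_Ioi).2 (Filter.Eventually.of_forall fun s hs => ?_)
    have hs' : 0 < s := hs
    have hfin : Φ s ≠ ⊤ := ne_top_of_le_ne_top ENNReal.ofReal_ne_top (h1 s hs')
    have b1 : (Φ s).toReal ≤ ∑ j, 1 / (v j + s) :=
      ENNReal.toReal_le_of_le_ofReal (Finset.sum_nonneg fun j _ => by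
        have := hv j; positivity) (h1 s hs')
    have b2 : (n : ℝ) / (1 + s) - ∑ j, v j / (1 + s) ^ 2 ≤ (Φ s).toReal :=
      (ENNReal.ofReal_le_iff_le_toReal hfin).1 (h2 s hs')
    have hn : (n : ℝ) / (1 + s) = ∑ _j : Fin n, 1 / (1 + s) := by
      rw [Finset.sum_const, Finset.card_univ, Fintype.card_fin, nsmul_eq_mul]; ring
    have t0 : ∀ j, 0 ≤ v j * (1 / (1 + s) ^ 2) := fun j => by have := hv j; positivity
    have t1 : ∀ j, 0 ≤ |v j - 1| * (1 / (min 1 (v j) + s) ^ 2) := fun j => by positivity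
    rw [Real.norm_eq_abs, abs_le]
    constructor
    · have key : ∀ j, -(v j * (1 / (1 + s) ^ 2) + |v j - 1| * (1 / (min 1 (v j) + s) ^ 2)) ≤
          1 / (1 + s) - 1 / (v j + s) := by
        intro j
        have hvj := hv j
        have e : 1 / (1 + s) - 1 / (v j + s) = (v j - 1) * (1 / ((1 + s) * (v j + s))) := by
          field_simp; ring
        have hmin : 0 < min 1 (v j) := lt_min one_pos hvj
        have c1 : (min 1 (v j) + s) ^ 2 ≤ (1 + s) * (v j + s) := by
          have m1 : min 1 (v j) ≤ 1 := min_le_left _ _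
          have m2 : min 1 (v j) ≤ v j := min_le_right _ _
          rw [sq]
          gcongr
        have c2 : 1 / ((1 + s) * (v j + s)) ≤ 1 / (min 1 (v j) + s) ^ 2 :=
          one_div_le_one_div_of_le (by positivity) c1
        have c3 : 0 ≤ 1 / ((1 + s) * (v j + s)) := by positivity
        rw [e]
        have c4 : -(|v j - 1| * (1 / ((1 + s) * (v j + s)))) ≤
            (v j - 1) * (1 / ((1 + s) * (v j + s))) := by
          rw [← neg_mul]
          exact mul_le_mul_of_nonneg_right (neg_abs_le _) c3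
        have c5 : |v j - 1| * (1 / ((1 + s) * (v j + s))) ≤
            |v j - 1| * (1 / (min 1 (v j) + s) ^ 2) :=
          mul_le_mul_of_nonneg_left c2 (abs_nonneg _)
        linarith [t0 j]
      have hsum := Finset.sum_le_sum fun j (_ : j ∈ Finset.univ) => key j
      rw [Finset.sum_neg_distrib, Finset.sum_sub_distrib, ← hn] at hsum
      linarith
    · have key : ∑ j, v j / (1 + s) ^ 2 ≤ ∑ j, (v j * (1 / (1 + s) ^ 2) +
          |v j - 1| * (1 / (min 1 (v j) + s) ^ 2)) := by
        refine Finset.sum_le_sum fun j _ => ?_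
        rw [div_eq_mul_one_div]
        linarith [t1 j]
      linarith

end Crest.Agent.R89
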