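import Mathlib
/-!
# Row 89, C2: lower bound for `∫ (n/(1+s) - Φ(s)) ds`

PIECE C2. Split `Ioi 0 = Ioc 0 t ∪ Ioi t`. On `(0,t]` the integrand is `≥ ∑_j (1/(1+s) - 1/(v_j+s))`, whose integral
is `∑ (log (1+t) - log ((t+v_j)/v_j))` (`integral_one_div`-type / FTC); on `(t,∞)` it is `≥ -c/s⁴`, integral
`-c/(3t³)` (`integral_Ioi_rpow_of_lt`). `setIntegral_mono_on`.
-/

set_option autoImplicit false
open MeasureTheory
open scoped ENNReal

namespace Crest.Agent.R89

private theorem int_inv {a t : ℝ} (ha : 0 < a) (ht : 0 < t) :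
    IntervalIntegrable (fun s : ℝ => 1 / (a + s)) volume 0 t := by
  apply ContinuousOn.intervalIntegrable
  rw [Set.uIcc_of_le ht.le]
  refine ContinuousOn.div continuousOn_const (by fun_prop) fun x hx => ?_
  have := hx.1
  positivity

private theorem integral_inv' {a t : ℝ} (ha : 0 < a) (ht : 0 < t) :
    ∫ s in (0 : ℝ)..t, 1 / (a + s) = Real.log ((t + a) / a) := by
  rw [intervalIntegral.integral_comp_add_left (fun x => 1 / x) a,
    integral_one_div_of_pos (by linarith) (by linarith), add_zero, add_comm a t]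

theorem integral_fisher_ge {n : ℕ} (v : Fin n → ℝ) (hv : ∀ j, 0 < v j) (Φ : ℝ → ℝ≥0∞) (t c : ℝ)
    (ht : 0 < t) (hc : 0 ≤ c)
    (hint : IntegrableOn (fun s : ℝ => (n : ℝ) / (1 + s) - (Φ s).toReal) (Set.Ioi 0))
    (h1 : ∀ s : ℝ, 0 < s → Φ s ≤ ENNReal.ofReal (∑ j, 1 / (v j + s)))
    (h3 : ∀ s : ℝ, t ≤ s → Φ s ≤ ENNReal.ofReal ((n : ℝ) / (1 + s) + c / s ^ 4)) :
    ∑ j, (Real.log (1 + t) - Real.log ((t + v j) / v j)) - c / (3 * t ^ 3) ≤
      ∫ s in Set.Ioi (0 : ℝ), ((n : ℝ) / (1 + s) - (Φ s).toReal) := by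
  have hsplit : ∫ s in Set.Ioi (0 : ℝ), ((n : ℝ) / (1 + s) - (Φ s).toReal) =
      (∫ s in Set.Ioc (0 : ℝ) t, ((n : ℝ) / (1 + s) - (Φ s).toReal)) +
        ∫ s in Set.Ioi t, ((n : ℝ) / (1 + s) - (Φ s).toReal) := by
    rw [← Set.Ioc_union_Ioi_eq_Ioi ht.le]
    refine setIntegral_union ?_ measurableSet_Ioi ?_ ?_
    · rw [Set.disjoint_left]
      intro x hx hx'
      exact absurd hx.2 (not_le.2 hx')
    · exact hint.mono_set Set.Ioc_subset_Ioi_self
    · exact hint.mono_set (Set.Ioi_subset_Ioi ht.le)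
  rw [hsplit]
  -- left part
  have hIj : ∀ j, IntervalIntegrable (fun s : ℝ => 1 / (1 + s) - 1 / (v j + s)) volume 0 t :=
    fun j => (int_inv one_pos ht).sub (int_inv (hv j) ht)
  have hL : ∑ j, (Real.log (1 + t) - Real.log ((t + v j) / v j)) ≤
      ∫ s in Set.Ioc (0 : ℝ) t, ((n : ℝ) / (1 + s) - (Φ s).toReal) := by
    have e1 : ∑ j, (Real.log (1 + t) - Real.log ((t + v j) / v j)) =
        ∫ s in Set.Ioc (0 : ℝ) t, ∑ j : Fin n, (1 / (1 + s) - 1 / (v j + s)) := by
      rw [← intervalIntegral.integral_of_le ht.le,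
        intervalIntegral.integral_finsetSum fun j _ => hIj j]
      refine Finset.sum_congr rfl fun j _ => ?_
      rw [intervalIntegral.integral_sub (int_inv one_pos ht) (int_inv (hv j) ht),
        integral_inv' one_pos ht, integral_inv' (hv j) ht, div_one, add_comm 1 t]
    rw [e1]
    refine setIntegral_mono_on ?_ (hint.mono_set Set.Ioc_subset_Ioi_self) measurableSet_Ioc ?_
    · have := (intervalIntegrable_iff_integrableOn_Ioc_of_le ht.le).1
        (IntervalIntegrable.sum (Finset.univ : Finset (Fin n)) (fun j _ => hIj j))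
      refine this.congr_fun (fun x _ => ?_) measurableSet_Ioc
      simp
    · intro s hs
      have hs0 : 0 < s := hs.1
      have h2 : (Φ s).toReal ≤ ∑ j, 1 / (v j + s) := by
        refine ENNReal.toReal_le_of_le_ofReal (Finset.sum_nonneg fun j _ => ?_) (h1 s hs0)
        have := hv j
        positivity
      rw [Finset.sum_sub_distrib, Finset.sum_const, Finset.card_univ, Fintype.card_fin,
        nsmul_eq_mul, mul_one_div]
      linarith
  have hR : -(c / (3 * t ^ 3)) ≤ ∫ s in Set.Ioi t, ((n : ℝ) / (1 + s) - (Φ s).toReal) := by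
    have hpow : ∀ s : ℝ, 0 < s → s ^ (-4 : ℝ) = 1 / s ^ 4 := by
      intro s hs
      rw [Real.rpow_neg hs.le, one_div]
      congr 1
      exact_mod_cast Real.rpow_natCast s 4
    have e1 : -(c / (3 * t ^ 3)) = ∫ s in Set.Ioi t, (-c) * s ^ (-4 : ℝ) := by
      rw [integral_const_mul, integral_Ioi_rpow_of_lt (by norm_num) ht]
      have : t ^ ((-4 : ℝ) + 1) = 1 / t ^ 3 := by
        rw [show (-4 : ℝ) + 1 = -3 by norm_num, Real.rpow_neg ht.le, one_div]
        congr 1
        exact_mod_cast Real.rpow_natCast t 3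
      rw [this]
      field_simp
      norm_num
    rw [e1]
    refine setIntegral_mono_on ?_ (hint.mono_set (Set.Ioi_subset_Ioi ht.le)) measurableSet_Ioi ?_
    · exact (integrableOn_Ioi_rpow_of_lt (by norm_num) ht).const_mul (-c)
    · intro s hs
      have hs0 : 0 < s := ht.trans hs
      have h2 : (Φ s).toReal ≤ (n : ℝ) / (1 + s) + c / s ^ 4 := by
        refine ENNReal.toReal_le_of_le_ofReal (by positivity) (h3 s (le_of_lt hs))
      rw [hpow s hs0]
      have : -c * (1 / s ^ 4) = -(c / s ^ 4) := by ring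
      rw [this]
      linarith
  linarith

end Crest.Agent.R89
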