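import Crest.Agent.R89.MD
/-! # Row 89, Fisher part (owner helper33): definitions

`Z_j = X_j + √s S_j = y_j + σ_j S_(j,false) + √s S_(j,true)`, noise variance `cv j = σ_j² + s`.
`zw Q` = product of the `Z`'s over the word `Q`; `rh j` = right creation of the combined noise,
`eps (j :: w) = rh j (eps w)`; `TT w Q` = iterated difference quotient
`TT [] Q = τ(Z_Q)`, `TT (j::w) Q = ∑_{Q = Q1 j Q2} TT w Q1 τ(Z_{Q2})`; `cc x w` the cumulant
functional `cc x [] = [x=1]`, `cc x (j::W) = cc (y_j x) W - ∑_{W = v++w} cc y_j v * cc x w`. -/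
set_option autoImplicit false
open scoped InnerProductSpace
namespace Crest.Agent.R89
open Crest.OpAlg

variable {G : Type} [Group G] {n : ℕ}

/-- variance of the combined noise on letter `j`. -/
noncomputable def cv (σ : Fin n → ℝ) (s : ℝ) (j : Fin n) : ℝ := σ j ^ 2 + s

/-- product of the variances along a word. -/
noncomputable def cw (σ : Fin n → ℝ) (s : ℝ) (w : List (Fin n)) : ℝ := (w.map (cv σ s)).prod

/-- the heat tuple evaluated on a word. -/
noncomputable def zw (y : Fin n → G) (σ : Fin n → ℝ) (s : ℝ) (w : List (Fin n)) : AT G (II n) :=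
  (w.map (heatTuple (Xt y σ) St s)).prod

/-- the vector `Z_Q Ω`. -/
noncomputable def zv (y : Fin n → G) (σ : Fin n → ℝ) (s : ℝ) (w : List (Fin n)) : HH G (II n) :=
  ((zw y σ s w : AT G (II n)) : HH G (II n) →L[ℂ] HH G (II n)) Om

/-- `τ(Z_Q)`. -/
noncomputable def tz (y : Fin n → G) (σ : Fin n → ℝ) (s : ℝ) (w : List (Fin n)) : ℂ :=
  tau (zw y σ s w)

/-- right creation of the combined noise (unnormalised). -/
noncomputable def rh (G : Type) [Group G] (σ : Fin n → ℝ) (s : ℝ) (j : Fin n) :
    HH G (II n) →L[ℂ] HH G (II n) :=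
  ((σ j : ℝ) : ℂ) • rcre (j, false) + ((Real.sqrt s : ℝ) : ℂ) • rcre (j, true)

/-- the vectors dual to the iterated difference quotients. -/
noncomputable def eps (G : Type) [Group G] (σ : Fin n → ℝ) (s : ℝ) :
    List (Fin n) → HH G (II n)
  | [] => Om
  | j :: w => rh G σ s j (eps G σ s w)

/-- iterated difference quotients. -/
noncomputable def TT (y : Fin n → G) (σ : Fin n → ℝ) (s : ℝ) :
    List (Fin n) → List (Fin n) → ℂ
  | [], Q => tz y σ s Q
  | j :: w, Q => ∑ k ∈ Finset.range Q.length,
      if Q[k]? = some j then TT y σ s w (Q.take k) * tz y σ s (Q.drop (k + 1)) else 0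

open Classical in
/-- cumulant functional (integer valued). -/
noncomputable def cc (y : Fin n → G) (x : G) : List (Fin n) → ℤ
  | [] => if x = 1 then 1 else 0
  | j :: W => cc y (y j * x) W -
      ∑ k ∈ Finset.range (W.length + 1), cc y (y j) (W.take k) * cc y x (W.drop k)
termination_by W => W.length
decreasing_by
  all_goals simp_wf


/-- sum over all words of length `l`. -/
noncomputable def sumW {M : Type*} [AddCommMonoid M] (n l : ℕ) (f : List (Fin n) → M) : M :=
  ∑ w : Fin l → Fin n, f (List.ofFn w)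

end Crest.Agent.R89
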