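import Crest.Agent.R89.DA
/-! Row 89, piece DB (owner helper33): annihilation formulas for the heat tuple.
`heatTuple (Xt y σ) St s j` acts as `lam (y j) + σ_j Sop (j,false) + √s Sop (j,true)`;
`star (rh j) = σ_j star (rcre (j,false)) + √s star (rcre (j,true))` commutes with `lam`, and
`star (rcre a) (Sop b ξ) = Sop b (star (rcre a) ξ) + δ_ab ⟨Ω,ξ⟩Ω` (MB2), so
`star (rh j) (Z_k ξ) = Z_k (star (rh j) ξ) + δ_jk (σ_j² + s) ⟨Ω,ξ⟩ Ω` and induction on the word. -/
set_option autoImplicit false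
open scoped InnerProductSpace
namespace Crest.Agent.R89
open Crest.OpAlg

variable {G : Type} [Group G] {n : ℕ}

namespace DBaux

theorem sqrt_mul_c (s : ℝ) (hs : 0 ≤ s) :
    ((Real.sqrt s : ℝ) : ℂ) * ((Real.sqrt s : ℝ) : ℂ) = ((s : ℝ) : ℂ) := by
  rw [← Complex.ofReal_mul, Real.mul_self_sqrt hs]

theorem cv_c (σ : Fin n → ℝ) (s : ℝ) (hs : 0 ≤ s) (j : Fin n) :
    ((cv σ s j : ℝ) : ℂ) = ((σ j : ℝ) : ℂ) * ((σ j : ℝ) : ℂ) +
      ((Real.sqrt s : ℝ) : ℂ) * ((Real.sqrt s : ℝ) : ℂ) := by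
  rw [sqrt_mul_c s hs]
  unfold cv
  push_cast
  ring

theorem heat_apply (y : Fin n → G) (σ : Fin n → ℝ) (s : ℝ) (j : Fin n) (ξ : HH G (II n)) :
    ((heatTuple (Xt y σ) St s j : AT G (II n)) : HH G (II n) →L[ℂ] HH G (II n)) ξ =
      lam (y j) ξ + ((σ j : ℝ) : ℂ) • Sop (j, false) ξ +
        ((Real.sqrt s : ℝ) : ℂ) • Sop (j, true) ξ := rfl

theorem star_rh_apply (σ : Fin n → ℝ) (s : ℝ) (j : Fin n) (ξ : HH G (II n)) :
    star (rh G σ s j) ξ = ((σ j : ℝ) : ℂ) • star (rcre (j, false)) ξ +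
      ((Real.sqrt s : ℝ) : ℂ) • star (rcre (j, true)) ξ := by
  unfold rh
  rw [star_add, star_smul, star_smul]
  rw [show star ((σ j : ℝ) : ℂ) = ((σ j : ℝ) : ℂ) from Complex.conj_ofReal _,
    show star ((Real.sqrt s : ℝ) : ℂ) = ((Real.sqrt s : ℝ) : ℂ) from Complex.conj_ofReal _]
  rfl

theorem rh_apply (σ : Fin n → ℝ) (s : ℝ) (j : Fin n) (ξ : HH G (II n)) :
    rh G σ s j ξ = ((σ j : ℝ) : ℂ) • rcre (j, false) ξ +
      ((Real.sqrt s : ℝ) : ℂ) • rcre (j, true) ξ := rfl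

theorem star_rcre_Sop_ff (i j : Fin n) (b c : Bool) (ξ : HH G (II n)) :
    star (rcre (j, b)) (Sop (i, c) ξ) = Sop (i, c) (star (rcre (j, b)) ξ) +
      if i = j ∧ c = b then ⟪(Om : HH G (II n)), ξ⟫_ℂ • (Om : HH G (II n)) else 0 := by
  classical
  rw [star_rcre_Sop]
  congr 1
  by_cases h : i = j ∧ c = b
  · rw [if_pos h, if_pos (by rw [h.1, h.2])]
  · rw [if_neg h, if_neg (fun h' => h (by simpa using h'))]

theorem star_rcre_rcre_ff (i j : Fin n) (b c : Bool) (ξ : HH G (II n)) :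
    star (rcre (i, b)) (rcre (j, c) ξ) = if i = j ∧ b = c then ξ else 0 := by
  classical
  rw [star_rcre_rcre]
  by_cases h : i = j ∧ b = c
  · rw [if_pos h, if_pos (by rw [h.1, h.2])]
  · rw [if_neg h, if_neg (fun h' => h (by simpa using h'))]

theorem star_rh_heat (y : Fin n → G) (σ : Fin n → ℝ) (s : ℝ) (hs : 0 ≤ s) (j k : Fin n)
    (ξ : HH G (II n)) :
    star (rh G σ s j) (((heatTuple (Xt y σ) St s k : AT G (II n)) :
      HH G (II n) →L[ℂ] HH G (II n)) ξ) =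
    ((heatTuple (Xt y σ) St s k : AT G (II n)) : HH G (II n) →L[ℂ] HH G (II n))
      (star (rh G σ s j) ξ) +
      if k = j then ((cv σ s j : ℝ) : ℂ) • ⟪(Om : HH G (II n)), ξ⟫_ℂ • (Om : HH G (II n)) else 0 := by
  rw [heat_apply, heat_apply, star_rh_apply, star_rh_apply, cv_c σ s hs]
  simp only [map_add, map_smul, star_rcre_lam, star_rcre_Sop_ff]
  by_cases h : k = j
  · subst h
    simp only [if_true, Bool.false_eq_true, Bool.true_eq_false, and_false, and_true,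
      if_false, add_zero]
    module
  · simp only [h, false_and, if_false, add_zero]
    module

end DBaux

theorem heat_eq (y : Fin n → G) (σ : Fin n → ℝ) (s : ℝ) (j : Fin n) :
    heatTuple (Xt y σ) St s j = lamA (y j) + ((σ j : ℝ) : ℂ) • sA (j, false) +
      ((Real.sqrt s : ℝ) : ℂ) • sA (j, true) := by
  unfold heatTuple Xt St
  rfl

theorem isSelfAdjoint_heat (y : Fin n → G) (hy : ∀ j, y j * y j = 1) (σ : Fin n → ℝ) (s : ℝ)
    (j : Fin n) : IsSelfAdjoint (heatTuple (Xt y σ) St s j) := by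
  unfold heatTuple
  refine IsSelfAdjoint.add (isSelfAdjoint_Xt y hy σ j) ?_
  have h1 : IsSelfAdjoint (St j : AT G (II n)) := isSelfAdjoint_sA _
  have h2 : IsSelfAdjoint ((Real.sqrt s : ℝ) : ℂ) := Complex.conj_ofReal _
  exact h2.smul h1

theorem zv_nil (y : Fin n → G) (σ : Fin n → ℝ) (s : ℝ) : zv y σ s [] = Om := by
  unfold zv zw
  simp

theorem zv_cons (y : Fin n → G) (σ : Fin n → ℝ) (s : ℝ) (j : Fin n) (w : List (Fin n)) :
    zv y σ s (j :: w) = ((heatTuple (Xt y σ) St s j : AT G (II n)) :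
      HH G (II n) →L[ℂ] HH G (II n)) (zv y σ s w) := by
  unfold zv zw
  rw [List.map_cons, List.prod_cons]
  rfl

theorem star_rh_Om (σ : Fin n → ℝ) (s : ℝ) (j : Fin n) :
    star (rh G σ s j) (Om : HH G (II n)) = 0 := by
  rw [DBaux.star_rh_apply, star_rcre_Om, star_rcre_Om, smul_zero, smul_zero, add_zero]

theorem star_rh_lam (σ : Fin n → ℝ) (s : ℝ) (j : Fin n) (x : G) (ξ : HH G (II n)) :
    star (rh G σ s j) (lam x ξ) = lam x (star (rh G σ s j) ξ) := by
  rw [DBaux.star_rh_apply, DBaux.star_rh_apply, star_rcre_lam, star_rcre_lam, map_add, map_smul,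
    map_smul]

theorem star_rh_rh (σ : Fin n → ℝ) (s : ℝ) (hs : 0 ≤ s) (i j : Fin n) (ξ : HH G (II n)) :
    star (rh G σ s i) (rh G σ s j ξ) = if i = j then ((cv σ s j : ℝ) : ℂ) • ξ else 0 := by
  rw [DBaux.star_rh_apply, DBaux.rh_apply, DBaux.cv_c σ s hs]
  simp only [map_add, map_smul, DBaux.star_rcre_rcre_ff]
  by_cases h : i = j
  · subst h
    simp [add_smul, mul_smul]
  · simp [h]

/-- `r_j^* Z_Q Ω = (σ_j²+s) ∑_{Q = Q1 j Q2} τ(Z_{Q2}) Z_{Q1} Ω`. -/
theorem star_rh_zv (y : Fin n → G) (σ : Fin n → ℝ) (s : ℝ) (hs : 0 ≤ s) (j : Fin n)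
    (Q : List (Fin n)) :
    star (rh G σ s j) (zv y σ s Q) = ((cv σ s j : ℝ) : ℂ) •
      ∑ k ∈ Finset.range Q.length, if Q[k]? = some j then
        tz y σ s (Q.drop (k + 1)) • zv y σ s (Q.take k) else 0 := by
  induction Q with
  | nil => simp [zv_nil, star_rh_Om]
  | cons k Q ih =>
    rw [zv_cons, DBaux.star_rh_heat y σ s hs, ih, List.length_cons, Finset.sum_range_succ',
      map_smul, map_sum, smul_add, Finset.smul_sum, Finset.smul_sum]
    congr 1
    · refine Finset.sum_congr rfl fun m _ => ?_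
      by_cases h : Q[m]? = some j
      · rw [if_pos h, if_pos (by simpa using h), List.take_succ_cons, zv_cons, map_smul]
        simp only [List.drop_succ_cons]
      · rw [if_neg h, if_neg (by simpa using h), map_zero]
    · by_cases h : k = j
      · subst h
        have h0 : ((cv σ s k : ℝ) : ℂ) • ⟪(Om : HH G (II n)), zv y σ s Q⟫_ℂ • (Om : HH G (II n)) =
            ((cv σ s k : ℝ) : ℂ) • (tz y σ s Q • zv y σ s []) := by
          rw [zv_nil]; rfl
        simpa using h0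
      · simp [h]

/-- the noise part of `Z_j` applied to the vacuum is `rh j Ω`. -/
theorem heat_Om (y : Fin n → G) (σ : Fin n → ℝ) (s : ℝ) (j : Fin n) :
    ((heatTuple (Xt y σ) St s j : AT G (II n)) : HH G (II n) →L[ℂ] HH G (II n)) Om =
      lam (y j) Om + rh G σ s j Om := by
  rw [DBaux.heat_apply, DBaux.rh_apply, Sop_Om, Sop_Om, rcre_Om, rcre_Om, add_assoc]

end Crest.Agent.R89
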