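import Crest.Agent.R89.DB
/-! Row 89, piece DC (owner helper33): the dual vectors `eps` and the Schwinger–Dyson step.

`⟪eps (j::w), Z_QΩ⟫ = ⟪eps w, star (rh j) Z_QΩ⟫` and `star_rh_zv` give `inner_eps_zv` (induction on
`w`, all `Q`); `eps_orth` by `star_rh_rh`, `star_rh_Om`; `eps_lam` by `star_rh_lam`, `star_rh_Om`.
`sd_snoc`: `Z_j = lam y_j + noise`; traciality: `τ(Z_Q·noise_j·x) = τ(noise_j · x Z_Q)
= ⟪noise_j Ω, x Z_Q Ω⟫ = ⟪rh j Ω, lam x Z_QΩ⟫ = ⟪Ω, lam x (star (rh j) Z_QΩ)⟫` and `star_rh_zv`. -/
set_option autoImplicit false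
open scoped InnerProductSpace
namespace Crest.Agent.R89
open Crest.OpAlg

variable {G : Type} [Group G] {n : ℕ}

omit [Group G] in
theorem inner_star_right' {I : Type} (A : HH G I →L[ℂ] HH G I) (x y : HH G I) :
    ⟪x, star A y⟫_ℂ = ⟪A x, y⟫_ℂ := by
  rw [ContinuousLinearMap.star_eq_adjoint, ContinuousLinearMap.adjoint_inner_right]

omit [Group G] in
theorem inner_star_left' {I : Type} (A : HH G I →L[ℂ] HH G I) (x y : HH G I) :
    ⟪star A x, y⟫_ℂ = ⟪x, A y⟫_ℂ := by
  rw [ContinuousLinearMap.star_eq_adjoint, ContinuousLinearMap.adjoint_inner_left]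

theorem inner_Om_Om : ⟪(Om : HH G (II n)), (Om : HH G (II n))⟫_ℂ = 1 := by
  have h := tau_one (G := G) (I := II n)
  exact h

theorem inner_eps_zv (y : Fin n → G) (σ : Fin n → ℝ) (s : ℝ) (hs : 0 ≤ s)
    (w Q : List (Fin n)) :
    ⟪eps G σ s w, zv y σ s Q⟫_ℂ = ((cw σ s w : ℝ) : ℂ) * TT y σ s w Q := by
  induction w generalizing Q with
  | nil =>
    simp only [eps, cw, TT, List.map_nil, List.prod_nil, Complex.ofReal_one, one_mul]
    rfl
  | cons j w ih =>
    have h1 : ⟪eps G σ s (j :: w), zv y σ s Q⟫_ℂ =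
        ⟪eps G σ s w, star (rh G σ s j) (zv y σ s Q)⟫_ℂ := by
      rw [inner_star_right']
      rfl
    rw [h1, star_rh_zv y σ s hs, inner_smul_right, inner_sum]
    have h2 : ∀ k ∈ Finset.range Q.length,
        ⟪eps G σ s w, if Q[k]? = some j then
          tz y σ s (Q.drop (k + 1)) • zv y σ s (Q.take k) else 0⟫_ℂ =
        ((cw σ s w : ℝ) : ℂ) * (if Q[k]? = some j then
          TT y σ s w (Q.take k) * tz y σ s (Q.drop (k + 1)) else 0) := by
      intro k _
      split_ifs with hk
      · rw [inner_smul_right, ih]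
        ring
      · simp
    rw [Finset.sum_congr rfl h2, ← Finset.mul_sum]
    simp only [TT, cw, List.map_cons, List.prod_cons, Complex.ofReal_mul]
    ring

theorem eps_orth (σ : Fin n → ℝ) (s : ℝ) (hs : 0 ≤ s) (w w' : List (Fin n)) :
    ⟪eps G σ s w, eps G σ s w'⟫_ℂ = if w = w' then ((cw σ s w : ℝ) : ℂ) else 0 := by
  induction w generalizing w' with
  | nil =>
    cases w' with
    | nil =>
      simp only [eps, cw, List.map_nil, List.prod_nil, Complex.ofReal_one, if_true]
      exact inner_Om_Om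
    | cons j w' =>
      simp only [eps]
      rw [← inner_star_left', star_rh_Om]
      simp
  | cons j w ih =>
    cases w' with
    | nil =>
      simp only [eps]
      rw [← inner_star_right', star_rh_Om]
      simp
    | cons k w' =>
      simp only [eps]
      rw [← inner_star_right', star_rh_rh σ s hs]
      by_cases hjk : j = k
      · subst hjk
        rw [if_pos rfl, inner_smul_right, ih]
        by_cases hw : w = w'
        · subst hw
          simp [cw]
        · simp [hw]
      · simp [hjk]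

theorem eps_lam (σ : Fin n → ℝ) (s : ℝ) (w : List (Fin n)) (hw : w ≠ []) (x : G) :
    ⟪eps G σ s w, lam x (Om : HH G (II n))⟫_ℂ = 0 := by
  cases w with
  | nil => exact absurd rfl hw
  | cons j w =>
    simp only [eps]
    rw [← inner_star_right', star_rh_lam, star_rh_Om]
    simp

/-- `T_w(Q) = 0` for words longer than `Q`. -/
theorem TT_eq_zero (y : Fin n → G) (σ : Fin n → ℝ) (s : ℝ) (w Q : List (Fin n))
    (h : Q.length < w.length) : TT y σ s w Q = 0 := by
  induction w generalizing Q with
  | nil => simp at h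
  | cons j w ih =>
    simp only [TT]
    refine Finset.sum_eq_zero fun k hk => ?_
    rw [Finset.mem_range] at hk
    rw [List.length_cons] at h
    split_ifs with hq
    · rw [ih _ (by rw [List.length_take]; omega), zero_mul]
    · rfl

/-- the single-letter quotient is the split pairing. -/
theorem TT_singleton (y : Fin n → G) (σ : Fin n → ℝ) (s : ℝ) (i : Fin n) (Q : List (Fin n)) :
    TT y σ s [i] Q = ∑ k ∈ Finset.range Q.length,
      if Q[k]? = some i then tz y σ s (Q.take k) * tz y σ s (Q.drop (k + 1)) else 0 := by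
  simp only [TT]

/-- Schwinger–Dyson step for the last letter. -/
theorem sd_snoc (y : Fin n → G) (σ : Fin n → ℝ) (s : ℝ) (hs : 0 ≤ s) (Q : List (Fin n))
    (j : Fin n) (x : G) :
    tau (zw y σ s (Q ++ [j]) * lamA x) = tau (zw y σ s Q * lamA (y j * x)) +
      ((cv σ s j : ℝ) : ℂ) * ∑ k ∈ Finset.range Q.length, if Q[k]? = some j then
        tau (zw y σ s (Q.take k) * lamA x) * tz y σ s (Q.drop (k + 1)) else 0 := by
  set N : AT G (II n) := ((σ j : ℝ) : ℂ) • sA (j, false) + ((Real.sqrt s : ℝ) : ℂ) • sA (j, true)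
    with hN
  have hNs : star N = N := by
    rw [hN, star_add, star_smul, star_smul, (isSelfAdjoint_sA (G := G) ((j, false) : II n)).star_eq,
      (isSelfAdjoint_sA (G := G) ((j, true) : II n)).star_eq]
    simp
  have hheat : heatTuple (Xt y σ) St s j = lamA (y j) + N := by
    rw [heat_eq, hN, add_assoc]
  have hNOm : (N : HH G (II n) →L[ℂ] HH G (II n)) Om = rh G σ s j Om := by
    have h := heat_Om y σ s j
    rw [hheat] at h
    have h' : ((lamA (y j) + N : AT G (II n)) : HH G (II n) →L[ℂ] HH G (II n)) Om =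
      lam (y j) Om + (N : HH G (II n) →L[ℂ] HH G (II n)) Om := rfl
    rw [h'] at h
    exact add_left_cancel h
  have hzw : zw y σ s (Q ++ [j]) = zw y σ s Q * (lamA (y j) + N) := by
    simp only [zw, List.map_append, List.map_cons, List.map_nil, List.prod_append, List.prod_cons,
      List.prod_nil, mul_one, hheat]
  have e1 : tau (zw y σ s (Q ++ [j]) * lamA x) = tau (zw y σ s Q * lamA (y j * x)) +
      tau (zw y σ s Q * N * lamA x) := by
    rw [hzw, ← map_add]
    congr 1
    rw [lamA_mul]
    noncomm_ring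
  rw [e1]
  congr 1
  have e2 : tau (zw y σ s Q * N * lamA x) = tau (star N * (lamA x * zw y σ s Q)) := by
    rw [hNs, mul_assoc, tau_comm, mul_assoc]
  rw [e2, tau_star_mul, hNOm]
  have e3 : ((lamA x * zw y σ s Q : AT G (II n)) : HH G (II n) →L[ℂ] HH G (II n)) Om =
      lam x (zv y σ s Q) := rfl
  rw [e3, ← inner_star_right', star_rh_lam, star_rh_zv y σ s hs, map_smul, inner_smul_right, map_sum,
    inner_sum]
  congr 1
  refine Finset.sum_congr rfl fun k _ => ?_
  split_ifs with hk
  · rw [map_smul, inner_smul_right, mul_comm]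
    congr 1
    rw [tau_comm]
    rfl
  · simp

end Crest.Agent.R89
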