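import Crest.Agent.R89.DA
/-! Row 89, piece DD (owner helper33): bounds for the cumulant functional `cc`.

`cc_bound`: strong induction on the length (all `x`). If `cc x (j::W) ≠ 0` then either
`cc (y_j x) W ≠ 0`, so `(W.reverse.map y).prod * (y_j x) = 1`, or some product
`cc y_j v * cc x w ≠ 0` with `W = v ++ w`, so `π(v) y_j = 1`, `π(w) x = 1` and
`π(v++w) y_j x = π(w) π(v) y_j x = 1` where `π(w) = (w.reverse.map y).prod`. Size:
`|cc x w| ≤ 2^|w| catalan |w| ≤ 8^|w|`; step: `2^l C_l + ∑ 2^l C_i C_{l-i} = 2^l (C_l + C_{l+1})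
≤ 2^{l+1} C_{l+1}` (`catalan_succ'`, `catalan n ≤ 4^n` from `catalan_eq_centralBinom_div`). -/
set_option autoImplicit false
namespace Crest.Agent.R89

variable {G : Type} [Group G] {n : ℕ}

theorem cc_cons (y : Fin n → G) (x : G) (j : Fin n) (W : List (Fin n)) :
    cc y x (j :: W) = cc y (y j * x) W -
      ∑ k ∈ Finset.range (W.length + 1), cc y (y j) (W.take k) * cc y x (W.drop k) := by
  rw [cc]

open Classical in
theorem cc_nil (y : Fin n → G) (x : G) : cc y x [] = if x = 1 then 1 else 0 := by
  rw [cc]

theorem cc_support_aux (y : Fin n → G) (m : ℕ) : ∀ (x : G) (w : List (Fin n)), w.length ≤ m →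
    cc y x w ≠ 0 → (w.reverse.map y).prod * x = 1 := by
  induction m with
  | zero =>
    intro x w hw h
    have : w = [] := List.eq_nil_of_length_eq_zero (by omega)
    subst this
    rw [cc_nil] at h
    by_cases hx : x = 1
    · simp [hx]
    · simp [hx] at h
  | succ m ih =>
    intro x w hw h
    rcases w with _ | ⟨j, W⟩
    · rw [cc_nil] at h
      by_cases hx : x = 1
      · simp [hx]
      · simp [hx] at h
    · rw [List.length_cons] at hw
      have key : ∀ g : G, (W.reverse.map y).prod * (y j * x) = g →
          ((j :: W).reverse.map y).prod * x = g := by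
        intro g hg
        rw [List.reverse_cons, List.map_append, List.prod_append]
        simpa [mul_assoc] using hg
      apply key
      rw [cc_cons] at h
      by_cases h1 : cc y (y j * x) W = 0
      · rw [h1, zero_sub, neg_ne_zero] at h
        obtain ⟨k, hk, hne⟩ := Finset.exists_ne_zero_of_sum_ne_zero h
        rw [Finset.mem_range] at hk
        have ha := ih (y j) (W.take k) (by rw [List.length_take]; omega) (left_ne_zero_of_mul hne)
        have hb := ih x (W.drop k) (by rw [List.length_drop]; omega) (right_ne_zero_of_mul hne)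
        have hW : (W.reverse.map y).prod =
            ((W.drop k).reverse.map y).prod * ((W.take k).reverse.map y).prod := by
          conv_lhs => rw [← List.take_append_drop k W]
          rw [List.reverse_append, List.map_append, List.prod_append]
        rw [hW, mul_assoc, ← mul_assoc ((W.take k).reverse.map y).prod, ha, one_mul, hb]
      · exact ih (y j * x) W (by omega) h1

theorem cc_support (y : Fin n → G) (x : G) (w : List (Fin n)) (h : cc y x w ≠ 0) :
    (w.reverse.map y).prod * x = 1 :=
  cc_support_aux y w.length x w le_rfl h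

theorem catalan_le_succ (l : ℕ) : catalan l ≤ catalan (l + 1) := by
  rw [catalan_succ']
  have h : catalan ((0, l) : ℕ × ℕ).1 * catalan ((0, l) : ℕ × ℕ).2 ≤
      ∑ ij ∈ Finset.HasAntidiagonal.antidiagonal l, catalan ij.1 * catalan ij.2 :=
    Finset.single_le_sum (f := fun ij : ℕ × ℕ => catalan ij.1 * catalan ij.2)
      (fun _ _ => Nat.zero_le _) (Finset.HasAntidiagonal.mem_antidiagonal.mpr (by simp))
  simpa using h

theorem catalan_le_four_pow (l : ℕ) : catalan l ≤ 4 ^ l := by
  rw [catalan_eq_centralBinom_div]
  refine (Nat.div_le_self _ _).trans ?_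
  rw [Nat.centralBinom_eq_two_mul_choose]
  refine (Nat.choose_le_two_pow _ _).trans ?_
  rw [pow_mul]
  norm_num

theorem cc_catalan_aux (y : Fin n → G) (m : ℕ) : ∀ (x : G) (w : List (Fin n)), w.length ≤ m →
    |cc y x w| ≤ 2 ^ w.length * (catalan w.length : ℤ) := by
  induction m with
  | zero =>
    intro x w hw
    have : w = [] := List.eq_nil_of_length_eq_zero (by omega)
    subst this
    rw [cc_nil]
    split_ifs <;> simp
  | succ m ih =>
    intro x w hw
    rcases w with _ | ⟨j, W⟩
    · rw [cc_nil]
      split_ifs <;> simp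
    · rw [List.length_cons] at hw
      rw [cc_cons, List.length_cons]
      have h1 := ih (y j * x) W (by omega)
      have h2 : |∑ k ∈ Finset.range (W.length + 1), cc y (y j) (W.take k) * cc y x (W.drop k)| ≤
          2 ^ W.length * (catalan (W.length + 1) : ℤ) := by
        refine (Finset.abs_sum_le_sum_abs _ _).trans ?_
        rw [catalan_succ', Finset.Nat.sum_antidiagonal_eq_sum_range_succ_mk, Nat.cast_sum,
          Finset.mul_sum]
        refine Finset.sum_le_sum fun k hk => ?_
        rw [Finset.mem_range] at hk
        have ha := ih (y j) (W.take k) (by rw [List.length_take]; omega)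
        have hb := ih x (W.drop k) (by rw [List.length_drop]; omega)
        rw [List.length_take, min_eq_left (by omega)] at ha
        rw [List.length_drop] at hb
        rw [abs_mul]
        calc |cc y (y j) (W.take k)| * |cc y x (W.drop k)|
            ≤ (2 ^ k * (catalan k : ℤ)) * (2 ^ (W.length - k) * (catalan (W.length - k) : ℤ)) := by
              gcongr
          _ = (2 ^ k * 2 ^ (W.length - k)) * ((catalan k : ℤ) * (catalan (W.length - k) : ℤ)) := by
              ring
          _ = 2 ^ W.length * ((catalan k * catalan (W.length - k) : ℕ) : ℤ) := by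
              rw [← pow_add, Nat.add_sub_of_le (by omega)]
              push_cast
              ring
      have h3 : (catalan W.length : ℤ) ≤ catalan (W.length + 1) := by
        exact_mod_cast catalan_le_succ W.length
      have h4 : (0 : ℤ) < 2 ^ W.length := by positivity
      calc _ ≤ |cc y (y j * x) W| +
            |∑ k ∈ Finset.range (W.length + 1), cc y (y j) (W.take k) * cc y x (W.drop k)| :=
            abs_sub _ _
        _ ≤ 2 ^ W.length * (catalan W.length : ℤ) +
            2 ^ W.length * (catalan (W.length + 1) : ℤ) := add_le_add h1 h2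
        _ ≤ 2 ^ W.length * (catalan (W.length + 1) : ℤ) +
            2 ^ W.length * (catalan (W.length + 1) : ℤ) := by gcongr
        _ = 2 ^ (W.length + 1) * (catalan (W.length + 1) : ℤ) := by ring

theorem cc_abs_le (y : Fin n → G) (x : G) (w : List (Fin n)) :
    |(cc y x w : ℝ)| ≤ 8 ^ w.length := by
  have h1 := cc_catalan_aux y w.length x w le_rfl
  have h2 : (catalan w.length : ℤ) ≤ 4 ^ w.length := by
    exact_mod_cast catalan_le_four_pow w.length
  have h3 : |cc y x w| ≤ 8 ^ w.length := by
    calc |cc y x w| ≤ 2 ^ w.length * (catalan w.length : ℤ) := h1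
      _ ≤ 2 ^ w.length * 4 ^ w.length := by gcongr
      _ = 8 ^ w.length := by rw [← mul_pow]; norm_num
  have h4 : ((|cc y x w| : ℤ) : ℝ) ≤ ((8 ^ w.length : ℤ) : ℝ) := by exact_mod_cast h3
  push_cast at h4
  exact h4

theorem cc_nil_gen (y : Fin n → G) (h1 : ∀ j, y j ≠ 1) (i : Fin n) : cc y (y i) [] = 0 := by
  rw [cc_nil, if_neg (h1 i)]

theorem cc_singleton_gen (y : Fin n → G) (h1 : ∀ j, y j ≠ 1) (h2 : ∀ j, y j * y j = 1)
    (hinj : Function.Injective y) (i j : Fin n) :
    cc y (y i) [j] = if i = j then 1 else 0 := by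
  rw [cc_cons]
  simp only [List.length_nil, zero_add, Finset.range_one, Finset.sum_singleton, List.take_nil,
    List.drop_nil]
  rw [cc_nil_gen y h1 j, zero_mul, sub_zero, cc_nil]
  by_cases hij : i = j
  · subst hij
    rw [if_pos (h2 i), if_pos rfl]
  · rw [if_neg hij, if_neg]
    intro h
    apply hij
    apply hinj
    have h3 : y j * y i = y j * y j := by rw [h, h2]
    exact mul_left_cancel h3

open Classical in
/-- sum of squares of cumulants of length `l`: at most `64^l` times the number of trivial words
of length `l+1` (the word `i :: w`... reversed). -/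
theorem sum_cc_sq_le (y : Fin n → G) (h2 : ∀ j, y j * y j = 1) (r : ℝ)
    (hcount : ∀ l : ℕ, ((Finset.univ.filter (fun w : Fin l → Fin n =>
      ((List.ofFn w).map y).prod = 1)).card : ℝ) ≤ r ^ l) (l : ℕ) :
    ∑ i : Fin n, sumW n l (fun w => ((cc y (y i) w : ℝ)) ^ 2) ≤ 64 ^ l * r ^ (l + 1) := by
  have hinv : ∀ j, (y j)⁻¹ = y j := fun j => inv_eq_of_mul_eq_one_left (h2 j)
  have hrev : ∀ w : List (Fin n), (w.reverse.map y).prod = ((w.map y).prod)⁻¹ := by
    intro w
    rw [List.prod_inv_reverse, List.map_map, List.map_reverse]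
    congr 2
    exact List.map_congr_left fun j _ => (hinv j).symm
  have hterm : ∀ (i : Fin n) (w : Fin l → Fin n), ((cc y (y i) (List.ofFn w) : ℝ)) ^ 2 ≤
      if ((List.ofFn (Fin.cons i w : Fin (l + 1) → Fin n)).map y).prod = 1 then (64 : ℝ) ^ l
        else 0 := by
    intro i w
    by_cases hc : cc y (y i) (List.ofFn w) = 0
    · rw [hc]
      split_ifs
      · norm_num
      · norm_num
    · have hs := cc_support y (y i) _ hc
      rw [hrev, inv_mul_eq_one] at hs
      rw [if_pos]
      · have hb := cc_abs_le y (y i) (List.ofFn w)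
        rw [List.length_ofFn] at hb
        calc ((cc y (y i) (List.ofFn w) : ℝ)) ^ 2 = |(cc y (y i) (List.ofFn w) : ℝ)| ^ 2 := by
              rw [sq_abs]
          _ ≤ (8 ^ l) ^ 2 := by gcongr
          _ = 64 ^ l := by rw [← pow_mul, mul_comm, pow_mul]; norm_num
      · rw [List.ofFn_succ, List.map_cons, List.prod_cons]
        simp only [Fin.cons_zero, Fin.cons_succ]
        rw [hs, h2]
  calc ∑ i : Fin n, sumW n l (fun w => ((cc y (y i) w : ℝ)) ^ 2)
      ≤ ∑ i : Fin n, ∑ w : Fin l → Fin n,
        (if ((List.ofFn (Fin.cons i w : Fin (l + 1) → Fin n)).map y).prod = 1 then (64 : ℝ) ^ l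
          else 0) := by
        refine Finset.sum_le_sum fun i _ => ?_
        unfold sumW
        exact Finset.sum_le_sum fun w _ => hterm i w
    _ = ∑ v : Fin (l + 1) → Fin n,
        (if ((List.ofFn v).map y).prod = 1 then (64 : ℝ) ^ l else 0) := by
        rw [← Fintype.sum_prod_type']
        exact Fintype.sum_equiv (Fin.consEquiv fun _ : Fin (l + 1) => Fin n) _ _ fun x => rfl
    _ = 64 ^ l * ((Finset.univ.filter (fun w : Fin (l + 1) → Fin n =>
      ((List.ofFn w).map y).prod = 1)).card : ℝ) := by
        rw [← Finset.sum_filter, Finset.sum_const, nsmul_eq_mul, mul_comm]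
    _ ≤ 64 ^ l * r ^ (l + 1) := by
        gcongr
        exact hcount (l + 1)

end Crest.Agent.R89
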