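import Crest.Agent.R89.DC
import Crest.Agent.R89.DD
/-! Row 89, piece DE (owner helper33): THE KEY IDENTITY
`τ(Z_Q x) = ∑_w cc_x(w) T_w(Q)` for every word `Q` and group element `x`. -/
set_option autoImplicit false
open scoped InnerProductSpace
namespace Crest.Agent.R89
open Crest.OpAlg

variable {G : Type} [Group G] {n : ℕ}

theorem sumWE_zero {M : Type*} [AddCommMonoid M] (f : List (Fin n) → M) :
    sumW n 0 f = f [] := by
  simp [sumW]

theorem sumWE_succ {M : Type*} [AddCommMonoid M] (l : ℕ) (f : List (Fin n) → M) :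
    sumW n (l + 1) f = ∑ j : Fin n, sumW n l (fun w => f (j :: w)) := by
  unfold sumW
  rw [← (Fin.consEquiv (fun _ : Fin (l + 1) => Fin n)).sum_comp, Fintype.sum_prod_type]
  refine Finset.sum_congr rfl fun j _ => Finset.sum_congr rfl fun w _ => ?_
  congr 1
  simp [List.ofFn_succ]

/-- pairing of a coefficient function with the difference quotients of `Q`. -/
noncomputable def Sp (y : Fin n → G) (σ : Fin n → ℝ) (s : ℝ) (c : List (Fin n) → ℂ)
    (Q : List (Fin n)) : ℂ :=
  ∑ l ∈ Finset.range (Q.length + 1), sumW n l (fun w => c w * TT y σ s w Q)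

theorem sumW_TT_zero (y : Fin n → G) (σ : Fin n → ℝ) (s : ℝ) (c : List (Fin n) → ℂ)
    (Q : List (Fin n)) (l : ℕ) (h : Q.length < l) :
    sumW n l (fun w => c w * TT y σ s w Q) = 0 := by
  unfold sumW
  refine Finset.sum_eq_zero fun w _ => ?_
  show c _ * TT y σ s _ Q = 0
  rw [TT_eq_zero y σ s _ Q (by simpa using h), mul_zero]

theorem Sp_eq (y : Fin n → G) (σ : Fin n → ℝ) (s : ℝ) (c : List (Fin n) → ℂ)
    (Q : List (Fin n)) (M : ℕ) (hM : Q.length ≤ M) :
    ∑ l ∈ Finset.range (M + 1), sumW n l (fun w => c w * TT y σ s w Q) = Sp y σ s c Q := by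
  unfold Sp
  symm
  refine Finset.sum_subset (by intro l; simp; omega) ?_
  intro l _ hl
  simp only [Finset.mem_range, not_lt] at hl
  exact sumW_TT_zero y σ s c Q l (by omega)

theorem sum_sumWE_succ (y : Fin n → G) (σ : Fin n → ℝ) (s : ℝ) (c : List (Fin n) → ℂ)
    (Q : List (Fin n)) (M : ℕ) :
    ∑ l ∈ Finset.range (M + 1 + 1), sumW n l (fun w => c w * TT y σ s w Q) =
      c [] * tz y σ s Q + ∑ k ∈ Finset.range Q.length, ∑ j : Fin n,
        if Q[k]? = some j then
          (∑ l ∈ Finset.range (M + 1), sumW n l (fun w => c (j :: w) * TT y σ s w (Q.take k))) *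
            tz y σ s (Q.drop (k + 1)) else 0 := by
  rw [Finset.sum_range_succ', add_comm, sumWE_zero]
  congr 1
  simp only [sumWE_succ]
  refine (Finset.sum_comm).trans ?_
  refine Eq.trans ?_ Finset.sum_comm
  refine Finset.sum_congr rfl fun j _ => ?_
  have h1 : ∀ l, sumW n l (fun w => c (j :: w) * TT y σ s (j :: w) Q) =
      ∑ k ∈ Finset.range Q.length, if Q[k]? = some j then
        sumW n l (fun w => c (j :: w) * TT y σ s w (Q.take k)) * tz y σ s (Q.drop (k + 1))
        else 0 := by
    intro l
    unfold sumW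
    simp only [TT, Finset.mul_sum]
    rw [Finset.sum_comm]
    refine Finset.sum_congr rfl fun k _ => ?_
    split_ifs with h
    · rw [Finset.sum_mul]
      refine Finset.sum_congr rfl fun w _ => ?_
      ring
    · simp
  simp only [h1]
  rw [Finset.sum_comm]
  refine Finset.sum_congr rfl fun k _ => ?_
  split_ifs with h
  · rw [Finset.sum_mul]
  · simp

theorem Sp_rec (y : Fin n → G) (σ : Fin n → ℝ) (s : ℝ) (c : List (Fin n) → ℂ)
    (Q : List (Fin n)) :
    Sp y σ s c Q = c [] * tz y σ s Q + ∑ k ∈ Finset.range Q.length, ∑ j : Fin n,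
        if Q[k]? = some j then
          Sp y σ s (fun w => c (j :: w)) (Q.take k) * tz y σ s (Q.drop (k + 1)) else 0 := by
  rw [← Sp_eq y σ s c Q (Q.length + 1) (by omega), sum_sumWE_succ]
  congr 1
  refine Finset.sum_congr rfl fun k hk => Finset.sum_congr rfl fun j _ => ?_
  split_ifs with h
  · rw [Sp_eq]
    simp only [Finset.mem_range] at hk
    simp
  · rfl

theorem Sp_add (y : Fin n → G) (σ : Fin n → ℝ) (s : ℝ) (c d : List (Fin n) → ℂ)
    (Q : List (Fin n)) :
    Sp y σ s (fun w => c w + d w) Q = Sp y σ s c Q + Sp y σ s d Q := by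
  unfold Sp sumW
  rw [← Finset.sum_add_distrib]
  refine Finset.sum_congr rfl fun l _ => ?_
  rw [← Finset.sum_add_distrib]
  refine Finset.sum_congr rfl fun w _ => ?_
  ring

theorem Sp_smul (y : Fin n → G) (σ : Fin n → ℝ) (s : ℝ) (a : ℂ) (c : List (Fin n) → ℂ)
    (Q : List (Fin n)) :
    Sp y σ s (fun w => a * c w) Q = a * Sp y σ s c Q := by
  unfold Sp sumW
  rw [Finset.mul_sum]
  refine Finset.sum_congr rfl fun l _ => ?_
  rw [Finset.mul_sum]
  refine Finset.sum_congr rfl fun w _ => ?_
  ring

/-- convolution of coefficient functions. -/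
noncomputable def conv (a c : List (Fin n) → ℂ) (W : List (Fin n)) : ℂ :=
  ∑ k ∈ Finset.range (W.length + 1), a (W.take k) * c (W.drop k)

theorem conv_cons (a c : List (Fin n) → ℂ) (j : Fin n) (W : List (Fin n)) :
    conv a c (j :: W) = a [] * c (j :: W) + conv (fun w => a (j :: w)) c W := by
  unfold conv
  simp only [List.length_cons]
  rw [Finset.sum_range_succ']
  simp [add_comm]

/-- reindexing of double splits. -/
theorem double_sum {M : Type*} [AddCommMonoid M] (L : ℕ) (F : ℕ → ℕ → M) :
    ∑ k ∈ Finset.range L, ∑ m ∈ Finset.range k, F m k =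
      ∑ m ∈ Finset.range L, ∑ k ∈ Finset.range (L - (m + 1)), F m (m + 1 + k) := by
  simp only [Finset.range_eq_Ico]
  rw [← Finset.sum_Ico_Ico_comm']
  refine Finset.sum_congr rfl fun m _ => ?_
  rw [Finset.sum_Ico_eq_sum_range, Finset.range_eq_Ico]

theorem Sp_conv (y : Fin n → G) (σ : Fin n → ℝ) (s : ℝ) (N : ℕ) :
    ∀ (a c : List (Fin n) → ℂ) (Q : List (Fin n)), Q.length ≤ N →
    Sp y σ s (conv a c) Q = c [] * Sp y σ s a Q +
      ∑ k ∈ Finset.range Q.length, ∑ j : Fin n, if Q[k]? = some j then
        Sp y σ s (fun w => c (j :: w)) (Q.take k) * Sp y σ s a (Q.drop (k + 1)) else 0 := by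
  induction N with
  | zero =>
    intro a c Q hQ
    have : Q = [] := by
      apply List.eq_nil_of_length_eq_zero; omega
    subst this
    simp [Sp, sumWE_zero, conv]
    ring
  | succ N ih =>
    intro a c Q hQ
    rw [Sp_rec]
    have e1 : ∀ k ∈ Finset.range Q.length, ∀ j : Fin n, 
        (if Q[k]? = some j then
          Sp y σ s (fun w => conv a c (j :: w)) (Q.take k) * tz y σ s (Q.drop (k + 1)) else 0)
        = (if Q[k]? = some j then
          a [] * (Sp y σ s (fun w => c (j :: w)) (Q.take k) * tz y σ s (Q.drop (k + 1))) else 0)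
         + (if Q[k]? = some j then c [] * (Sp y σ s (fun w => a (j :: w)) (Q.take k) *
            tz y σ s (Q.drop (k + 1))) else 0)
         + ∑ m ∈ Finset.range k, (if Q[k]? = some j then (∑ i : Fin n, if Q[m]? = some i then
            Sp y σ s (fun w => c (i :: w)) (Q.take m) *
              Sp y σ s (fun w => a (j :: w)) ((Q.take k).drop (m + 1)) else 0) *
              tz y σ s (Q.drop (k + 1)) else 0) := by
      intro k hk j
      simp only [Finset.mem_range] at hk
      split_ifs with h
      · have e2 : (fun w => conv a c (j :: w)) = fun w => (fun w => a [] * c (j :: w)) w +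
            (conv (fun w => a (j :: w)) c) w := by
          funext w; rw [conv_cons]
        rw [e2, Sp_add, Sp_smul, ih _ _ (Q.take k) (by simp; omega)]
        have hl : (Q.take k).length = k := by simp; omega
        rw [hl, add_mul, add_mul, Finset.sum_mul, ← add_assoc]
        congr 1
        · ring
        · refine Finset.sum_congr rfl fun m hm => ?_
          simp only [Finset.mem_range] at hm
          congr 1
          refine Finset.sum_congr rfl fun i _ => ?_
          rw [List.getElem?_take, if_pos hm, List.take_take, min_eq_left hm.le]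
      · simp
    rw [Finset.sum_congr rfl fun k hk => Finset.sum_congr rfl fun j _ => e1 k hk j]
    simp only [Finset.sum_add_distrib]
    have e3 : ∑ x ∈ Finset.range Q.length, ∑ j : Fin n, ∑ m ∈ Finset.range x,
        (if Q[x]? = some j then (∑ i : Fin n, if Q[m]? = some i then
            Sp y σ s (fun w => c (i :: w)) (Q.take m) *
              Sp y σ s (fun w => a (j :: w)) ((Q.take x).drop (m + 1)) else 0) *
              tz y σ s (Q.drop (x + 1)) else 0) =
        ∑ m ∈ Finset.range Q.length, ∑ i : Fin n, if Q[m]? = some i then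
          Sp y σ s (fun w => c (i :: w)) (Q.take m) *
            (∑ k ∈ Finset.range (Q.drop (m + 1)).length, ∑ j : Fin n,
              if (Q.drop (m + 1))[k]? = some j then
              Sp y σ s (fun w => a (j :: w)) ((Q.drop (m + 1)).take k) *
                tz y σ s ((Q.drop (m + 1)).drop (k + 1)) else 0) else 0 := by
      refine (Finset.sum_congr rfl fun x _ => Finset.sum_comm).trans ?_
      rw [double_sum]
      refine Finset.sum_congr rfl fun m hm => ?_
      simp only [Finset.mem_range] at hm
      have e4 : ∀ i : Fin n, (if Q[m]? = some i then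
          Sp y σ s (fun w => c (i :: w)) (Q.take m) *
            (∑ k ∈ Finset.range (Q.drop (m + 1)).length, ∑ j : Fin n,
              if (Q.drop (m + 1))[k]? = some j then
              Sp y σ s (fun w => a (j :: w)) ((Q.drop (m + 1)).take k) *
                tz y σ s ((Q.drop (m + 1)).drop (k + 1)) else 0) else 0) =
          ∑ k ∈ Finset.range (Q.length - (m + 1)), ∑ j : Fin n, if Q[m]? = some i then
            if Q[m + 1 + k]? = some j then Sp y σ s (fun w => c (i :: w)) (Q.take m) *
              (Sp y σ s (fun w => a (j :: w)) ((Q.take (m + 1 + k)).drop (m + 1)) *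
                tz y σ s (Q.drop (m + 1 + k + 1))) else 0 else 0 := by
        intro i
        split_ifs with h
        · rw [List.length_drop, Finset.mul_sum]
          refine Finset.sum_congr rfl fun k _ => ?_
          rw [Finset.mul_sum]
          refine Finset.sum_congr rfl fun j _ => ?_
          rw [List.getElem?_drop, List.drop_drop, List.drop_take]
          have : m + 1 + k - (m + 1) = k := by omega
          rw [this]
          split_ifs with h'
          · rfl
          · simp
        · simp
      refine Eq.trans ?_ (Finset.sum_congr rfl fun i _ => (e4 i).symm)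
      refine Eq.trans ?_ Finset.sum_comm
      refine Finset.sum_congr rfl fun k _ => ?_
      refine Eq.trans ?_ Finset.sum_comm
      refine Finset.sum_congr rfl fun j _ => ?_
      split_ifs with h
      · rw [Finset.sum_mul]
        refine Finset.sum_congr rfl fun i _ => ?_
        split_ifs with h'
        · ring
        · simp
      · simp
    rw [e3]
    have e5 : ∀ D : List (Fin n), ∑ k ∈ Finset.range D.length, ∑ j : Fin n,
              (if D[k]? = some j then
              Sp y σ s (fun w => a (j :: w)) (D.take k) *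
                tz y σ s (D.drop (k + 1)) else 0) = Sp y σ s a D - a [] * tz y σ s D := by
      intro D
      rw [Sp_rec y σ s a D]; ring
    simp only [e5]
    have e6 : ∑ m ∈ Finset.range Q.length, ∑ i : Fin n, (if Q[m]? = some i then
          Sp y σ s (fun w => c (i :: w)) (Q.take m) *
            (Sp y σ s a (Q.drop (m + 1)) - a [] * tz y σ s (Q.drop (m + 1))) else 0) =
        ∑ m ∈ Finset.range Q.length, ∑ i : Fin n, (if Q[m]? = some i then
          Sp y σ s (fun w => c (i :: w)) (Q.take m) * Sp y σ s a (Q.drop (m + 1)) else 0) -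
        ∑ m ∈ Finset.range Q.length, ∑ i : Fin n, (if Q[m]? = some i then
          a [] * (Sp y σ s (fun w => c (i :: w)) (Q.take m) * tz y σ s (Q.drop (m + 1)))
            else 0) := by
      rw [← Finset.sum_sub_distrib]
      refine Finset.sum_congr rfl fun m _ => ?_
      rw [← Finset.sum_sub_distrib]
      refine Finset.sum_congr rfl fun i _ => ?_
      split_ifs with h
      · ring
      · simp
    rw [e6]
    have e7 : ∑ k ∈ Finset.range Q.length, ∑ j : Fin n, (if Q[k]? = some j then
          c [] * (Sp y σ s (fun w => a (j :: w)) (Q.take k) * tz y σ s (Q.drop (k + 1))) else 0)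
        = c [] * (Sp y σ s a Q - a [] * tz y σ s Q) := by
      rw [← e5 Q, Finset.mul_sum]
      refine Finset.sum_congr rfl fun k _ => ?_
      rw [Finset.mul_sum]
      refine Finset.sum_congr rfl fun j _ => ?_
      split_ifs <;> simp
    rw [e7]
    have e8 : conv a c [] = a [] * c [] := by simp [conv]
    rw [e8]
    ring

/-- splitting sum at the letter `j`. -/
noncomputable def Bs (y : Fin n → G) (σ : Fin n → ℝ) (s : ℝ) (j : Fin n) (D : List (Fin n)) : ℂ :=
  ∑ m ∈ Finset.range D.length, if D[m]? = some j then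
    tz y σ s (D.take m) * tz y σ s (D.drop (m + 1)) else 0

theorem Bs_identity (y : Fin n → G) (σ : Fin n → ℝ) (s : ℝ) (j : Fin n)
    (c : List (Fin n) → ℂ) (Q : List (Fin n)) :
    c [] * Bs y σ s j Q + ∑ k ∈ Finset.range Q.length, ∑ i : Fin n, (if Q[k]? = some i then
      Sp y σ s (fun w => c (i :: w)) (Q.take k) * Bs y σ s j (Q.drop (k + 1)) else 0) =
    ∑ m ∈ Finset.range Q.length, if Q[m]? = some j then
      Sp y σ s c (Q.take m) * tz y σ s (Q.drop (m + 1)) else 0 := by
  have e1 : ∀ m ∈ Finset.range Q.length, (if Q[m]? = some j then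
      Sp y σ s c (Q.take m) * tz y σ s (Q.drop (m + 1)) else 0) =
      c [] * (if Q[m]? = some j then tz y σ s (Q.take m) * tz y σ s (Q.drop (m + 1)) else 0) +
      ∑ k ∈ Finset.range m, ∑ i : Fin n, (if Q[m]? = some j then if Q[k]? = some i then
        Sp y σ s (fun w => c (i :: w)) (Q.take k) * tz y σ s ((Q.take m).drop (k + 1)) *
          tz y σ s (Q.drop (m + 1)) else 0 else 0) := by
    intro m hm
    simp only [Finset.mem_range] at hm
    split_ifs with h
    · rw [Sp_rec, add_mul]
      have hl : (Q.take m).length = m := by simp; omega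
      rw [hl, mul_assoc, Finset.sum_mul]
      congr 1
      refine Finset.sum_congr rfl fun k hk => ?_
      simp only [Finset.mem_range] at hk
      rw [Finset.sum_mul]
      refine Finset.sum_congr rfl fun i _ => ?_
      rw [List.getElem?_take, if_pos hk, List.take_take, min_eq_left hk.le]
      split_ifs <;> simp
    · simp
  rw [Finset.sum_congr rfl e1, Finset.sum_add_distrib, ← Finset.mul_sum, double_sum]
  congr 1
  refine Finset.sum_congr rfl fun k hk => ?_
  refine Eq.trans ?_ Finset.sum_comm
  refine Finset.sum_congr rfl fun i _ => ?_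
  split_ifs with h
  · unfold Bs
    rw [List.length_drop, Finset.mul_sum]
    refine Finset.sum_congr rfl fun m _ => ?_
    rw [List.getElem?_drop, List.drop_drop, List.drop_take]
    have : k + 1 + m - (k + 1) = m := by omega
    rw [this]
    split_ifs with h'
    · rw [show k + 1 + m + 1 = k + 1 + (m + 1) by ring]; ring
    · simp
  · simp

theorem zw_nil (y : Fin n → G) (σ : Fin n → ℝ) (s : ℝ) : zw y σ s [] = 1 := by
  simp [zw]

theorem tz_nil (y : Fin n → G) (σ : Fin n → ℝ) (s : ℝ) : tz y σ s [] = 1 := by
  rw [tz, zw_nil, tau_one]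

theorem cc_rec (y : Fin n → G) (x : G) (j : Fin n) (W : List (Fin n)) :
    ((cc y (y j * x) W : ℤ) : ℂ) = ((cc y x (j :: W) : ℤ) : ℂ) +
      conv (fun w => ((cc y (y j) w : ℤ) : ℂ)) (fun w => ((cc y x w : ℤ) : ℂ)) W := by
  rw [cc, conv]
  push_cast
  ring

theorem key_aux (y : Fin n → G) (σ : Fin n → ℝ) (s : ℝ) (hs : 0 ≤ s) (N : ℕ) :
    ∀ (Q : List (Fin n)), Q.length ≤ N → ∀ x : G,
    tau (zw y σ s Q * lamA x) = Sp y σ s (fun w => ((cc y x w : ℤ) : ℂ)) Q := by
  classical
  have hnil : ∀ x : G, tau (zw y σ s [] * lamA x) =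
      Sp y σ s (fun w => ((cc y x w : ℤ) : ℂ)) [] := by
    intro x
    rw [zw_nil, one_mul, tau_lamA]
    simp only [Sp, List.length_nil, zero_add, Finset.range_one, Finset.sum_singleton, sumWE_zero,
      TT, tz_nil, mul_one]
    rw [cc]
    split_ifs <;> simp
  induction N with
  | zero =>
    intro Q hQ x
    have : Q = [] := by
      apply List.eq_nil_of_length_eq_zero; omega
    subst this
    exact hnil x
  | succ N ih =>
    intro Q hQ x
    rcases List.eq_nil_or_concat Q with rfl | ⟨Q', j, rfl⟩
    · exact hnil x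
    rw [List.concat_eq_append] at hQ ⊢
    have hQ' : Q'.length ≤ N := by simp at hQ; omega
    -- moments with one more letter
    have htz : ∀ D : List (Fin n), D.length ≤ N → tz y σ s (D ++ [j]) =
        Sp y σ s (fun w => ((cc y (y j) w : ℤ) : ℂ)) D +
          ((cv σ s j : ℝ) : ℂ) * Bs y σ s j D := by
      intro D hD
      have h1 := sd_snoc y σ s hs D j (1 : G)
      rw [lamA_one, mul_one, mul_one] at h1
      rw [tz, h1, ih D hD (y j)]
      simp only [mul_one]
      rfl
    rw [sd_snoc y σ s hs Q' j x, ih Q' hQ' (y j * x), Sp_rec y σ s _ (Q' ++ [j])]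
    have hlen : (Q' ++ [j]).length = Q'.length + 1 := by simp
    rw [hlen, Finset.sum_range_succ]
    have hlast : ∑ i : Fin n, (if (Q' ++ [j])[Q'.length]? = some i then
        Sp y σ s (fun w => ((cc y x (i :: w) : ℤ) : ℂ)) ((Q' ++ [j]).take Q'.length) *
          tz y σ s ((Q' ++ [j]).drop (Q'.length + 1)) else 0) =
        Sp y σ s (fun w => ((cc y x (j :: w) : ℤ) : ℂ)) Q' := by
      simp [tz_nil]
    rw [hlast]
    have hmid : ∀ k ∈ Finset.range Q'.length, (∑ i : Fin n,
        if (Q' ++ [j])[k]? = some i then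
        Sp y σ s (fun w => ((cc y x (i :: w) : ℤ) : ℂ)) ((Q' ++ [j]).take k) *
          tz y σ s ((Q' ++ [j]).drop (k + 1)) else 0) =
        (∑ i : Fin n, if Q'[k]? = some i then
          Sp y σ s (fun w => ((cc y x (i :: w) : ℤ) : ℂ)) (Q'.take k) *
          Sp y σ s (fun w => ((cc y (y j) w : ℤ) : ℂ)) (Q'.drop (k + 1)) else 0) +
        ((cv σ s j : ℝ) : ℂ) * ∑ i : Fin n, (if Q'[k]? = some i then
          Sp y σ s (fun w => ((cc y x (i :: w) : ℤ) : ℂ)) (Q'.take k) *
          Bs y σ s j (Q'.drop (k + 1)) else 0) := by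
      intro k hk
      simp only [Finset.mem_range] at hk
      rw [Finset.mul_sum, ← Finset.sum_add_distrib]
      refine Finset.sum_congr rfl fun i _ => ?_
      rw [List.getElem?_append_left hk, List.take_append_of_le_length hk.le,
        List.drop_append_of_le_length (by omega)]
      split_ifs with h
      · rw [htz _ (by simp; omega)]; ring
      · simp
    rw [Finset.sum_congr rfl hmid, Finset.sum_add_distrib, ← Finset.mul_sum, htz Q' hQ']
    have hB := Bs_identity y σ s j (fun w => ((cc y x w : ℤ) : ℂ)) Q'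
    have hC := Sp_conv y σ s Q'.length (fun w => ((cc y (y j) w : ℤ) : ℂ))
      (fun w => ((cc y x w : ℤ) : ℂ)) Q' le_rfl
    have hS : Sp y σ s (fun w => ((cc y (y j * x) w : ℤ) : ℂ)) Q' =
        Sp y σ s (fun w => ((cc y x (j :: w) : ℤ) : ℂ)) Q' +
        Sp y σ s (conv (fun w => ((cc y (y j) w : ℤ) : ℂ)) (fun w => ((cc y x w : ℤ) : ℂ))) Q' := by
      rw [← Sp_add]
      congr 1
      funext w
      exact cc_rec y x j w
    have hT : ∑ k ∈ Finset.range Q'.length, (if Q'[k]? = some j then
        tau (zw y σ s (Q'.take k) * lamA x) * tz y σ s (Q'.drop (k + 1)) else 0) =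
        ∑ m ∈ Finset.range Q'.length, if Q'[m]? = some j then
          Sp y σ s (fun w => ((cc y x w : ℤ) : ℂ)) (Q'.take m) *
            tz y σ s (Q'.drop (m + 1)) else 0 := by
      refine Finset.sum_congr rfl fun k hk => ?_
      split_ifs with h
      · rw [ih (Q'.take k) (by simp; omega) x]
      · rfl
    rw [hT, ← hB, hS, hC]
    ring

theorem key_identity (y : Fin n → G) (σ : Fin n → ℝ) (s : ℝ) (hs : 0 ≤ s) (Q : List (Fin n))
    (x : G) (M : ℕ) (hM : Q.length ≤ M) :
    tau (zw y σ s Q * lamA x) = ∑ l ∈ Finset.range (M + 1),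
      sumW n l (fun w => ((cc y x w : ℤ) : ℂ) * TT y σ s w Q) := by
  rw [key_aux y σ s hs Q.length Q le_rfl x]
  exact (Sp_eq y σ s (fun w => ((cc y x w : ℤ) : ℂ)) Q M hM).symm

end Crest.Agent.R89
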