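import Crest.Agent.R89.DE
/-! Row 89, piece DF (owner helper33): the dual vector of `∂_i` on words of length `≤ M`.

By `sd_snoc` (x = 1) and `key_identity` (x = y_i): `τ(Z_Q Z_i) = ∑_w κ_i(w) T_w(Q) + c_i² T_[i](Q)`,
`κ_i = cc (y i)`, `κ_i([]) = 0`, `κ_i([j]) = δ_ij`; and `τ(Z_Q Z_i) = τ(Z_i Z_Q) = ⟪Z_iΩ, Z_QΩ⟫`.
Hence `T_[i](Q) = ⟪ξ, Z_QΩ⟫` with
`ξ = (1+c_i²)⁻¹ (Z_iΩ - ∑_{l=2}^{M} ∑_{|w|=l} κ_i(w) (cw w)⁻¹ eps w)` (`inner_eps_zv`), and
`‖ξ‖² = (1+c_i²)⁻² (1 + c_i² + ∑ κ_i(w)²/cw w)` by `heat_Om`, `eps_orth`, `eps_lam`. -/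
set_option autoImplicit false
open scoped InnerProductSpace
namespace Crest.Agent.R89
open Crest.OpAlg

variable {G : Type} [Group G] {n : ℕ}

theorem cv_pos' (σ : Fin n → ℝ) (s : ℝ) (hs : 0 < s) (j : Fin n) : 0 < cv σ s j := by
  unfold cv; positivity

theorem cw_pos' (σ : Fin n → ℝ) (s : ℝ) (hs : 0 < s) (w : List (Fin n)) : 0 < cw σ s w := by
  unfold cw
  induction w with
  | nil => simp
  | cons j w ih =>
    simp only [List.map_cons, List.prod_cons]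
    exact mul_pos (cv_pos' σ s hs j) ih

theorem eps_single (σ : Fin n → ℝ) (s : ℝ) (i : Fin n) :
    eps G σ s [i] = rh G σ s i (Om : HH G (II n)) := rfl

theorem cw_single (σ : Fin n → ℝ) (s : ℝ) (i : Fin n) : cw σ s [i] = cv σ s i := by
  simp [cw]

/-- sum over words of length 1. -/
theorem sumW_one {M : Type*} [AddCommMonoid M] (f : List (Fin n) → M) :
    sumW n 1 f = ∑ j : Fin n, f [j] := by
  unfold sumW
  rw [← (Equiv.funUnique (Fin 1) (Fin n)).symm.sum_comp]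
  apply Finset.sum_congr rfl
  intro j _
  congr 1

theorem sumW_zero {M : Type*} [AddCommMonoid M] (f : List (Fin n) → M) :
    sumW n 0 f = f [] := by
  unfold sumW
  simp

/-- `τ(Z_Q Z_i)` in terms of the difference quotients. -/
theorem tau_snoc (y : Fin n → G) (h1 : ∀ j, y j ≠ 1) (h2 : ∀ j, y j * y j = 1)
    (hinj : Function.Injective y) (σ : Fin n → ℝ) (s : ℝ) (hs : 0 < s) (i : Fin n) (M : ℕ)
    (Q : List (Fin n)) (hQ : Q.length ≤ M) :
    tau (zw y σ s (Q ++ [i])) = (1 + ((cv σ s i : ℝ) : ℂ)) * TT y σ s [i] Q +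
      ∑ l ∈ Finset.Icc 2 M, sumW n l (fun w => ((cc y (y i) w : ℤ) : ℂ) * TT y σ s w Q) := by
  have hsd := sd_snoc y σ s hs.le Q i 1
  rw [lamA_one, mul_one, mul_one] at hsd
  simp only [mul_one] at hsd
  have hTT := TT_singleton y σ s i Q
  have e1 : (∑ k ∈ Finset.range Q.length, if Q[k]? = some i then
      tau (zw y σ s (Q.take k)) * tz y σ s (Q.drop (k + 1)) else 0) = TT y σ s [i] Q := by
    rw [hTT]; rfl
  rw [e1] at hsd
  rw [hsd, key_identity y σ s hs.le Q (y i) (M + 1) (by omega)]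
  have hsplit : ∀ F : ℕ → ℂ, ∑ l ∈ Finset.range (M + 1 + 1), F l =
      F 0 + F 1 + ∑ l ∈ Finset.Icc 2 (M + 1), F l := by
    intro F
    rw [Finset.range_eq_Ico, Finset.sum_eq_sum_Ico_succ_bot (by omega),
      Finset.sum_eq_sum_Ico_succ_bot (by omega), ← add_assoc]
    rfl
  rw [hsplit]
  have h0 : sumW n 0 (fun w => ((cc y (y i) w : ℤ) : ℂ) * TT y σ s w Q) = 0 := by
    rw [sumW_zero, cc_nil_gen y h1 i]; simp
  have h1' : sumW n 1 (fun w => ((cc y (y i) w : ℤ) : ℂ) * TT y σ s w Q) = TT y σ s [i] Q := by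
    rw [sumW_one]
    rw [Finset.sum_eq_single i]
    · rw [cc_singleton_gen y h1 h2 hinj i i]; simp
    · intro j _ hj
      rw [cc_singleton_gen y h1 h2 hinj i j, if_neg (Ne.symm hj)]; simp
    · intro h; exact absurd (Finset.mem_univ i) h
  have htop : sumW n (M + 1) (fun w => ((cc y (y i) w : ℤ) : ℂ) * TT y σ s w Q) = 0 := by
    unfold sumW
    apply Finset.sum_eq_zero
    intro w _
    beta_reduce
    rw [TT_eq_zero y σ s (List.ofFn w) Q (by simp; omega), mul_zero]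
  have hlast : ∑ l ∈ Finset.Icc 2 (M + 1),
        sumW n l (fun w => ((cc y (y i) w : ℤ) : ℂ) * TT y σ s w Q) =
      ∑ l ∈ Finset.Icc 2 M,
        sumW n l (fun w => ((cc y (y i) w : ℤ) : ℂ) * TT y σ s w Q) := by
    rcases Nat.eq_zero_or_pos M with hM | hM
    · subst hM
      simp
    · rw [Finset.sum_Icc_succ_top (by omega), htop, add_zero]
  rw [h0, h1', hlast]
  ring

/-- `τ(Z_Q Z_i) = ⟪Z_iΩ, Z_QΩ⟫`. -/
theorem tau_snoc_inner (y : Fin n → G) (h2 : ∀ j, y j * y j = 1)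
    (σ : Fin n → ℝ) (s : ℝ) (i : Fin n) (Q : List (Fin n)) :
    tau (zw y σ s (Q ++ [i])) =
      ⟪lam (y i) Om + eps G σ s [i], (zv y σ s Q : HH G (II n))⟫_ℂ := by
  have e1 : zw y σ s (Q ++ [i]) = zw y σ s Q * heatTuple (Xt y σ) St s i := by
    unfold zw; simp
  have e2 : star (heatTuple (Xt y σ) St s i) = heatTuple (Xt y σ) St s i :=
    (isSelfAdjoint_heat y h2 σ s i).star_eq
  rw [e1, tau_comm]
  conv_lhs => rw [← e2]
  rw [tau_star_mul, heat_Om, eps_single]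
  rfl

theorem inner_inv_eps (y : Fin n → G) (σ : Fin n → ℝ) (s : ℝ) (hs : 0 < s)
    (w Q : List (Fin n)) (r : ℝ) :
    ⟪((r / cw σ s w : ℝ) : ℂ) • eps G σ s w, zv y σ s Q⟫_ℂ = (r : ℂ) * TT y σ s w Q := by
  rw [inner_smul_left, inner_eps_zv y σ s hs.le w Q, Complex.conj_ofReal, ← mul_assoc]
  congr 1
  have h : ((cw σ s w : ℝ) : ℂ) ≠ 0 := by exact_mod_cast (cw_pos' σ s hs w).ne'
  rw [Complex.ofReal_div, div_mul_cancel₀ _ h]

theorem norm_eps_sq (σ : Fin n → ℝ) (s : ℝ) (hs : 0 < s) (w : List (Fin n)) :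
    ‖eps G σ s w‖ ^ 2 = cw σ s w := by
  rw [← @inner_self_eq_norm_sq ℂ, eps_orth (G := G) σ s hs.le w w, if_pos rfl]
  simp

theorem exists_dual (y : Fin n → G) (h1 : ∀ j, y j ≠ 1) (h2 : ∀ j, y j * y j = 1)
    (hinj : Function.Injective y) (σ : Fin n → ℝ) (s : ℝ) (hs : 0 < s) (i : Fin n) (M : ℕ) :
    ∃ ξ : HH G (II n), (∀ Q : List (Fin n), Q.length ≤ M →
        TT y σ s [i] Q = ⟪ξ, zv y σ s Q⟫_ℂ) ∧
      ‖ξ‖ ^ 2 ≤ ((1 + cv σ s i) ^ 2)⁻¹ * (1 + cv σ s i +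
        ∑ l ∈ Finset.Icc 2 M, sumW n l (fun w => ((cc y (y i) w : ℝ)) ^ 2 / cw σ s w)) := by
  classical
  -- index set of words
  let S : Finset (Σ l : ℕ, (Fin l → Fin n)) := (Finset.Icc 2 M).sigma (fun _ => Finset.univ)
  let wd : (Σ l : ℕ, (Fin l → Fin n)) → List (Fin n) := fun p => List.ofFn p.2
  have hwd : ∀ p q, wd p = wd q → p = q := by
    rintro ⟨l, f⟩ ⟨l', f'⟩ h
    exact List.ofFn_inj'.1 h
  have hlen : ∀ p ∈ S, 2 ≤ (wd p).length := by
    intro p hp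
    have := (Finset.mem_sigma.1 hp).1
    simp only [wd, List.length_ofFn]
    exact (Finset.mem_Icc.1 this).1
  have hsum : ∀ {A : Type} [AddCommMonoid A] (F : List (Fin n) → A),
      ∑ l ∈ Finset.Icc 2 M, sumW n l F = ∑ p ∈ S, F (wd p) := by
    intro A _ F
    unfold sumW
    rw [Finset.sum_sigma]
  let v : HH G (II n) := ∑ p ∈ S,
    (((cc y (y i) (wd p) : ℝ) / cw σ s (wd p) : ℝ) : ℂ) • eps G σ s (wd p)
  let u : HH G (II n) := lam (y i) Om + eps G σ s [i] - v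
  have hc : 0 < 1 + cv σ s i := by have := cv_pos' σ s hs i; linarith
  refine ⟨(((1 + cv σ s i)⁻¹ : ℝ) : ℂ) • u, ?_, ?_⟩
  · intro Q hQ
    rw [inner_smul_left, Complex.conj_ofReal]
    have hv : ⟪v, zv y σ s Q⟫_ℂ = ∑ l ∈ Finset.Icc 2 M,
        sumW n l (fun w => ((cc y (y i) w : ℤ) : ℂ) * TT y σ s w Q) := by
      rw [hsum, sum_inner]
      apply Finset.sum_congr rfl
      intro p _
      rw [inner_inv_eps y σ s hs]
      norm_cast
    have hu : ⟪u, zv y σ s Q⟫_ℂ = (1 + ((cv σ s i : ℝ) : ℂ)) * TT y σ s [i] Q := by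
      show ⟪lam (y i) Om + eps G σ s [i] - v, zv y σ s Q⟫_ℂ = _
      rw [inner_sub_left, ← tau_snoc_inner y h2 σ s i Q,
        tau_snoc y h1 h2 hinj σ s hs i M Q hQ, hv]
      ring
    rw [hu]
    have hc' : (1 + ((cv σ s i : ℝ) : ℂ)) ≠ 0 := by
      have : ((1 + cv σ s i : ℝ) : ℂ) ≠ 0 := by exact_mod_cast hc.ne'
      simpa using this
    push_cast
    rw [← mul_assoc, inv_mul_cancel₀ hc', one_mul]
  · have hlam : ‖lam (y i) (Om : HH G (II n))‖ ^ 2 = 1 := by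
      rw [lam_Om, norm_dl]; norm_num
    have ho1 : ⟪lam (y i) (Om : HH G (II n)), eps G σ s [i]⟫_ℂ = 0 := by
      rw [← inner_conj_symm, eps_lam σ s [i] (by simp), map_zero]
    have ho2 : ⟪lam (y i) (Om : HH G (II n)), v⟫_ℂ = 0 := by
      show ⟪lam (y i) (Om : HH G (II n)), ∑ p ∈ S, _⟫_ℂ = 0
      rw [inner_sum]
      apply Finset.sum_eq_zero
      intro p hp
      have hne : wd p ≠ [] := by
        intro h
        have := hlen p hp
        rw [h] at this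
        simp at this
      rw [inner_smul_right, ← inner_conj_symm, eps_lam σ s (wd p) hne, map_zero, mul_zero]
    have ho3 : ⟪eps G σ s [i], v⟫_ℂ = 0 := by
      show ⟪eps G σ s [i], ∑ p ∈ S, _⟫_ℂ = 0
      rw [inner_sum]
      apply Finset.sum_eq_zero
      intro p hp
      have hne : [i] ≠ wd p := by
        intro h
        have := hlen p hp
        rw [← h] at this
        simp at this
      rw [inner_smul_right, eps_orth σ s hs.le, if_neg hne, mul_zero]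
    have hvv : ‖v‖ ^ 2 = ∑ p ∈ S, ((cc y (y i) (wd p) : ℝ)) ^ 2 / cw σ s (wd p) := by
      have h : ⟪v, v⟫_ℂ = ((∑ p ∈ S, ((cc y (y i) (wd p) : ℝ)) ^ 2 / cw σ s (wd p) : ℝ) : ℂ) := by
        show ⟪∑ p ∈ S, _, ∑ q ∈ S, _⟫_ℂ = _
        rw [sum_inner, Complex.ofReal_sum]
        apply Finset.sum_congr rfl
        intro p hp
        rw [inner_sum, Finset.sum_eq_single p]
        · rw [inner_smul_left, inner_smul_right, eps_orth σ s hs.le, if_pos rfl,
            Complex.conj_ofReal]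
          have hcw := (cw_pos' σ s hs (wd p)).ne'
          rw [← Complex.ofReal_mul, ← Complex.ofReal_mul]
          congr 1
          field_simp
        · intro q _ hq
          rw [inner_smul_left, inner_smul_right, eps_orth σ s hs.le, if_neg
            (fun h => hq (hwd _ _ h).symm), mul_zero, mul_zero]
        · intro h; exact absurd hp h
      rw [← @inner_self_eq_norm_sq ℂ, h]
      exact Complex.ofReal_re _
    have hu : ‖u‖ ^ 2 = 1 + cv σ s i + ∑ p ∈ S, ((cc y (y i) (wd p) : ℝ)) ^ 2 / cw σ s (wd p) := by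
      have e1 : ‖u‖ ^ 2 = ‖lam (y i) (Om : HH G (II n)) + eps G σ s [i]‖ ^ 2 + ‖v‖ ^ 2 := by
        show ‖lam (y i) Om + eps G σ s [i] - v‖ ^ 2 = _
        rw [@norm_sub_sq ℂ, inner_add_left, ho2, ho3]
        simp
      have e2 : ‖lam (y i) (Om : HH G (II n)) + eps G σ s [i]‖ ^ 2 = 1 + cv σ s i := by
        rw [@norm_add_sq ℂ, ho1, hlam, norm_eps_sq σ s hs, cw_single]
        simp
      rw [e1, e2, hvv]
    rw [norm_smul, mul_pow, hu, hsum]
    have : ‖(((1 + cv σ s i)⁻¹ : ℝ) : ℂ)‖ ^ 2 = ((1 + cv σ s i) ^ 2)⁻¹ := by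
      rw [Complex.norm_real, Real.norm_eq_abs, sq_abs, inv_pow]
    rw [this]

/-- the trivial dual vector `rh i Ω / c_i²`. -/
theorem trivial_dual (y : Fin n → G) (σ : Fin n → ℝ) (s : ℝ) (hs : 0 < s) (i : Fin n) :
    ∃ ξ : HH G (II n), (∀ Q : List (Fin n), TT y σ s [i] Q = ⟪ξ, zv y σ s Q⟫_ℂ) ∧
      ‖ξ‖ ^ 2 ≤ (cv σ s i)⁻¹ := by
  refine ⟨((1 / cw σ s [i] : ℝ) : ℂ) • eps G σ s [i], ?_, ?_⟩
  · intro Q
    rw [inner_inv_eps y σ s hs]
    simp
  · rw [norm_smul, mul_pow, norm_eps_sq σ s hs, Complex.norm_real, Real.norm_eq_abs, sq_abs,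
      cw_single]
    have h := cv_pos' σ s hs i
    apply le_of_eq
    field_simp

end Crest.Agent.R89
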