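import Crest.Agent.R89.DC
/-! Row 89, piece DG (owner helper33): from dual vectors to the free Fisher information.
For self-adjoint `P i` supported on words of length `≤ M` (finitely many words, finitely many `i`):
`splitPairing τ Z i (P i) = ∑_Q P_Q T_[i](Q) = ⟪ξ_i, P_i(Z)Ω⟫`, `τ(P_i(Z)²) = ‖P_i(Z)Ω‖²`
(`P_i(Z)` is self-adjoint since the `Z_j` are), and `2 Re⟪ξ,v⟫ - ‖v‖² ≤ ‖ξ‖²`. -/
set_option autoImplicit false
open scoped InnerProductSpace
namespace Crest.Agent.R89
open Crest.OpAlg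

variable {G : Type} [Group G] {n : ℕ}

theorem wordEval_heat (y : Fin n → G) (σ : Fin n → ℝ) (s : ℝ) (w : FreeMonoid (Fin n)) :
    wordEval (heatTuple (Xt y σ) St s) w = zw y σ s (FreeMonoid.toList w) := by
  unfold wordEval zw
  rw [FreeMonoid.lift_apply]

private theorem dg_polyEval (y : Fin n → G) (σ : Fin n → ℝ) (s : ℝ) (P : NCPoly n) :
    polyEval (heatTuple (Xt y σ) St s) P =
      ∑ w ∈ P.coeff.support, P.coeff w • zw y σ s (FreeMonoid.toList w) := by
  unfold polyEval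
  rw [MonoidAlgebra.lift_apply, Finsupp.sum]
  refine Finset.sum_congr rfl fun w _ => ?_
  rw [← wordEval_heat]
  rfl

private theorem dg_val_sum {ι : Type} (t : Finset ι) (f : ι → AT G (II n)) :
    ((∑ w ∈ t, f w : AT G (II n)) : HH G (II n) →L[ℂ] HH G (II n)) = ∑ w ∈ t, (f w).1 := by
  classical
  induction t using Finset.induction_on with
  | empty => simp
  | insert a t ha ih => rw [Finset.sum_insert ha, Finset.sum_insert ha, ← ih]; rfl

private theorem dg_vec (y : Fin n → G) (σ : Fin n → ℝ) (s : ℝ) (P : NCPoly n) :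
    ((polyEval (heatTuple (Xt y σ) St s) P : AT G (II n)) :
      HH G (II n) →L[ℂ] HH G (II n)) Om =
      ∑ w ∈ P.coeff.support, P.coeff w • zv y σ s (FreeMonoid.toList w) := by
  rw [dg_polyEval, dg_val_sum, ContinuousLinearMap.sum_apply]
  rfl

private theorem dg_split (y : Fin n → G) (σ : Fin n → ℝ) (s : ℝ) (i : Fin n) (P : NCPoly n) :
    splitPairing (tau : AT G (II n) →ₗ[ℂ] ℂ) (heatTuple (Xt y σ) St s) i P =
      ∑ w ∈ P.coeff.support, P.coeff w * TT y σ s [i] (FreeMonoid.toList w) := by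
  unfold splitPairing
  rw [Finsupp.sum]
  refine Finset.sum_congr rfl fun w _ => ?_
  congr 1
  simp only [TT]
  refine Finset.sum_congr rfl fun k _ => ?_
  simp only [wordEval_heat]
  rfl

private theorem dg_star_zw (y : Fin n → G) (hy : ∀ j, y j * y j = 1) (σ : Fin n → ℝ) (s : ℝ)
    (w : List (Fin n)) : star (zw y σ s w) = zw y σ s w.reverse := by
  induction w with
  | nil => simp [zw]
  | cons j w ih =>
    have h1 : zw y σ s (j :: w) = heatTuple (Xt y σ) St s j * zw y σ s w := by simp [zw]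
    have h2 : zw y σ s (j :: w).reverse = zw y σ s w.reverse * heatTuple (Xt y σ) St s j := by
      simp [zw]
    rw [h1, h2, star_mul, ih, (isSelfAdjoint_heat y hy σ s j).star_eq]

private theorem dg_star (y : Fin n → G) (hy : ∀ j, y j * y j = 1) (σ : Fin n → ℝ) (s : ℝ)
    (P : NCPoly n) : star (polyEval (heatTuple (Xt y σ) St s) P) =
      polyEval (heatTuple (Xt y σ) St s) (polyStar P) := by
  have h1 : polyEval (heatTuple (Xt y σ) St s) (polyStar P) =
      ∑ w ∈ P.coeff.support, (starRingEnd ℂ (P.coeff w)) •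
        zw y σ s (FreeMonoid.toList w).reverse := by
    unfold polyStar
    rw [Finsupp.sum]
    have h2 : ∀ Q : NCPoly n, polyEval (heatTuple (Xt y σ) St s) Q =
      MonoidAlgebra.lift ℂ (AT G (II n)) (FreeMonoid (Fin n))
        (FreeMonoid.lift (heatTuple (Xt y σ) St s)) Q := fun Q => rfl
    rw [h2, map_sum]
    refine Finset.sum_congr rfl fun w _ => ?_
    rw [MonoidAlgebra.lift_single]
    congr 1
    rw [FreeMonoid.lift_apply]
    rfl
  rw [h1, dg_polyEval, star_sum]
  refine Finset.sum_congr rfl fun w _ => ?_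
  rw [star_smul, dg_star_zw y hy]
  rfl

theorem fisher_le_of_dual (y : Fin n → G) (h2 : ∀ j, y j * y j = 1) (σ : Fin n → ℝ) (s : ℝ)
    (hs : 0 ≤ s) (B : ℝ)
    (h : ∀ M : ℕ, ∃ ξ : Fin n → HH G (II n), (∀ i, ∀ Q : List (Fin n), Q.length ≤ M →
      TT y σ s [i] Q = ⟪ξ i, zv y σ s Q⟫_ℂ) ∧ ∑ i, ‖ξ i‖ ^ 2 ≤ B) :
    freeFisher (tau : AT G (II n) →ₗ[ℂ] ℂ) (heatTuple (Xt y σ) St s) ≤ ENNReal.ofReal B := by
  unfold freeFisher
  refine iSup_le fun P => iSup_le fun hP => ENNReal.ofReal_le_ofReal ?_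
  obtain ⟨ξ, hξ, hB⟩ := h (Finset.univ.sup fun i =>
    (P i).coeff.support.sup fun w => (FreeMonoid.toList w).length)
  refine le_trans ?_ hB
  rw [Complex.re_sum]
  refine Finset.sum_le_sum fun i _ => ?_
  set v : HH G (II n) := ((polyEval (heatTuple (Xt y σ) St s) (P i) : AT G (II n)) :
      HH G (II n) →L[ℂ] HH G (II n)) Om with hv
  have e1 : splitPairing (tau : AT G (II n) →ₗ[ℂ] ℂ) (heatTuple (Xt y σ) St s) i (P i) =
      ⟪ξ i, v⟫_ℂ := by
    rw [dg_split, hv, dg_vec, inner_sum]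
    refine Finset.sum_congr rfl fun w hw => ?_
    rw [inner_smul_right, ← hξ]
    exact (Finset.le_sup (f := fun w => (FreeMonoid.toList w).length) hw).trans
      (Finset.le_sup (f := fun i => (P i).coeff.support.sup
        fun w => (FreeMonoid.toList w).length) (Finset.mem_univ i))
  have e2 : tau (polyEval (heatTuple (Xt y σ) St s) (P i) *
      polyEval (heatTuple (Xt y σ) St s) (P i) : AT G (II n)) = ((‖v‖ ^ 2 : ℝ) : ℂ) := by
    have h3 : star (polyEval (heatTuple (Xt y σ) St s) (P i)) =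
        (polyEval (heatTuple (Xt y σ) St s) (P i) : AT G (II n)) := by
      rw [dg_star y h2, hP i]
    rw [hv, ← tau_star_mul_self, h3]
  rw [e1, e2, Complex.sub_re, Complex.ofReal_re]
  have h4 := norm_sub_sq (𝕜 := ℂ) (ξ i) v
  have h5 : 0 ≤ ‖ξ i - v‖ ^ 2 := by positivity
  have h6 : (2 * ⟪ξ i, v⟫_ℂ).re = 2 * RCLike.re ⟪ξ i, v⟫_ℂ := by
    simp
  rw [h6]
  linarith

end Crest.Agent.R89
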