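import Crest.Agent.R89.DF
import Crest.Agent.R89.DG
/-! Row 89, piece DH (owner helper33): the two upper bounds for `Φ*`.
`fisher_trivial`: `trivial_dual` + `fisher_le_of_dual`.
`fisher_main`: `exists_dual` + `fisher_le_of_dual`: `∑_i ‖ξ_i‖² ≤ ∑_i 1/(1+c_i²) +
s⁻² ∑_{l≥2} s^{-l} ∑_{i,|w|=l} κ² ≤ n/(1+s) + s⁻² ∑_{l≥2} 64^l r^{l+1} s^{-l}` (`cw w ≥ s^|w|`,
`sum_cc_sq_le`), geometric series with ratio `64 r/s ≤ 1/2`: `≤ s⁻² · r · 2 (64 r/s)² =
8192 r³/s⁴`. -/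
set_option autoImplicit false
open scoped InnerProductSpace
namespace Crest.Agent.R89
open Crest.OpAlg

variable {G : Type} [Group G] {n : ℕ}

theorem fisher_trivial (y : Fin n → G) (h2 : ∀ j, y j * y j = 1) (σ : Fin n → ℝ) (s : ℝ)
    (hs : 0 < s) :
    freeFisher (tau : AT G (II n) →ₗ[ℂ] ℂ) (heatTuple (Xt y σ) St s) ≤
      ENNReal.ofReal (∑ j, (σ j ^ 2 + s)⁻¹) := by
  refine fisher_le_of_dual y h2 σ s hs.le _ fun M => ?_
  choose ξ hξ1 hξ2 using fun i => trivial_dual y σ s hs i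
  refine ⟨ξ, fun i Q _ => hξ1 i Q, ?_⟩
  exact Finset.sum_le_sum fun i _ => hξ2 i

theorem pow_le_cw (σ : Fin n → ℝ) (s : ℝ) (hs : 0 ≤ s) (w : List (Fin n)) :
    s ^ w.length ≤ cw σ s w := by
  induction w with
  | nil => simp [cw]
  | cons j w ih =>
    have h1 : s ≤ cv σ s j := by
      unfold cv
      nlinarith [sq_nonneg (σ j)]
    have h2 : cw σ s (j :: w) = cv σ s j * cw σ s w := by simp [cw]
    rw [h2, List.length_cons, pow_succ, mul_comm]
    exact mul_le_mul h1 ih (pow_nonneg hs _) (hs.trans h1)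

theorem geom_Icc_le (q : ℝ) (hq0 : 0 ≤ q) (hq : q ≤ 1 / 2) (M : ℕ) :
    ∑ l ∈ Finset.Icc 2 M, q ^ l ≤ 2 * q ^ 2 := by
  have key : ∀ k : ℕ, ∑ l ∈ Finset.Icc 2 (k + 1), q ^ l + 2 * q ^ (k + 2) ≤ 2 * q ^ 2 := by
    intro k
    induction k with
    | zero => simp
    | succ k ih =>
      rw [Finset.sum_Icc_succ_top (by omega)]
      have h1 : q ^ (k + 1 + 2) ≤ q ^ (k + 2) * (1 / 2) := by
        rw [show k + 1 + 2 = (k + 2) + 1 by omega, pow_succ]
        exact mul_le_mul_of_nonneg_left hq (pow_nonneg hq0 _)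
      have h2 : q ^ (k + 1 + 1) = q ^ (k + 2) := rfl
      rw [h2]
      linarith
  rcases Nat.eq_zero_or_pos M with h0 | hM
  · subst h0
    simp
    positivity
  · obtain ⟨k, rfl⟩ : ∃ k, M = k + 1 := ⟨M - 1, by omega⟩
    have := key k
    have h3 : 0 ≤ 2 * q ^ (k + 2) := by positivity
    linarith

open Classical in
theorem fisher_main (y : Fin n → G) (h1 : ∀ j, y j ≠ 1) (h2 : ∀ j, y j * y j = 1)
    (hinj : Function.Injective y) (σ : Fin n → ℝ) (r : ℝ) (hr : 0 < r)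
    (hcount : ∀ l : ℕ, ((Finset.univ.filter (fun w : Fin l → Fin n =>
      ((List.ofFn w).map y).prod = 1)).card : ℝ) ≤ r ^ l)
    (s : ℝ) (hs : 128 * r ≤ s) :
    freeFisher (tau : AT G (II n) →ₗ[ℂ] ℂ) (heatTuple (Xt y σ) St s) ≤
      ENNReal.ofReal (n / (1 + s) + 8192 * r ^ 3 / s ^ 4) := by
  have hs0 : 0 < s := by linarith
  refine fisher_le_of_dual y h2 σ s hs0.le _ fun M => ?_
  choose ξ hξ1 hξ2 using fun i => exists_dual y h1 h2 hinj σ s hs0 i M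
  refine ⟨ξ, hξ1, ?_⟩
  have hcv : ∀ i, s ≤ cv σ s i := by
    intro i
    unfold cv
    nlinarith [sq_nonneg (σ i)]
  -- termwise bound
  have hterm : ∀ i, ‖ξ i‖ ^ 2 ≤ 1 / (1 + s) + (s ^ 2)⁻¹ *
      ∑ l ∈ Finset.Icc 2 M, (s ^ l)⁻¹ * sumW n l (fun w => ((cc y (y i) w : ℝ)) ^ 2) := by
    intro i
    refine (hξ2 i).trans ?_
    have hc := hcv i
    have hS0 : 0 ≤ ∑ l ∈ Finset.Icc 2 M,
        sumW n l (fun w => ((cc y (y i) w : ℝ)) ^ 2 / cw σ s w) := by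
      refine Finset.sum_nonneg fun l _ => ?_
      unfold sumW
      refine Finset.sum_nonneg fun w _ => ?_
      have := pow_le_cw σ s hs0.le (List.ofFn w)
      have h0 : 0 ≤ cw σ s (List.ofFn w) := (pow_nonneg hs0.le _).trans this
      positivity
    have hS : ∑ l ∈ Finset.Icc 2 M,
        sumW n l (fun w => ((cc y (y i) w : ℝ)) ^ 2 / cw σ s w) ≤
        ∑ l ∈ Finset.Icc 2 M, (s ^ l)⁻¹ * sumW n l (fun w => ((cc y (y i) w : ℝ)) ^ 2) := by
      refine Finset.sum_le_sum fun l _ => ?_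
      unfold sumW
      rw [Finset.mul_sum]
      refine Finset.sum_le_sum fun w _ => ?_
      have h3 := pow_le_cw σ s hs0.le (List.ofFn w)
      rw [List.length_ofFn] at h3
      show ((cc y (y i) (List.ofFn w) : ℝ)) ^ 2 / cw σ s (List.ofFn w) ≤
        (s ^ l)⁻¹ * ((cc y (y i) (List.ofFn w) : ℝ)) ^ 2
      rw [div_eq_inv_mul]
      refine mul_le_mul_of_nonneg_right ?_ (sq_nonneg _)
      exact inv_anti₀ (pow_pos hs0 _) h3
    have e1 : ((1 + cv σ s i) ^ 2)⁻¹ * (1 + cv σ s i +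
        ∑ l ∈ Finset.Icc 2 M, sumW n l (fun w => ((cc y (y i) w : ℝ)) ^ 2 / cw σ s w)) =
        1 / (1 + cv σ s i) + ((1 + cv σ s i) ^ 2)⁻¹ *
          ∑ l ∈ Finset.Icc 2 M, sumW n l (fun w => ((cc y (y i) w : ℝ)) ^ 2 / cw σ s w) := by
      have : (1 + cv σ s i) ≠ 0 := by linarith
      field_simp
    rw [e1]
    refine add_le_add ?_ ?_
    · exact one_div_le_one_div_of_le (by linarith) (by linarith)
    · refine mul_le_mul ?_ hS hS0 (by positivity)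
      refine inv_anti₀ (by positivity) ?_
      exact pow_le_pow_left₀ hs0.le (by linarith) 2
  calc ∑ i, ‖ξ i‖ ^ 2
      ≤ ∑ i : Fin n, (1 / (1 + s) + (s ^ 2)⁻¹ *
        ∑ l ∈ Finset.Icc 2 M, (s ^ l)⁻¹ * sumW n l (fun w => ((cc y (y i) w : ℝ)) ^ 2)) :=
        Finset.sum_le_sum fun i _ => hterm i
    _ = n / (1 + s) + (s ^ 2)⁻¹ * ∑ l ∈ Finset.Icc 2 M, (s ^ l)⁻¹ *
          ∑ i : Fin n, sumW n l (fun w => ((cc y (y i) w : ℝ)) ^ 2) := by
        rw [Finset.sum_add_distrib, Finset.sum_const, Finset.card_univ, Fintype.card_fin,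
          nsmul_eq_mul, ← Finset.mul_sum, Finset.sum_comm]
        simp_rw [Finset.mul_sum]
        ring
    _ ≤ n / (1 + s) + (s ^ 2)⁻¹ * ∑ l ∈ Finset.Icc 2 M, (s ^ l)⁻¹ * (64 ^ l * r ^ (l + 1)) := by
        gcongr with l hl
        exact sum_cc_sq_le y h2 r hcount l
    _ = n / (1 + s) + (s ^ 2)⁻¹ * (r * ∑ l ∈ Finset.Icc 2 M, (64 * r / s) ^ l) := by
        congr 2
        rw [Finset.mul_sum]
        refine Finset.sum_congr rfl fun l _ => ?_
        rw [div_pow, mul_pow, pow_succ]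
        field_simp
    _ ≤ n / (1 + s) + (s ^ 2)⁻¹ * (r * (2 * (64 * r / s) ^ 2)) := by
        gcongr
        refine geom_Icc_le _ (by positivity) ?_ M
        rw [div_le_iff₀ hs0]
        linarith
    _ = n / (1 + s) + 8192 * r ^ 3 / s ^ 4 := by
        congr 1
        field_simp
        ring

end Crest.Agent.R89
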