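import Crest.Agent.R89.DG
/-! Row 89, piece DI (owner helper33): lower bound and measurability of `Φ*` along the heat path.
`fisher_lower`: test with `P_i = (1+s)⁻¹ X_i` (single letter): `splitPairing = (1+s)⁻¹`,
`τ(Z_i²) = 1 + σ_i² + s` (`y_i² = 1`, `τ(y_i S) = 0`, `τ(S²) = 1`, `τ(SS') = 0`).
`fisher_measurable`: for fixed self-adjoint `P` the functional is a continuous function of `s`
(polynomial in `√s`: `heatTuple` depends continuously on `s`, `wordEval` is a finite product, `tau` is
continuous), `ENNReal.ofReal ∘ continuous` is continuous; a supremum of continuous functions is lower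
semicontinuous (`lowerSemicontinuous_iSup`), hence measurable (`LowerSemicontinuous.measurable`). -/
set_option autoImplicit false
open scoped InnerProductSpace
namespace Crest.Agent.R89
open Crest.OpAlg

variable {G : Type} [Group G] {n : ℕ}

theorem fisher_lower (y : Fin n → G) (h2 : ∀ j, y j * y j = 1)
    (σ : Fin n → ℝ) (s : ℝ) (hs : 0 ≤ s) :
    ENNReal.ofReal (n / (1 + s) - (∑ j, σ j ^ 2) / (1 + s) ^ 2) ≤
      freeFisher (tau : AT G (II n) →ₗ[ℂ] ℂ) (heatTuple (Xt y σ) St s) := by
  classical
  have hs1 : (0 : ℝ) < 1 + s := by linarith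
  set c : ℝ := (1 + s)⁻¹ with hc
  -- the vector `Z_i Ω`
  have hvec : ∀ i, ((heatTuple (Xt y σ) St s i : AT G (II n)) : HH G (II n) →L[ℂ] HH G (II n)) Om =
      dl (T.base (y i)) + ((σ i : ℝ) : ℂ) • dl (T.cons 1 (i, false) (T.base 1)) +
        ((Real.sqrt s : ℝ) : ℂ) • dl (T.cons 1 (i, true) (T.base 1)) := by
    intro i
    rw [← Sop_Om, ← Sop_Om, ← lam_Om]
    rfl
  have hnorm : ∀ i, ‖((heatTuple (Xt y σ) St s i : AT G (II n)) :
      HH G (II n) →L[ℂ] HH G (II n)) Om‖ ^ 2 = 1 + σ i ^ 2 + s := by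
    intro i
    have h1 : ∀ v : HH G (II n), ((‖v‖ ^ 2 : ℝ) : ℂ) = ⟪v, v⟫_ℂ := fun v => by
      rw [inner_self_eq_norm_sq_to_K]; norm_cast
    have h3 : ((Real.sqrt s : ℝ) : ℂ) * ((Real.sqrt s : ℝ) : ℂ) = ((s : ℝ) : ℂ) := by
      rw [← Complex.ofReal_mul, Real.mul_self_sqrt hs]
    have h2 : ((‖((heatTuple (Xt y σ) St s i : AT G (II n)) :
      HH G (II n) →L[ℂ] HH G (II n)) Om‖ ^ 2 : ℝ) : ℂ) = ((1 + σ i ^ 2 + s : ℝ) : ℂ) := by
      rw [h1, hvec]
      simp only [inner_add_left, inner_add_right, inner_smul_left, inner_smul_right, inner_dl_dl,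
        Complex.conj_ofReal]
      simp
      linear_combination h3
    exact_mod_cast h2
  let P : Fin n → NCPoly n := fun i => MonoidAlgebra.single (FreeMonoid.of i) ((c : ℝ) : ℂ)
  have hP : ∀ i, polyStar (P i) = P i := by
    intro i
    unfold polyStar
    simp only [P, MonoidAlgebra.coeff_single]
    rw [Finsupp.sum_single_index (by simp)]
    simp
  refine le_iSup₂_of_le P hP (ENNReal.ofReal_le_ofReal (le_of_eq ?_))
  have hsplit : ∀ i, splitPairing (tau : AT G (II n) →ₗ[ℂ] ℂ) (heatTuple (Xt y σ) St s) i (P i) =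
      ((c : ℝ) : ℂ) := by
    intro i
    unfold splitPairing
    simp only [P, MonoidAlgebra.coeff_single]
    rw [Finsupp.sum_single_index (by simp)]
    simp [wordEval, tau_one]
  have heval : ∀ i, polyEval (heatTuple (Xt y σ) St s) (P i) =
      ((c : ℝ) : ℂ) • heatTuple (Xt y σ) St s i := by
    intro i
    unfold polyEval
    simp [P]
  have htau : ∀ i, tau (polyEval (heatTuple (Xt y σ) St s) (P i) *
      polyEval (heatTuple (Xt y σ) St s) (P i)) =
      ((c : ℝ) : ℂ) * ((c : ℝ) : ℂ) * ((1 + σ i ^ 2 + s : ℝ) : ℂ) := by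
    intro i
    rw [heval, smul_mul_smul_comm, map_smul, smul_eq_mul]
    congr 1
    have h4 := tau_star_mul_self (heatTuple (Xt y σ) St s i)
    rw [(isSelfAdjoint_heat y h2 σ s i).star_eq, hnorm i] at h4
    exact h4
  simp only [hsplit, htau]
  have hcast : ∑ i : Fin n, (2 * ((c : ℝ) : ℂ) -
      ((c : ℝ) : ℂ) * ((c : ℝ) : ℂ) * ((1 + σ i ^ 2 + s : ℝ) : ℂ)) =
      ((∑ i : Fin n, (2 * c - c * c * (1 + σ i ^ 2 + s)) : ℝ) : ℂ) := by
    push_cast
    rfl
  rw [hcast, Complex.ofReal_re, Finset.sum_sub_distrib, ← Finset.mul_sum,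
    ← Finset.mul_sum]
  have h5 : ∑ i : Fin n, (1 + σ i ^ 2 + s) = n * (1 + s) + ∑ i, σ i ^ 2 := by
    simp only [Finset.sum_add_distrib, Finset.sum_const, Finset.card_univ, Fintype.card_fin,
      nsmul_eq_mul]
    ring
  rw [h5, Finset.sum_const, Finset.card_univ, Fintype.card_fin, nsmul_eq_mul, hc]
  field_simp
  ring


namespace DI2aux

theorem continuous_heat (y : Fin n → G) (σ : Fin n → ℝ) (j : Fin n) :
    Continuous fun s : ℝ => (heatTuple (Xt y σ) St s j : AT G (II n)) := by
  have h1 : Continuous fun s : ℝ => ((Real.sqrt s : ℝ) : ℂ) :=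
    Complex.continuous_ofReal.comp Real.continuous_sqrt
  have h2 : Continuous fun s : ℝ => ((Real.sqrt s : ℝ) : ℂ) • (St j : AT G (II n)) :=
    h1.smul (continuous_const (y := (St j : AT G (II n))))
  exact continuous_const.add h2

theorem continuous_word (y : Fin n → G) (σ : Fin n → ℝ) (w : FreeMonoid (Fin n)) :
    Continuous fun s : ℝ => (wordEval (heatTuple (Xt y σ) St s) w : AT G (II n)) := by
  induction w using FreeMonoid.inductionOn' with
  | one =>
    simp only [wordEval, map_one]
    exact continuous_const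
  | of_mul x xs ih =>
    simp only [wordEval, map_mul, FreeMonoid.lift_eval_of] at ih ⊢
    exact (continuous_heat y σ x).mul ih

theorem continuous_tau : Continuous (tau : AT G (II n) → ℂ) := by
  have h : (tau : AT G (II n) → ℂ) = fun x => ⟪(Om : HH G (II n)), x.1 Om⟫_ℂ := rfl
  rw [h]
  refine Continuous.inner continuous_const ?_
  exact (ContinuousLinearMap.apply ℂ (HH G (II n)) (Om : HH G (II n))).continuous.comp
    continuous_subtype_val

theorem continuous_poly (y : Fin n → G) (σ : Fin n → ℝ) (P : NCPoly n) :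
    Continuous fun s : ℝ => (polyEval (heatTuple (Xt y σ) St s) P : AT G (II n)) := by
  have h : (fun s : ℝ => (polyEval (heatTuple (Xt y σ) St s) P : AT G (II n))) =
      fun s => P.coeff.sum fun w c => c • wordEval (heatTuple (Xt y σ) St s) w := by
    funext s
    unfold polyEval wordEval
    rw [MonoidAlgebra.lift_apply]
  rw [h]
  unfold Finsupp.sum
  refine continuous_finsetSum _ fun w _ => ?_
  exact (continuous_word y σ w).const_smul (P.coeff w)

theorem continuous_split (y : Fin n → G) (σ : Fin n → ℝ) (i : Fin n) (P : NCPoly n) :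
    Continuous fun s : ℝ => splitPairing (tau : AT G (II n) →ₗ[ℂ] ℂ)
      (heatTuple (Xt y σ) St s) i P := by
  unfold splitPairing Finsupp.sum
  refine continuous_finsetSum _ fun w _ => continuous_const.mul
    (continuous_finsetSum _ fun k _ => ?_)
  by_cases h : (FreeMonoid.toList w)[k]? = some i
  · simp only [h, if_true]
    exact (continuous_tau.comp (continuous_word y σ _)).mul
      (continuous_tau.comp (continuous_word y σ _))
  · simp only [h, if_false]
    exact continuous_const

end DI2aux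

theorem fisher_measurable (y : Fin n → G) (σ : Fin n → ℝ) :
    Measurable (fun s : ℝ =>
      freeFisher (tau : AT G (II n) →ₗ[ℂ] ℂ) (heatTuple (Xt y σ) St s)) := by
  refine LowerSemicontinuous.measurable ?_
  unfold freeFisher
  refine lowerSemicontinuous_iSup fun P => lowerSemicontinuous_iSup fun _ => ?_
  refine Continuous.lowerSemicontinuous ?_
  refine ENNReal.continuous_ofReal.comp (Complex.continuous_re.comp
    (continuous_finsetSum _ fun i _ => ?_))
  refine (continuous_const.mul (DI2aux.continuous_split y σ i (P i))).sub ?_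
  exact DI2aux.continuous_tau.comp
    ((DI2aux.continuous_poly y σ (P i)).mul (DI2aux.continuous_poly y σ (P i)))

end Crest.Agent.R89
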