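import Crest.Agent.R89.FDefs

/-!
# Row 89, piece F_AMP: amplification of the approximants and of finite groups

* `IsApprox.amplify`: Y ⊗ 1_q, `Matrix.kroneckerMap`/`Matrix.kronecker`, reindexed along
  `finProdFinEquiv`; trace (`Matrix.trace_kronecker`), products (`Matrix.mul_kronecker_mul`).
* `exists_approx_of_finite`: left regular representation of a finite group Q of order D:
  (P_g)_{x y} = 1 if x = g y; P_g P_h = P_{gh}, trace P_g = D [g = 1], P_g Hermitian if g² = 1;
  reindex along `Fintype.equivFin`.
-/

set_option autoImplicit false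

namespace Crest.Agent.R89.F

open scoped ENNReal NNReal Topology Kronecker
open MeasureTheory ProbabilityTheory Crest.OpAlg Filter

/-- `A ↦ A ⊗ 1_q`, reindexed, as a monoid homomorphism. -/
private noncomputable def famp_amp (D q : ℕ) :
    Matrix (Fin D) (Fin D) ℂ →* Matrix (Fin (D * q)) (Fin (D * q)) ℂ where
  toFun A := Matrix.reindex finProdFinEquiv finProdFinEquiv
    (A ⊗ₖ (1 : Matrix (Fin q) (Fin q) ℂ))
  map_one' := by
    rw [Matrix.one_kronecker_one]
    simp
  map_mul' A B := by
    have h : (A * B) ⊗ₖ (1 : Matrix (Fin q) (Fin q) ℂ) =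
        (A ⊗ₖ (1 : Matrix (Fin q) (Fin q) ℂ)) * (B ⊗ₖ (1 : Matrix (Fin q) (Fin q) ℂ)) := by
      rw [← Matrix.mul_kronecker_mul, one_mul]
    rw [h]
    simp only [Matrix.reindex_apply]
    rw [Matrix.submatrix_mul_equiv]

private theorem famp_amp_apply (D q : ℕ) (A : Matrix (Fin D) (Fin D) ℂ) :
    famp_amp D q A = Matrix.reindex finProdFinEquiv finProdFinEquiv
      (A ⊗ₖ (1 : Matrix (Fin q) (Fin q) ℂ)) := rfl

private theorem famp_trace_reindex {α β : Type} [Fintype α] [Fintype β] (e : α ≃ β)
    (A : Matrix α α ℂ) : (Matrix.reindex e e A).trace = A.trace := by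
  simp only [Matrix.trace, Matrix.diag, Matrix.reindex_apply, Matrix.submatrix_apply]
  exact Equiv.sum_comp e.symm (fun i => A i i)

private theorem famp_trace_amp (D q : ℕ) (A : Matrix (Fin D) (Fin D) ℂ) :
    (famp_amp D q A).trace = A.trace * q := by
  rw [famp_amp_apply, famp_trace_reindex, Matrix.trace_kronecker]
  simp

/-- amplification `Y ⊗ 1_q` (Kronecker product, reindexed along `finProdFinEquiv`). -/
theorem IsApprox.amplify {n K D : ℕ} {m : List (Fin n) → ℂ} {Y : Fin n → Matrix (Fin D) (Fin D) ℂ}
    (h : IsApprox m K Y) (q : ℕ) (hq : 0 < q) :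
    ∃ Y' : Fin n → Matrix (Fin (D * q)) (Fin (D * q)) ℂ, IsApprox m K Y' := by
  refine ⟨fun j => famp_amp D q (Y j), ⟨fun j => ?_, fun j => ?_, fun w hw => ?_⟩⟩
  · rw [famp_amp_apply, Matrix.IsHermitian, Matrix.conjTranspose_reindex, Matrix.conjTranspose_kronecker,
      Matrix.conjTranspose_one, (h.herm j).eq]
  · rw [← map_mul, h.sq j, map_one]
  · have e : (w.map fun j => famp_amp D q (Y j)).prod = famp_amp D q ((w.map Y).prod) := by
      rw [map_list_prod, List.map_map]; rfl
    rw [e, famp_trace_amp, ← h.mom w hw]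
    have hq' : (q : ℂ) ≠ 0 := Nat.cast_ne_zero.2 hq.ne'
    rw [Nat.cast_mul, mul_inv]
    field_simp

/-- reference moments of a tuple of group elements. -/
noncomputable def gmom {G : Type} [Group G] {n : ℕ} (y : Fin n → G) (w : List (Fin n)) : ℂ :=
  open Classical in if (w.map y).prod = 1 then 1 else 0

open Classical in
/-- left regular representation -/
private noncomputable def famp_lreg {Q : Type} [Group Q] [Fintype Q] : Q →* Matrix Q Q ℂ where
  toFun g := Matrix.of fun x y => if x = g * y then 1 else 0
  map_one' := by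
    ext x y
    simp [Matrix.one_apply]
  map_mul' g h := by
    ext x y
    simp only [Matrix.mul_apply, Matrix.of_apply]
    rw [Finset.sum_eq_single (h * y)]
    · simp [mul_assoc]
    · intro z _ hz
      simp [hz]
    · intro hz
      exact absurd (Finset.mem_univ _) hz

open Classical in
private theorem famp_lreg_apply {Q : Type} [Group Q] [Fintype Q] (g x y : Q) :
    famp_lreg g x y = if x = g * y then 1 else 0 := rfl

theorem exists_approx_of_finite {Q : Type} [Group Q] [Fintype Q] {n : ℕ} (g : Fin n → Q)
    (hg : ∀ j, g j * g j = 1) (K : ℕ) :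
    ∃ Y : Fin n → Matrix (Fin (Fintype.card Q)) (Fin (Fintype.card Q)) ℂ,
      IsApprox (gmom g) K Y := by
  classical
  set e := Fintype.equivFin Q with he
  let φ := Matrix.reindexAlgEquiv ℂ ℂ e
  refine ⟨fun j => φ (famp_lreg (g j)), ⟨fun j => ?_, fun j => ?_, fun w _ => ?_⟩⟩
  · ext x y
    simp only [φ, Matrix.conjTranspose_apply, Matrix.reindexAlgEquiv_apply, Matrix.reindex_apply,
      Matrix.submatrix_apply, famp_lreg_apply]
    have hiff : (e.symm y = g j * e.symm x) ↔ (e.symm x = g j * e.symm y) := by
      constructor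
      · intro h; rw [h, ← mul_assoc, hg j, one_mul]
      · intro h; rw [h, ← mul_assoc, hg j, one_mul]
    by_cases h : e.symm x = g j * e.symm y
    · rw [if_pos h, if_pos (hiff.2 h)]; simp
    · rw [if_neg h, if_neg (fun h' => h (hiff.1 h'))]; simp
  · rw [← map_mul, ← map_mul, hg j, map_one, map_one]
  · have e1 : (w.map fun j => φ (famp_lreg (g j))).prod = φ (famp_lreg ((w.map g).prod)) := by
      rw [map_list_prod, map_list_prod, List.map_map, List.map_map]; rfl
    have e2 : (φ (famp_lreg ((w.map g).prod))).trace = (famp_lreg ((w.map g).prod)).trace :=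
      famp_trace_reindex e _
    have hc : (Fintype.card Q : ℂ) ≠ 0 := Nat.cast_ne_zero.2 Fintype.card_ne_zero
    rw [e1, e2]
    unfold gmom
    by_cases h : (w.map g).prod = 1
    · rw [h, map_one, if_pos rfl, Matrix.trace_one, inv_mul_cancel₀ hc]
    · rw [if_neg h]
      have : (famp_lreg ((w.map g).prod)).trace = 0 := by
        simp only [Matrix.trace, Matrix.diag, famp_lreg_apply]
        refine Finset.sum_eq_zero fun x _ => ?_
        rw [if_neg]
        intro hx
        exact h (by simpa using hx)
      rw [this, mul_zero]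

end Crest.Agent.R89.F
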