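import Crest.Agent.R89.FTend

/-!
# Row 89, piece F_CHEB: convergence in probability of the normalised traces of words

conj (trw Y Q a) = trw Y Q.reverse a (`trw_reverse`; all letters Hermitian: `IsApprox.herm`,
`Gmat_isHermitian`; trace of the adjoint of a product).  So
∫ ‖trw Q - μ Q‖² = EW [Q, Q.reverse] - μ(Q) EW [Q.reverse] - conj(μ Q) EW [Q] + |μ Q|²; with
`EW_tendsto` (K = 2L) everything tends to
μ Q μ Q.reverse - μ Q μ Q.reverse - conj(μ Q) μ Q + |μ Q|² = 0.
So the second moment tends to 0: Markov/Chebyshev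
(`MeasureTheory.meas_ge_le_lintegral_div` or `mul_meas_ge_le_integral_of_nonneg`).
Integrability: `gauss_integrable` and `eval_trp` (a trace of words is a polynomial).
-/

set_option autoImplicit false

namespace Crest.Agent.R89.F

open scoped ENNReal NNReal Topology
open MeasureTheory ProbabilityTheory Crest.OpAlg Filter

theorem trw_reverse {n K d : ℕ} (m : List (Fin n) → ℂ) (Y : Fin n → Matrix (Fin d) (Fin d) ℂ)
    (hY : IsApprox m K Y) (Q : List (Letter n)) (a : Ix n d → ℝ) :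
    (starRingEnd ℂ) (trw Y Q a) = trw Y Q.reverse a := by
  have hw : (wordVal Y (Gmat a) Q).conjTranspose = wordVal Y (Gmat a) Q.reverse := by
    unfold wordVal
    rw [Matrix.conjTranspose_list_prod, List.map_map, List.map_reverse]
    congr 2
    apply List.map_congr_left
    intro x _
    cases x with
    | inl j => exact (hY.herm j).eq
    | inr j => exact (Gmat_isHermitian a j).eq
  unfold trw ntr
  rw [map_mul, ← hw, Matrix.trace_conjTranspose, map_inv₀, Complex.conj_natCast]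
  rfl

theorem gm_prob (n d : ℕ) : IsProbabilityMeasure (gm n d) := by
  unfold gm
  infer_instance

theorem trw_integrable {n d : ℕ} (Y : Fin n → Matrix (Fin d) (Fin d) ℂ) (Q : List (Letter n)) :
    Integrable (fun a => trw Y Q a) (gm n d) := by
  have h := gauss_integrable (σ := Ix n d) ((d : ℝ≥0)⁻¹) (trp Y Q)
  simp only [eval_trp] at h
  exact h

theorem trw_mul_integrable {n d : ℕ} (Y : Fin n → Matrix (Fin d) (Fin d) ℂ)
    (Q P : List (Letter n)) :
    Integrable (fun a => trw Y Q a * trw Y P a) (gm n d) := by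
  have h := gauss_integrable (σ := Ix n d) ((d : ℝ≥0)⁻¹) (trp Y Q * trp Y P)
  simp only [map_mul, eval_trp] at h
  exact h

theorem cheb_expand {n K d : ℕ} (m : List (Fin n) → ℂ) (Y : Fin n → Matrix (Fin d) (Fin d) ℂ)
    (hY : IsApprox m K Y) (Q : List (Letter n)) (z : ℂ) (a : Ix n d → ℝ) :
    ((‖trw Y Q a - z‖ ^ 2 : ℝ) : ℂ) = trw Y Q a * trw Y Q.reverse a - z * trw Y Q.reverse a
      - (starRingEnd ℂ) z * trw Y Q a + z * (starRingEnd ℂ) z := by
  rw [Complex.ofReal_pow, ← Complex.mul_conj', map_sub, trw_reverse m Y hY]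
  ring

theorem cheb_integrable {n K d : ℕ} (m : List (Fin n) → ℂ) (Y : Fin n → Matrix (Fin d) (Fin d) ℂ)
    (hY : IsApprox m K Y) (Q : List (Letter n)) (z : ℂ) :
    Integrable (fun a => ((‖trw Y Q a - z‖ ^ 2 : ℝ) : ℂ)) (gm n d) := by
  have := gm_prob n d
  simp only [cheb_expand m Y hY]
  exact (((trw_mul_integrable Y Q Q.reverse).sub ((trw_integrable Y Q.reverse).const_mul z)).sub
    ((trw_integrable Y Q).const_mul _)).add (integrable_const _)

theorem cheb_integrable_real {n K d : ℕ} (m : List (Fin n) → ℂ)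
    (Y : Fin n → Matrix (Fin d) (Fin d) ℂ)
    (hY : IsApprox m K Y) (Q : List (Letter n)) (z : ℂ) :
    Integrable (fun a => ‖trw Y Q a - z‖ ^ 2) (gm n d) := by
  have h := (cheb_integrable m Y hY Q z).re
  exact h

theorem cheb_integral {n K d : ℕ} (m : List (Fin n) → ℂ) (Y : Fin n → Matrix (Fin d) (Fin d) ℂ)
    (hY : IsApprox m K Y) (Q : List (Letter n)) (z : ℂ) :
    ((∫ a, ‖trw Y Q a - z‖ ^ 2 ∂(gm n d) : ℝ) : ℂ) = EW Y [Q, Q.reverse] - z * EW Y [Q.reverse]
      - (starRingEnd ℂ) z * EW Y [Q] + z * (starRingEnd ℂ) z := by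
  have := gm_prob n d
  rw [← integral_complex_ofReal]
  have e1 : (fun a => ((‖trw Y Q a - z‖ ^ 2 : ℝ) : ℂ)) = fun a =>
      trw Y Q a * trw Y Q.reverse a - z * trw Y Q.reverse a
      - (starRingEnd ℂ) z * trw Y Q a + z * (starRingEnd ℂ) z := by
    funext a
    exact cheb_expand m Y hY Q z a
  have e2 : EW Y [Q, Q.reverse] = ∫ a, trw Y Q a * trw Y Q.reverse a ∂(gm n d) := by
    unfold EW
    simp
  have e3 : EW Y [Q.reverse] = ∫ a, trw Y Q.reverse a ∂(gm n d) := by
    unfold EW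
    simp
  have e4 : EW Y [Q] = ∫ a, trw Y Q a ∂(gm n d) := by
    unfold EW
    simp
  calc ∫ a, ((‖trw Y Q a - z‖ ^ 2 : ℝ) : ℂ) ∂(gm n d) = ∫ a, (trw Y Q a * trw Y Q.reverse a
        - z * trw Y Q.reverse a
      - (starRingEnd ℂ) z * trw Y Q a + z * (starRingEnd ℂ) z) ∂(gm n d) := by rw [e1]
    _ = _ := by
      rw [integral_add, integral_sub, integral_sub, integral_const_mul, integral_const_mul,
        integral_const, e2, e3, e4]
      · simp
      · exact trw_mul_integrable Y Q Q.reverse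
      · exact (trw_integrable Y Q.reverse).const_mul z
      · exact (trw_mul_integrable Y Q Q.reverse).sub ((trw_integrable Y Q.reverse).const_mul z)
      · exact (trw_integrable Y Q).const_mul _
      · exact ((trw_mul_integrable Y Q Q.reverse).sub
          ((trw_integrable Y Q.reverse).const_mul z)).sub ((trw_integrable Y Q).const_mul _)
      · exact integrable_const _

theorem cheb {n : ℕ} (m : List (Fin n) → ℂ) (μ : List (Letter n) → ℂ)
    (hμ : IsFreeMoment m μ) (L : ℕ) (dd : ℕ → ℕ) (hdd : Tendsto dd atTop atTop)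
    (hd0 : ∀ q, 0 < dd q) (Y : ∀ q, Fin n → Matrix (Fin (dd q)) (Fin (dd q)) ℂ)
    (hY : ∀ q, IsApprox m (2 * L) (Y q)) (Q : List (Letter n)) (hQ : Q.length ≤ L)
    (ε : ℝ) (hε : 0 < ε) :
    Tendsto (fun q => (gm n (dd q)) {a | ε ≤ ‖trw (Y q) Q a - μ Q‖}) atTop (𝓝 0) := by
  have t2 := EW_tendsto m μ hμ (2 * L) dd hdd hd0 Y hY [Q, Q.reverse] (by simp; omega)
  have t1 := EW_tendsto m μ hμ (2 * L) dd hdd hd0 Y hY [Q.reverse] (by simp; omega)
  have t0 := EW_tendsto m μ hμ (2 * L) dd hdd hd0 Y hY [Q] (by simp; omega)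
  simp only [List.map_cons, List.map_nil, List.prod_cons, List.prod_nil, mul_one] at t0 t1 t2
  have tc : Tendsto (fun q => ((∫ a, ‖trw (Y q) Q a - μ Q‖ ^ 2 ∂(gm n (dd q)) : ℝ) : ℂ)) atTop
      (𝓝 0) := by
    have e : (fun q => ((∫ a, ‖trw (Y q) Q a - μ Q‖ ^ 2 ∂(gm n (dd q)) : ℝ) : ℂ)) = fun q =>
        EW (Y q) [Q, Q.reverse] - μ Q * EW (Y q) [Q.reverse]
      - (starRingEnd ℂ) (μ Q) * EW (Y q) [Q] + μ Q * (starRingEnd ℂ) (μ Q) := by
      funext q
      exact cheb_integral m (Y q) (hY q) Q (μ Q)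
    rw [e]
    have h0 : μ Q * μ Q.reverse - μ Q * μ Q.reverse - (starRingEnd ℂ) (μ Q) * μ Q
        + μ Q * (starRingEnd ℂ) (μ Q) = 0 := by ring
    rw [← h0]
    exact ((t2.sub (t1.const_mul _)).sub (t0.const_mul _)).add_const _
  have tr : Tendsto (fun q => ∫ a, ‖trw (Y q) Q a - μ Q‖ ^ 2 ∂(gm n (dd q))) atTop (𝓝 0) := by
    have := (Complex.continuous_re.tendsto 0).comp tc
    simpa [Function.comp_def] using this
  have hb : ∀ q, (gm n (dd q)) {a | ε ≤ ‖trw (Y q) Q a - μ Q‖} ≤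
      ENNReal.ofReal ((ε ^ 2)⁻¹ * ∫ a, ‖trw (Y q) Q a - μ Q‖ ^ 2 ∂(gm n (dd q))) := by
    intro q
    have := gm_prob n (dd q)
    have hm := mul_meas_ge_le_integral_of_nonneg (μ := gm n (dd q))
      (f := fun a => ‖trw (Y q) Q a - μ Q‖ ^ 2) (ae_of_all _ (fun a => by positivity))
      (cheb_integrable_real m (Y q) (hY q) Q (μ Q)) (ε ^ 2)
    have hset : {a | ε ≤ ‖trw (Y q) Q a - μ Q‖} = {a | ε ^ 2 ≤ ‖trw (Y q) Q a - μ Q‖ ^ 2} := by
      ext a
      exact (pow_le_pow_iff_left₀ hε.le (norm_nonneg _) two_ne_zero).symm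
    rw [hset, ← ENNReal.ofReal_toReal (measure_ne_top (gm n (dd q)) _)]
    apply ENNReal.ofReal_le_ofReal
    rw [inv_mul_eq_div, le_div_iff₀ (by positivity), mul_comm]
    exact hm
  have tz : Tendsto (fun q => ENNReal.ofReal ((ε ^ 2)⁻¹ *
      ∫ a, ‖trw (Y q) Q a - μ Q‖ ^ 2 ∂(gm n (dd q)))) atTop (𝓝 0) := by
    have := ENNReal.tendsto_ofReal (tr.const_mul ((ε ^ 2)⁻¹))
    simpa using this
  exact tendsto_of_tendsto_of_tendsto_of_le_of_le tendsto_const_nhds tz
    (fun q => bot_le) hb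

end Crest.Agent.R89.F
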