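import Mathlib
import Crest.Prelude.Def_FreeEntropy

/-!
# Row 89, part F (chi > -infinity): common definitions

Words are `List (Fin n ⊕ Fin n)`: `inl j` is the reference letter `y_j`, `inr j` the noise letter
(semicircular `s_j` in the algebra, Gaussian matrix `G_j` on the matrix side).
-/

set_option autoImplicit false

namespace Crest.Agent.R89.F

open scoped ENNReal NNReal
open MeasureTheory ProbabilityTheory Crest.OpAlg

/-- letters: `inl j` reference letter, `inr j` noise letter. -/
abbrev Letter (n : ℕ) : Type := Fin n ⊕ Fin n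

/-- evaluation of the letters on a pair of tuples. -/
def letterEval {A : Type*} {n : ℕ} (y s : Fin n → A) : Letter n → A := Sum.elim y s

/-- value of a word. -/
def wordVal {A : Type*} [Monoid A] {n : ℕ} (y s : Fin n → A) (Q : List (Letter n)) : A :=
  (Q.map (letterEval y s)).prod

/-- `sum over splittings Q = α (inr j) β of F α β`. -/
def splitSum {R : Type*} [AddCommMonoid R] {n : ℕ} (j : Fin n) (Q : List (Letter n))
    (F : List (Letter n) → List (Letter n) → R) : R :=
  ∑ k ∈ Finset.range Q.length,
    if Q[k]? = some (Sum.inr j) then F (Q.take k) (Q.drop (k + 1)) else 0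

/-- number of noise letters. -/
def noiseCount {n : ℕ} (Q : List (Letter n)) : ℕ := Q.countP Sum.isRight

/-- `μ` is the moment functional of (y, free semicirculars s) with reference moments `m`. -/
structure IsFreeMoment {n : ℕ} (m : List (Fin n) → ℂ) (μ : List (Letter n) → ℂ) : Prop where
  base : ∀ w : List (Fin n), μ (w.map Sum.inl) = m w
  cyc : ∀ Q P : List (Letter n), μ (Q ++ P) = μ (P ++ Q)
  sd : ∀ (j : Fin n) (Q : List (Letter n)),
    μ (Sum.inr j :: Q) = splitSum j Q fun α β => μ α * μ β

/-- Matrix approximants of the reference moments `m` up to length `K`. -/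
structure IsApprox {n : ℕ} (m : List (Fin n) → ℂ) (K : ℕ) {D : ℕ}
    (Y : Fin n → Matrix (Fin D) (Fin D) ℂ) : Prop where
  herm : ∀ j, (Y j).IsHermitian
  sq : ∀ j, Y j * Y j = 1
  mom : ∀ w : List (Fin n), w.length ≤ K → (D : ℂ)⁻¹ * ((w.map Y).prod).trace = m w

/-- index type of the real coordinates. -/
abbrev Ix (n d : ℕ) : Type := Fin n × (Fin d × Fin d)

/-- the Gaussian measure: independent N(0, 1/d) coordinates. -/
noncomputable def gm (n d : ℕ) : Measure (Ix n d → ℝ) :=
  Measure.pi fun _ => gaussianReal 0 ((d : ℝ≥0)⁻¹)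

/-- the matrix tuple with coordinates `a` (plain functions). -/
noncomputable def Gmat {n d : ℕ} (a : Ix n d → ℝ) : Fin n → Matrix (Fin d) (Fin d) ℂ :=
  matrixTuple (WithLp.toLp 2 a)

/-- normalised trace. -/
noncomputable def ntr {d : ℕ} (M : Matrix (Fin d) (Fin d) ℂ) : ℂ := (d : ℂ)⁻¹ * M.trace

/-- normalised trace of a mixed word in `Y` and the Gaussian matrices. -/
noncomputable def trw {n d : ℕ} (Y : Fin n → Matrix (Fin d) (Fin d) ℂ) (Q : List (Letter n))
    (a : Ix n d → ℝ) : ℂ :=
  ntr (wordVal Y (Gmat a) Q)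

end Crest.Agent.R89.F
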