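import Crest.Agent.R89.FMat

/-!
# Row 89, piece F_EXPAND: expansion of words in X_j = y_j + σ_j s_j

`expand σ w` = list of pairs (coefficient, mixed word); same expansion in every ℂ-algebra.
-/

set_option autoImplicit false

namespace Crest.Agent.R89.F

open scoped ENNReal NNReal Topology
open MeasureTheory ProbabilityTheory Crest.OpAlg Filter

/-- expansion of the word `w` in the letters `y_j + σ_j s_j`. -/
noncomputable def expand {n : ℕ} (σ : Fin n → ℝ) : List (Fin n) → List (ℂ × List (Letter n))
  | [] => [(1, [])]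
  | j :: w => (expand σ w).map (fun p => (p.1, Sum.inl j :: p.2)) ++
      (expand σ w).map (fun p => ((σ j : ℂ) * p.1, Sum.inr j :: p.2))

namespace FExpandaux

theorem mul_sum {A : Type*} [Ring A] [Algebra ℂ A] {β : Type*} (a : A) (f : β → A)
    (l : List (ℂ × β)) :
    a * (l.map fun p => p.1 • f p.2).sum = (l.map fun p => p.1 • (a * f p.2)).sum := by
  induction l with
  | nil => simp
  | cons p l ih => simp only [List.map_cons, List.sum_cons, mul_add, ih, mul_smul_comm]

theorem ntr_sum {d : ℕ} {β : Type*} (f : β → Matrix (Fin d) (Fin d) ℂ) (l : List (ℂ × β)) :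
    ntr (l.map fun p => p.1 • f p.2).sum = (l.map fun p => p.1 * ntr (f p.2)).sum := by
  induction l with
  | nil => simp [ntr]
  | cons p l ih =>
    simp only [List.map_cons, List.sum_cons]
    rw [← ih]
    simp only [ntr, Matrix.trace_add, Matrix.trace_smul, smul_eq_mul]
    ring

theorem tau_sum {A : Type*} [Ring A] [Algebra ℂ A] (τ : A →ₗ[ℂ] ℂ) {β : Type*} (f : β → A)
    (l : List (ℂ × β)) :
    τ (l.map fun p => p.1 • f p.2).sum = (l.map fun p => p.1 * τ (f p.2)).sum := by
  induction l with
  | nil => simp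
  | cons p l ih =>
    simp only [List.map_cons, List.sum_cons, map_add, map_smul, smul_eq_mul, ih]

theorem diff_le {β : Type*} (F G : β → ℂ) (δ : ℝ) (l : List (ℂ × β))
    (h : ∀ p ∈ l, ‖F p.2 - G p.2‖ ≤ δ) :
    ‖(l.map fun p => p.1 * F p.2).sum - (l.map fun p => p.1 * G p.2).sum‖ ≤
      (l.map fun p => ‖p.1‖).sum * δ := by
  induction l with
  | nil => simp
  | cons p l ih =>
    simp only [List.map_cons, List.sum_cons]
    have h1 := ih fun q hq => h q (List.mem_cons_of_mem _ hq)
    have h2 := h p (List.mem_cons_self ..)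
    have e : p.1 * F p.2 + (l.map fun p => p.1 * F p.2).sum -
        (p.1 * G p.2 + (l.map fun p => p.1 * G p.2).sum) =
        p.1 * (F p.2 - G p.2) +
          ((l.map fun p => p.1 * F p.2).sum - (l.map fun p => p.1 * G p.2).sum) := by ring
    rw [e, add_mul]
    refine (norm_add_le _ _).trans (add_le_add ?_ h1)
    rw [norm_mul]
    exact mul_le_mul_of_nonneg_left h2 (norm_nonneg _)

end FExpandaux

open FExpandaux

theorem expand_length {n : ℕ} (σ : Fin n → ℝ) (w : List (Fin n)) :
    ∀ p ∈ expand σ w, p.2.length = w.length := by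
  induction w with
  | nil =>
    intro p hp
    simp only [expand, List.mem_singleton] at hp
    subst hp
    rfl
  | cons j w ih =>
    intro p hp
    simp only [expand, List.mem_append, List.mem_map] at hp
    rcases hp with ⟨q, hq, rfl⟩ | ⟨q, hq, rfl⟩
    · simp [ih q hq]
    · simp [ih q hq]

theorem prod_expand {A : Type*} [Ring A] [Algebra ℂ A] {n : ℕ} (y s : Fin n → A) (σ : Fin n → ℝ)
    (w : List (Fin n)) :
    (w.map fun j => y j + (σ j : ℂ) • s j).prod =
      ((expand σ w).map fun p => p.1 • wordVal y s p.2).sum := by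
  induction w with
  | nil => simp [expand, wordVal]
  | cons j w ih =>
    simp only [List.map_cons, List.prod_cons, expand, List.map_append, List.sum_append,
      List.map_map]
    rw [ih, add_mul, mul_sum, mul_sum]
    congr 1
    refine congrArg List.sum (List.map_congr_left fun p _ => ?_)
    simp only [Function.comp, wordVal, List.map_cons, List.prod_cons, letterEval, Sum.elim_inr]
    rw [smul_mul_assoc, smul_smul, mul_comm]

/-- `wordEval` of the definition file is the product of the letters. -/
theorem wordEval_eq {A : Type*} [Ring A] [Algebra ℂ A] {n : ℕ} (X : Fin n → A)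
    (w : FreeMonoid (Fin n)) : wordEval X w = ((FreeMonoid.toList w).map X).prod := by
  rw [wordEval, FreeMonoid.lift_apply]

/-- comparison of the moments of `Y + σ G` and of `y + σ s`. -/
theorem moment_close {A : Type*} [Ring A] [Algebra ℂ A] (τ : A →ₗ[ℂ] ℂ) {n d : ℕ}
    (y s : Fin n → A) (σ : Fin n → ℝ) (Y : Fin n → Matrix (Fin d) (Fin d) ℂ) (a : Ix n d → ℝ)
    (w : List (Fin n)) (δ : ℝ) (hδ : 0 ≤ δ)
    (h : ∀ Q : List (Letter n), Q.length ≤ w.length → ‖trw Y Q a - τ (wordVal y s Q)‖ ≤ δ) :
    ‖ntr ((w.map fun j => Y j + (σ j : ℂ) • Gmat a j).prod) -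
      τ ((w.map fun j => y j + (σ j : ℂ) • s j).prod)‖ ≤
      ((expand σ w).map fun p => ‖p.1‖).sum * δ := by
  rw [prod_expand, prod_expand, ntr_sum, tau_sum]
  exact diff_le (fun Q => ntr (wordVal Y (Gmat a) Q)) (fun Q => τ (wordVal y s Q)) δ _
    fun p hp => h p.2 (expand_length σ w p hp).le

end Crest.Agent.R89.F
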