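import Crest.Agent.R89.FDefs

/-!
# Row 89, piece F_VOLB: volume factor of the diagonal affine map

`Real.map_linearMap_volume_pi_eq_smul_volume_pi`/`MeasureTheory.Measure.addHaar_image_linearMap` with the
diagonal matrix (`Matrix.det_diagonal`, product over Ix n d = Fin n × (Fin d × Fin d):
`Finset.prod_product`/`Fintype.prod_prod_type`), translation invariance (`Set.image_image`,
`measure_preimage_add`/`Measure.addHaar_image...`).
-/

set_option autoImplicit false

namespace Crest.Agent.R89.F

open scoped ENNReal NNReal Topology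
open MeasureTheory ProbabilityTheory Crest.OpAlg Filter

theorem volume_affine {n d : ℕ} (σ : Fin n → ℝ) (hσ : ∀ j, 0 < σ j) (b : Ix n d → ℝ)
    (S : Set (Ix n d → ℝ)) :
    volume ((fun (a : Ix n d → ℝ) i => b i + σ i.1 * a i) '' S) =
      ENNReal.ofReal (∏ j, σ j ^ (d * d)) * volume S := by
  classical
  set D : Matrix (Ix n d) (Ix n d) ℝ := Matrix.diagonal fun i => σ i.1 with hD
  have h1 : (fun (a : Ix n d → ℝ) i => b i + σ i.1 * a i) '' S =
      (fun x : Ix n d → ℝ => b + x) '' ((Matrix.toLin' D) '' S) := by
    rw [Set.image_image]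
    refine Set.image_congr fun a _ => ?_
    funext i
    simp [hD, Matrix.toLin'_apply, Matrix.mulVec_diagonal]
  have hdet : LinearMap.det (Matrix.toLin' D) = ∏ j, σ j ^ (d * d) := by
    rw [LinearMap.det_toLin', hD, Matrix.det_diagonal, Fintype.prod_prod_type]
    simp
  have hpos : 0 ≤ ∏ j, σ j ^ (d * d) := Finset.prod_nonneg fun j _ => (pow_pos (hσ j) _).le
  rw [h1, Set.image_add_left, measure_preimage_add, Measure.addHaar_image_linearMap, hdet,
    abs_of_nonneg hpos]

end Crest.Agent.R89.F
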