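import Crest.Agent.R89.FVolA
import Crest.Agent.R89.FVolB

/-!
# Row 89, piece F_VOL: Gaussian probability → Lebesgue volume

`vol_lower`: gm(S) ≤ (d/2π)^{N/2} vol(S) (`gm_le_volume`), affine map (`volume_affine`), and transfer
(Ix n d → ℝ) → EuclideanSpace: `EuclideanSpace.volume_preserving_symm_measurableEquiv_toLp`
(or `PiLp.volume_preserving_toLp`; for an arbitrary set T use that the map is a measurable
equivalence preserving volume).
`log_lower`: logarithm (`ENNReal.log`, monotone; `ENNReal.log_ofReal`).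
-/

set_option autoImplicit false

namespace Crest.Agent.R89.F

open scoped ENNReal NNReal Topology
open MeasureTheory ProbabilityTheory Crest.OpAlg Filter

theorem vol_lower {n d : ℕ} (hd : 0 < d) (σ : Fin n → ℝ) (hσ : ∀ j, 0 < σ j) (b : Ix n d → ℝ)
    (S : Set (Ix n d → ℝ)) (hS : (2 : ℝ≥0∞)⁻¹ ≤ gm n d S)
    (T : Set (EuclideanSpace ℝ (Ix n d)))
    (hT : ∀ a ∈ S, WithLp.toLp 2 (fun i => b i + σ i.1 * a i) ∈ T) :
    ENNReal.ofReal (1 / 2 * (∏ j, σ j ^ (d * d)) *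
      (Real.sqrt (2 * Real.pi / d)) ^ (n * (d * d))) ≤ volume T := by
  have hd' : (0 : ℝ) < d := by exact_mod_cast hd
  have hr0 : 0 ≤ Real.sqrt (2 * Real.pi / d) := Real.sqrt_nonneg _
  have hq0 : 0 ≤ Real.sqrt (d / (2 * Real.pi)) := Real.sqrt_nonneg _
  have hrq : Real.sqrt (2 * Real.pi / d) * Real.sqrt (d / (2 * Real.pi)) = 1 := by
    rw [← Real.sqrt_mul (by positivity)]
    have : 2 * Real.pi / d * (d / (2 * Real.pi)) = 1 := by
      have := Real.pi_pos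
      field_simp
    rw [this, Real.sqrt_one]
  have h1 := gm_le_volume hd S
  -- volume of S
  have h2 : ENNReal.ofReal (1 / 2 * (Real.sqrt (2 * Real.pi / d)) ^ (n * (d * d))) ≤ volume S := by
    have h3 : ENNReal.ofReal ((Real.sqrt (2 * Real.pi / d)) ^ (n * (d * d))) * (2 : ℝ≥0∞)⁻¹ ≤
        ENNReal.ofReal ((Real.sqrt (2 * Real.pi / d)) ^ (n * (d * d))) *
          (ENNReal.ofReal ((Real.sqrt (d / (2 * Real.pi))) ^ (n * (d * d))) * volume S) := by
      gcongr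
      exact hS.trans h1
    rw [← mul_assoc (ENNReal.ofReal ((Real.sqrt (2 * Real.pi / d)) ^ (n * (d * d))))
      (ENNReal.ofReal _), ← ENNReal.ofReal_mul (by positivity), ← mul_pow, hrq, one_pow,
      ENNReal.ofReal_one, one_mul] at h3
    refine le_trans (le_of_eq ?_) h3
    rw [mul_comm (1 / 2 : ℝ), ENNReal.ofReal_mul (by positivity)]
    congr 1
    rw [one_div, ENNReal.ofReal_inv_of_pos (by norm_num)]
    norm_num
  have h4 := volume_affine σ hσ b S
  have hP : 0 ≤ ∏ j, σ j ^ (d * d) := Finset.prod_nonneg fun j _ => pow_nonneg (hσ j).le _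
  have h5 : ENNReal.ofReal (1 / 2 * (∏ j, σ j ^ (d * d)) *
      (Real.sqrt (2 * Real.pi / d)) ^ (n * (d * d))) ≤
      volume ((fun (a : Ix n d → ℝ) i => b i + σ i.1 * a i) '' S) := by
    rw [h4]
    have h6 : 1 / 2 * (∏ j, σ j ^ (d * d)) * (Real.sqrt (2 * Real.pi / d)) ^ (n * (d * d)) =
        (∏ j, σ j ^ (d * d)) * (1 / 2 * (Real.sqrt (2 * Real.pi / d)) ^ (n * (d * d))) := by ring
    rw [h6, ENNReal.ofReal_mul hP]
    gcongr
  refine h5.trans ?_
  have h7 : (fun (a : Ix n d → ℝ) i => b i + σ i.1 * a i) '' S ⊆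
      (WithLp.toLp 2) ⁻¹' T := by
    rintro _ ⟨a, ha, rfl⟩
    exact hT a ha
  have h8 : volume ((WithLp.toLp 2 : (Ix n d → ℝ) → EuclideanSpace ℝ (Ix n d)) ⁻¹' T) =
      volume T :=
    (EuclideanSpace.volume_preserving_symm_measurableEquiv_toLp (Ix n d)).symm.measure_preimage_equiv T
  rw [← h8]
  exact measure_mono h7

/-- the logarithmic form used in the definition of `chi`. -/
theorem log_lower {n d : ℕ} (hd : 0 < d) (σ : Fin n → ℝ) (hσ : ∀ j, 0 < σ j) (V : ℝ≥0∞)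
    (hV : ENNReal.ofReal (1 / 2 * (∏ j, σ j ^ (d * d)) *
      (Real.sqrt (2 * Real.pi / d)) ^ (n * (d * d))) ≤ V) :
    ((∑ j, Real.log (σ j) + (n : ℝ) / 2 * Real.log (2 * Real.pi) - Real.log 2 : ℝ) : EReal) ≤
      ((((d : ℝ) ^ 2)⁻¹ : ℝ) : EReal) * V.log + (((n : ℝ) / 2 * Real.log d : ℝ) : EReal) := by
  have hd' : (0 : ℝ) < d := by exact_mod_cast hd
  have hd1 : (1 : ℝ) ≤ d := by exact_mod_cast hd
  have hpi := Real.pi_pos
  set x : ℝ := 1 / 2 * (∏ j, σ j ^ (d * d)) * (Real.sqrt (2 * Real.pi / d)) ^ (n * (d * d))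
    with hx
  have hP : 0 < ∏ j, σ j ^ (d * d) := Finset.prod_pos fun j _ => pow_pos (hσ j) _
  have hr : 0 < Real.sqrt (2 * Real.pi / d) := Real.sqrt_pos.2 (by positivity)
  have hx0 : 0 < x := by positivity
  have hlogx : Real.log x = - Real.log 2 + (d : ℝ) ^ 2 * ∑ j, Real.log (σ j) +
      (n : ℝ) * (d : ℝ) ^ 2 * (1 / 2 * (Real.log (2 * Real.pi) - Real.log d)) := by
    rw [hx, Real.log_mul (by positivity) (by positivity), Real.log_mul (by norm_num) hP.ne',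
      Real.log_pow, Real.log_sqrt (by positivity), Real.log_div (by positivity) hd'.ne',
      Real.log_prod (fun j _ => (pow_pos (hσ j) _).ne'), one_div, Real.log_inv, Finset.mul_sum]
    have : ∀ j, Real.log (σ j ^ (d * d)) = (d : ℝ) ^ 2 * Real.log (σ j) := by
      intro j
      rw [Real.log_pow]
      push_cast
      ring
    simp_rw [this]
    push_cast
    ring
  have hlogV : ((Real.log x : ℝ) : EReal) ≤ V.log := by
    have h1 := ENNReal.log_le_log hV
    rwa [ENNReal.log_ofReal_of_pos hx0] at h1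
  have hmul : ((((d : ℝ) ^ 2)⁻¹ : ℝ) : EReal) * ((Real.log x : ℝ) : EReal) ≤
      ((((d : ℝ) ^ 2)⁻¹ : ℝ) : EReal) * V.log := by
    apply mul_le_mul_of_nonneg_left hlogV
    exact_mod_cast (by positivity : (0 : ℝ) ≤ ((d : ℝ) ^ 2)⁻¹)
  refine le_trans ?_ (add_le_add_left hmul _)
  rw [← EReal.coe_mul, ← EReal.coe_add, EReal.coe_le_coe_iff, hlogx]
  have hd2 : (1 : ℝ) ≤ (d : ℝ) ^ 2 := one_le_pow₀ hd1
  have hl2 : 0 ≤ Real.log 2 := Real.log_nonneg (by norm_num)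
  have e1 : ((d : ℝ) ^ 2)⁻¹ * (- Real.log 2 + (d : ℝ) ^ 2 * ∑ j, Real.log (σ j) +
      (n : ℝ) * (d : ℝ) ^ 2 * (1 / 2 * (Real.log (2 * Real.pi) - Real.log d))) =
      - (((d : ℝ) ^ 2)⁻¹ * Real.log 2) + ∑ j, Real.log (σ j) +
      (n : ℝ) * (1 / 2 * (Real.log (2 * Real.pi) - Real.log d)) := by
    field_simp
  rw [e1]
  have e2 : ((d : ℝ) ^ 2)⁻¹ * Real.log 2 ≤ 1 * Real.log 2 := by
    gcongr
    exact inv_le_one_of_one_le₀ hd2
  nlinarith

end Crest.Agent.R89.F
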