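import Crest.Agent.R89.FGood
import Crest.Agent.R89.FVol
import Crest.Agent.R89.FExpand

/-!
# Row 89, piece F_FINAL: chi(y + σ s) > -infinity

R0 = 1 + 32 max σ (operator norm of Y_j is ≤ 1 since Y_j is Hermitian with square 1).
chi ≥ chiCutoff R0 ≥ C := ∑ log σ_j + (n/2) log 2π - log 2: for all m, ε the limsup is ≥ C because
for infinitely many d (`exists_good` with L = m, δ small: (δ · max over words w of length ≤ m of
∑ |coefficients| < ε)) the value is ≥ C by `vol_lower`, `log_lower`, with b = coordinates of Y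
(`exists_coords`), S = the good set, T = microstates; `Gmat_affine`, `moment_close`.
`Filter.le_limsup_of_frequently_le`.
-/

set_option autoImplicit false

namespace Crest.Agent.R89.F

open scoped ENNReal NNReal Topology
open MeasureTheory ProbabilityTheory Crest.OpAlg Filter

theorem norm_le_one_of_sq {d : ℕ} (Y : Matrix (Fin d) (Fin d) ℂ) (h : Y.IsHermitian)
    (h1 : Y * Y = 1) : ‖Matrix.toEuclideanCLM (n := Fin d) (𝕜 := ℂ) Y‖ ≤ 1 := by
  set T := Matrix.toEuclideanCLM (n := Fin d) (𝕜 := ℂ) Y with hT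
  have h2 : star T * T = 1 := by
    rw [hT, ← map_star, ← map_mul]
    have : star Y = Y := h
    rw [this, h1, map_one]
  have h3 : ‖T‖ * ‖T‖ ≤ 1 := by
    rw [← CStarRing.norm_star_mul_self, h2]
    exact ContinuousLinearMap.norm_id_le
  nlinarith [norm_nonneg T]

theorem chi_gt_bot {A : Type*} [Ring A] [Algebra ℂ A] (τ : A →ₗ[ℂ] ℂ) {n : ℕ} (y s : Fin n → A)
    (m : List (Fin n) → ℂ) (hμ : IsFreeMoment m fun Q => τ (wordVal y s Q))
    (happ : ∀ K, ∃ D : ℕ, 0 < D ∧ ∃ Y : Fin n → Matrix (Fin D) (Fin D) ℂ, IsApprox m K Y)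
    (σ : Fin n → ℝ) (hσ : ∀ j, 0 < σ j) :
    ⊥ < chi τ (fun j => y j + (σ j : ℂ) • s j) := by
  set C : ℝ := ∑ j, Real.log (σ j) + (n : ℝ) / 2 * Real.log (2 * Real.pi) - Real.log 2 with hC
  refine lt_of_lt_of_le (EReal.bot_lt_coe C) ?_
  set R0 : ℝ := 1 + ∑ j, σ j * 32 with hR0
  have hsum : ∀ l, σ l * 32 ≤ ∑ j, σ j * 32 := fun l =>
    Finset.single_le_sum (f := fun j => σ j * 32) (fun j _ => by have := hσ j; positivity)
      (Finset.mem_univ l)
  have hR0pos : 0 < R0 := by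
    have : 0 ≤ ∑ j, σ j * 32 := Finset.sum_nonneg fun j _ => by have := hσ j; positivity
    linarith
  refine le_trans ?_ (le_iSup₂ (f := fun (R : ℝ) (_ : 0 < R) =>
    chiCutoff τ (fun j => y j + (σ j : ℂ) • s j) R) R0 hR0pos)
  unfold chiCutoff
  refine le_iInf fun L => le_iInf fun ε => le_iInf fun hε => ?_
  refine Filter.le_limsup_of_frequently_le ?_
  rw [Filter.frequently_atTop]
  intro d0
  -- bound on the coefficients
  obtain ⟨M, hM⟩ : ∃ M : ℝ, ∀ w : List (Fin n), w.length ≤ L →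
      ((expand σ w).map fun p => ‖p.1‖).sum ≤ M := by
    have hfin : {w : List (Fin n) | w.length ≤ L}.Finite := List.finite_length_le (Fin n) L
    obtain ⟨M, hM⟩ := (hfin.image fun w => ((expand σ w).map fun p => ‖p.1‖).sum).bddAbove
    exact ⟨M, fun w hw => hM ⟨w, hw, rfl⟩⟩
  set δ : ℝ := ε / (2 * (|M| + 1)) with hδ
  have hM1 : 0 < |M| + 1 := by positivity
  have hδ0 : 0 < δ := by positivity
  have hMδ : |M| * δ < ε := by
    rw [hδ, mul_div_assoc']
    rw [div_lt_iff₀ (by positivity)]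
    nlinarith [abs_nonneg M]
  obtain ⟨d, hdd0, hd, Y, hY, hgood⟩ := exists_good m (fun Q => τ (wordVal y s Q)) hμ happ L δ hδ0 d0
  refine ⟨d, hdd0, ?_⟩
  obtain ⟨b, hb⟩ := exists_coords Y hY.herm
  refine log_lower hd σ hσ _ (vol_lower hd σ hσ b _ hgood _ ?_)
  rintro a ⟨ha1, ha2⟩
  have hmt : matrixTuple (WithLp.toLp 2 fun i : Ix n d => b i + σ i.1 * a i) =
      fun j => Y j + (σ j : ℂ) • Gmat a j := by
    funext j
    have := Gmat_affine a b σ j
    rw [hb j] at this
    exact this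
  refine ⟨fun l => ?_, fun w hw => ?_⟩
  · rw [hmt]
    simp only [map_add, map_smul]
    refine (norm_add_le _ _).trans ?_
    rw [norm_smul, Complex.norm_real, Real.norm_of_nonneg (hσ l).le]
    have h1 := norm_le_one_of_sq (Y l) (hY.herm l) (hY.sq l)
    have h2 := mul_le_mul_of_nonneg_left (ha1 l) (hσ l).le
    linarith [hsum l]
  · rw [hmt, matrixMoment, wordEval_eq, wordEval_eq]
    refine lt_of_le_of_lt ?_ hMδ
    have h1 := moment_close τ y s σ Y a (FreeMonoid.toList w) δ hδ0.le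
      (fun Q hQ => ha2 Q (hQ.trans hw))
    refine le_trans h1 ?_
    exact mul_le_mul_of_nonneg_right ((hM _ hw).trans (le_abs_self M)) hδ0.le

end Crest.Agent.R89.F
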