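import Crest.Agent.R89.GDa
/-!
# Row 89, GDc: finite approximants

PIECE GDC. `yq_trivial_iff`: only the tree part matters. Let `u` be the word of tree letters in `w`, `|u| ≤ K`.
If the product in `Perm (RW k)` is `1` then `u` reduces to the empty word by cancelling equal neighbours (the
reduced form `r` of `u` acts like `u`, and maps the root to `r`, so `r = []`), and cancelling is valid in
`Perm (RWB k K)` too (involutions). Conversely if it is not `1`, the reduced form `r ≠ []` has length `≤ K` and
maps the root of `RWB` to `r ≠ root`. Suggested lemma: for every list `u` there is `r : RW k` with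
`|r| ≤ |u|`, `(u.map f).prod = (r.1.map f).prod` for every `f : Fin k → H` into a group with `f i * f i = 1`,
and `(r.1.map sig).prod root = r`, `(r.1.map sigB).prod rootB = r`.
-/

set_option autoImplicit false

namespace Crest.Agent.R89

/-! ### finite approximants -/

/-- reduced words of length at most `K` -/
def RWB (k K : ℕ) : Type := {l : List (Fin k) // l.IsChain (· ≠ ·) ∧ l.length ≤ K}

instance (k K : ℕ) : Finite (RWB k K) := by
  have h : Finite {l : List (Fin k) | l.length ≤ K} := (List.finite_length_le (Fin k) K).to_subtype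
  let F : RWB k K → {l : List (Fin k) | l.length ≤ K} := fun v => ⟨v.1, v.2.2⟩
  have hF : Function.Injective F := by
    intro v w h
    have h' : (F v).1 = (F w).1 := congrArg Subtype.val h
    exact Subtype.ext h'
  exact Finite.of_injective F hF

/-- truncated involution: cancel; prepend if the length stays `≤ K`; else fix -/
def RWB.act {k K : ℕ} (i : Fin k) (v : RWB k K) : RWB k K :=
  if h : ((RW.act i ⟨v.1, v.2.1⟩).1.length ≤ K) then ⟨(RW.act i ⟨v.1, v.2.1⟩).1,
    (RW.act i ⟨v.1, v.2.1⟩).2, h⟩ else v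

private theorem RWB.act_pos {k K : ℕ} (i : Fin k) (v : RWB k K)
    (h : (RW.act i ⟨v.1, v.2.1⟩).1.length ≤ K) :
    RWB.act i v = ⟨(RW.act i ⟨v.1, v.2.1⟩).1, (RW.act i ⟨v.1, v.2.1⟩).2, h⟩ :=
  dif_pos h

private theorem RWB.act_neg {k K : ℕ} (i : Fin k) (v : RWB k K)
    (h : ¬ (RW.act i ⟨v.1, v.2.1⟩).1.length ≤ K) : RWB.act i v = v :=
  dif_neg h

theorem RWB.act_act {k K : ℕ} (i : Fin k) : Function.Involutive (RWB.act i : RWB k K → RWB k K) := by
  intro v
  by_cases h : (RW.act i ⟨v.1, v.2.1⟩).1.length ≤ K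
  · have e : RW.act i ⟨(RW.act i ⟨v.1, v.2.1⟩).1, (RW.act i ⟨v.1, v.2.1⟩).2⟩ =
        (⟨v.1, v.2.1⟩ : RW k) := RW.act_act i ⟨v.1, v.2.1⟩
    have hl : (RW.act i ⟨(RW.act i ⟨v.1, v.2.1⟩).1, (RW.act i ⟨v.1, v.2.1⟩).2⟩).1.length ≤ K := by
      rw [e]; exact v.2.2
    have e1 := RWB.act_pos i v h
    have e2 := RWB.act_pos i ⟨(RW.act i ⟨v.1, v.2.1⟩).1, (RW.act i ⟨v.1, v.2.1⟩).2, h⟩ hl
    rw [e1]
    refine e2.trans ?_
    exact Subtype.ext (congrArg (fun x : RW k => x.1) e)
  · rw [RWB.act_neg i v h, RWB.act_neg i v h]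

/-- finite quotient like group -/
abbrev GQ (k M K : ℕ) : Type := Equiv.Perm (RWB k K) × DihedralGroup M

def yq (k M K : ℕ) : Fin (k + 2) → GQ k M K :=
  Fin.addCases (fun i => ((RWB.act_act i).toPerm, 1))
    (fun j => (1, DihedralGroup.sr ((j : ℕ) : ZMod M)))

instance (k M K : ℕ) [NeZero M] : Finite (GQ k M K) := by
  infer_instance

private theorem yq_castAdd (k M K : ℕ) (i : Fin k) :
    yq k M K (Fin.castAdd 2 i) = ((RWB.act_act i).toPerm, 1) := by
  simp [yq]

private theorem yq_natAdd (k M K : ℕ) (j : Fin 2) :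
    yq k M K (Fin.natAdd k j) = (1, DihedralGroup.sr ((j : ℕ) : ZMod M)) := by
  simp [yq]

private theorem gdc_toPerm_mul_self {α : Type} {f : α → α} (hf : Function.Involutive f) :
    hf.toPerm * hf.toPerm = 1 := by
  ext x
  exact hf x

theorem yq_mul_self (k M K : ℕ) (j : Fin (k + 2)) : yq k M K j * yq k M K j = 1 := by
  refine Fin.addCases (fun i => ?_) (fun i => ?_) j
  · rw [yq_castAdd, Prod.mk_mul_mk, gdc_toPerm_mul_self, mul_one]; rfl
  · rw [yq_natAdd, Prod.mk_mul_mk, mul_one, DihedralGroup.sr_mul_self]; rfl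

/-! ### reduction of words -/

private theorem gdc_act_prod {k : ℕ} (i : Fin k) (r : RW k) :
    (RW.act i r).1.length ≤ r.1.length + 1 ∧ ∀ (H : Type) [Group H] (f : Fin k → H),
      (∀ i, f i * f i = 1) → ((RW.act i r).1.map f).prod = f i * (r.1.map f).prod := by
  obtain ⟨l, h⟩ := r
  cases l with
  | nil =>
    refine ⟨by simp [RW.act], fun H _ f _ => by simp [RW.act]⟩
  | cons a l =>
    by_cases hi : i = a
    · subst hi
      have e : RW.act i ⟨i :: l, h⟩ = ⟨l, h.tail⟩ := dif_pos rfl
      rw [e]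
      refine ⟨?_, fun H _ f hf => ?_⟩
      · show l.length ≤ (i :: l).length + 1
        simp only [List.length_cons]; omega
      · show (l.map f).prod = f i * ((i :: l).map f).prod
        rw [List.map_cons, List.prod_cons, ← mul_assoc, hf i, one_mul]
    · refine ⟨?_, fun H _ f _ => ?_⟩
      · simp [RW.act, hi]
      · simp [RW.act, hi]

private theorem gdc_reduce {k : ℕ} (u : List (Fin k)) :
    ∃ r : RW k, r.1.length ≤ u.length ∧ ∀ (H : Type) [Group H] (f : Fin k → H),
      (∀ i, f i * f i = 1) → (u.map f).prod = (r.1.map f).prod := by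
  induction u with
  | nil => exact ⟨RW.root, le_rfl, fun H _ f _ => rfl⟩
  | cons i u ih =>
    obtain ⟨r, hr, h⟩ := ih
    refine ⟨RW.act i r, (gdc_act_prod i r).1.trans (by simpa using hr), fun H _ f hf => ?_⟩
    rw [(gdc_act_prod i r).2 H f hf, List.map_cons, List.prod_cons, h H f hf]

private theorem gdc_act_cons {k : ℕ} (i : Fin k) (l : List (Fin k)) (h : (i :: l).IsChain (· ≠ ·)) :
    RW.act i ⟨l, h.tail⟩ = ⟨i :: l, h⟩ := by
  cases l with
  | nil => rfl
  | cons a l =>
    have hi : i ≠ a := by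
      have := h
      simp only [List.isChain_cons_cons] at this
      exact this.1
    simp [RW.act, hi] <;> rfl

private theorem gdc_prod_root {k : ℕ} (l : List (Fin k)) (h : l.IsChain (· ≠ ·)) :
    (l.map RW.sig).prod RW.root = ⟨l, h⟩ := by
  induction l with
  | nil => rfl
  | cons i l ih =>
    rw [List.map_cons, List.prod_cons, Equiv.Perm.mul_apply, ih h.tail]
    exact gdc_act_cons i l h

private def mkB {k K : ℕ} (l : List (Fin k)) (h : l.IsChain (· ≠ ·))
    (hl : l.length ≤ K) : RWB k K := ⟨l, h, hl⟩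

private def rootB (k K : ℕ) : RWB k K := ⟨[], List.isChain_nil, Nat.zero_le K⟩

private theorem mkB_eq_root {k K : ℕ} {l : List (Fin k)} {h : l.IsChain (· ≠ ·)}
    {hl : l.length ≤ K} (e : rootB k K = mkB l h hl) : l = [] :=
  (congrArg (fun x : RWB k K => x.1) e).symm

private theorem mk_eq_root {k : ℕ} {l : List (Fin k)} {h : l.IsChain (· ≠ ·)}
    (e : (RW.root : RW k) = ⟨l, h⟩) : l = [] :=
  (congrArg (fun x : RW k => x.1) e).symm

private theorem gdc_prod_rootB {k K : ℕ} (l : List (Fin k)) (h : l.IsChain (· ≠ ·))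
    (hl : l.length ≤ K) :
    (l.map (fun i => ((RWB.act_act i).toPerm : Equiv.Perm (RWB k K)))).prod (rootB k K) =
      mkB l h hl := by
  induction l with
  | nil => rfl
  | cons i l ih =>
    have hl' : l.length ≤ K := by simp only [List.length_cons] at hl; omega
    rw [List.map_cons, List.prod_cons, Equiv.Perm.mul_apply, ih h.tail hl']
    show RWB.act i (mkB l h.tail hl') = mkB (i :: l) h hl
    have e := gdc_act_cons i l h
    have hle : (RW.act i ⟨l, h.tail⟩).1.length ≤ K := by rw [e]; exact hl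
    refine (RWB.act_pos i ⟨l, h.tail, hl'⟩ hle).trans ?_
    exact Subtype.ext (congrArg (fun x : RW k => x.1) e)

private theorem gdc_tree_iff {k K : ℕ} (u : List (Fin k)) (hu : u.length ≤ K) :
    (u.map (fun i => ((RWB.act_act i).toPerm : Equiv.Perm (RWB k K)))).prod = 1 ↔
      (u.map RW.sig).prod = 1 := by
  obtain ⟨⟨r, hr⟩, hlen, h⟩ := gdc_reduce u
  have hB := h (Equiv.Perm (RWB k K)) (fun i => (RWB.act_act i).toPerm)
    (fun i => gdc_toPerm_mul_self _)
  have hS := h (Equiv.Perm (RW k)) RW.sig (fun i => gdc_toPerm_mul_self _)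
  have hrK : r.length ≤ K := hlen.trans hu
  rw [hB, hS]
  constructor
  · intro h1
    have h2 := gdc_prod_rootB (K := K) r hr hrK
    have h3 : r = [] := mkB_eq_root (h := hr) (hl := hrK) (by
      rw [← h2]
      exact (congrArg (fun (p : Equiv.Perm (RWB k K)) => p (rootB k K)) h1).symm)
    subst h3
    rfl
  · intro h1
    have h2 := gdc_prod_root r hr
    have h3 : r = [] := mk_eq_root (h := hr) (by
      rw [← h2]
      exact (congrArg (fun (p : Equiv.Perm (RW k)) => p RW.root) h1).symm)
    subst h3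
    rfl

/-- tree letters -/
private def tl {k : ℕ} : Fin (k + 2) → Option (Fin k) :=
  Fin.addCases some (fun _ => none)

private theorem gdc_prod_tl {k : ℕ} {H : Type} [Group H] (f : Fin k → H) (g : Fin (k + 2) → H)
    (h1 : ∀ i, g (Fin.castAdd 2 i) = f i) (h2 : ∀ j, g (Fin.natAdd k j) = 1)
    (w : List (Fin (k + 2))) : (w.map g).prod = ((w.filterMap tl).map f).prod := by
  induction w with
  | nil => rfl
  | cons a w ih =>
    refine Fin.addCases (fun i => ?_) (fun j => ?_) a
    · have : (tl (Fin.castAdd 2 i) : Option (Fin k)) = some i := by simp [tl]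
      rw [List.map_cons, List.prod_cons, ih, List.filterMap_cons_some this, List.map_cons,
        List.prod_cons, h1]
    · have : (tl (Fin.natAdd k j) : Option (Fin k)) = none := by simp [tl]
      rw [List.map_cons, List.prod_cons, ih, List.filterMap_cons_none this, h2, one_mul]

private theorem gdc_prod_fst {A B : Type} [Group A] [Group B] (l : List (A × B)) :
    l.prod.1 = (l.map Prod.fst).prod := by
  induction l with
  | nil => rfl
  | cons a l ih => simp [ih]

private theorem gdc_prod_snd {A B : Type} [Group A] [Group B] (l : List (A × B)) :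
    l.prod.2 = (l.map Prod.snd).prod := by
  induction l with
  | nil => rfl
  | cons a l ih => simp [ih]

/-- words of length `≤ K` are trivial in `GQ` iff trivial in `GG` -/
theorem yq_trivial_iff (k M K : ℕ) (w : List (Fin (k + 2))) (hw : w.length ≤ K) :
    (w.map (yq k M K)).prod = 1 ↔ (w.map (yy k M)).prod = 1 := by
  rw [Prod.ext_iff, Prod.ext_iff, gdc_prod_fst, gdc_prod_fst, gdc_prod_snd, gdc_prod_snd, List.map_map,
    List.map_map, List.map_map, List.map_map]
  have e1 : (w.map (Prod.fst ∘ yq k M K)).prod =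
      ((w.filterMap tl).map (fun i => (RWB.act_act i).toPerm)).prod :=
    gdc_prod_tl _ _ (fun i => by simp [yq_castAdd]) (fun j => by simp [yq_natAdd]) w
  have e2 : (w.map (Prod.fst ∘ yy k M)).prod = ((w.filterMap tl).map RW.sig).prod :=
    gdc_prod_tl _ _ (fun i => by simp [yy_castAdd]) (fun j => by simp [yy_natAdd]) w
  have e3 : Prod.snd ∘ yq k M K = Prod.snd ∘ yy k M := by
    funext a
    refine Fin.addCases (fun i => ?_) (fun j => ?_) a
    · simp [yq_castAdd, yy_castAdd]
    · simp [yq_natAdd, yy_natAdd]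
  rw [e1, e2, e3]
  have := gdc_tree_iff (K := K) (w.filterMap tl) ((List.length_filterMap_le _ _).trans hw)
  constructor
  · rintro ⟨a, b⟩; exact ⟨this.1 a, b⟩
  · rintro ⟨a, b⟩; exact ⟨this.2 a, b⟩

end Crest.Agent.R89
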