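import Crest.Agent.R89.MC
/-! Row 89, piece MD (owner helper33): the Schwinger–Dyson equation.  `star (rcre i)` commutes with
`lam g`, `star (rcre i) (Sop i' ξ) = Sop i' (star (rcre i) ξ) + δ ⟨Ω,ξ⟩Ω`, `star (rcre i) Ω = 0`; so by
induction on the word `star (rcre i) (Q Ω) = ∑_{Q = Q1 S_i Q2} τ(Q2) Q1 Ω`.
Then `τ(S_i Q) = ⟨S_i Ω, QΩ⟩ = ⟨rcre i Ω, QΩ⟩`. -/
set_option autoImplicit false
open scoped InnerProductSpace
namespace Crest.Agent.R89
open Crest.OpAlg

variable {G I : Type} [Group G]

/-- words in group elements and semicirculars. -/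
noncomputable def evA (w : List (G ⊕ I)) : AT G I := (w.map (Sum.elim lamA sA)).prod

private theorem evA_nil : (evA ([] : List (G ⊕ I)) : AT G I) = 1 := by simp [evA]

private theorem evA_inl (g : G) (Q : List (G ⊕ I)) :
    (evA (Sum.inl g :: Q) : AT G I) = lamA g * evA Q := by simp [evA]

private theorem evA_inr (j : I) (Q : List (G ⊕ I)) :
    (evA (Sum.inr j :: Q) : AT G I) = sA j * evA Q := by simp [evA]

private theorem coe_one_apply (ξ : HH G I) :
    (((1 : AT G I)) : HH G I →L[ℂ] HH G I) ξ = ξ := rfl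

private theorem coe_lamA_mul (g : G) (a : AT G I) (ξ : HH G I) :
    (((lamA g * a : AT G I)) : HH G I →L[ℂ] HH G I) ξ = lam g ((a : HH G I →L[ℂ] HH G I) ξ) := rfl

private theorem coe_sA_mul (j : I) (a : AT G I) (ξ : HH G I) :
    (((sA j * a : AT G I)) : HH G I →L[ℂ] HH G I) ξ = Sop j ((a : HH G I →L[ℂ] HH G I) ξ) := rfl

private theorem tau_def (a : AT G I) :
    tau a = ⟪(Om : HH G I), (a : HH G I →L[ℂ] HH G I) Om⟫_ℂ := rfl

open Classical in
theorem star_rcre_evA (i : I) (Q : List (G ⊕ I)) :
    star (rcre i) (((evA Q : AT G I) : HH G I →L[ℂ] HH G I) Om) =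
      ∑ k ∈ Finset.range Q.length, if Q[k]? = some (Sum.inr i) then
        tau (evA (Q.drop (k + 1)) : AT G I) •
          (((evA (Q.take k) : AT G I) : HH G I →L[ℂ] HH G I) Om)
      else 0 := by
  induction Q with
  | nil =>
    rw [evA_nil, coe_one_apply, star_rcre_Om]
    simp
  | cons q Q ih =>
    rw [List.length_cons, Finset.sum_range_succ']
    cases q with
    | inl g =>
      rw [evA_inl, coe_lamA_mul, star_rcre_lam, ih, map_sum]
      have h0 : (if (Sum.inl g :: Q : List (G ⊕ I))[0]? = some (Sum.inr i) then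
          tau (evA ((Sum.inl g :: Q : List (G ⊕ I)).drop (0 + 1)) : AT G I) •
          (((evA ((Sum.inl g :: Q : List (G ⊕ I)).take 0) : AT G I) : HH G I →L[ℂ] HH G I) Om)
          else 0) = 0 := by
        rw [if_neg]; simp
      rw [h0, add_zero]
      refine Finset.sum_congr rfl fun k _ => ?_
      have hget : (Sum.inl g :: Q : List (G ⊕ I))[k + 1]? = Q[k]? := by simp
      by_cases hk : Q[k]? = some (Sum.inr i)
      · rw [if_pos hk, if_pos (hget.trans hk), List.drop_succ_cons, List.take_succ_cons, evA_inl,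
          coe_lamA_mul, map_smul]
      · rw [if_neg hk, if_neg (fun h => hk (hget.symm.trans h)), map_zero]
    | inr j =>
      rw [evA_inr, coe_sA_mul, star_rcre_Sop, ih, map_sum]
      congr 1
      · refine Finset.sum_congr rfl fun k _ => ?_
        have hget : (Sum.inr j :: Q : List (G ⊕ I))[k + 1]? = Q[k]? := by simp
        by_cases hk : Q[k]? = some (Sum.inr i)
        · rw [if_pos hk, if_pos (hget.trans hk), List.drop_succ_cons, List.take_succ_cons, evA_inr,
            coe_sA_mul, map_smul]
        · rw [if_neg hk, if_neg (fun h => hk (hget.symm.trans h)), map_zero]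
      · by_cases hj : j = i
        · subst hj
          rw [if_pos rfl, if_pos (by simp)]
          simp only [zero_add, List.drop_succ_cons, List.drop_zero, List.take_zero]
          rw [evA_nil, coe_one_apply, tau_def]
        · rw [if_neg hj, if_neg]
          simpa using hj

open Classical in
theorem tau_sd (i : I) (Q : List (G ⊕ I)) :
    tau (sA i * evA Q : AT G I) = ∑ k ∈ Finset.range Q.length,
      if Q[k]? = some (Sum.inr i) then
        tau (evA (Q.take k) : AT G I) * tau (evA (Q.drop (k + 1)) : AT G I) else 0 := by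
  rw [tau_def, coe_sA_mul]
  have h1 : ⟪(Om : HH G I), Sop i (((evA Q : AT G I) : HH G I →L[ℂ] HH G I) Om)⟫_ℂ =
      ⟪(Om : HH G I), star (rcre i) (((evA Q : AT G I) : HH G I →L[ℂ] HH G I) Om)⟫_ℂ := by
    rw [inner_star_right, rcre_Om, ← Sop_Om, ← inner_star_right, star_Sop]
  rw [h1, star_rcre_evA, inner_sum]
  refine Finset.sum_congr rfl fun k _ => ?_
  split_ifs with h
  · rw [inner_smul_right, mul_comm]; rfl
  · rw [inner_zero_right]

private theorem evA_replicate (i : I) (n : ℕ) :
    (evA (List.replicate n (Sum.inr i) : List (G ⊕ I)) : AT G I) = sA i ^ n := by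
  simp [evA]

private theorem tau_pow_succ (i : I) (n : ℕ) :
    tau ((sA i : AT G I) ^ (n + 1)) =
      ∑ k ∈ Finset.range n, tau ((sA i : AT G I) ^ k) * tau ((sA i : AT G I) ^ (n - (k + 1))) := by
  classical
  have h := tau_sd (G := G) i (List.replicate n (Sum.inr i))
  rw [evA_replicate, ← pow_succ'] at h
  rw [h, List.length_replicate]
  refine Finset.sum_congr rfl fun k hk => ?_
  rw [Finset.mem_range] at hk
  rw [if_pos (by simp [hk]), List.take_replicate, List.drop_replicate, evA_replicate,
    evA_replicate, min_eq_left hk.le]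

private theorem sum_range_odd (f : ℕ → ℂ) (k : ℕ) :
    ∑ j ∈ Finset.range (2 * k + 1), f j =
      ∑ a ∈ Finset.range (k + 1), f (2 * a) + ∑ a ∈ Finset.range k, f (2 * a + 1) := by
  induction k with
  | zero => simp
  | succ k ih =>
    rw [show 2 * (k + 1) + 1 = 2 * k + 1 + 1 + 1 by ring, Finset.sum_range_succ,
      Finset.sum_range_succ, ih, Finset.sum_range_succ (fun a => f (2 * a)) (k + 1),
      Finset.sum_range_succ (fun a => f (2 * a + 1)) k]
    rw [show 2 * (k + 1) = 2 * k + 1 + 1 by ring]
    ring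

/-- moments of a semicircular element (apply `tau_sd` to powers; `catalan_succ`). -/
theorem tau_sA_pow (i : I) (k : ℕ) :
    tau ((sA i : AT G I) ^ (2 * k)) = (catalan k : ℂ) ∧
      tau ((sA i : AT G I) ^ (2 * k + 1)) = 0 := by
  induction k using Nat.strong_induction_on with
  | _ k ih =>
    cases k with
    | zero =>
      refine ⟨?_, ?_⟩
      · simp [tau_one]
      · rw [show 2 * 0 + 1 = 0 + 1 by rfl, tau_pow_succ]; simp
    | succ k =>
      have hE : tau ((sA i : AT G I) ^ (2 * (k + 1))) = (catalan (k + 1) : ℂ) := by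
        rw [show 2 * (k + 1) = (2 * k + 1) + 1 by ring, tau_pow_succ, sum_range_odd]
        have h2 : ∑ a ∈ Finset.range k, tau ((sA i : AT G I) ^ (2 * a + 1)) *
            tau ((sA i : AT G I) ^ (2 * k + 1 - (2 * a + 1 + 1))) = 0 := by
          refine Finset.sum_eq_zero fun a ha => ?_
          rw [Finset.mem_range] at ha
          rw [(ih a (by omega)).2, zero_mul]
        rw [h2, add_zero, catalan_succ, Nat.cast_sum, ← Fin.sum_univ_eq_sum_range
          (fun a => tau ((sA i : AT G I) ^ (2 * a)) *
            tau ((sA i : AT G I) ^ (2 * k + 1 - (2 * a + 1)))) (k + 1)]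
        refine Finset.sum_congr rfl fun a _ => ?_
        have ha : (a : ℕ) ≤ k := Nat.lt_succ_iff.1 a.2
        rw [(ih a (by omega)).1, show 2 * k + 1 - (2 * (a : ℕ) + 1) = 2 * (k - a) by omega,
          (ih (k - a) (by omega)).1, Nat.cast_mul]
      refine ⟨hE, ?_⟩
      rw [tau_pow_succ]
      refine Finset.sum_eq_zero fun j hj => ?_
      rw [Finset.mem_range] at hj
      rcases Nat.even_or_odd' j with ⟨a, rfl | rfl⟩
      · rw [show 2 * (k + 1) - (2 * a + 1) = 2 * (k - a) + 1 by omega,
          (ih (k - a) (by omega)).2, mul_zero]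
      · rw [(ih a (by omega)).2, zero_mul]

theorem semicircular_tuple {n : ℕ} :
    IsStandardSemicircular (tau : AT G (II n) →ₗ[ℂ] ℂ) (St : Fin n → AT G (II n)) :=
  ⟨fun i => isSelfAdjoint_sA (i, true), fun i k => tau_sA_pow (i, true) k⟩

end Crest.Agent.R89
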