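import Crest.Agent.R89.FFinal
import Crest.Agent.R89.MD
import Crest.Agent.R89.GDc

/-!
# Row 89, part F: `⊥ < chi tau (Xt (yy k M) σ)` (glue between part F and the model)
-/

set_option autoImplicit false

namespace Crest.Agent.R89.F

open Crest.OpAlg

section model

variable {G : Type} [Group G] {n : ℕ}

/-- mixed word of the model as a word in `G ⊕ I`. -/
def glueMap (y : Fin n → G) : Letter n → G ⊕ II n := Sum.map y (fun j => (j, false))

theorem wordVal_eq_evA (y : Fin n → G) (Q : List (Letter n)) :
    wordVal (fun j => (lamA (y j) : AT G (II n))) (fun j => sA (j, false)) Q =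
      evA (Q.map (glueMap y)) := by
  unfold wordVal evA
  rw [List.map_map]
  congr 1
  apply List.map_congr_left
  rintro (j | j) _ <;> simp [letterEval, glueMap]

theorem prod_lamA (w : List G) : ((w.map fun g => (lamA g : AT G (II n))).prod) = lamA w.prod := by
  induction w with
  | nil => simp [lamA_one]
  | cons g w ih => simp [lamA_mul, ih]

theorem isFreeMoment_model (y : Fin n → G) :
    IsFreeMoment (gmom y)
      (fun Q => tau (wordVal (fun j => (lamA (y j) : AT G (II n))) (fun j => sA (j, false)) Q)) where
  base w := by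
    have h : wordVal (fun j => (lamA (y j) : AT G (II n))) (fun j => sA (j, false))
        (w.map Sum.inl) = lamA ((w.map y).prod) := by
      rw [← prod_lamA]
      unfold wordVal
      rw [List.map_map, List.map_map]
      rfl
    simp only [h, tau_lamA, gmom]
  cyc Q P := by
    simp only [wordVal, List.map_append, List.prod_append]
    exact tau_comm _ _
  sd j Q := by
    classical
    have h1 : wordVal (fun j => (lamA (y j) : AT G (II n))) (fun j => sA (j, false))
        (Sum.inr j :: Q) = sA (j, false) * evA (Q.map (glueMap y)) := by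
      rw [← wordVal_eq_evA]
      simp [wordVal, letterEval]
    simp only [h1, tau_sd, splitSum, List.length_map]
    refine Finset.sum_congr rfl fun k hk => ?_
    simp only [wordVal_eq_evA, ← List.map_take, ← List.map_drop, List.getElem?_map]
    have h2 : (Option.map (glueMap y) Q[k]? = some (Sum.inr (j, false))) ↔
        Q[k]? = some (Sum.inr j) := by
      cases hq : Q[k]? with
      | none => simp
      | some x =>
        rcases x with x | x
        · simp [glueMap]
        · simp [glueMap]
    by_cases h3 : Q[k]? = some (Sum.inr j)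
    · rw [if_pos (h2.2 h3), if_pos h3]
    · rw [if_neg (fun h => h3 (h2.1 h)), if_neg h3]

end model

theorem exists_approx (k M : ℕ) [NeZero M] (K : ℕ) :
    ∃ D : ℕ, 0 < D ∧ ∃ Y : Fin (k + 2) → Matrix (Fin D) (Fin D) ℂ,
      IsApprox (gmom (yy k M)) K Y := by
  classical
  let _ : Fintype (GQ k M K) := Fintype.ofFinite _
  obtain ⟨Y, hY⟩ := exists_approx_of_finite (yq k M K) (yq_mul_self k M K) K
  refine ⟨Fintype.card (GQ k M K), Fintype.card_pos, Y, hY.herm, hY.sq, fun w hwK => ?_⟩
  rw [hY.mom w hwK]
  have hiff := yq_trivial_iff k M K w hwK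
  by_cases h : (w.map (yy k M)).prod = 1
  · simp only [gmom, if_pos h, if_pos (hiff.2 h)]
  · simp only [gmom, if_neg h, if_neg (fun h' => h (hiff.1 h'))]

/-- final form of part F. -/
theorem chi_Xt_gt_bot (k M : ℕ) [NeZero M] (σ : Fin (k + 2) → ℝ) (hσ : ∀ j, 0 < σ j) :
    ⊥ < chi (tau (G := GG k M) (I := II (k + 2))) (Xt (yy k M) σ) :=
  chi_gt_bot tau (fun j => lamA (yy k M j)) (fun j => sA (j, false)) (gmom (yy k M))
    (isFreeMoment_model (yy k M)) (exists_approx k M) σ hσ

end Crest.Agent.R89.F
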