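import Crest.Agent.R89.FNormA

/-!
# Row 89, piece F_NORMB: large operator norm ⇒ large quadratic form on a ball

If ‖G‖ > 32 (G Hermitian) there is a unit vector v with |<v,Gv>| = ‖G‖
(spectral theorem / `IsSelfAdjoint`: norm = sup of the Rayleigh quotient, attained in finite dimension;
it is enough to have |<v,Gv>| ≥ (31/32)‖G‖; or eigenvalues `Matrix.IsHermitian.eigenvalues`),
and for |x - v| ≤ 1/4: |<x,Gx> - <v,Gv>| ≤ ‖G‖ (|x| + |v|)|x - v| ≤ (9/16)‖G‖, so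
|<x,Gx>| ≥ (6/16)‖G‖ ≥ 12.
-/

set_option autoImplicit false

namespace Crest.Agent.R89.F

open scoped ENNReal NNReal Topology
open MeasureTheory ProbabilityTheory Crest.OpAlg Filter

theorem cvec_sub' {d : ℕ} (x y : EuclideanSpace ℝ (Fin d × Fin 2)) :
    cvec (x - y) = cvec x - cvec y := by
  ext i
  simp only [cvec, PiLp.sub_apply]
  push_cast
  ring

theorem exists_unit_eigen {d : ℕ} (M : Matrix (Fin d) (Fin d) ℂ) (hM : M.IsHermitian)
    (h0 : 0 < ‖Matrix.toEuclideanCLM (n := Fin d) (𝕜 := ℂ) M‖) :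
    ∃ z : EuclideanSpace ℂ (Fin d), ‖z‖ = 1 ∧
      |(inner ℂ z (Matrix.toEuclideanCLM (n := Fin d) (𝕜 := ℂ) M z)).re| =
        ‖Matrix.toEuclideanCLM (n := Fin d) (𝕜 := ℂ) M‖ := by
  set T := Matrix.toEuclideanCLM (n := Fin d) (𝕜 := ℂ) M with hT
  have hTsa : IsSelfAdjoint T := by
    have : star M = M := hM
    rw [hT]
    unfold IsSelfAdjoint
    rw [← map_star, this]
  have : Nontrivial (EuclideanSpace ℂ (Fin d)) := by
    by_contra hn
    rw [not_nontrivial_iff_subsingleton] at hn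
    have : T = 0 := by
      ext x i
      have : x = 0 := Subsingleton.elim _ _
      simp [this]
    rw [this] at h0
    simp at h0
  have : Nontrivial (EuclideanSpace ℂ (Fin d) →L[ℂ] EuclideanSpace ℂ (Fin d)) := inferInstance
  obtain ⟨k, hk, hk'⟩ := spectrum.exists_nnnorm_eq_spectralRadius T
  rw [hTsa.spectralRadius_eq_nnnorm] at hk'
  have hkn : ‖k‖ = ‖T‖ := by
    have : (‖k‖₊ : ℝ≥0) = ‖T‖₊ := by exact_mod_cast hk'
    exact congrArg NNReal.toReal this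
  have hre : k = k.re := hTsa.mem_spectrum_eq_re hk
  have hev : Module.End.HasEigenvalue (T : EuclideanSpace ℂ (Fin d) →ₗ[ℂ] EuclideanSpace ℂ (Fin d)) k := by
    rw [Module.End.hasEigenvalue_iff_mem_spectrum, ← ContinuousLinearMap.spectrum_eq]
    exact hk
  obtain ⟨w, hw⟩ := hev.exists_hasEigenvector
  have hw0 : w ≠ 0 := hw.2
  have hwT : T w = k • w := hw.apply_eq_smul
  have hwn : ‖w‖ ≠ 0 := by simpa using hw0
  refine ⟨((‖w‖ : ℂ)⁻¹) • w, ?_, ?_⟩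
  · rw [norm_smul, norm_inv]
    simp [hwn]
  · rw [map_smul, hwT, inner_smul_left, inner_smul_right, inner_smul_right, inner_self_eq_norm_sq_to_K]
    rw [← hkn]
    have : (starRingEnd ℂ) ((‖w‖ : ℂ)⁻¹) * ((‖w‖ : ℂ)⁻¹ * (k * ((‖w‖ : ℂ)) ^ 2)) = k := by
      have hwc : (‖w‖ : ℂ) ≠ 0 := by exact_mod_cast hwn
      rw [map_inv₀, Complex.conj_ofReal]
      field_simp
    have h2 : ((starRingEnd ℂ) ((‖w‖ : ℂ)⁻¹) * ((‖w‖ : ℂ)⁻¹ * (k * ((RCLike.ofReal ‖w‖ : ℂ)) ^ 2))) = k := this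
    rw [h2, hre]
    simp

theorem ball_of_norm {n d : ℕ} (j : Fin n) (a : Ix n d → ℝ)
    (ha : 32 < ‖Matrix.toEuclideanCLM (n := Fin d) (𝕜 := ℂ) (Gmat a j)‖) :
    ∃ v : EuclideanSpace ℝ (Fin d × Fin 2), ‖v‖ = 1 ∧
      ∀ x, dist x v ≤ 1 / 4 → 12 ≤ |quad j x a| := by
  obtain ⟨z, hz1, hz2⟩ := exists_unit_eigen (Gmat a j) (Gmat_isHermitian a j) (by linarith)
  obtain ⟨v, rfl⟩ := exists_cvec z
  have hv : ‖v‖ = 1 := by rw [← norm_cvec, hz1]
  refine ⟨v, hv, fun x hx => ?_⟩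
  set T := Matrix.toEuclideanCLM (n := Fin d) (𝕜 := ℂ) (Gmat a j) with hT
  have hd : ‖cvec x - cvec v‖ ≤ 1 / 4 := by
    rw [← cvec_sub', norm_cvec, ← dist_eq_norm]; exact hx
  have hxn : ‖cvec x‖ ≤ 5 / 4 := by
    calc ‖cvec x‖ = ‖(cvec x - cvec v) + cvec v‖ := by congr 1; abel
      _ ≤ ‖cvec x - cvec v‖ + ‖cvec v‖ := norm_add_le _ _
      _ ≤ 1 / 4 + 1 := by rw [hz1]; linarith
      _ = 5 / 4 := by norm_num
  have hsplit : (inner ℂ (cvec x) (T (cvec x)) : ℂ) - inner ℂ (cvec v) (T (cvec v)) =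
      inner ℂ (cvec x - cvec v) (T (cvec x)) + inner ℂ (cvec v) (T (cvec x - cvec v)) := by
    rw [inner_sub_left, map_sub, inner_sub_right]; ring
  have hb1 : ‖(inner ℂ (cvec x - cvec v) (T (cvec x)) : ℂ)‖ ≤ 1 / 4 * (‖T‖ * (5 / 4)) := by
    refine (norm_inner_le_norm _ _).trans ?_
    gcongr
    exact (T.le_opNorm _).trans (by gcongr)
  have hb2 : ‖(inner ℂ (cvec v) (T (cvec x - cvec v)) : ℂ)‖ ≤ 1 * (‖T‖ * (1 / 4)) := by
    refine (norm_inner_le_norm _ _).trans ?_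
    rw [hz1]
    gcongr
    exact (T.le_opNorm _).trans (by gcongr)
  have hb : ‖(inner ℂ (cvec x) (T (cvec x)) : ℂ) - inner ℂ (cvec v) (T (cvec v))‖ ≤
      9 / 16 * ‖T‖ := by
    rw [hsplit]
    refine (norm_add_le _ _).trans ?_
    linarith
  have hre := (Complex.abs_re_le_norm _).trans hb
  rw [Complex.sub_re] at hre
  unfold quad
  have h3 : |(inner ℂ (cvec v) (T (cvec v)) : ℂ).re| ≤
      |(inner ℂ (cvec x) (T (cvec x)) : ℂ).re| +
      |(inner ℂ (cvec x) (T (cvec x)) : ℂ).re - (inner ℂ (cvec v) (T (cvec v)) : ℂ).re| := by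
    have := abs_sub_abs_le_abs_sub (inner ℂ (cvec v) (T (cvec v)) : ℂ).re
      (inner ℂ (cvec x) (T (cvec x)) : ℂ).re
    rw [abs_sub_comm] at this
    linarith
  rw [hz2] at h3
  have : 7 / 16 * ‖T‖ ≤ |(inner ℂ (cvec x) (T (cvec x)) : ℂ).re| := by linarith
  linarith

end Crest.Agent.R89.F
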