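import Crest.Agent.R89.FNormQ
import Crest.Agent.R89.FNormB

/-!
# Row 89, piece F_NORM: operator norm of the Gaussian matrices, by averaging over the test vector

Fubini on (x, a) in (closed ball of radius 5/4 in R^(Fin d × Fin 2)) × γ:
vol(B(1/4)) · P(‖G_j‖ > 32) ≤ ∫_{|x| ≤ 5/4} P(|<x,G_j x>| ≥ 12) dx ≤ vol(B(5/4)) · 2 exp(-29 d)
(for `a` in the event, the ball of radius 1/4 around v (`ball_of_norm`) is contained in B(0, 5/4) and in
{x : 12 ≤ |quad j x a|}; `quad_tail`), vol(B(5/4))/vol(B(1/4)) = 5^{2d} = 25^d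
(`MeasureTheory.Measure.addHaar_closedBall_mul`/`EuclideanSpace.volume_ball`), log 25 < 4.
(`lintegral_lintegral_swap`/`Measure.prod`; quad is continuous in (x,a).)
`norm_tail`: union bound over the n letters, 2 exp(-25 d) → 0 (`d = 0` is irrelevant for the limit).
-/

set_option autoImplicit false

namespace Crest.Agent.R89.F

open scoped ENNReal NNReal Topology
open MeasureTheory ProbabilityTheory Crest.OpAlg Filter

theorem continuous_cvec {d : ℕ} : Continuous (cvec (d := d)) := by
  unfold cvec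
  refine (PiLp.continuous_toLp 2 _).comp ?_
  refine continuous_pi fun i => ?_
  fun_prop

theorem continuous_quad {n d : ℕ} (j : Fin n) :
    Continuous fun p : EuclideanSpace ℝ (Fin d × Fin 2) × (Ix n d → ℝ) => quad j p.1 p.2 := by
  have h : (fun p : EuclideanSpace ℝ (Fin d × Fin 2) × (Ix n d → ℝ) => quad j p.1 p.2) =
      fun p => ∑ q, p.2 (j, q) *
        (inner ℂ (cvec p.1) (Matrix.toEuclideanCLM (n := Fin d) (𝕜 := ℂ) (Ebas q) (cvec p.1))).re := by
    funext p
    exact quad_eq_sum j p.1 p.2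
  rw [h]
  have hc := continuous_cvec (d := d)
  refine continuous_finsetSum _ fun q _ => ?_
  refine ((continuous_apply (j, q)).comp continuous_snd).mul ?_
  refine Complex.continuous_re.comp ?_
  refine Continuous.inner (hc.comp continuous_fst) ?_
  exact (ContinuousLinearMap.continuous _).comp (hc.comp continuous_fst)

theorem norm_tail_one {n d : ℕ} (hd : 0 < d) (j : Fin n) :
    (gm n d) {a | 32 < ‖Matrix.toEuclideanCLM (n := Fin d) (𝕜 := ℂ) (Gmat a j)‖} ≤
      ENNReal.ofReal (2 * Real.exp (-(25 * d))) := by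
  classical
  have : IsProbabilityMeasure (gm n d) := by unfold gm; infer_instance
  set X := EuclideanSpace ℝ (Fin d × Fin 2) with hX
  set S : Set (X × (Ix n d → ℝ)) := {p | ‖p.1‖ ≤ 5 / 4 ∧ 12 ≤ |quad j p.1 p.2|} with hS
  have hSc : IsClosed S := by
    refine IsClosed.inter (isClosed_le (continuous_norm.comp continuous_fst) continuous_const) ?_
    exact isClosed_le continuous_const (continuous_quad j).abs
  have hSm : MeasurableSet S := hSc.measurableSet
  set V : ℝ≥0∞ := volume (Metric.closedBall (0 : X) (1 / 4)) with hV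
  have hV0 : V ≠ 0 := (Metric.measure_closedBall_pos volume (0 : X) (by norm_num)).ne'
  have hVt : V ≠ ∞ := measure_closedBall_lt_top.ne
  -- the slice volume
  set f : (Ix n d → ℝ) → ℝ≥0∞ := fun a => volume ((fun x : X => (x, a)) ⁻¹' S) with hf
  have hfm : Measurable f := measurable_measure_prodMk_right hSm
  have hsub : {a | 32 < ‖Matrix.toEuclideanCLM (n := Fin d) (𝕜 := ℂ) (Gmat a j)‖} ⊆
      {a | V ≤ f a} := by
    intro a ha
    obtain ⟨v, hv, hball⟩ := ball_of_norm j a ha
    have h1 : Metric.closedBall v (1 / 4) ⊆ (fun x : X => (x, a)) ⁻¹' S := by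
      intro x hx
      have hx' : dist x v ≤ 1 / 4 := hx
      refine ⟨?_, hball x hx'⟩
      have : ‖x‖ ≤ ‖x - v‖ + ‖v‖ := by
        simpa using norm_add_le (x - v) v
      rw [dist_eq_norm] at hx'
      show ‖x‖ ≤ 5 / 4
      linarith
    have h2 : V = volume (Metric.closedBall v (1 / 4)) := by
      rw [hV]
      exact (Measure.addHaar_closedBall_center volume v (1 / 4)).symm
    show V ≤ f a
    rw [h2]
    exact measure_mono h1
  have hfub : ∫⁻ a, f a ∂(gm n d) = ∫⁻ x : X, (gm n d) (Prod.mk x ⁻¹' S) := by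
    rw [← Measure.prod_apply hSm, Measure.prod_apply_symm hSm]
  have hbound : ∫⁻ x : X, (gm n d) (Prod.mk x ⁻¹' S) ≤
      ENNReal.ofReal (2 * Real.exp (-(29 * d))) * volume (Metric.closedBall (0 : X) (5 / 4)) := by
    rw [← setLIntegral_const, ← lintegral_indicator Metric.isClosed_closedBall.measurableSet]
    refine lintegral_mono fun x => ?_
    by_cases hx : ‖x‖ ≤ 5 / 4
    · have : x ∈ Metric.closedBall (0 : X) (5 / 4) := by simpa using hx
      rw [Set.indicator_of_mem this]
      refine (measure_mono ?_).trans (quad_tail hd j x hx)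
      intro a ha
      exact ha.2
    · have : (Prod.mk x ⁻¹' S : Set (Ix n d → ℝ)) = ∅ := by
        ext a
        simp only [Set.mem_preimage, Set.mem_empty_iff_false, iff_false]
        intro h
        exact hx h.1
      rw [this]
      simp
  have hvol : volume (Metric.closedBall (0 : X) (5 / 4)) = ENNReal.ofReal (25 ^ d) * V := by
    have h := Measure.addHaar_closedBall_mul (volume : Measure X) (0 : X) (r := 5) (by norm_num)
      (s := 1 / 4) (by norm_num)
    have hfr : Module.finrank ℝ X = 2 * d := by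
      have h0 : Module.finrank ℝ (EuclideanSpace ℝ (Fin d × Fin 2)) = Fintype.card (Fin d × Fin 2) :=
        finrank_euclideanSpace
      rw [Fintype.card_prod, Fintype.card_fin, Fintype.card_fin] at h0
      exact h0.trans (mul_comm _ _)
    rw [hfr] at h
    have e1 : (5 : ℝ) * (1 / 4) = 5 / 4 := by norm_num
    rw [e1] at h
    rw [h, pow_mul]
    norm_num [hV]
  have hmk : (gm n d) {a | V ≤ f a} ≤ (∫⁻ a, f a ∂(gm n d)) / V :=
    meas_ge_le_lintegral_div hfm.aemeasurable hV0 hVt
  calc (gm n d) {a | 32 < ‖Matrix.toEuclideanCLM (n := Fin d) (𝕜 := ℂ) (Gmat a j)‖}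
      ≤ (gm n d) {a | V ≤ f a} := measure_mono hsub
    _ ≤ (∫⁻ a, f a ∂(gm n d)) / V := hmk
    _ ≤ (ENNReal.ofReal (2 * Real.exp (-(29 * d))) * (ENNReal.ofReal (25 ^ d) * V)) / V := by
        rw [hfub, ← hvol]
        exact ENNReal.div_le_div_right hbound V
    _ = ENNReal.ofReal (2 * Real.exp (-(29 * d))) * ENNReal.ofReal (25 ^ d) := by
        rw [← mul_assoc, ENNReal.mul_div_cancel_right hV0 hVt]
    _ = ENNReal.ofReal (2 * Real.exp (-(29 * d)) * 25 ^ d) := by
        rw [← ENNReal.ofReal_mul (by positivity)]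
    _ ≤ ENNReal.ofReal (2 * Real.exp (-(25 * d))) := by
        apply ENNReal.ofReal_le_ofReal
        have h25 : (25 : ℝ) ≤ Real.exp 4 := by
          have h1 : (2.7182818283 : ℝ) < Real.exp 1 := Real.exp_one_gt_d9
          have h2 : Real.exp 4 = Real.exp 1 ^ 4 := by
            rw [← Real.exp_nat_mul]; norm_num
          rw [h2]
          have h3 : (2.7182818283 : ℝ) ^ 4 ≤ Real.exp 1 ^ 4 :=
            pow_le_pow_left₀ (by norm_num) h1.le 4
          have h4 : (25 : ℝ) ≤ (2.7182818283 : ℝ) ^ 4 := by norm_num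
          linarith
        have h5 : (25 : ℝ) ^ d ≤ Real.exp (4 * d) := by
          have : Real.exp (4 * d) = Real.exp 4 ^ d := by
            rw [← Real.exp_nat_mul]; ring_nf
          rw [this]
          exact pow_le_pow_left₀ (by norm_num) h25 d
        calc 2 * Real.exp (-(29 * d)) * 25 ^ d
            ≤ 2 * Real.exp (-(29 * d)) * Real.exp (4 * d) := by gcongr
          _ = 2 * (Real.exp (-(29 * d)) * Real.exp (4 * d)) := by ring
          _ = 2 * Real.exp (-(25 * d)) := by
              rw [← Real.exp_add]; ring_nf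

theorem norm_tail (n : ℕ) :
    Tendsto (fun d : ℕ => (gm n d)
      {a | ∃ j, 32 < ‖Matrix.toEuclideanCLM (n := Fin d) (𝕜 := ℂ) (Gmat a j)‖}) atTop (𝓝 0) := by
  have h1 : ∀ d : ℕ, 0 < d → (gm n d)
      {a | ∃ j, 32 < ‖Matrix.toEuclideanCLM (n := Fin d) (𝕜 := ℂ) (Gmat a j)‖} ≤
      ENNReal.ofReal (n * (2 * Real.exp (-(25 * d)))) := by
    intro d hd
    have e : {a : Ix n d → ℝ | ∃ j, 32 < ‖Matrix.toEuclideanCLM (n := Fin d) (𝕜 := ℂ) (Gmat a j)‖} =
        ⋃ j : Fin n, {a | 32 < ‖Matrix.toEuclideanCLM (n := Fin d) (𝕜 := ℂ) (Gmat a j)‖} := by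
      ext a; simp
    rw [e]
    refine (measure_iUnion_fintype_le _ _).trans ?_
    calc ∑ j : Fin n, (gm n d) {a | 32 < ‖Matrix.toEuclideanCLM (n := Fin d) (𝕜 := ℂ) (Gmat a j)‖}
        ≤ ∑ _j : Fin n, ENNReal.ofReal (2 * Real.exp (-(25 * d))) :=
          Finset.sum_le_sum fun j _ => norm_tail_one hd j
      _ = ENNReal.ofReal (n * (2 * Real.exp (-(25 * d)))) := by
          rw [Finset.sum_const, Finset.card_univ, Fintype.card_fin, nsmul_eq_mul,
            ENNReal.ofReal_mul (p := (n : ℝ)) (by positivity), ENNReal.ofReal_natCast]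
  have h2 : Tendsto (fun d : ℕ => ENNReal.ofReal (n * (2 * Real.exp (-(25 * (d : ℝ)))))) atTop
      (𝓝 0) := by
    have h3 : Tendsto (fun d : ℕ => (n : ℝ) * (2 * Real.exp (-(25 * (d : ℝ))))) atTop (𝓝 0) := by
      have h4 : Tendsto (fun d : ℕ => Real.exp (-(25 * (d : ℝ)))) atTop (𝓝 0) := by
        refine Real.tendsto_exp_atBot.comp ?_
        refine tendsto_neg_atTop_atBot.comp ?_
        exact Tendsto.const_mul_atTop (by norm_num) tendsto_natCast_atTop_atTop
      simpa using (h4.const_mul 2).const_mul (n : ℝ)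
    simpa using ENNReal.tendsto_ofReal h3
  refine tendsto_of_tendsto_of_tendsto_of_le_of_le' tendsto_const_nhds h2
    (Eventually.of_forall fun _ => bot_le) ?_
  filter_upwards [eventually_gt_atTop 0] with d hd
  exact h1 d hd

end Crest.Agent.R89.F
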