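import Crest.Agent.R89.FCheb
import Crest.Agent.R89.FAmp
import Crest.Agent.R89.FNorm

/-!
# Row 89, piece F_GOOD: for infinitely many d the good set has Gaussian probability ≥ 1/2

Take Y from `happ (2 * L)` (size D), amplify to sizes dd q = D * (q + 1) (`IsApprox.amplify`),
`cheb` for the finitely many words of length ≤ L (`List.finite_length_le`), `norm_tail`
composed with dd: the probability of the bad set tends to 0, so for q large it is ≤ 1/2.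
-/

set_option autoImplicit false

namespace Crest.Agent.R89.F

open scoped ENNReal NNReal Topology
open MeasureTheory ProbabilityTheory Crest.OpAlg Filter

theorem exists_good {n : ℕ} (m : List (Fin n) → ℂ) (μ : List (Letter n) → ℂ)
    (hμ : IsFreeMoment m μ)
    (happ : ∀ K, ∃ D : ℕ, 0 < D ∧ ∃ Y : Fin n → Matrix (Fin D) (Fin D) ℂ, IsApprox m K Y)
    (L : ℕ) (δ : ℝ) (hδ : 0 < δ) (d0 : ℕ) :
    ∃ d : ℕ, d0 ≤ d ∧ 0 < d ∧ ∃ Y : Fin n → Matrix (Fin d) (Fin d) ℂ, IsApprox m (2 * L) Y ∧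
      (2 : ℝ≥0∞)⁻¹ ≤ gm n d {a | (∀ j, ‖Matrix.toEuclideanCLM (n := Fin d) (𝕜 := ℂ) (Gmat a j)‖ ≤ 32) ∧
        ∀ Q : List (Letter n), Q.length ≤ L → ‖trw Y Q a - μ Q‖ ≤ δ} := by
  obtain ⟨D, hD, Y0, hY0⟩ := happ (2 * L)
  have hamp : ∀ q : ℕ, ∃ Y' : Fin n → Matrix (Fin (D * (q + 1))) (Fin (D * (q + 1))) ℂ,
      IsApprox m (2 * L) Y' := fun q => hY0.amplify (q + 1) (Nat.succ_pos q)
  choose Y hY using hamp
  have hdd : Tendsto (fun q : ℕ => D * (q + 1)) atTop atTop := by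
    refine tendsto_atTop_mono (fun q => ?_) tendsto_id
    show q ≤ D * (q + 1)
    nlinarith
  have hd0 : ∀ q, 0 < D * (q + 1) := fun q => Nat.mul_pos hD (Nat.succ_pos q)
  -- the finitely many words
  have hfin : {Q : List (Letter n) | Q.length ≤ L}.Finite := List.finite_length_le (Letter n) L
  set W : Finset (List (Letter n)) := hfin.toFinset with hW
  have hmemW : ∀ Q, Q ∈ W ↔ Q.length ≤ L := by
    intro Q
    rw [hW, Set.Finite.mem_toFinset]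
    rfl
  have hsum : Tendsto (fun q : ℕ => (gm n (D * (q + 1)))
      {a | ∃ j, 32 < ‖Matrix.toEuclideanCLM (n := Fin (D * (q + 1))) (𝕜 := ℂ) (Gmat a j)‖} +
      ∑ Q ∈ W, (gm n (D * (q + 1))) {a | δ ≤ ‖trw (Y q) Q a - μ Q‖}) atTop (𝓝 0) := by
    have h1 := (norm_tail n).comp hdd
    have h2 : Tendsto (fun q : ℕ => ∑ Q ∈ W, (gm n (D * (q + 1)))
        {a | δ ≤ ‖trw (Y q) Q a - μ Q‖}) atTop (𝓝 (∑ _Q ∈ W, (0 : ℝ≥0∞))) := by
      refine tendsto_finsetSum W fun Q hQ => ?_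
      exact cheb m μ hμ L (fun q => D * (q + 1)) hdd hd0 Y hY Q ((hmemW Q).1 hQ) δ hδ
    rw [Finset.sum_const_zero] at h2
    have h3 := h1.add h2
    rw [add_zero] at h3
    exact h3
  have hev1 := hsum.eventually_le_const (by norm_num : (0 : ℝ≥0∞) < (2 : ℝ≥0∞)⁻¹)
  have hev2 := hdd.eventually_ge_atTop d0
  obtain ⟨q, hq1, hq2⟩ := (hev1.and hev2).exists
  refine ⟨D * (q + 1), hq2, hd0 q, Y q, hY q, ?_⟩
  have hprob : IsProbabilityMeasure (gm n (D * (q + 1))) := by unfold gm; infer_instance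
  set G : Set (Ix n (D * (q + 1)) → ℝ) := {a | (∀ j, ‖Matrix.toEuclideanCLM
      (n := Fin (D * (q + 1))) (𝕜 := ℂ) (Gmat a j)‖ ≤ 32) ∧
        ∀ Q : List (Letter n), Q.length ≤ L → ‖trw (Y q) Q a - μ Q‖ ≤ δ} with hG
  set B1 : Set (Ix n (D * (q + 1)) → ℝ) :=
    {a | ∃ j, 32 < ‖Matrix.toEuclideanCLM (n := Fin (D * (q + 1))) (𝕜 := ℂ) (Gmat a j)‖}
    with hB1
  have hcover : (Set.univ : Set (Ix n (D * (q + 1)) → ℝ)) ⊆
      G ∪ (B1 ∪ ⋃ Q ∈ W, {a | δ ≤ ‖trw (Y q) Q a - μ Q‖}) := by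
    intro a _
    by_cases h1 : ∃ j, 32 < ‖Matrix.toEuclideanCLM (n := Fin (D * (q + 1))) (𝕜 := ℂ) (Gmat a j)‖
    · exact Or.inr (Or.inl h1)
    · by_cases h2 : ∃ Q ∈ W, δ ≤ ‖trw (Y q) Q a - μ Q‖
      · refine Or.inr (Or.inr ?_)
        obtain ⟨Q, hQ, h3⟩ := h2
        exact Set.mem_iUnion₂.2 ⟨Q, hQ, h3⟩
      · refine Or.inl ⟨fun j => ?_, fun Q hQ => ?_⟩
        · exact not_lt.1 fun h => h1 ⟨j, h⟩
        · exact (lt_of_not_ge fun h => h2 ⟨Q, (hmemW Q).2 hQ, h⟩).le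
  have hone : (1 : ℝ≥0∞) ≤ (gm n (D * (q + 1))) G + (2 : ℝ≥0∞)⁻¹ := by
    calc (1 : ℝ≥0∞) = (gm n (D * (q + 1))) Set.univ := measure_univ.symm
      _ ≤ (gm n (D * (q + 1))) (G ∪ (B1 ∪ ⋃ Q ∈ W, {a | δ ≤ ‖trw (Y q) Q a - μ Q‖})) :=
          measure_mono hcover
      _ ≤ (gm n (D * (q + 1))) G + (gm n (D * (q + 1)))
            (B1 ∪ ⋃ Q ∈ W, {a | δ ≤ ‖trw (Y q) Q a - μ Q‖}) := measure_union_le _ _
      _ ≤ (gm n (D * (q + 1))) G + ((gm n (D * (q + 1))) B1 + (gm n (D * (q + 1)))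
            (⋃ Q ∈ W, {a | δ ≤ ‖trw (Y q) Q a - μ Q‖})) := by
          gcongr
          exact measure_union_le _ _
      _ ≤ (gm n (D * (q + 1))) G + ((gm n (D * (q + 1))) B1 + ∑ Q ∈ W, (gm n (D * (q + 1)))
            {a | δ ≤ ‖trw (Y q) Q a - μ Q‖}) := by
          gcongr
          exact measure_biUnion_finset_le _ _
      _ ≤ (gm n (D * (q + 1))) G + (2 : ℝ≥0∞)⁻¹ := by
          gcongr
  have h2 : (2 : ℝ≥0∞)⁻¹ + (2 : ℝ≥0∞)⁻¹ = 1 := ENNReal.inv_two_add_inv_two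
  rw [← h2] at hone
  exact (ENNReal.add_le_add_iff_right (by norm_num)).1 hone

end Crest.Agent.R89.F
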