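import Crest.Agent.R89.FIbp1

/-!
# Row 89, piece F_IBP: Gaussian integration by parts for polynomials

Linear in F, so by `MvPolynomial.induction_on'` or `MvPolynomial.as_sum` it is enough to take
F = monomial s c; then both sides are products of 1-D integrals
(`MeasureTheory.integral_fintype_prod_eq_prod`, `Integrable.fintype_prod`), they agree in all
coordinates ≠ p, and in the coordinate p this is the 1-D recursion `∫ x^(k+1) = v k ∫ x^(k-1)`
(`gauss_moment_succ`, `gauss_moment_one`).
-/

set_option autoImplicit false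

namespace Crest.Agent.R89.F

open scoped ENNReal NNReal
open MeasureTheory ProbabilityTheory

private noncomputable def gaussC (v : ℝ≥0) (k : ℕ) : ℂ :=
  ∫ x : ℝ, (x : ℂ) ^ k ∂(gaussianReal 0 v)

private theorem gaussC_eq (v : ℝ≥0) (k : ℕ) :
    gaussC v k = ((∫ x : ℝ, x ^ k ∂(gaussianReal 0 v) : ℝ) : ℂ) := by
  unfold gaussC
  rw [← integral_complex_ofReal]
  refine integral_congr_ae (Filter.Eventually.of_forall fun x => ?_)
  simp

private theorem gaussC_one (v : ℝ≥0) : gaussC v 1 = 0 := by
  rw [gaussC_eq]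
  simp only [pow_one]
  rw [gauss_moment_one]
  simp

private theorem gaussC_succ (v : ℝ≥0) (k : ℕ) :
    gaussC v (k + 2) = (v : ℂ) * ((k : ℂ) + 1) * gaussC v k := by
  rw [gaussC_eq, gaussC_eq, gauss_moment_succ]
  push_cast
  ring

private theorem gpow_integrable (v : ℝ≥0) (k : ℕ) :
    Integrable (fun x : ℝ => (x : ℂ) ^ k) (gaussianReal 0 v) := by
  have h := (gauss_pow_integrable v k).ofReal (𝕜 := ℂ)
  refine h.congr (Filter.Eventually.of_forall fun x => ?_)
  simp

private theorem eval_mono {σ : Type} [Fintype σ] (a : σ → ℝ) (s : σ →₀ ℕ) (c : ℂ) :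
    MvPolynomial.eval (fun i => (a i : ℂ)) (MvPolynomial.monomial s c) =
      c * ∏ i, ((a i : ℂ)) ^ (s i) := by
  rw [MvPolynomial.eval_monomial, Finsupp.prod_fintype]
  intro i
  simp

private theorem mono_integrable {σ : Type} [Fintype σ] (v : ℝ≥0) (s : σ →₀ ℕ) (c : ℂ) :
    Integrable (fun a : σ → ℝ => MvPolynomial.eval (fun i => (a i : ℂ))
      (MvPolynomial.monomial s c)) (Measure.pi fun _ => gaussianReal 0 v) := by
  simp only [eval_mono]
  refine Integrable.const_mul ?_ c
  exact Integrable.fintype_prod (f := fun i (x : ℝ) => (x : ℂ) ^ (s i))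
    (μ := fun _ => gaussianReal 0 v) (fun i => gpow_integrable v (s i))

private theorem mono_integral {σ : Type} [Fintype σ] (v : ℝ≥0) (s : σ →₀ ℕ) (c : ℂ) :
    ∫ a : σ → ℝ, MvPolynomial.eval (fun i => (a i : ℂ)) (MvPolynomial.monomial s c)
        ∂(Measure.pi fun _ => gaussianReal 0 v) = c * ∏ i, gaussC v (s i) := by
  simp only [eval_mono]
  rw [integral_const_mul]
  congr 1
  exact integral_fintype_prod_eq_prod (f := fun i (x : ℝ) => (x : ℂ) ^ (s i))
    (μ := fun _ => gaussianReal 0 v)

theorem gauss_integrable {σ : Type} [Fintype σ] (v : ℝ≥0) (F : MvPolynomial σ ℂ) :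
    Integrable (fun a : σ → ℝ => MvPolynomial.eval (fun i => (a i : ℂ)) F)
      (Measure.pi fun _ => gaussianReal 0 v) := by
  induction F using MvPolynomial.induction_on' with
  | monomial s c => exact mono_integrable v s c
  | add p q hp hq =>
    simp only [map_add]
    exact hp.add hq

theorem gauss_ibp {σ : Type} [Fintype σ] [DecidableEq σ] (v : ℝ≥0) (p : σ)
    (F : MvPolynomial σ ℂ) :
    ∫ a : σ → ℝ, MvPolynomial.eval (fun i => (a i : ℂ)) (MvPolynomial.X p * F)
        ∂(Measure.pi fun _ => gaussianReal 0 v) =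
      (v : ℂ) * ∫ a : σ → ℝ, MvPolynomial.eval (fun i => (a i : ℂ)) (MvPolynomial.pderiv p F)
        ∂(Measure.pi fun _ => gaussianReal 0 v) := by
  induction F using MvPolynomial.induction_on' with
  | add F G hF hG =>
    simp only [mul_add, map_add]
    have h1 := gauss_integrable v (MvPolynomial.X p * F)
    have h2 := gauss_integrable v (MvPolynomial.X p * G)
    have h3 := gauss_integrable v (MvPolynomial.pderiv p F)
    have h4 := gauss_integrable v (MvPolynomial.pderiv p G)
    rw [integral_add h1 h2, integral_add h3 h4, hF, hG]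
    ring
  | monomial s c =>
    rw [MvPolynomial.pderiv_monomial]
    have hX : (MvPolynomial.X p : MvPolynomial σ ℂ) * MvPolynomial.monomial s c =
        MvPolynomial.monomial (Finsupp.single p 1 + s) c := by
      rw [MvPolynomial.X, MvPolynomial.monomial_mul, one_mul]
    rw [hX, mono_integral, mono_integral]
    rw [Fintype.prod_eq_mul_prod_compl p, Fintype.prod_eq_mul_prod_compl p]
    have hcomp : ∏ i ∈ ({p}ᶜ : Finset σ), gaussC v ((Finsupp.single p 1 + s : σ →₀ ℕ) i) =
        ∏ i ∈ ({p}ᶜ : Finset σ), gaussC v ((s - Finsupp.single p 1 : σ →₀ ℕ) i) := by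
      refine Finset.prod_congr rfl fun i hi => ?_
      have hip : i ≠ p := by simpa using hi
      simp [Ne.symm hip]
    rw [hcomp]
    rcases Nat.eq_zero_or_pos (s p) with h0 | h0
    · have e1 : (Finsupp.single p 1 + s : σ →₀ ℕ) p = 1 := by simp [h0]
      rw [e1, gaussC_one, h0]
      simp
    · obtain ⟨k, hk⟩ : ∃ k, s p = k + 1 := ⟨s p - 1, by omega⟩
      have e1 : (Finsupp.single p 1 + s : σ →₀ ℕ) p = k + 2 := by simp [hk]; ring
      have e2 : (s - Finsupp.single p 1 : σ →₀ ℕ) p = k := by simp [hk]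
      rw [e1, e2, gaussC_succ, hk]
      push_cast
      ring

end Crest.Agent.R89.F
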