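import Crest.Agent.R89.FDefs

/-!
# Row 89, piece F_IBP1: moments of the one-dimensional Gaussian

For v = 0 everything is a Dirac mass at 0.  For v ≠ 0: all moments are finite (`memLp_id_gaussianReal`);
`gauss_moment_succ`: write the integral with `gaussianPDFReal`
(`integral_gaussianReal_eq_integral_smul`), and integrate by parts on ℝ
(`MeasureTheory.integral_mul_deriv_eq_deriv_mul_of_integrable`) using
`d/dx gaussianPDFReal 0 v x = -(x / v) * gaussianPDFReal 0 v x`.
-/

set_option autoImplicit false

namespace Crest.Agent.R89.F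

open scoped ENNReal NNReal
open MeasureTheory ProbabilityTheory

theorem gauss_pow_integrable (v : ℝ≥0) (k : ℕ) :
    Integrable (fun x : ℝ => x ^ k) (gaussianReal 0 v) := by
  have h : MemLp (id : ℝ → ℝ) (k : ℝ≥0∞) (gaussianReal 0 v) :=
    memLp_id_gaussianReal' _ (by simp)
  have h2 := h.integrable_norm_pow'
  refine (integrable_norm_iff (by fun_prop)).1 ?_
  simpa [norm_pow] using h2

theorem gauss_moment_one (v : ℝ≥0) : ∫ x, x ∂(gaussianReal 0 v) = 0 :=
  integral_id_gaussianReal

theorem integrable_mul_pdf (v : ℝ≥0) (hv : v ≠ 0) (k : ℕ) :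
    Integrable (fun x : ℝ => x ^ k * gaussianPDFReal 0 v x) := by
  have h := gauss_pow_integrable v k
  rw [gaussianReal_of_var_ne_zero _ hv, integrable_withDensity_iff_integrable_smul'
    (measurable_gaussianPDF _ _) (Filter.Eventually.of_forall fun _ => gaussianPDF_lt_top)] at h
  refine h.congr (Filter.Eventually.of_forall fun x => ?_)
  simp only [toReal_gaussianPDF, smul_eq_mul]
  ring

theorem hasDerivAt_pdf (v : ℝ≥0) (x : ℝ) :
    HasDerivAt (gaussianPDFReal 0 v) (-(x / v) * gaussianPDFReal 0 v x) x := by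
  have h1 : HasDerivAt (fun x : ℝ => -(x - 0) ^ 2 / (2 * (v : ℝ))) (-(x / v)) x := by
    have h0 := (((hasDerivAt_id x).sub_const (0 : ℝ)).pow 2).neg.div_const (2 * (v : ℝ))
    refine HasDerivAt.congr_deriv (h0.congr_of_eventuallyEq
      (Filter.Eventually.of_forall fun y => ?_)) ?_
    · simp
    · by_cases hv : (v : ℝ) = 0
      · simp [hv]
      · simp only [id]
        field_simp
        norm_num
        ring
  have h2 := (h1.exp).const_mul ((√(2 * Real.pi * v))⁻¹)
  refine HasDerivAt.congr_deriv (h2.congr_of_eventuallyEq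
      (Filter.Eventually.of_forall fun y => ?_)) ?_
  · simp only [gaussianPDFReal_def]
  · simp only [gaussianPDFReal_def]
    ring

theorem gauss_moment_succ (v : ℝ≥0) (k : ℕ) :
    ∫ x, x ^ (k + 2) ∂(gaussianReal 0 v) = v * (k + 1) * ∫ x, x ^ k ∂(gaussianReal 0 v) := by
  by_cases hv : v = 0
  · subst hv
    simp [gaussianReal_zero_var]
  have hv' : (v : ℝ) ≠ 0 := by exact_mod_cast hv
  rw [integral_gaussianReal_eq_integral_smul hv, integral_gaussianReal_eq_integral_smul hv]
  have hibp := integral_mul_deriv_eq_deriv_mul_of_integrable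
    (u := fun x : ℝ => x ^ (k + 1)) (v := gaussianPDFReal 0 v)
    (u' := fun x => ((k + 1 : ℕ) : ℝ) * x ^ k) (v' := fun x => -(x / v) * gaussianPDFReal 0 v x)
    (fun x _ => by simpa using hasDerivAt_pow (k + 1) x) (fun x _ => hasDerivAt_pdf v x)
    (by
      refine ((integrable_mul_pdf v hv (k + 2)).const_mul (-(1 / (v : ℝ)))).congr
        (Filter.Eventually.of_forall fun x => ?_)
      simp only [Pi.mul_apply]
      ring)
    (by
      refine ((integrable_mul_pdf v hv k).const_mul ((k + 1 : ℕ) : ℝ)).congr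
        (Filter.Eventually.of_forall fun x => ?_)
      simp only [Pi.mul_apply]
      ring)
    (integrable_mul_pdf v hv (k + 1))
  have e1 : ∫ x, gaussianPDFReal 0 v x • x ^ (k + 2) =
      -(v : ℝ) * ∫ x, x ^ (k + 1) * (-(x / v) * gaussianPDFReal 0 v x) := by
    rw [← integral_const_mul]
    refine integral_congr_ae (Filter.Eventually.of_forall fun x => ?_)
    simp only [smul_eq_mul]
    field_simp
    ring
  have e2 : ∫ x, ((k + 1 : ℕ) : ℝ) * x ^ k * gaussianPDFReal 0 v x =
      ((k + 1 : ℕ) : ℝ) * ∫ x, gaussianPDFReal 0 v x • x ^ k := by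
    rw [← integral_const_mul]
    refine integral_congr_ae (Filter.Eventually.of_forall fun x => ?_)
    simp only [smul_eq_mul]
    ring
  rw [e1, hibp, e2]
  push_cast
  ring

end Crest.Agent.R89.F
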