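import Crest.Agent.R89.FDefs

/-!
# Row 89, piece F_LIM: convergence of the expectations from the loop equation (pure limit lemma)

Strong induction on the total number N of noise letters (`inr`) in the list of words `Qs`.
* N = 0: all words are images of reference words (`List.map Sum.inl`), use `hbase` and `hμ.base`.
* N > 0: by `hperm` bring a word with a noise letter to the front, by `hrot` rotate it so that it
  starts with `inr j` (both sides are invariant: product over a permuted list; `hμ.cyc`), apply `hloop`.
  First sum: every term has two noise letters less, total length smaller: converges to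
  `∑ μ α * μ β * ∏ μ` = `μ (inr j :: Q0) ∏ μ` by `hμ.sd`.  Second sum: again every term converges
  (two noise letters less, total length of `(β ++ α ++ Q0) :: Qs.eraseIdx l` smaller), and it is
  multiplied by `(dd q)⁻¹ ^ 2 → 0`.
-/

set_option autoImplicit false

namespace Crest.Agent.R89.F

open scoped ENNReal NNReal Topology
open MeasureTheory ProbabilityTheory Crest.OpAlg Filter

/-- a word without noise letters is a reference word. -/
theorem exists_ref_of_noiseCount_zero {n : ℕ} (Q : List (Letter n)) (h : noiseCount Q = 0) :
    ∃ w : List (Fin n), Q = w.map Sum.inl := by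
  induction Q with
  | nil => exact ⟨[], rfl⟩
  | cons x Q ih =>
    have h' : x.isRight = false ∧ noiseCount Q = 0 := by
      unfold noiseCount at h ⊢
      rw [List.countP_cons] at h
      constructor
      · by_contra hx
        have hx' : x.isRight = true := by simpa using hx
        simp [hx'] at h
      · omega
    obtain ⟨w, hw⟩ := ih h'.2
    cases x with
    | inl i => exact ⟨i :: w, by simp [hw]⟩
    | inr i => simp at h'

theorem exists_refs_of_noise_zero {n : ℕ} (Qs : List (List (Letter n)))
    (h : (Qs.map noiseCount).sum = 0) :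
    ∃ ws : List (List (Fin n)), Qs = ws.map (List.map Sum.inl) := by
  induction Qs with
  | nil => exact ⟨[], rfl⟩
  | cons Q Qs ih =>
    simp only [List.map_cons, List.sum_cons, Nat.add_eq_zero_iff] at h
    obtain ⟨ws, hws⟩ := ih h.2
    obtain ⟨w, hw⟩ := exists_ref_of_noiseCount_zero Q h.1
    exact ⟨w :: ws, by simp [hw, hws]⟩

/-- decomposition at a position. -/
theorem split_at {n : ℕ} (j : Fin n) (Q : List (Letter n)) (k : ℕ)
    (h : Q[k]? = some (Sum.inr j)) :
    Q = Q.take k ++ Sum.inr j :: Q.drop (k + 1) := by
  have hk : k < Q.length := by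
    by_contra hk
    rw [List.getElem?_eq_none (by omega)] at h
    exact absurd h (by simp)
  have h2 : Q[k] = Sum.inr j := by
    rw [List.getElem?_eq_getElem hk] at h
    exact Option.some.inj h
  rw [← h2, List.getElem_cons_drop, List.take_append_drop]

theorem noiseCount_append {n : ℕ} (P Q : List (Letter n)) :
    noiseCount (P ++ Q) = noiseCount P + noiseCount Q := by
  simp [noiseCount]

theorem noiseCount_cons_inr {n : ℕ} (j : Fin n) (Q : List (Letter n)) :
    noiseCount (Sum.inr j :: Q) = noiseCount Q + 1 := by
  simp [noiseCount]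

theorem noise_split {n : ℕ} (j : Fin n) (Q : List (Letter n)) (k : ℕ)
    (h : Q[k]? = some (Sum.inr j)) :
    noiseCount (Q.take k) + noiseCount (Q.drop (k + 1)) + 1 = noiseCount Q ∧
      (Q.take k).length + (Q.drop (k + 1)).length + 1 = Q.length := by
  have h1 := split_at j Q k h
  constructor
  · conv_rhs => rw [h1]
    rw [noiseCount_append, noiseCount_cons_inr]
    ring
  · conv_rhs => rw [h1]
    rw [List.length_append, List.length_cons]
    ring

theorem sum_map_eraseIdx {n : ℕ} (f : List (Letter n) → ℕ) (Qs : List (List (Letter n))) (l : ℕ)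
    (hl : l < Qs.length) :
    f (Qs.getD l []) + ((Qs.eraseIdx l).map f).sum = (Qs.map f).sum := by
  induction Qs generalizing l with
  | nil => simp at hl
  | cons Q Qs ih =>
    cases l with
    | zero => simp
    | succ l =>
      have := ih l (by simpa using hl)
      simp only [List.getD_cons_succ, List.eraseIdx_cons_succ, List.map_cons, List.sum_cons]
      omega

/-- a splitting sum of convergent terms converges. -/
theorem tendsto_splitSum {n : ℕ} (j : Fin n) (Q : List (Letter n))
    (F : ℕ → List (Letter n) → List (Letter n) → ℂ) (G : List (Letter n) → List (Letter n) → ℂ)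
    (h : ∀ k, Q[k]? = some (Sum.inr j) →
      Tendsto (fun q => F q (Q.take k) (Q.drop (k + 1))) atTop
        (𝓝 (G (Q.take k) (Q.drop (k + 1))))) :
    Tendsto (fun q => splitSum j Q (F q)) atTop (𝓝 (splitSum j Q G)) := by
  unfold splitSum
  refine tendsto_finsetSum _ fun k _ => ?_
  by_cases hk : Q[k]? = some (Sum.inr j)
  · simp only [hk, if_true]
    exact h k hk
  · simp only [hk, if_false]
    exact tendsto_const_nhds

theorem limit_of_loop {n : ℕ} (m : List (Fin n) → ℂ) (μ : List (Letter n) → ℂ)
    (hμ : IsFreeMoment m μ) (K : ℕ) (e : ℕ → List (List (Letter n)) → ℂ) (dd : ℕ → ℕ)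
    (hdd : Tendsto dd atTop atTop)
    (hperm : ∀ q (Qs Qs' : List (List (Letter n))), Qs.Perm Qs' → e q Qs = e q Qs')
    (hrot : ∀ q (α β : List (Letter n)) (Qs : List (List (Letter n))),
      e q ((α ++ β) :: Qs) = e q ((β ++ α) :: Qs))
    (hbase : ∀ q (Qs : List (List (Fin n))), (Qs.map List.length).sum ≤ K →
      e q (Qs.map (List.map Sum.inl)) = (Qs.map m).prod)
    (hloop : ∀ q (j : Fin n) (Q0 : List (Letter n)) (Qs : List (List (Letter n))),
      e q ((Sum.inr j :: Q0) :: Qs) =
        splitSum j Q0 (fun α β => e q (α :: β :: Qs)) +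
          ((dd q : ℂ)⁻¹) ^ 2 * ∑ l ∈ Finset.range Qs.length,
            splitSum j (Qs.getD l []) (fun α β => e q ((β ++ α ++ Q0) :: Qs.eraseIdx l)))
    (Qs : List (List (Letter n))) (hK : (Qs.map List.length).sum ≤ K) :
    Tendsto (fun q => e q Qs) atTop (𝓝 (Qs.map μ).prod) := by
  have hinv : Tendsto (fun q => ((dd q : ℂ)⁻¹) ^ 2) atTop (𝓝 0) := by
    have h1 : Tendsto (fun q => ((dd q : ℂ)⁻¹)) atTop (𝓝 0) :=
      (tendsto_inv_atTop_nhds_zero_nat (𝕜 := ℂ)).comp hdd
    simpa using h1.pow 2
  suffices H : ∀ N (Qs : List (List (Letter n))), (Qs.map noiseCount).sum = N →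
      (Qs.map List.length).sum ≤ K → Tendsto (fun q => e q Qs) atTop (𝓝 (Qs.map μ).prod) from
    H _ Qs rfl hK
  intro N
  induction N using Nat.strong_induction_on with
  | _ N ih =>
    intro Qs hN hK
    rcases Nat.eq_zero_or_pos N with h0 | hpos
    · -- no noise letters
      obtain ⟨ws, rfl⟩ := exists_refs_of_noise_zero Qs (hN.trans h0)
      have hlen : (ws.map List.length).sum ≤ K := by
        refine le_trans (le_of_eq ?_) hK
        rw [List.map_map]
        congr 1
        apply List.map_congr_left
        intro w _
        simp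
      have h2 : ((ws.map (List.map Sum.inl)).map μ).prod = (ws.map m).prod := by
        rw [List.map_map]
        congr 1
        apply List.map_congr_left
        intro w _
        exact hμ.base w
      rw [h2]
      refine Tendsto.congr (fun q => (hbase q ws hlen).symm) tendsto_const_nhds
    · -- a word with a noise letter
      have hex : ∃ Q ∈ Qs, noiseCount Q ≠ 0 := by
        by_contra hcon
        push Not at hcon
        have : (Qs.map noiseCount).sum = 0 := by
          rw [List.sum_eq_zero]
          intro x hx
          obtain ⟨Q, hQ, rfl⟩ := List.mem_map.mp hx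
          exact hcon Q hQ
        omega
      obtain ⟨Q, hQmem, hQ⟩ := hex
      have hex2 : ∃ x ∈ Q, x.isRight = true := by
        have : 0 < List.countP Sum.isRight Q := Nat.pos_of_ne_zero hQ
        exact List.countP_pos_iff.mp this
      obtain ⟨x, hxQ, hx⟩ := hex2
      obtain ⟨j, rfl⟩ : ∃ j, x = Sum.inr j := by
        cases x with
        | inl i => simp at hx
        | inr j => exact ⟨j, rfl⟩
      obtain ⟨α0, β0, hQeq⟩ := List.append_of_mem hxQ
      obtain ⟨Qs', hperm'⟩ : ∃ Qs', Qs.Perm (Q :: Qs') := by
        obtain ⟨s, t, hst⟩ := List.append_of_mem hQmem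
        exact ⟨s ++ t, by rw [hst]; exact List.perm_middle⟩
      set Q0 : List (Letter n) := β0 ++ α0 with hQ0
      have hE : ∀ q, e q Qs = e q ((Sum.inr j :: Q0) :: Qs') := by
        intro q
        rw [hperm q Qs _ hperm', hQeq, hrot q α0 (Sum.inr j :: β0) Qs']
        rfl
      have hμE : (Qs.map μ).prod = μ (Sum.inr j :: Q0) * (Qs'.map μ).prod := by
        rw [(hperm'.map μ).prod_eq, List.map_cons, List.prod_cons, hQeq,
          hμ.cyc α0 (Sum.inr j :: β0)]
        rfl
      have hNQ : noiseCount Q0 + 1 + (Qs'.map noiseCount).sum = N := by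
        rw [← hN, (hperm'.map noiseCount).sum_eq, List.map_cons, List.sum_cons, hQeq, hQ0,
          noiseCount_append, noiseCount_append, noiseCount_cons_inr]
        ring
      have hKQ : Q0.length + 1 + (Qs'.map List.length).sum ≤ K := by
        refine le_trans (le_of_eq ?_) hK
        rw [(hperm'.map List.length).sum_eq, List.map_cons, List.sum_cons, hQeq, hQ0,
          List.length_append, List.length_append, List.length_cons]
        ring
      have hlim1 : Tendsto (fun q => splitSum j Q0 (fun α β => e q (α :: β :: Qs'))) atTop
          (𝓝 (splitSum j Q0 fun α β => μ α * μ β * (Qs'.map μ).prod)) := by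
        refine tendsto_splitSum j Q0 (fun q α β => e q (α :: β :: Qs')) _ fun k hk => ?_
        have hs := noise_split j Q0 k hk
        have := ih (noiseCount (Q0.take k) + (noiseCount (Q0.drop (k + 1)) +
          (Qs'.map noiseCount).sum)) (by omega)
          (Q0.take k :: Q0.drop (k + 1) :: Qs') (by simp)
          (by simp only [List.map_cons, List.sum_cons]; omega)
        simpa [mul_assoc] using this
      have hsd : (splitSum j Q0 fun α β => μ α * μ β * (Qs'.map μ).prod) =
          μ (Sum.inr j :: Q0) * (Qs'.map μ).prod := by
        rw [hμ.sd j Q0]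
        unfold splitSum
        rw [Finset.sum_mul]
        refine Finset.sum_congr rfl fun k _ => ?_
        split_ifs <;> simp
      have hlim2 : ∃ c : ℂ, Tendsto (fun q => ∑ l ∈ Finset.range Qs'.length,
            splitSum j (Qs'.getD l []) (fun α β => e q ((β ++ α ++ Q0) :: Qs'.eraseIdx l)))
            atTop (𝓝 c) := by
        refine ⟨∑ l ∈ Finset.range Qs'.length, splitSum j (Qs'.getD l []) (fun α β =>
          (((β ++ α ++ Q0) :: Qs'.eraseIdx l).map μ).prod), ?_⟩
        refine tendsto_finsetSum _ fun l hl => ?_
        have hl' : l < Qs'.length := Finset.mem_range.mp hl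
        refine tendsto_splitSum j (Qs'.getD l [])
          (fun q α β => e q ((β ++ α ++ Q0) :: Qs'.eraseIdx l)) _ fun k hk => ?_
        have hs := noise_split j (Qs'.getD l []) k hk
        have he1 := sum_map_eraseIdx noiseCount Qs' l hl'
        have he2 := sum_map_eraseIdx List.length Qs' l hl'
        refine ih _ ?_ _ rfl ?_
        · simp only [List.map_cons, List.sum_cons, noiseCount_append]
          omega
        · simp only [List.map_cons, List.sum_cons, List.length_append]
          omega
      obtain ⟨c, hc⟩ := hlim2
      have hfin := hlim1.add (hinv.mul hc)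
      rw [hsd, zero_mul, add_zero, ← hμE] at hfin
      refine hfin.congr fun q => ?_
      rw [hE q, hloop q j Q0 Qs']

end Crest.Agent.R89.F
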