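import Crest.Agent.R89.FPoly

/-!
# Row 89, piece F_LOOP: the loop (Schwinger–Dyson) equation of the Gaussian matrices

`EW Y Qs` = expectation of the product of the normalised traces of the words in the list `Qs`.

* `EW_eq_integral_eval`: `EW Y Qs = ∫ eval a ((Qs.map (trp Y)).prod)` (by `eval_trp`).
* `loop`: write `trp (inr j :: Q0) = ∑_p X_(j,p) * c_p` with `c_p = C d⁻¹ * tr(E_p Q0)` (`trp_cons_inr`),
  apply `gauss_ibp` (v = 1/d) to every p, Leibniz (`Derivation.leibniz`, for the product over the list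
  `Qs`: induction, `pderiv_prod_list`), then
  - `∑_p tr(E_p α E_p β) = Tr α Tr β` over the polynomial ring, i.e. `Ebas_two` transported
    (state it first over any commutative ring R that is a ℂ-algebra from `Ebas_flip`: `two_poly`):
    `d⁻¹ · d⁻¹ Tr α Tr β = trp α * trp β`;
  - `∑_p Tr(E_p Q0) Tr(E_p (β α)) = Tr(Q0 β α)` (`one_poly`): `d⁻¹ · d⁻¹ · d⁻¹ Tr = d⁻² trp (β ++ α ++ Q0)`
    (use cyclicity of the trace, `wpoly` of an append is the product).
-/

set_option autoImplicit false

namespace Crest.Agent.R89.F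

open scoped ENNReal NNReal
open MeasureTheory ProbabilityTheory Crest.OpAlg

/-- expectation of a product of normalised traces. -/
noncomputable def EW {n d : ℕ} (Y : Fin n → Matrix (Fin d) (Fin d) ℂ)
    (Qs : List (List (Letter n))) : ℂ :=
  ∫ a, (Qs.map fun Q => trw Y Q a).prod ∂(gm n d)

theorem EW_eq_integral_eval {n d : ℕ} (Y : Fin n → Matrix (Fin d) (Fin d) ℂ)
    (Qs : List (List (Letter n))) :
    EW Y Qs = ∫ a : Ix n d → ℝ, MvPolynomial.eval (fun i => (a i : ℂ)) (Qs.map (trp Y)).prod
      ∂(gm n d) := by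
  unfold EW
  congr 1
  funext a
  rw [map_list_prod, List.map_map]
  congr 1
  apply List.map_congr_left
  intro Q _
  exact (eval_trp Y Q a).symm

theorem flip_poly {n d : ℕ} (x y z w : Fin d) :
    ∑ p, (MvPolynomial.C (Ebas p x y) * MvPolynomial.C (Ebas p z w) : MvPolynomial (Ix n d) ℂ) =
      if x = w ∧ y = z then 1 else 0 := by
  have h := congrArg (MvPolynomial.C (σ := Ix n d)) (Ebas_flip x y z w)
  rw [map_sum] at h
  simp only [map_mul] at h
  rw [h]
  split_ifs <;> simp

theorem two_poly {n d : ℕ} (A B : Matrix (Fin d) (Fin d) (MvPolynomial (Ix n d) ℂ)) :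
    ∑ p, ((Ebas p).map MvPolynomial.C * A * (Ebas p).map MvPolynomial.C * B).trace =
      A.trace * B.trace := by
  have h1 : ∀ p : Fin d × Fin d,
      ((Ebas p).map MvPolynomial.C * A * (Ebas p).map MvPolynomial.C * B).trace =
      ∑ x, ∑ w, ∑ z, ∑ y, (MvPolynomial.C (Ebas p x y) * MvPolynomial.C (Ebas p z w)) *
        (A y z * B w x) := by
    intro p
    simp only [Matrix.trace, Matrix.diag, Matrix.mul_apply, Matrix.map_apply, Finset.sum_mul]
    refine Finset.sum_congr rfl fun x _ => Finset.sum_congr rfl fun w _ =>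
      Finset.sum_congr rfl fun z _ => Finset.sum_congr rfl fun y _ => ?_
    rw [mul_right_comm (MvPolynomial.C (Ebas p x y)) (A y z) _, mul_assoc]
  simp only [h1]
  rw [Finset.sum_comm]
  have h2 : ∀ x : Fin d, (∑ p : Fin d × Fin d, ∑ w, ∑ z, ∑ y,
      ((MvPolynomial.C (Ebas p x y) * MvPolynomial.C (Ebas p z w)) *
        (A y z * B w x) : MvPolynomial (Ix n d) ℂ)) = ∑ y, A y y * B x x := by
    intro x
    rw [Finset.sum_comm]
    have h3 : ∀ w : Fin d, (∑ p : Fin d × Fin d, ∑ z, ∑ y,
        ((MvPolynomial.C (Ebas p x y) * MvPolynomial.C (Ebas p z w)) *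
          (A y z * B w x) : MvPolynomial (Ix n d) ℂ)) =
        if x = w then ∑ y, A y y * B x x else 0 := by
      intro w
      rw [Finset.sum_comm]
      have h4 : ∀ z : Fin d, (∑ p : Fin d × Fin d, ∑ y,
          ((MvPolynomial.C (Ebas p x y) * MvPolynomial.C (Ebas p z w)) *
            (A y z * B w x) : MvPolynomial (Ix n d) ℂ)) =
          if x = w then A z z * B x x else 0 := by
        intro z
        rw [Finset.sum_comm]
        simp only [← Finset.sum_mul, flip_poly]
        by_cases hxw : x = w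
        · subst hxw
          simp
        · simp [hxw]
      simp only [h4]
      by_cases hxw : x = w
      · simp [hxw]
      · simp [hxw]
    simp only [h3]
    simp
  simp only [h2]
  simp only [Matrix.trace, Matrix.diag, Finset.sum_mul, Finset.mul_sum]

theorem one_poly {n d : ℕ} (A B : Matrix (Fin d) (Fin d) (MvPolynomial (Ix n d) ℂ)) :
    ∑ p, ((Ebas p).map MvPolynomial.C * A).trace * ((Ebas p).map MvPolynomial.C * B).trace =
      (A * B).trace := by
  have h1 : ∀ p : Fin d × Fin d,
      ((Ebas p).map MvPolynomial.C * A).trace * ((Ebas p).map MvPolynomial.C * B).trace =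
      ∑ z, ∑ w, ∑ x, ∑ y, (MvPolynomial.C (Ebas p x y) * MvPolynomial.C (Ebas p z w)) *
        (A y x * B w z) := by
    intro p
    simp only [Matrix.trace, Matrix.diag, Matrix.mul_apply, Matrix.map_apply, Finset.sum_mul,
      Finset.mul_sum]
    refine Finset.sum_congr rfl fun x _ => Finset.sum_congr rfl fun w _ =>
      Finset.sum_congr rfl fun z _ => Finset.sum_congr rfl fun y _ => ?_
    exact mul_mul_mul_comm _ _ _ _
  simp only [h1]
  rw [Finset.sum_comm]
  simp only [Matrix.trace, Matrix.diag, Matrix.mul_apply]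
  refine Finset.sum_congr rfl fun z _ => ?_
  rw [Finset.sum_comm]
  refine Finset.sum_congr rfl fun w _ => ?_
  rw [Finset.sum_comm]
  have h3 : ∀ x : Fin d, (∑ p : Fin d × Fin d, ∑ y,
      ((MvPolynomial.C (Ebas p x y) * MvPolynomial.C (Ebas p z w)) *
        (A y x * B w z) : MvPolynomial (Ix n d) ℂ)) =
      if x = w then A z w * B w z else 0 := by
    intro x
    rw [Finset.sum_comm]
    simp only [← Finset.sum_mul, flip_poly]
    by_cases hxw : x = w
    · subst hxw
      simp
    · simp [hxw]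
  simp only [h3]
  simp

theorem pderiv_prod_list {n d : ℕ} (Y : Fin n → Matrix (Fin d) (Fin d) ℂ) (i : Ix n d)
    (Qs : List (List (Letter n))) :
    MvPolynomial.pderiv i (Qs.map (trp Y)).prod =
      ∑ l ∈ Finset.range Qs.length, MvPolynomial.pderiv i (trp Y (Qs.getD l [])) *
        ((Qs.eraseIdx l).map (trp Y)).prod := by
  induction Qs with
  | nil => simp
  | cons Q Qs ih =>
    rw [List.map_cons, List.prod_cons, Derivation.leibniz, List.length_cons,
      Finset.sum_range_succ', ih]
    simp only [List.getD_cons_succ, List.eraseIdx_cons_succ, List.map_cons, List.prod_cons,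
      List.getD_cons_zero, List.eraseIdx_cons_zero, smul_eq_mul]
    rw [Finset.mul_sum]
    refine congrArg₂ (· + ·) (Finset.sum_congr rfl fun l _ => ?_) ?_
    · exact mul_left_comm _ _ _
    · exact mul_comm _ _

/-- integration against the Gaussian measure as a linear map on polynomials. -/
noncomputable def gI (n d : ℕ) : MvPolynomial (Ix n d) ℂ →ₗ[ℂ] ℂ where
  toFun F := ∫ a : Ix n d → ℝ, MvPolynomial.eval (fun i => (a i : ℂ)) F ∂(gm n d)
  map_add' F G := by
    simp only [map_add]
    exact integral_add (gauss_integrable _ F) (gauss_integrable _ G)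
  map_smul' c F := by
    simp only [MvPolynomial.smul_eval, RingHom.id_apply, smul_eq_mul]
    exact integral_const_mul c _

theorem EW_eq_gI {n d : ℕ} (Y : Fin n → Matrix (Fin d) (Fin d) ℂ)
    (Qs : List (List (Letter n))) : EW Y Qs = gI n d (Qs.map (trp Y)).prod :=
  EW_eq_integral_eval Y Qs

theorem gI_ibp {n d : ℕ} (p : Ix n d) (F : MvPolynomial (Ix n d) ℂ) :
    gI n d (MvPolynomial.X p * F) = (d : ℂ)⁻¹ * gI n d (MvPolynomial.pderiv p F) := by
  have h := gauss_ibp ((d : ℝ≥0)⁻¹) p F
  have hc : (((d : ℝ≥0)⁻¹ : ℝ≥0) : ℂ) = (d : ℂ)⁻¹ := by push_cast; rfl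
  rw [hc] at h
  exact h

theorem gI_C_mul {n d : ℕ} (c : ℂ) (F : MvPolynomial (Ix n d) ℂ) :
    gI n d (MvPolynomial.C c * F) = c * gI n d F := by
  rw [← MvPolynomial.smul_eq_C_mul, map_smul, smul_eq_mul]

theorem map_splitSum {R S : Type*} [AddCommMonoid R] [AddCommMonoid S] {n : ℕ} (f : R →+ S)
    (j : Fin n) (Q : List (Letter n)) (F : List (Letter n) → List (Letter n) → R) :
    f (splitSum j Q F) = splitSum j Q fun α β => f (F α β) := by
  unfold splitSum
  rw [map_sum]
  refine Finset.sum_congr rfl fun k _ => ?_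
  split_ifs
  · rfl
  · exact map_zero f

theorem sum_splitSum {R : Type*} [AddCommMonoid R] {n : ℕ} {ι : Type*} (s : Finset ι)
    (j : Fin n) (Q : List (Letter n)) (F : ι → List (Letter n) → List (Letter n) → R) :
    ∑ p ∈ s, splitSum j Q (F p) = splitSum j Q fun α β => ∑ p ∈ s, F p α β := by
  unfold splitSum
  rw [Finset.sum_comm]
  refine Finset.sum_congr rfl fun k _ => ?_
  split_ifs
  · rfl
  · simp

theorem mul_splitSum {R : Type*} [NonUnitalNonAssocSemiring R] {n : ℕ} (c : R)
    (j : Fin n) (Q : List (Letter n)) (F : List (Letter n) → List (Letter n) → R) :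
    c * splitSum j Q F = splitSum j Q fun α β => c * F α β :=
  map_splitSum (AddMonoidHom.mulLeft c) j Q F

theorem splitSum_mul {R : Type*} [NonUnitalNonAssocSemiring R] {n : ℕ} (c : R)
    (j : Fin n) (Q : List (Letter n)) (F : List (Letter n) → List (Letter n) → R) :
    splitSum j Q F * c = splitSum j Q fun α β => F α β * c :=
  map_splitSum (AddMonoidHom.mulRight c) j Q F

theorem wpoly_append {n d : ℕ} (Y : Fin n → Matrix (Fin d) (Fin d) ℂ)
    (P Q : List (Letter n)) : wpoly Y (P ++ Q) = wpoly Y P * wpoly Y Q := by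
  unfold wpoly wordVal
  rw [List.map_append, List.prod_append]

theorem loop_poly {n d : ℕ} (Y : Fin n → Matrix (Fin d) (Fin d) ℂ) (j : Fin n)
    (Q0 : List (Letter n)) (Qs : List (List (Letter n))) :
    MvPolynomial.C ((d : ℂ)⁻¹) * ∑ p, MvPolynomial.pderiv (j, p)
      ((MvPolynomial.C ((d : ℂ)⁻¹) * ((Ebas p).map MvPolynomial.C * wpoly Y Q0).trace) *
        (Qs.map (trp Y)).prod) =
      splitSum j Q0 (fun α β => trp Y α * trp Y β * (Qs.map (trp Y)).prod) +
        MvPolynomial.C (((d : ℂ)⁻¹) ^ 2) * ∑ l ∈ Finset.range Qs.length,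
          splitSum j (Qs.getD l []) (fun α β => trp Y (β ++ α ++ Q0) *
            ((Qs.eraseIdx l).map (trp Y)).prod) := by
  have hsplit : ∀ p : Fin d × Fin d, MvPolynomial.pderiv (j, p)
      ((MvPolynomial.C ((d : ℂ)⁻¹) * ((Ebas p).map MvPolynomial.C * wpoly Y Q0).trace) *
        (Qs.map (trp Y)).prod) =
      MvPolynomial.C ((d : ℂ)⁻¹) * (splitSum j Q0 fun α β =>
        ((Ebas p).map MvPolynomial.C * wpoly Y α *
        (Ebas p).map MvPolynomial.C * wpoly Y β).trace * (Qs.map (trp Y)).prod) +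
      ∑ l ∈ Finset.range Qs.length, splitSum j (Qs.getD l []) (fun α β =>
        MvPolynomial.C ((d : ℂ)⁻¹) * MvPolynomial.C ((d : ℂ)⁻¹) *
          ((Qs.eraseIdx l).map (trp Y)).prod *
          (((Ebas p).map MvPolynomial.C * wpoly Y Q0).trace *
          ((Ebas p).map MvPolynomial.C * (wpoly Y β * wpoly Y α)).trace)) := by
    intro p
    rw [Derivation.leibniz, pderiv_prod_list, MvPolynomial.pderiv_C_mul, pderiv_trace_Ebas_mul,
      smul_eq_mul, smul_eq_mul, add_comm]
    refine congrArg₂ (· + ·) ?_ ?_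
    · rw [mul_left_comm, mul_comm (Qs.map (trp Y)).prod, splitSum_mul]
    · rw [Finset.mul_sum]
      refine Finset.sum_congr rfl fun l _ => ?_
      rw [pderiv_trp, splitSum_mul, mul_splitSum]
      unfold splitSum
      refine Finset.sum_congr rfl fun k _ => ?_
      split_ifs
      · ring
      · rfl
  simp only [hsplit]
  rw [Finset.sum_add_distrib, mul_add]
  congr 1
  · rw [← Finset.mul_sum, sum_splitSum, mul_splitSum, mul_splitSum]
    unfold splitSum
    refine Finset.sum_congr rfl fun k _ => ?_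
    split_ifs
    · beta_reduce
      rw [← Finset.sum_mul, two_poly]
      unfold trp
      ring
    · rfl
  · rw [Finset.sum_comm, Finset.mul_sum, Finset.mul_sum]
    refine Finset.sum_congr rfl fun l _ => ?_
    rw [sum_splitSum, mul_splitSum, mul_splitSum]
    unfold splitSum
    refine Finset.sum_congr rfl fun k _ => ?_
    split_ifs
    · beta_reduce
      rw [← Finset.mul_sum, one_poly, Matrix.trace_mul_comm]
      unfold trp
      rw [wpoly_append, wpoly_append, map_pow]
      ring
    · rfl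

theorem loop {n d : ℕ} (hd : 0 < d) (Y : Fin n → Matrix (Fin d) (Fin d) ℂ) (j : Fin n)
    (Q0 : List (Letter n)) (Qs : List (List (Letter n))) :
    EW Y ((Sum.inr j :: Q0) :: Qs) =
      splitSum j Q0 (fun α β => EW Y (α :: β :: Qs)) +
        ((d : ℂ)⁻¹) ^ 2 * ∑ l ∈ Finset.range Qs.length,
          splitSum j (Qs.getD l []) (fun α β => EW Y ((β ++ α ++ Q0) :: Qs.eraseIdx l)) := by
  have hE : ∀ Qs', EW Y Qs' = gI n d (Qs'.map (trp Y)).prod := EW_eq_gI Y
  simp only [hE, List.map_cons, List.prod_cons]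
  rw [trp_cons_inr, Finset.sum_mul, map_sum]
  have h1 : ∀ p : Fin d × Fin d, gI n d (MvPolynomial.X (j, p) *
      (MvPolynomial.C ((d : ℂ)⁻¹) * ((Ebas p).map MvPolynomial.C * wpoly Y Q0).trace) *
      (Qs.map (trp Y)).prod) = (d : ℂ)⁻¹ * gI n d (MvPolynomial.pderiv (j, p)
      ((MvPolynomial.C ((d : ℂ)⁻¹) * ((Ebas p).map MvPolynomial.C * wpoly Y Q0).trace) *
        (Qs.map (trp Y)).prod)) := by
    intro p
    rw [mul_assoc, gI_ibp]
  simp only [h1]
  rw [← Finset.mul_sum, ← map_sum, ← gI_C_mul, loop_poly, map_add, gI_C_mul, map_sum]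
  have h2 : ∀ (Q : List (Letter n)) (F : List (Letter n) → List (Letter n) →
      MvPolynomial (Ix n d) ℂ), gI n d (splitSum j Q F) =
      splitSum j Q fun α β => gI n d (F α β) :=
    fun Q F => map_splitSum (gI n d).toAddMonoidHom j Q F
  simp only [h2, mul_assoc]

end Crest.Agent.R89.F
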