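import Crest.Agent.R89.FDefs

/-!
# Row 89, piece F_MAT: the real orthonormal basis of Hermitian matrices

`Ebas p` = the Hermitian matrix with p-th coordinate 1 and the other coordinates 0.

* `hermitian_sum`: `hermitianOfCoords a = ∑ p, a p • Ebas p` (entrywise case split on i = j, i < j, j < i).
* `Ebas_flip`: `∑_p (E_p)_{xy} (E_p)_{zw} = 1` if x = w and y = z, else 0.  (For x = y only p = (x,x)
  has (E_p)_{xx} ≠ 0.  For x < y only p = (x,y) (value 1/√2) and p = (y,x) (value i/√2) have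
  (E_p)_{xy} ≠ 0; at (z,w) = (x,y): 1/2 + i²/2 = 0, at (z,w) = (y,x): 1/2 - i²/2 = 1.)
* `Ebas_two`, `Ebas_one`: consequences for traces.
* `exists_coords`: every Hermitian matrix is `hermitianOfCoords a` for some a
  (a(i,i) = re M_ii, for i<j: a(i,j) = √2 re M_ij, a(j,i) = √2 im M_ij).
* `Gmat_apply`, `matrixTuple_affine`: linearity.
-/

set_option autoImplicit false

namespace Crest.Agent.R89.F

open scoped ENNReal NNReal
open MeasureTheory ProbabilityTheory Crest.OpAlg

/-- coordinate matrices. -/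
noncomputable def Ebas {d : ℕ} (p : Fin d × Fin d) : Matrix (Fin d) (Fin d) ℂ :=
  hermitianOfCoords (EuclideanSpace.single p (1 : ℝ))

theorem hoc_add {d : ℕ} (a b : EuclideanSpace ℝ (Fin d × Fin d)) :
    hermitianOfCoords (a + b) = hermitianOfCoords a + hermitianOfCoords b := by
  ext i j
  simp only [hermitianOfCoords, Matrix.add_apply, PiLp.add_apply]
  split_ifs <;> push_cast <;> ring

theorem hoc_smul {d : ℕ} (c : ℝ) (a : EuclideanSpace ℝ (Fin d × Fin d)) :
    hermitianOfCoords (c • a) = (c : ℂ) • hermitianOfCoords a := by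
  ext i j
  simp only [hermitianOfCoords, Matrix.smul_apply, PiLp.smul_apply, smul_eq_mul]
  split_ifs <;> push_cast <;> ring

theorem hoc_zero {d : ℕ} : hermitianOfCoords (0 : EuclideanSpace ℝ (Fin d × Fin d)) = 0 := by
  ext i j
  simp [hermitianOfCoords]

theorem hoc_sum {d : ℕ} {ι : Type*} (s : Finset ι) (f : ι → EuclideanSpace ℝ (Fin d × Fin d)) :
    hermitianOfCoords (∑ i ∈ s, f i) = ∑ i ∈ s, hermitianOfCoords (f i) := by
  classical
  induction s using Finset.induction_on with
  | empty => simp [hoc_zero]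
  | insert i s hi ih => rw [Finset.sum_insert hi, Finset.sum_insert hi, hoc_add, ih]

theorem hermitian_sum {d : ℕ} (a : EuclideanSpace ℝ (Fin d × Fin d)) :
    hermitianOfCoords a = ∑ p, (a p : ℂ) • Ebas p := by
  have h : a = ∑ p, (a p) • EuclideanSpace.single p (1 : ℝ) := by
    ext q
    simp [Finset.sum_apply, Pi.single_apply]
  conv_lhs => rw [h]
  rw [hoc_sum]
  refine Finset.sum_congr rfl fun p _ => ?_
  rw [hoc_smul]
  rfl

theorem hermitian_isHermitian {d : ℕ} (a : EuclideanSpace ℝ (Fin d × Fin d)) :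
    (hermitianOfCoords a).IsHermitian := by
  ext i j
  simp only [Matrix.conjTranspose_apply, hermitianOfCoords]
  rcases lt_trichotomy i j with h | h | h
  · have h1 : ¬ (j = i) := fun h' => absurd h' h.ne'
    have h2 : ¬ (j < i) := not_lt.2 h.le
    have h3 : ¬ (i = j) := h.ne
    simp [h1, h2, h3, h]
  · subst h
    simp
  · have h1 : ¬ (j = i) := h.ne
    have h2 : ¬ (i < j) := not_lt.2 h.le
    have h3 : ¬ (i = j) := h.ne'
    simp [h1, h2, h3, h]
    ring

theorem sqrt_two_sq : ((Real.sqrt 2 : ℝ) : ℂ) * ((Real.sqrt 2 : ℝ) : ℂ) = 2 := by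
  rw [← Complex.ofReal_mul, Real.mul_self_sqrt (by norm_num)]
  norm_num

theorem Ebas_apply {d : ℕ} (p : Fin d × Fin d) (x y : Fin d) :
    Ebas p x y = if x = y then (if p = (x, x) then 1 else 0)
      else if x < y then ((if p = (x, y) then 1 else 0) + (if p = (y, x) then 1 else 0) * Complex.I) /
        (Real.sqrt 2 : ℂ)
      else ((if p = (y, x) then 1 else 0) - (if p = (x, y) then 1 else 0) * Complex.I) /
        (Real.sqrt 2 : ℂ) := by
  simp only [Ebas, hermitianOfCoords, PiLp.single_apply, eq_comm (b := p)]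
  split_ifs <;> simp

theorem Ebas_sum_mul {d : ℕ} (x y : Fin d) (F : Fin d × Fin d → ℂ) :
    ∑ p, Ebas p x y * F p = if x = y then F (x, x)
      else if x < y then (F (x, y) + F (y, x) * Complex.I) / (Real.sqrt 2 : ℂ)
      else (F (y, x) - F (x, y) * Complex.I) / (Real.sqrt 2 : ℂ) := by
  have key : ∀ (f : Fin d × Fin d → ℂ) (q : Fin d × Fin d),
      ∑ p, (if p = q then (1 : ℂ) else 0) * f p = f q := by
    intro f q
    simp
  simp only [Ebas_apply]
  split_ifs with h1 h2
  · exact key _ _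
  · have e : ∀ p : Fin d × Fin d, ((if p = (x, y) then (1 : ℂ) else 0) +
        (if p = (y, x) then 1 else 0) * Complex.I) / ((Real.sqrt 2 : ℝ) : ℂ) * F p =
        (if p = (x, y) then (1 : ℂ) else 0) * (((Real.sqrt 2 : ℝ) : ℂ)⁻¹ * F p) +
        (if p = (y, x) then (1 : ℂ) else 0) * (Complex.I * ((Real.sqrt 2 : ℝ) : ℂ)⁻¹ * F p) := by
      intro p
      ring
    rw [Finset.sum_congr rfl (fun p _ => e p), Finset.sum_add_distrib, key, key]
    ring
  · have e : ∀ p : Fin d × Fin d, ((if p = (y, x) then (1 : ℂ) else 0) -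
        (if p = (x, y) then 1 else 0) * Complex.I) / ((Real.sqrt 2 : ℝ) : ℂ) * F p =
        (if p = (y, x) then (1 : ℂ) else 0) * (((Real.sqrt 2 : ℝ) : ℂ)⁻¹ * F p) +
        (if p = (x, y) then (1 : ℂ) else 0) * (-Complex.I * ((Real.sqrt 2 : ℝ) : ℂ)⁻¹ * F p) := by
      intro p
      ring
    rw [Finset.sum_congr rfl (fun p _ => e p), Finset.sum_add_distrib, key, key]
    ring

theorem Ebas_flip {d : ℕ} (x y z w : Fin d) :
    ∑ p, Ebas p x y * Ebas p z w = if x = w ∧ y = z then 1 else 0 := by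
  have hs := sqrt_two_sq
  have hne : ((Real.sqrt 2 : ℝ) : ℂ) ≠ 0 := by
    intro h
    rw [h] at hs
    norm_num at hs
  have hI := Complex.I_mul_I
  rw [Ebas_sum_mul]
  simp only [Ebas_apply, Prod.mk.injEq]
  have f1 : ∀ a b c : ℂ, (a / (Real.sqrt 2 : ℝ) + b / (Real.sqrt 2 : ℝ) * c) / (Real.sqrt 2 : ℝ) =
      (a + b * c) / 2 := by
    intro a b c
    rw [← hs]
    field_simp
  have f2 : ∀ a b c : ℂ, (a / (Real.sqrt 2 : ℝ) - b / (Real.sqrt 2 : ℝ) * c) / (Real.sqrt 2 : ℝ) =
      (a - b * c) / 2 := by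
    intro a b c
    rw [← hs]
    field_simp
  split_ifs <;> first
    | (exfalso; omega)
    | (simp; done)
    | (rw [f1]; ring_nf; simp; done)
    | (rw [f2]; ring_nf; simp; done)
    | (rw [f1]; ring_nf; rw [Complex.I_sq]; norm_num)
    | (rw [f2]; ring_nf; rw [Complex.I_sq]; norm_num)

theorem Ebas_two {d : ℕ} (A B : Matrix (Fin d) (Fin d) ℂ) :
    ∑ p, (Ebas p * A * Ebas p * B).trace = A.trace * B.trace := by
  have h : ∀ p : Fin d × Fin d, (Ebas p * A * Ebas p * B).trace =
      ∑ x, ∑ w, ∑ z, ∑ y, Ebas p x y * Ebas p z w * (A y z * B w x) := by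
    intro p
    simp only [Matrix.trace, Matrix.diag_apply, Matrix.mul_apply, Finset.sum_mul]
    refine Finset.sum_congr rfl fun x _ => Finset.sum_congr rfl fun w _ =>
      Finset.sum_congr rfl fun z _ => Finset.sum_congr rfl fun y _ => ?_
    ring
  simp only [h]
  rw [Finset.sum_comm]
  have h2 : ∀ x : Fin d, ∑ p : Fin d × Fin d, ∑ w, ∑ z, ∑ y,
      Ebas p x y * Ebas p z w * (A y z * B w x) = A.trace * B x x := by
    intro x
    rw [Finset.sum_comm]
    have h3 : ∀ w : Fin d, ∑ p : Fin d × Fin d, ∑ z, ∑ y,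
        Ebas p x y * Ebas p z w * (A y z * B w x) =
        if x = w then A.trace * B w x else 0 := by
      intro w
      rw [Finset.sum_comm]
      have h4 : ∀ z : Fin d, ∑ p : Fin d × Fin d, ∑ y,
          Ebas p x y * Ebas p z w * (A y z * B w x) = if x = w then A z z * B w x else 0 := by
        intro z
        rw [Finset.sum_comm]
        have h5 : ∀ y : Fin d, ∑ p : Fin d × Fin d,
            Ebas p x y * Ebas p z w * (A y z * B w x) =
            (if x = w ∧ y = z then 1 else 0) * (A y z * B w x) := by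
          intro y
          rw [← Finset.sum_mul, Ebas_flip]
        simp only [h5]
        by_cases hxw : x = w
        · simp [hxw]
        · simp [hxw]
      simp only [h4]
      by_cases hxw : x = w
      · simp only [hxw, if_true]
        rw [← Finset.sum_mul]
        rfl
      · simp [hxw]
    simp only [h3]
    simp
  simp only [h2]
  rw [← Finset.mul_sum]
  rfl

theorem Ebas_one {d : ℕ} (A B : Matrix (Fin d) (Fin d) ℂ) :
    ∑ p, (Ebas p * A).trace * (Ebas p * B).trace = (A * B).trace := by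
  have h : ∀ p : Fin d × Fin d, (Ebas p * A).trace * (Ebas p * B).trace =
      ∑ x, ∑ y, ∑ z, ∑ w, Ebas p x y * Ebas p z w * (B y x * A w z) := by
    intro p
    simp only [Matrix.trace, Matrix.diag_apply, Matrix.mul_apply, Finset.sum_mul, Finset.mul_sum]
    refine Finset.sum_congr rfl fun x _ => Finset.sum_congr rfl fun y _ =>
      Finset.sum_congr rfl fun z _ => Finset.sum_congr rfl fun w _ => ?_
    ring
  simp only [h]
  rw [Finset.sum_comm]
  have h2 : ∀ x : Fin d, ∑ p : Fin d × Fin d, ∑ y, ∑ z, ∑ w,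
      Ebas p x y * Ebas p z w * (B y x * A w z) = ∑ y, B y x * A x y := by
    intro x
    rw [Finset.sum_comm]
    refine Finset.sum_congr rfl fun y _ => ?_
    rw [Finset.sum_comm]
    have h4 : ∀ z : Fin d, ∑ p : Fin d × Fin d, ∑ w,
        Ebas p x y * Ebas p z w * (B y x * A w z) = if y = z then B y x * A x z else 0 := by
      intro z
      rw [Finset.sum_comm]
      have h5 : ∀ w : Fin d, ∑ p : Fin d × Fin d,
          Ebas p x y * Ebas p z w * (B y x * A w z) =
          (if x = w ∧ y = z then 1 else 0) * (B y x * A w z) := by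
        intro w
        rw [← Finset.sum_mul, Ebas_flip]
      simp only [h5]
      by_cases hyz : y = z
      · simp [hyz]
      · simp [hyz]
    simp only [h4]
    simp
  simp only [h2]
  rw [Matrix.trace_mul_comm, Finset.sum_comm]
  rfl

theorem exists_hoc {d : ℕ} (M : Matrix (Fin d) (Fin d) ℂ) (hM : M.IsHermitian) :
    ∃ b : Fin d × Fin d → ℝ, hermitianOfCoords (WithLp.toLp 2 b) = M := by
  have hs := sqrt_two_sq
  have hne : ((Real.sqrt 2 : ℝ) : ℂ) ≠ 0 := by
    intro h
    rw [h] at hs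
    norm_num at hs
  refine ⟨fun p => if p.1 = p.2 then (M p.1 p.1).re
    else if p.1 < p.2 then Real.sqrt 2 * (M p.1 p.2).re else Real.sqrt 2 * (M p.2 p.1).im, ?_⟩
  ext i j
  simp only [hermitianOfCoords]
  have hji : M j i = (starRingEnd ℂ) (M i j) := by
    have := congrFun (congrFun hM j) i
    simpa [Matrix.conjTranspose_apply] using this.symm
  rcases lt_trichotomy i j with h | h | h
  · have h1 : ¬ (i = j) := h.ne
    have h2 : ¬ (j = i) := h.ne'
    have h3 : ¬ (j < i) := not_lt.2 h.le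
    simp only [h1, h2, h3, h, if_true, if_false]
    push_cast
    rw [show ((Real.sqrt 2 : ℝ) : ℂ) * ((M i j).re : ℂ) + ((Real.sqrt 2 : ℝ) : ℂ) * ((M i j).im : ℂ) *
      Complex.I = ((Real.sqrt 2 : ℝ) : ℂ) * (((M i j).re : ℂ) + ((M i j).im : ℂ) * Complex.I) by ring,
      mul_div_cancel_left₀ _ hne, Complex.re_add_im]
  · subst h
    simp only [if_true]
    have hii : M i i = (starRingEnd ℂ) (M i i) := hji
    exact (Complex.conj_eq_iff_re.1 hii.symm)
  · have h1 : ¬ (i = j) := h.ne'
    have h2 : ¬ (j = i) := h.ne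
    have h3 : ¬ (i < j) := not_lt.2 h.le
    simp only [h1, h2, h3, h, if_true, if_false]
    push_cast
    rw [show ((Real.sqrt 2 : ℝ) : ℂ) * ((M j i).re : ℂ) - ((Real.sqrt 2 : ℝ) : ℂ) * ((M j i).im : ℂ) *
      Complex.I = ((Real.sqrt 2 : ℝ) : ℂ) * (((M j i).re : ℂ) - ((M j i).im : ℂ) * Complex.I) by ring,
      mul_div_cancel_left₀ _ hne, hji]
    simp only [Complex.conj_re, Complex.conj_im]
    push_cast
    rw [neg_mul, sub_neg_eq_add, Complex.re_add_im]

theorem exists_coords {n d : ℕ} (Y : Fin n → Matrix (Fin d) (Fin d) ℂ)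
    (hY : ∀ j, (Y j).IsHermitian) : ∃ b : Ix n d → ℝ, ∀ j, Gmat b j = Y j := by
  choose b hb using fun j => exists_hoc (Y j) (hY j)
  exact ⟨fun i => b i.1 i.2, fun j => hb j⟩

theorem Gmat_sum {n d : ℕ} (a : Ix n d → ℝ) (j : Fin n) :
    Gmat a j = ∑ p, (a (j, p) : ℂ) • Ebas p := by
  unfold Gmat matrixTuple
  rw [hermitian_sum]

theorem Gmat_affine {n d : ℕ} (a b : Ix n d → ℝ) (σ : Fin n → ℝ) (j : Fin n) :
    Gmat (fun i => b i + σ i.1 * a i) j = Gmat b j + (σ j : ℂ) • Gmat a j := by
  simp only [Gmat_sum, Finset.smul_sum, ← Finset.sum_add_distrib]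
  refine Finset.sum_congr rfl fun p _ => ?_
  push_cast
  rw [add_smul, mul_smul]

theorem Gmat_isHermitian {n d : ℕ} (a : Ix n d → ℝ) (j : Fin n) : (Gmat a j).IsHermitian :=
  hermitian_isHermitian _

end Crest.Agent.R89.F
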