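import Crest.Agent.R89.FMat

/-!
# Row 89, piece F_NORMA: complex test vectors
-/

set_option autoImplicit false

namespace Crest.Agent.R89.F

open scoped ENNReal NNReal Topology
open MeasureTheory ProbabilityTheory Crest.OpAlg Filter

/-- complex vector from its real and imaginary parts. -/
noncomputable def cvec {d : ℕ} (x : EuclideanSpace ℝ (Fin d × Fin 2)) : EuclideanSpace ℂ (Fin d) :=
  WithLp.toLp 2 fun i => (x (i, 0) : ℂ) + (x (i, 1) : ℂ) * Complex.I

theorem norm_cvec {d : ℕ} (x : EuclideanSpace ℝ (Fin d × Fin 2)) : ‖cvec x‖ = ‖x‖ := by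
  rw [EuclideanSpace.norm_eq, EuclideanSpace.norm_eq]
  congr 1
  rw [Fintype.sum_prod_type]
  refine Finset.sum_congr rfl fun i _ => ?_
  rw [Fin.sum_univ_two]
  have h : (cvec x) i = (x (i, 0) : ℂ) + (x (i, 1) : ℂ) * Complex.I := rfl
  rw [h, ← Complex.normSq_eq_norm_sq, Complex.normSq_add_mul_I, Real.norm_eq_abs, Real.norm_eq_abs,
    sq_abs, sq_abs]

theorem exists_cvec {d : ℕ} (z : EuclideanSpace ℂ (Fin d)) : ∃ x, cvec x = z := by
  refine ⟨WithLp.toLp 2 fun p => if p.2 = 0 then (z p.1).re else (z p.1).im, ?_⟩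
  ext i
  show (((if (0 : Fin 2) = 0 then (z i).re else (z i).im : ℝ) : ℂ) +
    ((if (1 : Fin 2) = 0 then (z i).re else (z i).im : ℝ) : ℂ) * Complex.I) = z i
  simp [Complex.re_add_im]

/-- the quadratic form <x, G_j x> (a real number since G_j is Hermitian). -/
noncomputable def quad {n d : ℕ} (j : Fin n) (x : EuclideanSpace ℝ (Fin d × Fin 2))
    (a : Ix n d → ℝ) : ℝ :=
  (inner ℂ (cvec x) (Matrix.toEuclideanCLM (n := Fin d) (𝕜 := ℂ) (Gmat a j) (cvec x))).re

theorem quad_eq_sum {n d : ℕ} (j : Fin n) (x : EuclideanSpace ℝ (Fin d × Fin 2))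
    (a : Ix n d → ℝ) :
    quad j x a = ∑ p, a (j, p) *
      (inner ℂ (cvec x) (Matrix.toEuclideanCLM (n := Fin d) (𝕜 := ℂ) (Ebas p) (cvec x))).re := by
  unfold quad
  rw [Gmat_sum, map_sum, sum_apply, inner_sum, Complex.re_sum]
  refine Finset.sum_congr rfl fun p _ => ?_
  rw [map_smul, smul_apply, inner_smul_right, Complex.re_ofReal_mul]

theorem inner_toCLM {d : ℕ} (z : EuclideanSpace ℂ (Fin d)) (M : Matrix (Fin d) (Fin d) ℂ) :
    inner ℂ z (Matrix.toEuclideanCLM (n := Fin d) (𝕜 := ℂ) M z) =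
      ∑ x, ∑ y, (starRingEnd ℂ) (z x) * z y * M x y := by
  rw [PiLp.inner_apply]
  refine Finset.sum_congr rfl fun x _ => ?_
  have h : (Matrix.toEuclideanCLM (n := Fin d) (𝕜 := ℂ) M z) x = ∑ y, M x y * z y := by
    have := congrFun (Matrix.ofLp_toEuclideanCLM M z) x
    simp only [Matrix.mulVec, dotProduct] at this
    exact this
  rw [h, RCLike.inner_apply, Finset.sum_mul]
  refine Finset.sum_congr rfl fun y _ => ?_
  ring

/-- the coefficients of the linear form `a ↦ quad j x a` have square sum `‖x‖⁴`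
(`Ebas_flip`; each `<z, E_p z>` is real since E_p is Hermitian:
∑_p <z,E_p z>² = ∑ z̄_x z_y z̄_z z_w ∑_p (E_p)_{xy}(E_p)_{zw} = |z|⁴). -/
theorem quad_coeff_sq {d : ℕ} (x : EuclideanSpace ℝ (Fin d × Fin 2)) :
    ∑ p : Fin d × Fin d,
      (inner ℂ (cvec x) (Matrix.toEuclideanCLM (n := Fin d) (𝕜 := ℂ) (Ebas p) (cvec x))).re ^ 2 =
      ‖x‖ ^ 4 := by
  set z := cvec x with hz
  have hreal : ∀ p : Fin d × Fin d,
      (((inner ℂ z (Matrix.toEuclideanCLM (n := Fin d) (𝕜 := ℂ) (Ebas p) z)).re : ℝ) : ℂ) =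
      inner ℂ z (Matrix.toEuclideanCLM (n := Fin d) (𝕜 := ℂ) (Ebas p) z) := by
    intro p
    have hconj : (starRingEnd ℂ) (inner ℂ z (Matrix.toEuclideanCLM (n := Fin d) (𝕜 := ℂ) (Ebas p) z)) =
        inner ℂ z (Matrix.toEuclideanCLM (n := Fin d) (𝕜 := ℂ) (Ebas p) z) := by
      rw [inner_toCLM]
      have hE : ∀ i j, (starRingEnd ℂ) (Ebas p i j) = Ebas p j i := by
        intro i j
        have h := hermitian_isHermitian (d := d) (EuclideanSpace.single p (1 : ℝ))
        exact h.apply j i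
      rw [map_sum]
      simp_rw [map_sum, map_mul, hE, Complex.conj_conj]
      rw [Finset.sum_comm]
      refine Finset.sum_congr rfl fun i _ => Finset.sum_congr rfl fun j _ => ?_
      ring
    obtain ⟨r, hr⟩ := Complex.conj_eq_iff_real.mp hconj
    rw [hr, Complex.ofReal_re]
  have hnorm : ((‖x‖ ^ 2 : ℝ) : ℂ) = ∑ i, (starRingEnd ℂ) (z i) * z i := by
    rw [← norm_cvec x, ← hz, EuclideanSpace.norm_sq_eq]
    push_cast
    refine Finset.sum_congr rfl fun i _ => ?_
    rw [mul_comm, Complex.mul_conj, Complex.normSq_eq_norm_sq]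
    push_cast
    rfl
  have key : ((∑ p : Fin d × Fin d,
      (inner ℂ z (Matrix.toEuclideanCLM (n := Fin d) (𝕜 := ℂ) (Ebas p) z)).re ^ 2 : ℝ) : ℂ) =
      ((‖x‖ ^ 4 : ℝ) : ℂ) := by
    have e4 : ((‖x‖ ^ 4 : ℝ) : ℂ) = ((‖x‖ ^ 2 : ℝ) : ℂ) * ((‖x‖ ^ 2 : ℝ) : ℂ) := by
      push_cast; ring
    rw [e4, hnorm]
    push_cast
    simp_rw [hreal, inner_toCLM]
    calc ∑ p : Fin d × Fin d, (∑ a, ∑ b, (starRingEnd ℂ) (z a) * z b * Ebas p a b) ^ 2
        = ∑ p : Fin d × Fin d, ∑ a, ∑ b, ∑ u, ∑ w,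
            ((starRingEnd ℂ) (z a) * z b * ((starRingEnd ℂ) (z u) * z w)) *
              (Ebas p a b * Ebas p u w) := by
          refine Finset.sum_congr rfl fun p _ => ?_
          rw [sq, Finset.sum_mul]
          refine Finset.sum_congr rfl fun a _ => ?_
          rw [Finset.sum_mul]
          refine Finset.sum_congr rfl fun b _ => ?_
          rw [Finset.mul_sum]
          refine Finset.sum_congr rfl fun u _ => ?_
          rw [Finset.mul_sum]
          refine Finset.sum_congr rfl fun w _ => ?_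
          ring
      _ = ∑ a, ∑ b, ∑ u, ∑ w,
            ((starRingEnd ℂ) (z a) * z b * ((starRingEnd ℂ) (z u) * z w)) *
              (∑ p : Fin d × Fin d, Ebas p a b * Ebas p u w) := by
          rw [Finset.sum_comm]
          refine Finset.sum_congr rfl fun a _ => ?_
          rw [Finset.sum_comm]
          refine Finset.sum_congr rfl fun b _ => ?_
          rw [Finset.sum_comm]
          refine Finset.sum_congr rfl fun u _ => ?_
          rw [Finset.sum_comm]
          refine Finset.sum_congr rfl fun w _ => ?_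
          rw [Finset.mul_sum]
      _ = ∑ a, ∑ b, ((starRingEnd ℂ) (z a) * z b * ((starRingEnd ℂ) (z b) * z a)) := by
          simp_rw [Ebas_flip]
          refine Finset.sum_congr rfl fun a _ => Finset.sum_congr rfl fun b _ => ?_
          rw [Finset.sum_eq_single b]
          · rw [Finset.sum_eq_single a]
            · simp
            · intro w _ hw
              rw [if_neg (fun h => hw h.1.symm), mul_zero]
            · intro h; exact absurd (Finset.mem_univ _) h
          · intro u _ hu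
            refine Finset.sum_eq_zero fun w _ => ?_
            rw [if_neg (fun h => hu h.2.symm), mul_zero]
          · intro h; exact absurd (Finset.mem_univ _) h
      _ = (∑ i, (starRingEnd ℂ) (z i) * z i) * ∑ i, (starRingEnd ℂ) (z i) * z i := by
          rw [Finset.sum_mul_sum]
          refine Finset.sum_congr rfl fun a _ => Finset.sum_congr rfl fun b _ => ?_
          ring
  exact_mod_cast key

end Crest.Agent.R89.F
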