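import Crest.Agent.R89.FNormA

/-!
# Row 89, piece F_NORMQ: Gaussian tail of the quadratic form at a fixed vector

`quad j x a = ∑_p a(j,p) c_p` with ∑ c_p² = |x|⁴ (`quad_eq_sum`, `quad_coeff_sq`) and independent
N(0,1/d) coordinates: `∫ exp(t · quad) = exp(t² |x|⁴/(2d))`
(`MeasureTheory.integral_fintype_prod_eq_prod`, `mgf_gaussianReal`/`mgf_id_gaussianReal`), Chernoff
(`ProbabilityTheory.measure_ge_le_exp_mul_mgf`) with t = ± 12 d / |x|⁴ or simply t = 12 d /(5/4)⁴:
P(|quad| ≥ 12) ≤ 2 exp(-144 d/(2·(5/4)⁴)) and 144/(2·(5/4)⁴) = 29.49...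
(`gauss_tail`: general statement for a linear form, prove it first.)
-/

set_option autoImplicit false

namespace Crest.Agent.R89.F

open scoped ENNReal NNReal Topology
open MeasureTheory ProbabilityTheory Crest.OpAlg Filter

private theorem exp_sum_eq {ι : Type} [Fintype ι] (c : ι → ℝ) (t : ℝ) (a : ι → ℝ) :
    Real.exp (t * ∑ i, c i * a i) = ∏ i, Real.exp ((t * c i) * a i) := by
  rw [← Real.exp_sum, Finset.mul_sum]
  congr 1
  exact Finset.sum_congr rfl fun i _ => by ring

theorem gauss_tail {ι : Type} [Fintype ι] (v : ℝ≥0) (c : ι → ℝ) (s u t : ℝ) (hu : 0 ≤ u) (ht : 0 ≤ t)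
    (hs : ∑ i, c i ^ 2 ≤ s) :
    (Measure.pi fun _ : ι => gaussianReal 0 v) {a | u ≤ ∑ i, c i * a i} ≤
      ENNReal.ofReal (Real.exp (v * s * t ^ 2 / 2 - t * u)) := by
  have hint : Integrable (fun a : ι → ℝ => Real.exp (t * ∑ i, c i * a i))
      (Measure.pi fun _ : ι => gaussianReal 0 v) := by
    simp only [exp_sum_eq]
    exact Integrable.fintype_prod (f := fun i (x : ℝ) => Real.exp ((t * c i) * x))
      (μ := fun _ => gaussianReal 0 v) (fun i => integrable_exp_mul_gaussianReal _)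
  have hmgf : mgf (fun a : ι → ℝ => ∑ i, c i * a i)
      (Measure.pi fun _ : ι => gaussianReal 0 v) t = Real.exp (v * t ^ 2 / 2 * ∑ i, c i ^ 2) := by
    unfold mgf
    simp only [exp_sum_eq]
    rw [integral_fintype_prod_eq_prod (f := fun i (x : ℝ) => Real.exp ((t * c i) * x))
      (μ := fun _ => gaussianReal 0 v)]
    have h1 : ∀ i, ∫ x : ℝ, Real.exp ((t * c i) * x) ∂(gaussianReal 0 v) =
        Real.exp (v * (t * c i) ^ 2 / 2) := by
      intro i
      have h := congrFun (mgf_id_gaussianReal (μ := 0) (v := v)) (t * c i)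
      unfold mgf at h
      simpa using h
    simp only [h1]
    rw [← Real.exp_sum, Finset.mul_sum]
    congr 1
    exact Finset.sum_congr rfl fun i _ => by ring
  have hch := measure_ge_le_exp_mul_mgf (μ := (Measure.pi fun _ : ι => gaussianReal 0 v))
    (X := fun a : ι → ℝ => ∑ i, c i * a i) u ht hint
  rw [hmgf, ← Real.exp_add] at hch
  have hle : Real.exp (-t * u + v * t ^ 2 / 2 * ∑ i, c i ^ 2) ≤
      Real.exp (v * s * t ^ 2 / 2 - t * u) := by
    apply Real.exp_le_exp.mpr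
    have h0 : (0 : ℝ) ≤ v * t ^ 2 / 2 := by positivity
    have := mul_le_mul_of_nonneg_left hs h0
    linarith
  rw [← ofReal_measureReal (measure_ne_top _ _)]
  exact ENNReal.ofReal_le_ofReal (hch.trans hle)

theorem quad_tail {n d : ℕ} (hd : 0 < d) (j : Fin n) (x : EuclideanSpace ℝ (Fin d × Fin 2))
    (hx : ‖x‖ ≤ 5 / 4) :
    (gm n d) {a | 12 ≤ |quad j x a|} ≤ ENNReal.ofReal (2 * Real.exp (-(29 * d))) := by
  classical
  set c : Fin d × Fin d → ℝ := fun p =>
    (inner ℂ (cvec x) (Matrix.toEuclideanCLM (n := Fin d) (𝕜 := ℂ) (Ebas p) (cvec x))).re with hc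
  have hcs : ∑ p, c p ^ 2 = ‖x‖ ^ 4 := quad_coeff_sq x
  set c' : ℝ → Ix n d → ℝ := fun e q => if q.1 = j then e * c q.2 else 0 with hc'
  have hsum : ∀ (e : ℝ) (a : Ix n d → ℝ), ∑ q, c' e q * a q = e * quad j x a := by
    intro e a
    rw [quad_eq_sum, Fintype.sum_prod_type, Finset.sum_eq_single j]
    · rw [Finset.mul_sum]
      refine Finset.sum_congr rfl fun p _ => ?_
      simp only [hc', if_true]
      ring
    · intro b _ hb
      refine Finset.sum_eq_zero fun p _ => ?_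
      simp [hc', hb]
    · intro h
      exact absurd (Finset.mem_univ j) h
  have hsq : ∀ e : ℝ, e ^ 2 = 1 → ∑ q, c' e q ^ 2 ≤ 625 / 256 := by
    intro e he
    have h1 : ∑ q, c' e q ^ 2 = ∑ p, c p ^ 2 := by
      rw [Fintype.sum_prod_type, Finset.sum_eq_single j]
      · refine Finset.sum_congr rfl fun p _ => ?_
        simp only [hc', if_true, mul_pow, he, one_mul]
      · intro b _ hb
        refine Finset.sum_eq_zero fun p _ => ?_
        simp [hc', hb]
      · intro h
        exact absurd (Finset.mem_univ j) h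
    rw [h1, hcs]
    have h2 : ‖x‖ ^ 4 ≤ (5 / 4 : ℝ) ^ 4 := pow_le_pow_left₀ (norm_nonneg x) hx 4
    norm_num at h2 ⊢
    linarith
  have hd' : (0 : ℝ) < d := by exact_mod_cast hd
  have htail : ∀ e : ℝ, e ^ 2 = 1 → (gm n d) {a | 12 ≤ e * quad j x a} ≤
      ENNReal.ofReal (Real.exp (-(29 * d))) := by
    intro e he
    have h := gauss_tail ((d : ℝ≥0)⁻¹) (c' e) (625 / 256) 12 (12 * d / (625 / 256)) (by norm_num)
      (by positivity) (hsq e he)
    simp only [hsum] at h
    refine le_trans h (ENNReal.ofReal_le_ofReal (Real.exp_le_exp.mpr ?_))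
    have hv : (((d : ℝ≥0)⁻¹ : ℝ≥0) : ℝ) = (d : ℝ)⁻¹ := by simp
    rw [hv]
    have : (d : ℝ)⁻¹ * (625 / 256) * (12 * d / (625 / 256)) ^ 2 / 2 -
        12 * d / (625 / 256) * 12 = - (18432 / 625) * d := by
      field_simp
      ring
    rw [this]
    nlinarith
  have hsub : {a | 12 ≤ |quad j x a|} ⊆
      {a | 12 ≤ (1 : ℝ) * quad j x a} ∪ {a | 12 ≤ (-1 : ℝ) * quad j x a} := by
    intro a ha
    simp only [Set.mem_setOf_eq, Set.mem_union] at ha ⊢
    rcases le_abs.mp ha with h | h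
    · left; linarith
    · right; linarith
  calc (gm n d) {a | 12 ≤ |quad j x a|}
      ≤ (gm n d) ({a | 12 ≤ (1 : ℝ) * quad j x a} ∪ {a | 12 ≤ (-1 : ℝ) * quad j x a}) :=
        measure_mono hsub
    _ ≤ (gm n d) {a | 12 ≤ (1 : ℝ) * quad j x a} + (gm n d) {a | 12 ≤ (-1 : ℝ) * quad j x a} :=
        measure_union_le _ _
    _ ≤ ENNReal.ofReal (Real.exp (-(29 * d))) + ENNReal.ofReal (Real.exp (-(29 * d))) :=
        add_le_add (htail 1 (by norm_num)) (htail (-1) (by norm_num))
    _ = ENNReal.ofReal (2 * Real.exp (-(29 * d))) := by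
        rw [← ENNReal.ofReal_add (Real.exp_pos _).le (Real.exp_pos _).le]
        congr 1
        ring

end Crest.Agent.R89.F
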