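import Crest.Agent.R89.FMat
import Crest.Agent.R89.FIbp

/-!
# Row 89, piece F_POLY: traces of words as polynomials, their derivatives

`Gpoly` is the generic Gaussian matrix with entries in `MvPolynomial (Ix n d) ℂ`, `trp` the normalised
trace of a word.

* `eval_trp`: evaluation at a point (map the ring hom `MvPolynomial.eval` through the matrix product:
  `Matrix.trace_map`-like lemma, `RingHom.mapMatrix`, `map_list_prod`; on letters use `Gmat_sum`).
* `pderiv_word`: Leibniz rule for a product of matrices, by induction on the word.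
  (`splitSum j (x :: Q) F` = [x = inr j] F [] Q + splitSum j Q (fun α β => F (x :: α) β):
  `Finset.sum_range_succ'`; this is `splitSum_cons`.)
* `pderiv_trp`: the same after the normalised trace.
-/

set_option autoImplicit false

namespace Crest.Agent.R89.F

open scoped ENNReal NNReal
open MeasureTheory ProbabilityTheory Crest.OpAlg

theorem splitSum_nil {R : Type*} [AddCommMonoid R] {n : ℕ} (j : Fin n)
    (F : List (Letter n) → List (Letter n) → R) : splitSum j [] F = 0 := by
  simp [splitSum]

theorem splitSum_cons {R : Type*} [AddCommMonoid R] {n : ℕ} (j : Fin n) (x : Letter n)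
    (Q : List (Letter n)) (F : List (Letter n) → List (Letter n) → R) :
    splitSum j (x :: Q) F =
      (if x = Sum.inr j then F [] Q else 0) + splitSum j Q (fun α β => F (x :: α) β) := by
  unfold splitSum
  rw [List.length_cons, Finset.sum_range_succ', add_comm]
  congr 1
  simp

theorem splitSum_congr {R : Type*} [AddCommMonoid R] {n : ℕ} (j : Fin n) (Q : List (Letter n))
    (F F' : List (Letter n) → List (Letter n) → R)
    (h : ∀ α β, Q = α ++ Sum.inr j :: β → F α β = F' α β) : splitSum j Q F = splitSum j Q F' := by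
  unfold splitSum
  refine Finset.sum_congr rfl fun k hk => ?_
  split_ifs with hc
  · apply h
    obtain ⟨hk', hget⟩ := List.getElem?_eq_some_iff.mp hc
    conv_lhs => rw [← List.take_append_drop k Q, List.drop_eq_getElem_cons hk', hget]
  · rfl

theorem splitSum_hom {R S : Type*} [AddCommMonoid R] [AddCommMonoid S] {n : ℕ} (j : Fin n)
    (f : R →+ S) (Q : List (Letter n)) (F : List (Letter n) → List (Letter n) → R) :
    f (splitSum j Q F) = splitSum j Q fun α β => f (F α β) := by
  unfold splitSum
  rw [map_sum]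
  refine Finset.sum_congr rfl fun k _ => ?_
  split_ifs
  · rfl
  · exact map_zero f

/-- generic Gaussian matrix. -/
noncomputable def Gpoly (n d : ℕ) (j : Fin n) :
    Matrix (Fin d) (Fin d) (MvPolynomial (Ix n d) ℂ) :=
  Matrix.of fun x y => ∑ p, MvPolynomial.C (Ebas p x y) * MvPolynomial.X (j, p)

/-- matrix of a word over the polynomial ring. -/
noncomputable def wpoly {n d : ℕ} (Y : Fin n → Matrix (Fin d) (Fin d) ℂ) (Q : List (Letter n)) :
    Matrix (Fin d) (Fin d) (MvPolynomial (Ix n d) ℂ) :=
  wordVal (fun j => (Y j).map MvPolynomial.C) (Gpoly n d) Q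

/-- normalised trace of a word over the polynomial ring. -/
noncomputable def trp {n d : ℕ} (Y : Fin n → Matrix (Fin d) (Fin d) ℂ) (Q : List (Letter n)) :
    MvPolynomial (Ix n d) ℂ :=
  MvPolynomial.C ((d : ℂ)⁻¹) * (wpoly Y Q).trace

/-- letters over the polynomial ring. -/
noncomputable def lpoly {n d : ℕ} (Y : Fin n → Matrix (Fin d) (Fin d) ℂ) (x : Letter n) :
    Matrix (Fin d) (Fin d) (MvPolynomial (Ix n d) ℂ) :=
  letterEval (fun j => (Y j).map MvPolynomial.C) (Gpoly n d) x

theorem wpoly_nil {n d : ℕ} (Y : Fin n → Matrix (Fin d) (Fin d) ℂ) :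
    wpoly Y ([] : List (Letter n)) = 1 := rfl

theorem wpoly_cons {n d : ℕ} (Y : Fin n → Matrix (Fin d) (Fin d) ℂ) (x : Letter n)
    (Q : List (Letter n)) : wpoly Y (x :: Q) = lpoly Y x * wpoly Y Q := by
  simp [wpoly, wordVal, lpoly]

theorem map_eval_wpoly {n d : ℕ} (Y : Fin n → Matrix (Fin d) (Fin d) ℂ) (a : Ix n d → ℝ)
    (Q : List (Letter n)) :
    (MvPolynomial.eval (fun i => (a i : ℂ))).mapMatrix (wpoly Y Q) = wordVal Y (Gmat a) Q := by
  induction Q with
  | nil => rw [wpoly_nil, map_one]; rfl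
  | cons x Q ih =>
    rw [wpoly_cons, map_mul, ih]
    have h1 : wordVal Y (Gmat a) (x :: Q) = letterEval Y (Gmat a) x * wordVal Y (Gmat a) Q := by
      simp [wordVal]
    rw [h1]
    congr 1
    rcases x with j | j
    · ext x y
      simp [lpoly, letterEval]
    · ext x y
      have h2 := congrFun (congrFun (Gmat_sum a j) x) y
      simp only [letterEval, Sum.elim_inr, lpoly]
      rw [h2]
      simp [Gpoly, Matrix.sum_apply, mul_comm]

theorem eval_trp {n d : ℕ} (Y : Fin n → Matrix (Fin d) (Fin d) ℂ) (Q : List (Letter n))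
    (a : Ix n d → ℝ) : MvPolynomial.eval (fun i => (a i : ℂ)) (trp Y Q) = trw Y Q a := by
  unfold trp trw ntr
  rw [map_mul, MvPolynomial.eval_C, ← map_eval_wpoly, Matrix.trace, Matrix.trace, map_sum]
  rfl

theorem map_pderiv_mul {n d : ℕ} (i : Ix n d)
    (M N : Matrix (Fin d) (Fin d) (MvPolynomial (Ix n d) ℂ)) :
    (M * N).map (MvPolynomial.pderiv i) =
      M.map (MvPolynomial.pderiv i) * N + M * N.map (MvPolynomial.pderiv i) := by
  refine Matrix.ext fun x y => ?_
  simp only [Matrix.map_apply, Matrix.mul_apply, Matrix.add_apply, map_sum, Derivation.leibniz,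
    smul_eq_mul]
  rw [← Finset.sum_add_distrib]
  apply Finset.sum_congr rfl
  intro k _
  ring

theorem map_pderiv_lpoly {n d : ℕ} (Y : Fin n → Matrix (Fin d) (Fin d) ℂ) (j : Fin n)
    (p : Fin d × Fin d) (x : Letter n) :
    (lpoly Y x).map (MvPolynomial.pderiv (j, p)) =
      if x = Sum.inr j then (Ebas p).map MvPolynomial.C else 0 := by
  rcases x with j' | j'
  · rw [if_neg (by simp)]
    refine Matrix.ext fun x y => ?_
    simp [lpoly, letterEval]
  · refine Matrix.ext fun x y => ?_
    simp only [lpoly, letterEval, Sum.elim_inr, Matrix.map_apply, Gpoly, Matrix.of_apply, map_sum]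
    by_cases hj : j' = j
    · subst hj
      rw [if_pos rfl, Finset.sum_eq_single p]
      · simp
      · intro p' _ hp'
        rw [Derivation.leibniz, MvPolynomial.pderiv_C, MvPolynomial.pderiv_X_of_ne]
        · simp
        · intro h
          exact hp' (Prod.mk.inj h).2
      · intro h; exact absurd (Finset.mem_univ _) h
    · rw [if_neg (by simpa using hj)]
      rw [Matrix.zero_apply]
      apply Finset.sum_eq_zero
      intro p' _
      rw [Derivation.leibniz, MvPolynomial.pderiv_C, MvPolynomial.pderiv_X_of_ne]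
      · simp
      · intro h
        exact hj (Prod.mk.inj h).1

theorem pderiv_word {n d : ℕ} (Y : Fin n → Matrix (Fin d) (Fin d) ℂ) (j : Fin n)
    (p : Fin d × Fin d) (Q : List (Letter n)) :
    (wpoly Y Q).map (MvPolynomial.pderiv (j, p)) =
      splitSum j Q fun α β => wpoly Y α * (Ebas p).map MvPolynomial.C * wpoly Y β := by
  induction Q with
  | nil =>
    rw [splitSum_nil, wpoly_nil]
    refine Matrix.ext fun x y => ?_
    rw [Matrix.map_apply, Matrix.one_apply]
    split_ifs <;> simp
  | cons x Q ih =>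
    rw [splitSum_cons, wpoly_cons, map_pderiv_mul, map_pderiv_lpoly, ih]
    congr 1
    · split_ifs
      · rw [wpoly_nil, one_mul]
      · rw [zero_mul]
    · have h := splitSum_hom j (AddMonoidHom.mulLeft (lpoly Y x)) Q
        (fun α β => wpoly Y α * (Ebas p).map MvPolynomial.C * wpoly Y β)
      simp only [AddMonoidHom.coe_mulLeft] at h
      rw [h]
      refine splitSum_congr j Q _ _ fun α β _ => ?_
      rw [wpoly_cons]
      simp only [mul_assoc]

theorem pderiv_trace {n d : ℕ} (i : Ix n d)
    (M : Matrix (Fin d) (Fin d) (MvPolynomial (Ix n d) ℂ)) :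
    MvPolynomial.pderiv i M.trace = (M.map (MvPolynomial.pderiv i)).trace := by
  rw [Matrix.trace, Matrix.trace, map_sum]
  rfl

theorem pderiv_trp {n d : ℕ} (Y : Fin n → Matrix (Fin d) (Fin d) ℂ) (j : Fin n)
    (p : Fin d × Fin d) (Q : List (Letter n)) :
    MvPolynomial.pderiv (j, p) (trp Y Q) =
      splitSum j Q fun α β => MvPolynomial.C ((d : ℂ)⁻¹) *
        ((Ebas p).map MvPolynomial.C * (wpoly Y β * wpoly Y α)).trace := by
  unfold trp
  rw [Derivation.leibniz, MvPolynomial.pderiv_C, smul_zero, add_zero, smul_eq_mul, pderiv_trace,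
    pderiv_word]
  have h := splitSum_hom j ((AddMonoidHom.mulLeft (MvPolynomial.C ((d : ℂ)⁻¹))).comp
    (Matrix.traceAddMonoidHom (Fin d) (MvPolynomial (Ix n d) ℂ))) Q
        (fun α β => wpoly Y α * (Ebas p).map MvPolynomial.C * wpoly Y β)
  simp only [AddMonoidHom.comp_apply, AddMonoidHom.coe_mulLeft,
    Matrix.traceAddMonoidHom_apply] at h
  rw [h]
  refine splitSum_congr j Q _ _ fun α β _ => ?_
  rw [mul_assoc (wpoly Y α), Matrix.trace_mul_comm, mul_assoc]

/-- `tr(E_p Q)` and its derivative. -/
theorem pderiv_trace_Ebas_mul {n d : ℕ} (Y : Fin n → Matrix (Fin d) (Fin d) ℂ) (j : Fin n)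
    (p : Fin d × Fin d) (Q : List (Letter n)) :
    MvPolynomial.pderiv (j, p) (((Ebas p).map MvPolynomial.C * wpoly Y Q).trace) =
      splitSum j Q fun α β => ((Ebas p).map MvPolynomial.C * wpoly Y α *
        (Ebas p).map MvPolynomial.C * wpoly Y β).trace := by
  rw [pderiv_trace, map_pderiv_mul]
  have h0 : ((Ebas p).map MvPolynomial.C :
      Matrix (Fin d) (Fin d) (MvPolynomial (Ix n d) ℂ)).map (MvPolynomial.pderiv (j, p)) = 0 := by
    refine Matrix.ext fun x y => ?_
    simp
  rw [h0, zero_mul, zero_add, pderiv_word]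
  have h := splitSum_hom j ((Matrix.traceAddMonoidHom (Fin d) (MvPolynomial (Ix n d) ℂ)).comp
    (AddMonoidHom.mulLeft ((Ebas p).map MvPolynomial.C))) Q
        (fun α β => wpoly Y α * (Ebas p).map MvPolynomial.C * wpoly Y β)
  simp only [AddMonoidHom.comp_apply, AddMonoidHom.coe_mulLeft,
    Matrix.traceAddMonoidHom_apply] at h
  rw [h]
  refine splitSum_congr j Q _ _ fun α β _ => ?_
  simp only [mul_assoc]

/-- `tr(G_j Q) = ∑_p X_(j,p) tr(E_p Q)`. -/
theorem trp_cons_inr {n d : ℕ} (Y : Fin n → Matrix (Fin d) (Fin d) ℂ) (j : Fin n)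
    (Q : List (Letter n)) :
    trp Y (Sum.inr j :: Q) = ∑ p, MvPolynomial.X (j, p) *
      (MvPolynomial.C ((d : ℂ)⁻¹) * ((Ebas p).map MvPolynomial.C * wpoly Y Q).trace) := by
  unfold trp
  have h1 : lpoly Y (Sum.inr j) = ∑ p, (MvPolynomial.X (j, p) : MvPolynomial (Ix n d) ℂ) •
      (Ebas p).map MvPolynomial.C := by
    refine Matrix.ext fun x y => ?_
    simp only [lpoly, letterEval, Sum.elim_inr, Gpoly, Matrix.of_apply, Matrix.sum_apply,
      Matrix.smul_apply, Matrix.map_apply, smul_eq_mul]
    apply Finset.sum_congr rfl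
    intro p _
    ring
  rw [wpoly_cons, h1, Finset.sum_mul, Matrix.trace_sum, Finset.mul_sum]
  refine Finset.sum_congr rfl fun p _ => ?_
  rw [Matrix.smul_mul, Matrix.trace_smul, smul_eq_mul]
  ring

end Crest.Agent.R89.F
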