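import Crest.Agent.R89.FLoop
import Crest.Agent.R89.FLim

/-!
# Row 89, piece F_TEND: convergence of the expectations of products of traces

Apply `limit_of_loop` with `e q = EW (Y q)`.
  hperm: `List.Perm.prod_eq` under the integral.  hrot: cyclicity of the trace.
  hbase: words without noise letter are deterministic, `IsApprox.mom` (each word has length ≤ K), the
  measure is a probability measure.  hloop: `loop`.
-/

set_option autoImplicit false

namespace Crest.Agent.R89.F

open scoped ENNReal NNReal Topology
open MeasureTheory ProbabilityTheory Crest.OpAlg Filter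

private theorem trw_rot {n d : ℕ} (Y : Fin n → Matrix (Fin d) (Fin d) ℂ) (α β : List (Letter n))
    (a : Ix n d → ℝ) : trw Y (α ++ β) a = trw Y (β ++ α) a := by
  unfold trw ntr wordVal
  rw [List.map_append, List.map_append, List.prod_append, List.prod_append,
    Matrix.trace_mul_comm]

private theorem trw_ref {n d : ℕ} (m : List (Fin n) → ℂ) (K : ℕ)
    (Y : Fin n → Matrix (Fin d) (Fin d) ℂ) (hY : IsApprox m K Y) (w : List (Fin n))
    (hw : w.length ≤ K) (a : Ix n d → ℝ) : trw Y (w.map Sum.inl) a = m w := by
  rw [← hY.mom w hw]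
  unfold trw ntr wordVal
  rw [List.map_map]
  rfl

private theorem len_le_of_sum {α : Type} (K : ℕ) (Qs : List (List α))
    (h : (Qs.map List.length).sum ≤ K) (w : List α) (hw : w ∈ Qs) : w.length ≤ K :=
  le_trans (List.single_le_sum (by simp) _ (List.mem_map_of_mem hw)) h

theorem EW_tendsto {n : ℕ} (m : List (Fin n) → ℂ) (μ : List (Letter n) → ℂ)
    (hμ : IsFreeMoment m μ) (K : ℕ) (dd : ℕ → ℕ) (hdd : Tendsto dd atTop atTop)
    (hd0 : ∀ q, 0 < dd q) (Y : ∀ q, Fin n → Matrix (Fin (dd q)) (Fin (dd q)) ℂ)
    (hY : ∀ q, IsApprox m K (Y q)) (Qs : List (List (Letter n)))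
    (hK : (Qs.map List.length).sum ≤ K) :
    Tendsto (fun q => EW (Y q) Qs) atTop (𝓝 (Qs.map μ).prod) := by
  refine limit_of_loop m μ hμ K (fun q => EW (Y q)) dd hdd ?_ ?_ ?_ ?_ Qs hK
  · intro q Qs Qs' hp
    unfold EW
    refine integral_congr_ae (Filter.Eventually.of_forall fun a => ?_)
    exact (hp.map (fun Q => trw (Y q) Q a)).prod_eq
  · intro q α β Qs
    unfold EW
    refine integral_congr_ae (Filter.Eventually.of_forall fun a => ?_)
    simp only [List.map_cons, List.prod_cons]
    rw [trw_rot]
  · intro q Qs hQ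
    unfold EW
    have h : ∀ a : Ix n (dd q) → ℝ,
        ((Qs.map (List.map Sum.inl)).map fun Q => trw (Y q) Q a).prod = (Qs.map m).prod := by
      intro a
      rw [List.map_map]
      congr 1
      apply List.map_congr_left
      intro w hw
      exact trw_ref m K (Y q) (hY q) w (len_le_of_sum K Qs hQ w hw) a
    have hp : IsProbabilityMeasure (gm n (dd q)) := by
      unfold gm
      infer_instance
    simp only [h]
    simp
  · intro q j Q0 Qs
    exact loop (hd0 q) (Y q) j Q0 Qs

end Crest.Agent.R89.F
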