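import Crest.Agent.R89.FDefs

/-!
# Row 89, piece F_VOLA: Gaussian density bound

Gaussian density ≤ (d/2π)^{1/2} per coordinate, N = n d² coordinates (outer measures, S arbitrary):
`gaussianReal ≤ c • volume` and `Measure.pi` is monotone (`Measure.pi_mono`-like; or via boxes /
`lintegral` with density, `MeasureTheory.Measure.pi` of `withDensity`), `Measure.pi (fun _ => c • μ) = c^N • pi μ`.
-/

set_option autoImplicit false

namespace Crest.Agent.R89.F

open scoped ENNReal NNReal Topology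
open MeasureTheory ProbabilityTheory Crest.OpAlg Filter

theorem gaussianReal_le {d : ℕ} (hd : 0 < d) :
    gaussianReal 0 ((d : ℝ≥0)⁻¹) ≤ ENNReal.ofReal (Real.sqrt (d / (2 * Real.pi))) • (volume : Measure ℝ) := by
  have hd' : (d : ℝ≥0)⁻¹ ≠ 0 := inv_ne_zero (by exact_mod_cast hd.ne')
  rw [gaussianReal_of_var_ne_zero _ hd', ← withDensity_const]
  apply withDensity_mono
  refine Filter.Eventually.of_forall fun x => ?_
  rw [gaussianPDF]
  apply ENNReal.ofReal_le_ofReal
  rw [gaussianPDFReal]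
  have h1 : Real.exp (-(x - 0) ^ 2 / (2 * ((d : ℝ≥0)⁻¹ : ℝ≥0))) ≤ 1 := by
    rw [Real.exp_le_one_iff]
    apply div_nonpos_of_nonpos_of_nonneg
    · have := sq_nonneg (x - 0)
      linarith
    · positivity
  have h2 : (Real.sqrt (2 * Real.pi * ((d : ℝ≥0)⁻¹ : ℝ≥0)))⁻¹ = Real.sqrt (d / (2 * Real.pi)) := by
    rw [← Real.sqrt_inv]
    congr 1
    push_cast
    rw [mul_inv, inv_inv, div_eq_mul_inv, mul_comm]
  rw [h2]
  calc Real.sqrt (d / (2 * Real.pi)) * _ ≤ Real.sqrt (d / (2 * Real.pi)) * 1 :=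
        mul_le_mul_of_nonneg_left h1 (Real.sqrt_nonneg _)
    _ = _ := mul_one _

/-- monotonicity of product measures against a multiple of another product measure -/
theorem pi_le_smul_pi {ι : Type*} [Fintype ι] (μ ν : Measure ℝ) [SigmaFinite μ] [SigmaFinite ν] (c : ℝ≥0∞)
    (hc0 : c ≠ 0) (hct : c ≠ ⊤) (h : μ ≤ c • ν) (S : Set (ι → ℝ)) :
    Measure.pi (fun _ : ι => μ) S ≤ c ^ Fintype.card ι * Measure.pi (fun _ : ι => ν) S := by
  have hcn0 : c ^ Fintype.card ι ≠ 0 := pow_ne_zero _ hc0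
  have hcnt : c ^ Fintype.card ι ≠ ⊤ := ENNReal.pow_ne_top hct
  have key : ((c ^ Fintype.card ι)⁻¹ • Measure.pi (fun _ : ι => μ)) ≤ Measure.pi (fun _ : ι => ν) := by
    rw [Measure.le_iff]
    intro s hs
    have h1 : ((c ^ Fintype.card ι)⁻¹ • Measure.pi (fun _ : ι => μ)).toOuterMeasure ≤
        OuterMeasure.pi fun i : ι => ν.toOuterMeasure := by
      rw [OuterMeasure.le_pi]
      intro t _
      show ((c ^ Fintype.card ι)⁻¹ • Measure.pi (fun _ : ι => μ)) (Set.pi Set.univ t) ≤ ∏ i, ν (t i)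
      rw [Measure.smul_apply, smul_eq_mul, Measure.pi_pi, ← ENNReal.div_eq_inv_mul]
      apply ENNReal.div_le_of_le_mul
      rw [mul_comm]
      calc ∏ i, μ (t i) ≤ ∏ i, (c * ν (t i)) := by
            apply Finset.prod_le_prod'
            intro i _
            have := h (t i)
            simpa using this
        _ = c ^ Fintype.card ι * ∏ i, ν (t i) := by
            rw [Finset.prod_mul_distrib, Finset.prod_const, Finset.card_univ]
    have h2 := h1 s
    refine (le_of_eq rfl).trans (h2.trans (le_of_eq ?_))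
    rw [Measure.pi, toMeasure_apply _ _ hs]
  have h3 := key S
  rw [Measure.smul_apply, smul_eq_mul, ← ENNReal.div_eq_inv_mul] at h3
  rw [ENNReal.div_le_iff hcn0 hcnt] at h3
  rwa [mul_comm] at h3

theorem gm_le_volume {n d : ℕ} (hd : 0 < d) (S : Set (Ix n d → ℝ)) :
    (gm n d) S ≤ ENNReal.ofReal ((Real.sqrt (d / (2 * Real.pi))) ^ (n * (d * d))) * volume S := by
  have hpos : 0 < Real.sqrt ((d : ℝ) / (2 * Real.pi)) := by
    apply Real.sqrt_pos.mpr
    have : (0 : ℝ) < d := by exact_mod_cast hd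
    positivity
  have h := pi_le_smul_pi (ι := Ix n d) (gaussianReal 0 ((d : ℝ≥0)⁻¹)) (volume : Measure ℝ)
    (ENNReal.ofReal (Real.sqrt (d / (2 * Real.pi)))) (ENNReal.ofReal_pos.mpr hpos).ne' ENNReal.ofReal_ne_top
    (gaussianReal_le hd) S
  have hcard : Fintype.card (Ix n d) = n * (d * d) := by
    simp [Ix]
  rw [hcard, ← ENNReal.ofReal_pow hpos.le] at h
  exact h

end Crest.Agent.R89.F
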