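import Crest.Agent.R89.GDa
/-!
# Row 89, GDb: counting trivial words

PIECE GDB. Weight function `h v = (√k)^(-|v|)` on the tree `RW k`: `∑_i h (sig i v) ≤ 2 √k h v`
(`|v| ≥ 1`: one neighbour closer, `k-1` further; root: all further), the `b` letters do not move the tree
part, so `∑_{w : Fin p → Fin (k+2)} h ((∏ y_w).1 root) ≤ (2√k+2)^p` by induction on `p`; trivial words
contribute `h root = 1` each.
-/

set_option autoImplicit false

namespace Crest.Agent.R89

private noncomputable def hw {k : ℕ} (v : RW k) : ℝ := (Real.sqrt k)⁻¹ ^ v.1.length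

private theorem hw_nonneg {k : ℕ} (v : RW k) : 0 ≤ hw v := by
  unfold hw; positivity

private theorem hw_act (k : ℕ) (hk : 1 ≤ k) (v : RW k) :
    ∑ i : Fin k, hw (RW.act i v) ≤ 2 * Real.sqrt k * hw v := by
  have hk1 : (1 : ℝ) ≤ k := by exact_mod_cast hk
  have hs : 0 < Real.sqrt k := Real.sqrt_pos.2 (by linarith)
  have hss : Real.sqrt k * Real.sqrt k = k := Real.mul_self_sqrt (by linarith)
  obtain ⟨l, hl⟩ := v
  cases l with
  | nil =>
    have : ∀ i : Fin k, hw (RW.act i ⟨[], hl⟩) = (Real.sqrt k)⁻¹ := by
      intro i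
      simp [hw, RW.act]
    simp only [this, Finset.sum_const, Finset.card_univ, Fintype.card_fin, nsmul_eq_mul]
    have h1 : (k : ℝ) * (Real.sqrt k)⁻¹ = Real.sqrt k := by
      field_simp
      nlinarith [hss]
    rw [h1]
    simp only [hw, List.length_nil, pow_zero]
    linarith
  | cons a l =>
    set H := hw (⟨a :: l, hl⟩ : RW k) with hH
    have h0 : 0 ≤ H := hw_nonneg _
    have hval : ∀ i : Fin k, hw (RW.act i ⟨a :: l, hl⟩) =
        (Real.sqrt k)⁻¹ * H + if i = a then (Real.sqrt k * H - (Real.sqrt k)⁻¹ * H) else 0 := by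
      intro i
      by_cases hi : i = a
      · subst hi
        have hact : RW.act i ⟨i :: l, hl⟩ = ⟨l, hl.tail⟩ := by
          show (if hi : i = i then (⟨l, hl.tail⟩ : RW k) else _) = _
          rw [dif_pos rfl]
        rw [hact, if_pos rfl]
        simp only [hw, hH, List.length_cons, pow_succ]
        field_simp
        ring
      · have hact : RW.act i ⟨a :: l, hl⟩ = ⟨i :: a :: l, List.IsChain.cons_cons hi hl⟩ := by
          simp only [RW.act]
          exact dif_neg hi
        rw [hact, if_neg hi]
        simp only [hw, hH, List.length_cons, pow_succ]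
        ring
    simp only [hval, Finset.sum_add_distrib, Finset.sum_const, Finset.card_univ, Fintype.card_fin,
      nsmul_eq_mul, Finset.sum_ite_eq', Finset.mem_univ, if_true]
    have h1 : (k : ℝ) * ((Real.sqrt k)⁻¹ * H) = Real.sqrt k * H := by
      field_simp
      nlinarith [hss]
    rw [h1]
    have h2 : 0 ≤ (Real.sqrt k)⁻¹ * H := by positivity
    nlinarith

private theorem sum_words (k M : ℕ) (hk : 1 ≤ k) (p : ℕ) (v : RW k) :
    ∑ w : Fin p → Fin (k + 2), hw (((List.ofFn fun q => yy k M (w q)).prod).1 v) ≤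
      (2 * Real.sqrt k + 2) ^ p * hw v := by
  induction p with
  | zero => simp
  | succ p ih =>
    rw [← Fintype.sum_equiv (Fin.consEquiv fun _ => Fin (k + 2))
      (fun x : Fin (k + 2) × (Fin p → Fin (k + 2)) =>
        hw ((yy k M x.1).1 (((List.ofFn fun q => yy k M (x.2 q)).prod).1 v))) _ ?_]
    · rw [Fintype.sum_prod_type_right]
      have hstep : ∀ w : Fin p → Fin (k + 2),
          ∑ j : Fin (k + 2), hw ((yy k M j).1 (((List.ofFn fun q => yy k M (w q)).prod).1 v)) ≤
            (2 * Real.sqrt k + 2) * hw (((List.ofFn fun q => yy k M (w q)).prod).1 v) := by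
        intro w
        generalize (((List.ofFn fun q => yy k M (w q)).prod).1 v) = u
        rw [Fin.sum_univ_add]
        have e1 : ∀ i : Fin k, hw ((yy k M (Fin.castAdd 2 i)).1 u) = hw (RW.act i u) := by
          intro i
          rw [yy_castAdd]
          rfl
        have e2 : ∀ j : Fin 2, hw ((yy k M (Fin.natAdd k j)).1 u) = hw u := by
          intro j
          rw [yy_natAdd]
          rfl
        simp only [e1, e2, Finset.sum_const, Finset.card_univ, Fintype.card_fin, nsmul_eq_mul]
        have := hw_act k hk u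
        push_cast
        linarith
      refine (Finset.sum_le_sum fun w _ => hstep w).trans ?_
      rw [← Finset.mul_sum, pow_succ']
      have hs : 0 ≤ 2 * Real.sqrt k + 2 := by positivity
      calc _ ≤ (2 * Real.sqrt k + 2) * ((2 * Real.sqrt k + 2) ^ p * hw v) :=
            mul_le_mul_of_nonneg_left ih hs
        _ = _ := by ring
    · rintro ⟨j, w⟩
      simp [Fin.consEquiv, List.ofFn_succ]

/-- counting trivial words (weight function `k^{-|v|/2}` on the tree `RW k`:
`∑_i h (act i v) ≤ 2 √k h v`, `b` letters act trivially on the tree, so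
`#{w : Fin p → Fin (k+2) | ∏ = 1} ≤ ∑_w h (w · root) ≤ (2√k+2)^p h root`) -/
theorem count_trivial (k M : ℕ) (hk : 1 ≤ k) (p : ℕ) :
    (Nat.card {w : Fin p → Fin (k + 2) // (List.ofFn fun q => yy k M (w q)).prod = 1} : ℝ) ≤
      (2 * Real.sqrt k + 2) ^ p := by
  classical
  have h := sum_words k M hk p RW.root
  have hr : hw (RW.root : RW k) = 1 := by simp [hw, RW.root]
  rw [hr, mul_one] at h
  refine le_trans ?_ h
  rw [Nat.card_eq_fintype_card, Fintype.card_subtype, Finset.card_eq_sum_ones, Nat.cast_sum,
    Finset.sum_filter]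
  apply Finset.sum_le_sum
  intro w _
  split_ifs with hw1
  · rw [hw1]
    simp [hr]
  · exact hw_nonneg _

end Crest.Agent.R89
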