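import Crest.Agent.R89.MD
import Crest.Agent.R89.GDa
import Crest.Agent.R89.GDb
import Crest.Agent.R89.DH
import Crest.Agent.R89.DI
/-!
# Row 89: interface of the FISHER part (owner: helper33)
-/

set_option autoImplicit false
open Crest.OpAlg
open scoped ENNReal

namespace Crest.Agent.R89

section
variable {G : Type} [Group G] {n : ℕ}

theorem fisher_le_triv (y : Fin n → G) (hy : ∀ j, y j * y j = 1) (σ : Fin n → ℝ)
    (s : ℝ) (hs : 0 < s) :
    freeFisher (tau : AT G (II n) →ₗ[ℂ] ℂ) (heatTuple (Xt y σ) St s) ≤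
      ENNReal.ofReal (∑ j, 1 / (σ j ^ 2 + s)) := by
  have h := fisher_trivial y hy σ s hs
  simpa only [one_div] using h

theorem fisher_ge (y : Fin n → G) (hy : ∀ j, y j * y j = 1) (σ : Fin n → ℝ)
    (s : ℝ) (hs : 0 < s) :
    ENNReal.ofReal ((n : ℝ) / (1 + s) - ∑ j, σ j ^ 2 / (1 + s) ^ 2) ≤
      freeFisher (tau : AT G (II n) →ₗ[ℂ] ℂ) (heatTuple (Xt y σ) St s) := by
  have h := fisher_lower y hy σ s hs.le
  rwa [Finset.sum_div] at h

theorem fisher_meas (y : Fin n → G) (σ : Fin n → ℝ) :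
    Measurable fun s : ℝ =>
      freeFisher (tau : AT G (II n) →ₗ[ℂ] ℂ) (heatTuple (Xt y σ) St s) :=
  fisher_measurable y σ

end

theorem fisher_le_big (k M : ℕ) (hk : 1 ≤ k) (hM : 2 ≤ M) (σ : Fin (k + 2) → ℝ) (s : ℝ)
    (hs : 128 * (2 * Real.sqrt k + 2) ≤ s) :
    freeFisher (tau : AT (GG k M) (II (k + 2)) →ₗ[ℂ] ℂ) (heatTuple (Xt (yy k M) σ) St s) ≤
      ENNReal.ofReal (((k + 2 : ℕ) : ℝ) / (1 + s) + 8192 * (2 * Real.sqrt k + 2) ^ 3 / s ^ 4) := by
  classical
  have hinj : Function.Injective (yy k M) := by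
    intro i j hij
    have h1 : yy k M i * yy k M j = 1 := by rw [hij]; exact yy_mul_self k M j
    exact (yy_mul_eq_one k M hM i j).1 h1
  refine fisher_main (yy k M) (yy_ne_one k M) (yy_mul_self k M) hinj σ
    (2 * Real.sqrt k + 2) (by positivity) ?_ s hs
  intro l
  have h := count_trivial k M hk l
  convert h using 2
  rw [Nat.card_eq_fintype_card, Fintype.card_subtype]
  congr 1
  ext w
  simp only [Finset.mem_filter, Finset.mem_univ, true_and, List.map_ofFn]
  rfl

end Crest.Agent.R89
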