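import Crest.Agent.R89.MC
/-! Row 89, piece FREE_B (owner helper33): polynomials in the tuple `X_j = y_j + σ_j S_(j,false)`.
For `p : T G (II n)` all of whose letters are of the form `(·, false)` let `V_p` be the operator
`V_(base g) = lam g`, `V_(cons g i p) = lam g ∘ cre i ∘ V_p`. Let `v` satisfy
`(∗) star (cre (j,false)) (lam g v) = 0` for all `j, g` (true for `v = Ω` and for
`v = cre (i,true) u`).
Every word `Q` in `lam g`'s and `Sop (j,false)`'s satisfies `Q v = ∑_p α_p(Q) V_p v` (finite sum,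
coefficients independent of `v`), by induction on the length. For `v = Ω`: `V_pΩ = dl p`, so
`τ(Q) = α_{base 1}(Q)`. Hence if `τ(a)=0` then `a v = ∑_{p ≠ base 1} α_p V_p v` and every such term is
killed by all `star (cre (i,true))` and is orthogonal to `Ω`. -/
set_option autoImplicit false
open scoped InnerProductSpace
namespace Crest.Agent.R89
open Crest.OpAlg

variable {G : Type} [Group G]

/-- the operator attached to a normal form -/
private noncomputable def VV {I : Type} : T G I → (HH G I →L[ℂ] HH G I)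
  | T.base g => lam g
  | T.cons g i p => lam g * (cre i * VV p)

/-- all letters are of type `false` -/
private def AF {n : ℕ} : T G (II n) → Prop
  | T.base _ => True
  | T.cons _ i p => i.2 = false ∧ AF p

/-- vectors killed by all `star (cre (j,false)) ∘ lam g` -/
private def Stv {n : ℕ} (v : HH G (II n)) : Prop :=
  ∀ (j : Fin n) (g : G), star (cre (j, false)) (lam g v) = 0

private noncomputable def SPn (G : Type) [Group G] (n : ℕ) :
    Submodule ℂ (HH G (II n) →L[ℂ] HH G (II n)) :=
  Submodule.span ℂ {R | ∃ p : T G (II n), AF p ∧ R = VV p}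

private theorem VV_lmul {I : Type} (h : G) (p : T G I) : VV (T.lmul h p) = lam h * VV p := by
  cases p with
  | base g => simp only [T.lmul, VV, lam_mul]
  | cons g i p => simp only [T.lmul, VV, lam_mul, mul_assoc]

private theorem AF_lmul {n : ℕ} (h : G) (p : T G (II n)) (hp : AF p) : AF (T.lmul h p) := by
  cases p with
  | base g => trivial
  | cons g i p => exact hp

private theorem SPn_lam {n : ℕ} (h : G) {R : HH G (II n) →L[ℂ] HH G (II n)}
    (hR : R ∈ SPn G n) : lam h * R ∈ SPn G n := by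
  unfold SPn at hR ⊢
  induction hR using Submodule.span_induction with
  | mem R hR =>
    obtain ⟨p, hp, rfl⟩ := hR
    exact Submodule.subset_span ⟨T.lmul h p, AF_lmul h p hp, (VV_lmul h p).symm⟩
  | zero => rw [mul_zero]; exact Submodule.zero_mem _
  | add R R' _ _ h1 h2 => rw [mul_add]; exact Submodule.add_mem _ h1 h2
  | smul c R _ h1 => rw [mul_smul_comm]; exact Submodule.smul_mem _ _ h1

private theorem SPn_cre {n : ℕ} (j : Fin n) {R : HH G (II n) →L[ℂ] HH G (II n)}
    (hR : R ∈ SPn G n) : cre (j, false) * R ∈ SPn G n := by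
  unfold SPn at hR ⊢
  induction hR using Submodule.span_induction with
  | mem R hR =>
    obtain ⟨p, hp, rfl⟩ := hR
    refine Submodule.subset_span ⟨T.cons 1 (j, false) p, ⟨rfl, hp⟩, ?_⟩
    simp only [VV, lam_one, one_mul]
  | zero => rw [mul_zero]; exact Submodule.zero_mem _
  | add R R' _ _ h1 h2 => rw [mul_add]; exact Submodule.add_mem _ h1 h2
  | smul c R _ h1 => rw [mul_smul_comm]; exact Submodule.smul_mem _ _ h1

private theorem SPn_star_cre {n : ℕ} (j : Fin n) {R : HH G (II n) →L[ℂ] HH G (II n)}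
    (hR : R ∈ SPn G n) : ∃ R' ∈ SPn G n, ∀ v, Stv v → star (cre (j, false)) (R v) = R' v := by
  classical
  unfold SPn at hR ⊢
  induction hR using Submodule.span_induction with
  | mem R hR =>
    obtain ⟨p, hp, rfl⟩ := hR
    cases p with
    | base g =>
      refine ⟨0, Submodule.zero_mem _, fun v hv => ?_⟩
      simp only [VV, zero_apply]
      exact hv j g
    | cons g i p =>
      by_cases hgi : g = 1 ∧ (j, false) = i
      · refine ⟨VV p, Submodule.subset_span ⟨p, hp.2, rfl⟩, fun v _ => ?_⟩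
        show star (cre (j, false)) (lam g (cre i (VV p v))) = VV p v
        rw [star_cre_lam_cre, if_pos hgi]
      · refine ⟨0, Submodule.zero_mem _, fun v _ => ?_⟩
        show star (cre (j, false)) (lam g (cre i (VV p v))) = 0
        rw [star_cre_lam_cre, if_neg hgi]
  | zero => exact ⟨0, Submodule.zero_mem _, fun v _ => by simp⟩
  | add R R' _ _ h1 h2 =>
    obtain ⟨S1, hS1, e1⟩ := h1
    obtain ⟨S2, hS2, e2⟩ := h2
    refine ⟨S1 + S2, Submodule.add_mem _ hS1 hS2, fun v hv => ?_⟩
    rw [add_apply, map_add, e1 v hv, e2 v hv]; rfl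
  | smul c R _ h1 =>
    obtain ⟨S1, hS1, e1⟩ := h1
    refine ⟨c • S1, Submodule.smul_mem _ _ hS1, fun v hv => ?_⟩
    rw [smul_apply, map_smul, e1 v hv]; rfl

private theorem SPn_one {n : ℕ} : (1 : HH G (II n) →L[ℂ] HH G (II n)) ∈ SPn G n := by
  refine Submodule.subset_span ⟨T.base 1, trivial, ?_⟩
  simp only [VV, lam_one]

/-- representation of polynomials -/
private theorem poly_rep {n : ℕ} (y : Fin n → G) (σ : Fin n → ℝ) (P : NCPoly n) :
    ∃ R ∈ SPn G n, ∀ v, Stv v →
      ((polyEval (Xt y σ) P : AT G (II n)) : HH G (II n) →L[ℂ] HH G (II n)) v = R v := by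
  induction P using MonoidAlgebra.induction_on with
  | of w =>
    have hw : (polyEval (Xt y σ) (MonoidAlgebra.of ℂ (FreeMonoid (Fin n)) w) : AT G (II n)) =
        FreeMonoid.lift (Xt y σ) w := by
      unfold polyEval
      rw [MonoidAlgebra.lift_of]
    rw [hw]
    induction w using FreeMonoid.inductionOn' with
    | one =>
      refine ⟨1, SPn_one, fun v _ => ?_⟩
      rw [map_one]; rfl
    | of_mul j w ih =>
      obtain ⟨R, hR, e⟩ := ih (by unfold polyEval; rw [MonoidAlgebra.lift_of])
      obtain ⟨R', hR', e'⟩ := SPn_star_cre j hR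
      refine ⟨lam (y j) * R + ((σ j : ℝ) : ℂ) • (cre (j, false) * R + R'),
        Submodule.add_mem _ (SPn_lam _ hR)
          (Submodule.smul_mem _ _ (Submodule.add_mem _ (SPn_cre j hR) hR')), fun v hv => ?_⟩
      have h1 : ((FreeMonoid.lift (Xt y σ) (FreeMonoid.of j * w) : AT G (II n)) :
          HH G (II n) →L[ℂ] HH G (II n)) v =
          lam (y j) (((FreeMonoid.lift (Xt y σ) w : AT G (II n)) :
            HH G (II n) →L[ℂ] HH G (II n)) v) + ((σ j : ℝ) : ℂ) •
          (Sop (j, false) (((FreeMonoid.lift (Xt y σ) w : AT G (II n)) :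
            HH G (II n) →L[ℂ] HH G (II n)) v)) := by
        rw [map_mul, FreeMonoid.lift_eval_of]
        rfl
      rw [h1, e v hv]
      have h2 : Sop (j, false) (R v) = cre (j, false) (R v) + star (cre (j, false)) (R v) := rfl
      rw [h2, e' v hv]
      rfl
  | add P Q hP hQ =>
    obtain ⟨R1, hR1, e1⟩ := hP
    obtain ⟨R2, hR2, e2⟩ := hQ
    refine ⟨R1 + R2, Submodule.add_mem _ hR1 hR2, fun v hv => ?_⟩
    have h1 : (polyEval (Xt y σ) (P + Q) : AT G (II n)) =
        polyEval (Xt y σ) P + polyEval (Xt y σ) Q := by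
      unfold polyEval; rw [map_add]
    rw [h1]
    show ((polyEval (Xt y σ) P : AT G (II n)) : HH G (II n) →L[ℂ] HH G (II n)) v +
      ((polyEval (Xt y σ) Q : AT G (II n)) : HH G (II n) →L[ℂ] HH G (II n)) v = R1 v + R2 v
    rw [e1 v hv, e2 v hv]
  | smul c P hP =>
    obtain ⟨R1, hR1, e1⟩ := hP
    refine ⟨c • R1, Submodule.smul_mem _ _ hR1, fun v hv => ?_⟩
    have h1 : (polyEval (Xt y σ) (c • P) : AT G (II n)) = c • polyEval (Xt y σ) P := by
      unfold polyEval; rw [map_smul]
    rw [h1]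
    show c • ((polyEval (Xt y σ) P : AT G (II n)) : HH G (II n) →L[ℂ] HH G (II n)) v = c • R1 v
    rw [e1 v hv]

private theorem inner_Om_lam_cre {I : Type} (g : G) (i : I) (w : HH G I) :
    ⟪(Om : HH G I), lam g (cre i w)⟫_ℂ = 0 := by
  have h1 : (lam g : HH G I →L[ℂ] HH G I) = star (lam g⁻¹) := by rw [star_lam, inv_inv]
  rw [h1, inner_star_right, ← inner_star_left, star_cre_lam_Om, inner_zero_left]

/-- `R = a • 1 + (good part)` -/
private theorem SPn_split {n : ℕ} {R : HH G (II n) →L[ℂ] HH G (II n)} (hR : R ∈ SPn G n) :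
    ∃ a : ℂ, ∀ v : HH G (II n),
      (v = Om ∨ ∃ (i : Fin n) (u : HH G (II n)), v = cre (i, true) u) →
      (∀ i : Fin n, star (cre (i, true)) (R v) = a • star (cre (i, true)) v) ∧
      ⟪(Om : HH G (II n)), R v⟫_ℂ = a * ⟪(Om : HH G (II n)), v⟫_ℂ := by
  classical
  unfold SPn at hR
  induction hR using Submodule.span_induction with
  | mem R hR =>
    obtain ⟨p, hp, rfl⟩ := hR
    cases p with
    | base g =>
      by_cases hg : g = 1
      · subst hg
        refine ⟨1, fun v _ => ⟨fun i => ?_, ?_⟩⟩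
        · simp only [VV, lam_one, one_smul]; rfl
        · simp only [VV, lam_one, one_mul]; rfl
      · refine ⟨0, fun v hv => ?_⟩
        rcases hv with rfl | ⟨k, u, rfl⟩
        · refine ⟨fun i => ?_, ?_⟩
          · simp only [VV, zero_smul]; exact star_cre_lam_Om _ _
          · simp only [VV, zero_mul]; rw [inner_Om_lam_Om, if_neg hg]
        · refine ⟨fun i => ?_, ?_⟩
          · simp only [VV, zero_smul]
            rw [star_cre_lam_cre, if_neg (fun h => hg h.1)]
          · simp only [VV, zero_mul]; exact inner_Om_lam_cre _ _ _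
    | cons g j p =>
      refine ⟨0, fun v hv => ⟨fun i => ?_, ?_⟩⟩
      · rw [zero_smul]
        show star (cre (i, true)) (lam g (cre j (VV p v))) = 0
        rw [star_cre_lam_cre, if_neg]
        rintro ⟨_, h⟩
        have h2 : j.2 = false := hp.1
        rw [← h] at h2
        simp at h2
      · rw [zero_mul]
        show ⟪(Om : HH G (II n)), lam g (cre j (VV p v))⟫_ℂ = 0
        exact inner_Om_lam_cre _ _ _
  | zero => exact ⟨0, fun v _ => by simp⟩
  | add R R' _ _ h1 h2 =>
    obtain ⟨a1, e1⟩ := h1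
    obtain ⟨a2, e2⟩ := h2
    refine ⟨a1 + a2, fun v hv => ⟨fun i => ?_, ?_⟩⟩
    · rw [add_apply, map_add, (e1 v hv).1 i, (e2 v hv).1 i, add_smul]
    · rw [add_apply, inner_add_right, (e1 v hv).2, (e2 v hv).2, add_mul]
  | smul c R _ h1 =>
    obtain ⟨a1, e1⟩ := h1
    refine ⟨c * a1, fun v hv => ⟨fun i => ?_, ?_⟩⟩
    · rw [smul_apply, map_smul, (e1 v hv).1 i, mul_smul]
    · rw [smul_apply, inner_smul_right, (e1 v hv).2, mul_assoc]

theorem poly_X_ann {n : ℕ} (y : Fin n → G) (σ : Fin n → ℝ) (P : NCPoly n)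
    (h0 : tau (polyEval (Xt y σ) P) = 0)
    (v : HH G (II n))
    (hv : v = Om ∨ ∃ (i : Fin n) (u : HH G (II n)), v = cre (i, true) u) :
    (∀ i : Fin n, star (cre (i, true))
      (((polyEval (Xt y σ) P : AT G (II n)) : HH G (II n) →L[ℂ] HH G (II n)) v) = 0) ∧
    ⟪(Om : HH G (II n)),
      ((polyEval (Xt y σ) P : AT G (II n)) : HH G (II n) →L[ℂ] HH G (II n)) v⟫_ℂ = 0 := by
  classical
  obtain ⟨R, hR, e⟩ := poly_rep y σ P
  obtain ⟨a, ha⟩ := SPn_split hR
  have hOm : Stv (Om : HH G (II n)) := fun j g => star_cre_lam_Om _ _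
  have hcre : ∀ (i : Fin n) (u : HH G (II n)), Stv (cre (i, true) u) := by
    intro i u j g
    rw [star_cre_lam_cre, if_neg]
    rintro ⟨_, h⟩
    simp at h
  have ha0 : a = 0 := by
    have h1 : tau (polyEval (Xt y σ) P) = ⟪(Om : HH G (II n)),
      ((polyEval (Xt y σ) P : AT G (II n)) : HH G (II n) →L[ℂ] HH G (II n)) Om⟫_ℂ := rfl
    rw [h1, e Om hOm, (ha Om (Or.inl rfl)).2, inner_self_eq_norm_sq_to_K, norm_Om] at h0
    simpa using h0
  subst ha0
  have hv' : Stv v := by
    rcases hv with rfl | ⟨i, u, rfl⟩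
    · exact hOm
    · exact hcre i u
  rw [e v hv']
  refine ⟨fun i => ?_, ?_⟩
  · rw [(ha v hv).1 i, zero_smul]
  · rw [(ha v hv).2, zero_mul]

end Crest.Agent.R89
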