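import Crest.Agent.R89.FreeA
import Crest.Agent.R89.FreeB
/-! Row 89, piece FREE_C (owner helper33): freeness.  Induct on the list `l` (head = leftmost
factor): for a non-empty alternating list of centred elements the vector `v = (product) Ω`
satisfies `⟨Ω, v⟩ = 0`; if the head type is `some i` then `v ∈ Range (cre (i,true))`; if the head
type is `none` then `star (cre (i,true)) v = 0` for all `i`. Use FREE_A and FREE_B
(`star (cre (k,true)) (cre (i,true) u) = 0` for `k ≠ i`; `⟨Ω, cre i u⟩ = 0`). -/
set_option autoImplicit false
open scoped InnerProductSpace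
namespace Crest.Agent.R89
open Crest.OpAlg

variable {G : Type} [Group G]

/-- the vector attached to a list -/
private noncomputable def fcVec {n : ℕ} (y : Fin n → G) (σ : Fin n → ℝ)
    (l : List (Option (Fin n) × NCPoly n)) : HH G (II n) :=
  (((l.map fun e => polyEval (withNoise (Xt y σ) St e.1) e.2).prod : AT G (II n)) :
    HH G (II n) →L[ℂ] HH G (II n)) Om

private theorem fcVec_nil {n : ℕ} (y : Fin n → G) (σ : Fin n → ℝ) :
    fcVec y σ [] = Om := by
  unfold fcVec
  rw [List.map_nil, List.prod_nil]
  rfl

private theorem fcVec_cons {n : ℕ} (y : Fin n → G) (σ : Fin n → ℝ)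
    (e : Option (Fin n) × NCPoly n) (l : List (Option (Fin n) × NCPoly n)) :
    fcVec y σ (e :: l) = ((polyEval (withNoise (Xt y σ) St e.1) e.2 : AT G (II n)) :
      HH G (II n) →L[ℂ] HH G (II n)) (fcVec y σ l) := by
  unfold fcVec
  rw [List.map_cons, List.prod_cons]
  rfl

private theorem inner_Om_cre {I : Type} (i : I) (u : HH G I) :
    ⟪(Om : HH G I), cre i u⟫_ℂ = 0 := by
  rw [← inner_star_left, star_cre_Om, inner_zero_left]

private theorem fc_main {n : ℕ} (y : Fin n → G) (σ : Fin n → ℝ) :
    ∀ l : List (Option (Fin n) × NCPoly n), l.IsChain (fun a b => a.1 ≠ b.1) →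
    (∀ e ∈ l, tau (polyEval (withNoise (Xt y σ) St e.1) e.2 : AT G (II n)) = 0) →
    (l ≠ [] → ⟪(Om : HH G (II n)), fcVec y σ l⟫_ℂ = 0) ∧
    (∀ i : Fin n, l.head?.map Prod.fst = some (some i) → ∃ u, fcVec y σ l = cre (i, true) u) ∧
    (∀ i : Fin n, l.head?.map Prod.fst ≠ some (some i) →
      star (cre (i, true)) (fcVec y σ l) = 0) := by
  classical
  intro l
  induction l with
  | nil =>
    intro _ _
    refine ⟨fun h => absurd rfl h, fun i h => by simp at h, fun i _ => ?_⟩
    rw [fcVec_nil]
    exact star_cre_Om _
  | cons e l ih =>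
    intro hch h0
    obtain ⟨ih1, ih2, ih3⟩ := ih hch.tail (fun e' he' => h0 e' (List.mem_cons_of_mem _ he'))
    have he := h0 e List.mem_cons_self
    rw [fcVec_cons]
    obtain ⟨t, P⟩ := e
    cases t with
    | none =>
      have hv : fcVec y σ l = Om ∨
          ∃ (i : Fin n) (u : HH G (II n)), fcVec y σ l = cre (i, true) u := by
        cases l with
        | nil => left; exact fcVec_nil y σ
        | cons e' l' =>
          right
          obtain ⟨t', P'⟩ := e'
          have hne := (List.isChain_cons_cons.1 hch).1
          cases t' with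
          | none => exact absurd rfl hne
          | some k =>
            obtain ⟨u, hu⟩ := ih2 k rfl
            exact ⟨k, u, hu⟩
      obtain ⟨k1, k2⟩ := poly_X_ann y σ P he (fcVec y σ l) hv
      exact ⟨fun _ => k2, fun i h => by simp at h, fun i _ => k1 i⟩
    | some i =>
      have hv : star (cre (i, true)) (fcVec y σ l) = 0 := by
        apply ih3 i
        cases l with
        | nil => simp
        | cons e' l' =>
          obtain ⟨t', P'⟩ := e'
          have hne := (List.isChain_cons_cons.1 hch).1
          intro h
          simp only [List.head?_cons, Option.map_some, Option.some.injEq] at h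
          exact hne h.symm
      obtain ⟨u, hu⟩ := poly_sA_range (i, true) P he (fcVec y σ l) hv
      have hu' : ((polyEval (withNoise (Xt y σ) St (some i)) P : AT G (II n)) :
          HH G (II n) →L[ℂ] HH G (II n)) (fcVec y σ l) = cre (i, true) u := hu
      refine ⟨fun _ => ?_, fun j h => ?_, fun j h => ?_⟩
      · show ⟪(Om : HH G (II n)), ((polyEval (withNoise (Xt y σ) St (some i)) P : AT G (II n)) :
          HH G (II n) →L[ℂ] HH G (II n)) (fcVec y σ l)⟫_ℂ = 0
        rw [hu']
        exact inner_Om_cre _ _
      · simp only [List.head?_cons, Option.map_some, Option.some.injEq] at h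
        subst h
        exact ⟨u, hu'⟩
      · show star (cre (j, true)) (((polyEval (withNoise (Xt y σ) St (some i)) P : AT G (II n)) :
          HH G (II n) →L[ℂ] HH G (II n)) (fcVec y σ l)) = 0
        rw [hu', star_cre_cre, if_neg]
        intro hji
        apply h
        simp only [List.head?_cons, Option.map_some]
        rw [(Prod.mk.inj hji).1]

theorem free_family {n : ℕ} (y : Fin n → G) (σ : Fin n → ℝ) :
    IsFreeFamily (tau : AT G (II n) →ₗ[ℂ] ℂ) (withNoise (Xt y σ) St) := by
  intro l hl hch h0
  exact (fc_main y σ l hch h0).1 hl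

end Crest.Agent.R89
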