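import Mathlib
/-!
# Row 89, Num: the final numerical inequality

PIECE NUM. `k = 2^40`, `m0 = 2^50`, `ρ2 = 2·2^20 + 2`, `t = 128 ρ2`, `c = 8192 ρ2³`, `M = m0⁴ = 2^200`,
`v_a = 1/4`, `v_b = (1/M²)² = M⁻⁴`. Write `ℓ = log(2πe)`. Left side =
`ℓ + log(1+2/M⁴) + k(ℓ/2 - log 2 + 10/m0)`; right side =
`(k+2)/2 ℓ + 1/2 [k (log(1+t) - log(4t+1)) + 2 (log(1+t) - log((t+v_b)/v_b)) - c/(3t³)] - 1/2`.
Difference (right - left) `= (k/2) log((1+t)/(t+1/4)) + log((1+t)/(t+v_b)) - 800 log 2 - c/(6t³) - log(1+2/M⁴) - 10k/m0 - 1/2`,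
`log((1+t)/(t+1/4)) ≥ (3/4)/(1+t)` (`log x ≥ 1 - 1/x`), `(k/2)(3/4)/(1+t) ≥ 1500`, `800 log 2 ≤ 560`,
`c/(6 t³) = 8192/(6·128³) ≤ 1`, rest `≤ 1`.
-/

set_option autoImplicit false

namespace Crest.Agent.R89

private theorem num_gen (L T v w : ℝ) (hT : T = 268435712) (hv0 : 0 < v) (hv1 : v ≤ 1)
    (hlv : Real.log v = -(800 * Real.log 2)) (hw0 : 0 ≤ w) (hw1 : w ≤ 1 / 4)
    (hL : 0 < L) :
    Real.log (L * (1 + w)) +
        (2 : ℝ) ^ 40 * (1 / 2 * Real.log (L / 4) + 10 / (2 : ℝ) ^ 50) ≤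
      ((2 : ℝ) ^ 40 + 2) / 2 * Real.log L +
        1 / 2 * ((2 : ℝ) ^ 40 * (Real.log (1 + T) -
            Real.log ((T + 1 / 4) / (1 / 4))) +
          2 * (Real.log (1 + T) -
            Real.log ((T + v) / v)) - 1) - 1 / 2 := by
  have hT0 : 0 < T := by rw [hT]; norm_num
  have e1 : Real.log (L * (1 + w)) = Real.log L + Real.log (1 + w) :=
    Real.log_mul hL.ne' (by positivity)
  have e2 : Real.log (L / 4) = Real.log L - Real.log 4 := Real.log_div hL.ne' (by norm_num)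
  have e3 : Real.log ((T + 1 / 4) / (1 / 4)) = Real.log (T + 1 / 4) + Real.log 4 := by
    rw [Real.log_div (by positivity) (by norm_num), one_div, Real.log_inv]; ring
  have e4 : Real.log ((T + v) / v) = Real.log (T + v) + 800 * Real.log 2 := by
    rw [Real.log_div (by positivity) hv0.ne', hlv]; ring
  have i1 : Real.log (1 + w) ≤ 1 / 4 := by
    have := Real.log_le_sub_one_of_pos (show 0 < 1 + w by positivity)
    linarith
  have i2 : Real.log (T + v) ≤ Real.log (1 + T) :=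
    Real.log_le_log (by positivity) (by linarith)
  have i3 : Real.log 2 < 0.6931471808 := Real.log_two_lt_d9
  have i4 : Real.log (T + 1 / 4) - Real.log (1 + T) ≤ -(3 / 4 / 268435713) := by
    rw [← Real.log_div (by positivity) (by positivity)]
    have := Real.log_le_sub_one_of_pos (show 0 < (T + 1 / 4) / (1 + T) by positivity)
    refine this.trans ?_
    rw [hT]
    norm_num
  rw [e1, e2, e3, e4]
  have h40 : (2 : ℝ) ^ 40 = 1099511627776 := by norm_num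
  have h50 : 10 / (2 : ℝ) ^ 50 ≤ 1 / 1099511627776 := by norm_num
  rw [h40]
  have i5 : (1099511627776 : ℝ) * (10 / (2 : ℝ) ^ 50) ≤ 1 := by
    norm_num
  have i6 : (1099511627776 : ℝ) * (Real.log (T + 1 / 4) - Real.log (1 + T)) ≤ -3000 := by
    have h := mul_le_mul_of_nonneg_left i4 (show (0 : ℝ) ≤ 1099511627776 by norm_num)
    refine h.trans ?_
    norm_num
  linarith

theorem num_final :
    Real.log (2 * Real.pi * Real.exp 1 * (1 + 2 / (((2 : ℝ) ^ 50) ^ 4) ^ 4)) +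
        (2 : ℝ) ^ 40 * (1 / 2 * Real.log (2 * Real.pi * Real.exp 1 / 4) + 10 / (2 : ℝ) ^ 50) ≤
      ((2 : ℝ) ^ 40 + 2) / 2 * Real.log (2 * Real.pi * Real.exp 1) +
        1 / 2 * ((2 : ℝ) ^ 40 * (Real.log (1 + 128 * (2 * (2 : ℝ) ^ 20 + 2)) -
            Real.log ((128 * (2 * (2 : ℝ) ^ 20 + 2) + 1 / 4) / (1 / 4))) +
          2 * (Real.log (1 + 128 * (2 * (2 : ℝ) ^ 20 + 2)) -
            Real.log ((128 * (2 * (2 : ℝ) ^ 20 + 2) + (1 / (((2 : ℝ) ^ 50) ^ 4) ^ 2) ^ 2) /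
              (1 / (((2 : ℝ) ^ 50) ^ 4) ^ 2) ^ 2)) -
          8192 * (2 * (2 : ℝ) ^ 20 + 2) ^ 3 / (3 * (128 * (2 * (2 : ℝ) ^ 20 + 2)) ^ 3)) - 1 / 2 := by
  have hT : (128 * (2 * (2 : ℝ) ^ 20 + 2)) = 268435712 := by norm_num
  have hvv : (1 / (((2 : ℝ) ^ 50) ^ 4) ^ 2) ^ 2 = ((2 : ℝ) ^ 800)⁻¹ := by
    rw [one_div, inv_pow, ← pow_mul, ← pow_mul, ← pow_mul]
  have hv0 : 0 < (1 / (((2 : ℝ) ^ 50) ^ 4) ^ 2) ^ 2 := by positivity
  have hv1 : (1 / (((2 : ℝ) ^ 50) ^ 4) ^ 2) ^ 2 ≤ 1 := by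
    rw [hvv]
    exact inv_le_one_of_one_le₀ (one_le_pow₀ (by norm_num))
  have hlv : Real.log ((1 / (((2 : ℝ) ^ 50) ^ 4) ^ 2) ^ 2) = -(800 * Real.log 2) := by
    rw [hvv, Real.log_inv, Real.log_pow, Nat.cast_ofNat]
  have hw : 2 / (((2 : ℝ) ^ 50) ^ 4) ^ 4 ≤ 1 / 4 := by
    rw [← pow_mul, ← pow_mul, div_le_div_iff₀ (by positivity) (by norm_num)]
    have : (2 : ℝ) ^ 3 ≤ 2 ^ (50 * 4 * 4) := pow_le_pow_right₀ (by norm_num) (by norm_num)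
    linarith
  have hc : 8192 * (2 * (2 : ℝ) ^ 20 + 2) ^ 3 / (3 * (128 * (2 * (2 : ℝ) ^ 20 + 2)) ^ 3) ≤ 1 := by
    norm_num
  have h := num_gen (2 * Real.pi * Real.exp 1) (128 * (2 * (2 : ℝ) ^ 20 + 2))
    ((1 / (((2 : ℝ) ^ 50) ^ 4) ^ 2) ^ 2) (2 / (((2 : ℝ) ^ 50) ^ 4) ^ 4) hT hv0 hv1 hlv
    (by positivity) hw (by positivity)
  linarith

end Crest.Agent.R89
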