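import Crest.Agent.R89.B9
import Crest.Agent.R89.C1
import Crest.Agent.R89.C2
import Crest.Agent.R89.Num
import Crest.Agent.R89.FreeC
import Crest.Agent.R89.FGlue
import Crest.Agent.R89.FisherIface
/-!
# Row 89: final assembly
-/

set_option autoImplicit false
set_option synthInstance.maxHeartbeats 400000
open Crest.OpAlg MeasureTheory
open scoped ENNReal

namespace Crest.Agent.R89

section
variable (k m0 : ℕ)

theorem sg_pos (hm : 10 ≤ m0) (j : Fin (k + 2)) : 0 < sg k (m0 ^ 4) j := by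
  have h0 : (0 : ℝ) < m0 := by exact_mod_cast (by omega : 0 < m0)
  induction j using Fin.addCases with
  | left i => rw [sg_castAdd]; norm_num
  | right j => rw [sg_natAdd]; positivity

end

theorem chiStar_lower (k m0 : ℕ) (hk : 1 ≤ k) (hm : 10 ≤ m0) :
    (k + 2 : ℝ) / 2 * Real.log (2 * Real.pi * Real.exp 1) +
      1 / 2 * (k * (Real.log (1 + 128 * (2 * Real.sqrt k + 2)) -
            Real.log ((128 * (2 * Real.sqrt k + 2) + 1 / 4) / (1 / 4))) +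
          2 * (Real.log (1 + 128 * (2 * Real.sqrt k + 2)) -
            Real.log ((128 * (2 * Real.sqrt k + 2) + (1 / ((m0 : ℝ) ^ 4) ^ 2) ^ 2) /
              (1 / ((m0 : ℝ) ^ 4) ^ 2) ^ 2)) -
          8192 * (2 * Real.sqrt k + 2) ^ 3 / (3 * (128 * (2 * Real.sqrt k + 2)) ^ 3)) ≤
    chiStar (tau : AT (GG k (m0 ^ 4)) (II (k + 2)) →ₗ[ℂ] ℂ)
      (Xt (yy k (m0 ^ 4)) (sg k (m0 ^ 4))) St := by
  have h0 : (0 : ℝ) < m0 := by exact_mod_cast (by omega : 0 < m0)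
  have hM2 : 2 ≤ m0 ^ 4 := by
    calc 2 ≤ 10 ^ 4 := by norm_num
      _ ≤ m0 ^ 4 := Nat.pow_le_pow_left hm 4
  set v : Fin (k + 2) → ℝ := fun j => sg k (m0 ^ 4) j ^ 2 with hv
  have hvpos : ∀ j, 0 < v j := fun j => pow_pos (sg_pos k m0 hm j) 2
  set Φ : ℝ → ℝ≥0∞ := fun s => freeFisher (tau : AT (GG k (m0 ^ 4)) (II (k + 2)) →ₗ[ℂ] ℂ)
    (heatTuple (Xt (yy k (m0 ^ 4)) (sg k (m0 ^ 4))) St s) with hΦ
  have hyy := yy_mul_self k (m0 ^ 4)
  have h1 : ∀ s : ℝ, 0 < s → Φ s ≤ ENNReal.ofReal (∑ j, 1 / (v j + s)) := fun s hs =>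
    fisher_le_triv _ hyy _ s hs
  have h2 : ∀ s : ℝ, 0 < s →
      ENNReal.ofReal (((k + 2 : ℕ) : ℝ) / (1 + s) - ∑ j, v j / (1 + s) ^ 2) ≤ Φ s :=
    fun s hs => fisher_ge _ hyy _ s hs
  have hm' : Measurable Φ := fisher_meas _ _
  have hint := integ_fisher v hvpos Φ hm' h1 h2
  have hρ : (0 : ℝ) < 2 * Real.sqrt k + 2 := by positivity
  have h3 : ∀ s : ℝ, 128 * (2 * Real.sqrt k + 2) ≤ s →
      Φ s ≤ ENNReal.ofReal (((k + 2 : ℕ) : ℝ) / (1 + s) +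
        8192 * (2 * Real.sqrt k + 2) ^ 3 / s ^ 4) :=
    fun s hs => fisher_le_big k (m0 ^ 4) hk hM2 _ s hs
  have hge := integral_fisher_ge v hvpos Φ (128 * (2 * Real.sqrt k + 2))
    (8192 * (2 * Real.sqrt k + 2) ^ 3) (by positivity) (by positivity) hint h1 h3
  unfold chiStar
  have hsum : ∑ j, (Real.log (1 + 128 * (2 * Real.sqrt k + 2)) -
      Real.log ((128 * (2 * Real.sqrt k + 2) + v j) / v j)) =
      k * (Real.log (1 + 128 * (2 * Real.sqrt k + 2)) -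
            Real.log ((128 * (2 * Real.sqrt k + 2) + 1 / 4) / (1 / 4))) +
          2 * (Real.log (1 + 128 * (2 * Real.sqrt k + 2)) -
            Real.log ((128 * (2 * Real.sqrt k + 2) + (1 / ((m0 : ℝ) ^ 4) ^ 2) ^ 2) /
              (1 / ((m0 : ℝ) ^ 4) ^ 2) ^ 2)) := by
    rw [Fin.sum_univ_add]
    simp only [hv, sg_castAdd, sg_natAdd, Finset.sum_const, Finset.card_univ, Fintype.card_fin,
      nsmul_eq_mul, Nat.cast_pow, Nat.cast_ofNat]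
    norm_num
  rw [hsum] at hge
  have hk2 : ((k + 2 : ℕ) : ℝ) = (k : ℝ) + 2 := by push_cast; ring
  rw [hk2] at hge ⊢
  have := mul_le_mul_of_nonneg_left hge (by norm_num : (0 : ℝ) ≤ 1 / 2)
  linarith

theorem final :
    ∃ (A : Type) (_ : CStarAlgebra A) (τ : A →ₗ[ℂ] ℂ) (n : ℕ) (X S : Fin n → A),
      Crest.OpAlg.IsFaithfulTracialState τ ∧ 2 ≤ n ∧ (∀ i, IsSelfAdjoint (X i)) ∧
      Crest.OpAlg.IsStandardSemicircular τ S ∧ Crest.OpAlg.IsFreeFamily τ (Crest.OpAlg.withNoise X S) ∧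
      (∀ s : ℝ, 0 < s → Crest.OpAlg.freeFisher τ (Crest.OpAlg.heatTuple X S s) < ⊤) ∧
      MeasureTheory.IntegrableOn
        (fun s : ℝ => (n : ℝ) / (1 + s) - (Crest.OpAlg.freeFisher τ (Crest.OpAlg.heatTuple X S s)).toReal)
        (Set.Ioi 0) ∧
      ⊥ < Crest.OpAlg.chi τ X ∧ Crest.OpAlg.chi τ X ≤ ((Crest.OpAlg.chiStar τ X S - 1 / 2 : ℝ) : EReal) := by
  have hm : 10 ≤ 2 ^ 50 := by norm_num
  have hk : 1 ≤ 2 ^ 40 := by norm_num
  have hyy := yy_mul_self (2 ^ 40) ((2 ^ 50) ^ 4)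
  have hne : NeZero ((2 ^ 50) ^ 4 : ℕ) := ⟨by positivity⟩
  refine ⟨AT (GG (2 ^ 40) ((2 ^ 50) ^ 4)) (II (2 ^ 40 + 2)), inferInstance, tau, 2 ^ 40 + 2,
    Xt (yy (2 ^ 40) ((2 ^ 50) ^ 4)) (sg (2 ^ 40) ((2 ^ 50) ^ 4)), St, tau_state, by omega,
    isSelfAdjoint_Xt _ hyy _, semicircular_tuple, free_family _ _, ?_, ?_, ?_, ?_⟩
  · intro s hs
    exact lt_of_le_of_lt (fisher_le_triv _ hyy _ s hs) ENNReal.ofReal_lt_top
  · exact integ_fisher (fun j => sg (2 ^ 40) ((2 ^ 50) ^ 4) j ^ 2)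
      (fun j => pow_pos (sg_pos _ _ hm j) 2) _ (fisher_meas _ _)
      (fun s hs => fisher_le_triv _ hyy _ s hs) (fun s hs => fisher_ge _ hyy _ s hs)
  · exact F.chi_Xt_gt_bot _ _ _ (sg_pos _ _ hm)
  · refine (chi_upper (2 ^ 40) (2 ^ 50) hm).trans ?_
    rw [EReal.coe_le_coe_iff]
    have h := chiStar_lower (2 ^ 40) (2 ^ 50) hk hm
    have hs : Real.sqrt ((2 ^ 40 : ℕ) : ℝ) = 2 ^ 20 := by
      rw [show ((2 ^ 40 : ℕ) : ℝ) = ((2 : ℝ) ^ 20) ^ 2 by norm_num]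
      exact Real.sqrt_sq (by positivity)
    rw [hs] at h
    have hn := num_final
    push_cast at h hn ⊢
    linarith

end Crest.Agent.R89
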