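import Crest.Statements.S0118
/-!
# Row 89 (S0118), part E: the Fock type model

`T G I` = normal forms `g₀ i₁ g₁ ⋯ i_m g_m` of the free product of the group `G` with the free
monoid on `I`; `HH G I = ℓ²(T G I)`; operators `lam g` (left mult. by `g`), `cre i` (left creation),
`Sop i = cre i + (cre i)*` (semicircular), and their right versions `rho`, `rcre`, `Srop`.
`AA` = norm closure of the star algebra generated by `lam`, `Sop`; `tau x = ⟪Ω, x Ω⟫`.
-/

set_option autoImplicit false
open scoped InnerProductSpace

namespace Crest.Agent.R89

inductive T (G I : Type) : Type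
  | base (g : G) : T G I
  | cons (g : G) (i : I) (t : T G I) : T G I

namespace T

variable {G I : Type} [Group G]

/-- left multiplication by a group element -/
def lmul (h : G) : T G I → T G I
  | base g => base (h * g)
  | cons g i t => cons (h * g) i t

/-- right multiplication by a group element -/
def rmul (h : G) : T G I → T G I
  | base g => base (g * h)
  | cons g i t => cons g i (rmul h t)

/-- left creation of the letter `i` -/
def lcr (i : I) (t : T G I) : T G I := cons 1 i t

/-- right creation of the letter `i` -/
def rcr (i : I) : T G I → T G I
  | base g => cons g i (base 1)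
  | cons g j t => cons g j (rcr i t)

/-- the vacuum -/
def vac : T G I := base 1

/-- product `u · t` -/
def app : T G I → T G I → T G I
  | base g, t => lmul g t
  | cons g i u, t => cons g i (app u t)

/-- number of letters from `I` -/
def len : T G I → ℕ
  | base _ => 0
  | cons _ _ t => t.len + 1

theorem lmul_inj (h : G) : Function.Injective (lmul h : T G I → T G I) := by
  intro a b hab
  cases a <;> cases b <;> simp_all [lmul]

theorem rmul_inj (h : G) : Function.Injective (rmul h : T G I → T G I) := by
  intro a
  induction a with
  | base g => intro b hab; cases b <;> simp_all [rmul]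
  | cons g i t ih =>
    intro b hab
    cases b with
    | base g' => simp [rmul] at hab
    | cons g' i' t' =>
      simp only [rmul, cons.injEq] at hab ⊢
      exact ⟨hab.1, hab.2.1, ih hab.2.2⟩

theorem lcr_inj (i : I) : Function.Injective (lcr i : T G I → T G I) := by
  intro a b hab
  simpa [lcr] using hab

theorem rcr_ne_base (i : I) (t : T G I) (g : G) : rcr i t ≠ base g := by
  cases t <;> simp [rcr]

theorem rcr_inj (i : I) : Function.Injective (rcr i : T G I → T G I) := by
  intro a
  induction a with
  | base g =>
    intro b hab
    cases b with
    | base g' => simp_all [rcr]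
    | cons g' j t' =>
      simp only [rcr, cons.injEq] at hab
      exact absurd hab.2.2.symm (rcr_ne_base i t' 1)
  | cons g j t ih =>
    intro b hab
    cases b with
    | base g' =>
      simp only [rcr, cons.injEq] at hab
      exact absurd hab.2.2 (rcr_ne_base i t 1)
    | cons g' j' t' =>
      simp only [rcr, cons.injEq] at hab ⊢
      exact ⟨hab.1, hab.2.1, ih hab.2.2⟩

end T

section ops
variable (G I : Type)

/-- the Hilbert space `ℓ²(T G I)` -/
abbrev HH : Type := lp (fun _ : T G I => ℂ) 2

end ops

section
variable {G I : Type}

open Classical in
/-- basis vector -/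
noncomputable def dl (t : T G I) : HH G I := lp.single 2 t 1

open Classical in
theorem dl_apply (t s : T G I) : dl t s = if s = t then 1 else 0 := by
  unfold dl
  rw [lp.single_apply]
  by_cases h : s = t
  · subst h; simp
  · simp [h]

theorem norm_dl (t : T G I) : ‖dl t‖ = 1 := by
  classical
  unfold dl
  rw [lp.norm_single (by norm_num)]
  simp

theorem inner_dl (t : T G I) (ξ : HH G I) : ⟪dl t, ξ⟫_ℂ = ξ t := by
  classical
  unfold dl
  rw [lp.inner_single_left]
  simp

theorem inner_dl_dl [DecidableEq (T G I)] (t s : T G I) : ⟪dl t, dl s⟫_ℂ = if t = s then 1 else 0 := by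
  rw [inner_dl, dl_apply]
  by_cases h : t = s <;> simp [h]

theorem orthonormal_dl : Orthonormal ℂ (dl : T G I → HH G I) := by
  classical
  rw [orthonormal_iff_ite]
  intro t s
  rw [inner_dl_dl]

/-- the isometry `δ_t ↦ δ_{f t}` for injective `f` (zero if `f` is not injective) -/
noncomputable def push (f : T G I → T G I) (hf : Function.Injective f) : HH G I →L[ℂ] HH G I :=
  ((orthonormal_dl.comp f hf).orthogonalFamily.linearIsometry).toContinuousLinearMap

theorem push_dl (f : T G I → T G I) (hf : Function.Injective f) (t : T G I) :
    push f hf (dl t) = dl (f t) := by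
  classical
  unfold push
  have h := (orthonormal_dl.comp f hf).orthogonalFamily.linearIsometry_apply_single (i := t) (1 : ℂ)
  simp only [LinearIsometry.coe_toContinuousLinearMap]
  have h2 : (dl t : HH G I) = lp.single 2 t (1 : ℂ) := by
    unfold dl; congr
  rw [h2]
  convert h using 1
  simp

theorem norm_push (f : T G I → T G I) (hf : Function.Injective f) (ξ : HH G I) :
    ‖push f hf ξ‖ = ‖ξ‖ := by
  unfold push
  simp

end

end Crest.Agent.R89
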