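import Crest.Agent.R89.MC
/-! Row 89, piece FREE_A (owner helper33): polynomials in one semicircular `S_i`.  For `v` with
`star (cre i) v = 0`: `S_i^k v = ∑_m α_{k,m} (cre i)^m v` with universal coefficients
(`α_{0,m}=δ_{m0}`, `α_{k+1,m} = α_{k,m-1} + α_{k,m+1}`), since
`S_i (cre i)^m v = (cre i)^{m+1} v + [m ≥ 1] (cre i)^{m-1} v`.
Taking `v = Ω` and pairing with `Ω` gives `α_{k,0} = τ(S_i^k)`. So a polynomial `a` in `S_i` with
`τ(a) = 0` maps `v` into the range of `cre i`. -/
set_option autoImplicit false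
open scoped InnerProductSpace
namespace Crest.Agent.R89
open Crest.OpAlg

variable {G I : Type} [Group G]

/-- `a` preserves the "polynomials in `cre i` applied to `v`", with universal coefficients -/
def FreeARel (i : I) (a : HH G I →L[ℂ] HH G I) : Prop :=
  ∀ q : Polynomial ℂ, ∃ q' : Polynomial ℂ, ∀ v : HH G I, star (cre i) v = 0 →
    a ((Polynomial.aeval (cre i : HH G I →L[ℂ] HH G I) q) v) =
      (Polynomial.aeval (cre i : HH G I →L[ℂ] HH G I) q') v

theorem freeARel_one (i : I) : FreeARel i (1 : HH G I →L[ℂ] HH G I) :=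
  fun q => ⟨q, fun _ _ => rfl⟩

theorem freeARel_mul (i : I) {a b : HH G I →L[ℂ] HH G I} (ha : FreeARel i a) (hb : FreeARel i b) :
    FreeARel i (a * b) := by
  intro q
  obtain ⟨q', h'⟩ := hb q
  obtain ⟨q'', h''⟩ := ha q'
  refine ⟨q'', fun v hv => ?_⟩
  rw [ContinuousLinearMap.mul_apply, h' v hv, h'' v hv]

theorem freeARel_add (i : I) {a b : HH G I →L[ℂ] HH G I} (ha : FreeARel i a) (hb : FreeARel i b) :
    FreeARel i (a + b) := by
  intro q
  obtain ⟨q', h'⟩ := ha q
  obtain ⟨q'', h''⟩ := hb q
  refine ⟨q' + q'', fun v hv => ?_⟩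
  rw [ContinuousLinearMap.add_apply, h' v hv, h'' v hv, map_add, ContinuousLinearMap.add_apply]

theorem freeARel_smul (i : I) (c : ℂ) {a : HH G I →L[ℂ] HH G I} (ha : FreeARel i a) :
    FreeARel i (c • a) := by
  intro q
  obtain ⟨q', h'⟩ := ha q
  refine ⟨c • q', fun v hv => ?_⟩
  rw [ContinuousLinearMap.smul_apply, h' v hv, map_smul, ContinuousLinearMap.smul_apply]

/-- splitting off the constant coefficient -/
theorem aeval_cre_split (i : I) (q : Polynomial ℂ) (v : HH G I) :
    (Polynomial.aeval (cre i : HH G I →L[ℂ] HH G I) q) v =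
      cre i ((Polynomial.aeval (cre i : HH G I →L[ℂ] HH G I) q.divX) v) + q.coeff 0 • v := by
  conv_lhs => rw [← Polynomial.divX_mul_X_add q, mul_comm]
  rw [map_add, map_mul, Polynomial.aeval_X, Polynomial.aeval_C, ContinuousLinearMap.add_apply,
    ContinuousLinearMap.mul_apply]
  congr 1

theorem freeARel_Sop (i : I) : FreeARel i (Sop i : HH G I →L[ℂ] HH G I) := by
  classical
  intro q
  refine ⟨Polynomial.X * q + q.divX, fun v hv => ?_⟩
  rw [Sop, ContinuousLinearMap.add_apply, map_add, map_mul, Polynomial.aeval_X,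
    ContinuousLinearMap.add_apply, ContinuousLinearMap.mul_apply]
  congr 1
  conv_lhs => rw [aeval_cre_split i q v]
  rw [map_add, map_smul, hv, smul_zero, add_zero, star_cre_cre, if_pos rfl]

theorem freeARel_polyEval {n : ℕ} (i : I) (P : NCPoly n) :
    FreeARel i ((polyEval (fun _ : Fin n => (sA i : AT G I)) P : AT G I) : HH G I →L[ℂ] HH G I) := by
  induction P using MonoidAlgebra.induction_on with
  | of w =>
    rw [polyEval, MonoidAlgebra.lift_of]
    induction w using FreeMonoid.inductionOn' with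
    | one =>
      rw [map_one]
      exact freeARel_one i
    | of_mul a w ih =>
      rw [map_mul, FreeMonoid.lift_eval_of]
      exact freeARel_mul i (freeARel_Sop i) ih
  | add P Q hP hQ =>
    have e : polyEval (fun _ : Fin n => (sA i : AT G I)) (P + Q) =
        polyEval (fun _ : Fin n => (sA i : AT G I)) P + polyEval (fun _ : Fin n => (sA i : AT G I)) Q := by
      rw [polyEval, map_add]
      rfl
    rw [e]
    exact freeARel_add i hP hQ
  | smul c P hP =>
    have e : polyEval (fun _ : Fin n => (sA i : AT G I)) (c • P) =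
        c • polyEval (fun _ : Fin n => (sA i : AT G I)) P := by
      rw [polyEval, map_smul]
      rfl
    rw [e]
    exact freeARel_smul i c hP

theorem poly_sA_range {n : ℕ} (i : I) (P : NCPoly n)
    (h0 : tau (polyEval (fun _ : Fin n => (sA i : AT G I)) P) = 0)
    (v : HH G I) (hv : star (cre i) v = 0) :
    ∃ u : HH G I, ((polyEval (fun _ : Fin n => (sA i : AT G I)) P : AT G I) :
      HH G I →L[ℂ] HH G I) v = cre i u := by
  obtain ⟨q, hq⟩ := freeARel_polyEval (G := G) (I := I) (n := n) i P 1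
  simp only [map_one, ContinuousLinearMap.one_apply] at hq
  have h1 := hq (Om : HH G I) (star_cre_Om i)
  have h2 : ⟪(Om : HH G I), ((polyEval (fun _ : Fin n => (sA i : AT G I)) P : AT G I) :
      HH G I →L[ℂ] HH G I) Om⟫_ℂ = 0 := h0
  rw [h1, aeval_cre_split, inner_add_right, ← inner_star_left, star_cre_Om, inner_zero_left, zero_add,
    inner_smul_right, inner_self_eq_norm_sq_to_K, norm_Om] at h2
  have h3 : q.coeff 0 = 0 := by simpa using h2
  refine ⟨(Polynomial.aeval (cre i : HH G I →L[ℂ] HH G I) q.divX) v, ?_⟩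
  rw [hq v hv, aeval_cre_split, h3, zero_smul, add_zero]

end Crest.Agent.R89
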