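import Crest.Agent.R89.MC
/-!
# Row 89: small additions to the MODEL interface (helper33's MB1, MC)
-/

set_option autoImplicit false
open scoped InnerProductSpace

namespace Crest.Agent.R89

section
variable {G I : Type} [Group G]

theorem star_sA (i : I) : star (sA i : AT G I) = sA i := (isSelfAdjoint_sA i).star_eq

theorem lamA_dl (g : G) (t : T G I) : (lamA g : AT G I).1 (dl t) = dl (T.lmul g t) := lam_dl g t

theorem sA_Om (i : I) : (sA i : AT G I).1 Om = dl (T.cons 1 i (T.base 1)) := Sop_Om i

end

end Crest.Agent.R89
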