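import Crest.Agent.R89.Api
/-! Row 89, piece MA (owner helper33, proved by helper66): `push`, its adjoint, basis vectors.
`push f hf (dl t) = dl (f t)` (Fock.lean `push_dl`), `⟪dl t, ξ⟫ = ξ t` (`inner_dl`); density of the
span of the `dl t`: `lp.hasSum_single` (or Hilbert basis); `star` of an operator is its adjoint
(`ContinuousLinearMap.star_eq_adjoint`, `ContinuousLinearMap.adjoint_inner_left`). -/
set_option autoImplicit false
open scoped InnerProductSpace
namespace Crest.Agent.R89

variable {G I : Type}

/-- the inner product as an adjoint relation. -/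
theorem inner_star_left (a : HH G I →L[ℂ] HH G I) (ξ η : HH G I) :
    ⟪star a ξ, η⟫_ℂ = ⟪ξ, a η⟫_ℂ := by
  rw [ContinuousLinearMap.star_eq_adjoint, ContinuousLinearMap.adjoint_inner_left]

theorem inner_star_right (a : HH G I →L[ℂ] HH G I) (ξ η : HH G I) :
    ⟪ξ, star a η⟫_ℂ = ⟪a ξ, η⟫_ℂ := by
  rw [ContinuousLinearMap.star_eq_adjoint, ContinuousLinearMap.adjoint_inner_right]

theorem push_inner (f : T G I → T G I) (hf : Function.Injective f) (ξ η : HH G I) :
    ⟪push f hf ξ, push f hf η⟫_ℂ = ⟪ξ, η⟫_ℂ := by
  unfold push
  exact LinearIsometry.inner_map_map _ _ _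

theorem star_push_apply (f : T G I → T G I) (hf : Function.Injective f) (ξ : HH G I)
    (t : T G I) : (star (push f hf) ξ) t = ξ (f t) := by
  rw [← inner_dl, inner_star_right, push_dl, inner_dl]

theorem star_push_push (f : T G I → T G I) (hf : Function.Injective f) (ξ : HH G I) :
    star (push f hf) (push f hf ξ) = ξ := by
  refine ext_inner_right ℂ fun η => ?_
  rw [inner_star_left, push_inner]

theorem star_push_dl (f : T G I → T G I) (hf : Function.Injective f) (t : T G I) :
    star (push f hf) (dl (f t)) = dl t := by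
  rw [← push_dl f hf, star_push_push]

theorem star_push_dl_of_notMem (f : T G I → T G I) (hf : Function.Injective f) (t : T G I)
    (h : ∀ s, f s ≠ t) : star (push f hf) (dl t) = 0 := by
  classical
  refine lp.ext (funext fun s => ?_)
  rw [star_push_apply, dl_apply]
  simp [h s]

theorem norm_push_op_le (f : T G I → T G I) (hf : Function.Injective f) :
    ‖push f hf‖ ≤ 1 := by
  refine ContinuousLinearMap.opNorm_le_bound _ zero_le_one fun ξ => ?_
  rw [norm_push, one_mul]

/-- two operators agreeing on the basis are equal. -/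
theorem ext_dl {a b : HH G I →L[ℂ] HH G I} (h : ∀ t, a (dl t) = b (dl t)) : a = b := by
  classical
  refine ContinuousLinearMap.ext fun ξ => ?_
  have hs : HasSum (fun t : T G I => lp.single (E := fun _ : T G I => ℂ) 2 t (ξ t)) ξ :=
    lp.hasSum_single (by norm_num) ξ
  have hsingle : ∀ t : T G I, lp.single (E := fun _ : T G I => ℂ) 2 t (ξ t) = ξ t • (dl t : HH G I) := by
    intro t
    refine lp.ext (funext fun s => ?_)
    rw [lp.coeFn_smul, Pi.smul_apply, dl_apply, lp.single_apply]
    by_cases hst : s = t
    · subst hst; simp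
    · simp [hst]
  simp only [hsingle] at hs
  have h1 := hs.mapL a
  have h2 := hs.mapL b
  simp only [map_smul, h] at h1 h2
  exact h1.unique h2

end Crest.Agent.R89
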