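import Crest.Agent.R89.MA
/-! Row 89, piece MB1 (owner helper33, proved by helper66): relations between operators on the same
side.  Check on basis
vectors `dl t` via `ext_dl` (MA); `T.lmul h (T.base g) = T.base (h*g)` etc. -/
set_option autoImplicit false
open scoped InnerProductSpace
namespace Crest.Agent.R89

variable {G I : Type} [Group G]

theorem lam_dl (g : G) (t : T G I) : lam g (dl t) = dl (T.lmul g t) := push_dl _ _ _

theorem rho_dl (g : G) (t : T G I) : rho g (dl t) = dl (T.rmul g t) := push_dl _ _ _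

theorem cre_dl (i : I) (t : T G I) : cre i (dl t) = dl (T.lcr i t) := push_dl _ _ _

theorem rcre_dl (i : I) (t : T G I) : rcre i (dl t) = dl (T.rcr i t) := push_dl _ _ _

theorem T.lmul_one (t : T G I) : T.lmul 1 t = t := by
  cases t <;> simp [T.lmul]

theorem T.lmul_mul (g h : G) (t : T G I) : T.lmul (g * h) t = T.lmul g (T.lmul h t) := by
  cases t <;> simp [T.lmul, mul_assoc]

theorem T.rmul_one (t : T G I) : T.rmul 1 t = t := by
  induction t with
  | base g => simp [T.rmul]
  | cons g i t ih => simp [T.rmul, ih]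

theorem T.rmul_mul (g h : G) (t : T G I) : T.rmul (g * h) t = T.rmul h (T.rmul g t) := by
  induction t with
  | base k => simp [T.rmul, mul_assoc]
  | cons k i t ih => simp [T.rmul, ih]

theorem lam_one : (lam (1 : G) : HH G I →L[ℂ] HH G I) = 1 := by
  refine ext_dl fun t => ?_
  rw [lam_dl, T.lmul_one]; rfl

theorem lam_mul (g h : G) :
    (lam (g * h) : HH G I →L[ℂ] HH G I) = lam g * lam h := by
  refine ext_dl fun t => ?_
  rw [ContinuousLinearMap.mul_apply, lam_dl, lam_dl, lam_dl, T.lmul_mul]

theorem star_lam (g : G) : star (lam g : HH G I →L[ℂ] HH G I) = lam g⁻¹ := by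
  refine ext_dl fun t => ?_
  have h : t = T.lmul g (T.lmul g⁻¹ t) := by
    rw [← T.lmul_mul, mul_inv_cancel, T.lmul_one]
  rw [lam_dl]
  conv_lhs => rw [h]
  exact star_push_dl _ (T.lmul_inj g) _

theorem rho_one : (rho (1 : G) : HH G I →L[ℂ] HH G I) = 1 := by
  refine ext_dl fun t => ?_
  rw [rho_dl, T.rmul_one]; rfl

theorem star_rho (g : G) : star (rho g : HH G I →L[ℂ] HH G I) = rho g⁻¹ := by
  refine ext_dl fun t => ?_
  have h : t = T.rmul g (T.rmul g⁻¹ t) := by
    rw [← T.rmul_mul, inv_mul_cancel, T.rmul_one]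
  rw [rho_dl]
  conv_lhs => rw [h]
  exact star_push_dl _ (T.rmul_inj g) _

theorem star_Sop (i : I) : star (Sop i : HH G I →L[ℂ] HH G I) = Sop i := by
  unfold Sop
  rw [star_add, star_star, add_comm]

theorem star_Srop (i : I) : star (Srop i : HH G I →L[ℂ] HH G I) = Srop i := by
  unfold Srop
  rw [star_add, star_star, add_comm]

theorem norm_lam_le (g : G) : ‖(lam g : HH G I →L[ℂ] HH G I)‖ ≤ 1 :=
  norm_push_op_le _ _

theorem norm_Sop_le (i : I) : ‖(Sop i : HH G I →L[ℂ] HH G I)‖ ≤ 2 := by
  unfold Sop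
  have h1 : ‖(cre i : HH G I →L[ℂ] HH G I)‖ ≤ 1 := norm_push_op_le _ _
  have h2 : ‖star (cre i : HH G I →L[ℂ] HH G I)‖ ≤ 1 := by
    rw [ContinuousLinearMap.star_eq_adjoint, LinearIsometryEquiv.norm_map]; exact h1
  calc _ ≤ _ := norm_add_le _ _
    _ ≤ 2 := by linarith

/-! vacuum -/

theorem norm_Om : ‖(Om : HH G I)‖ = 1 := norm_dl _

theorem star_cre_base (i : I) (g : G) : star (cre i) (dl (T.base g) : HH G I) = 0 :=
  star_push_dl_of_notMem _ (T.lcr_inj i) _ (fun s => by simp [T.lcr])

theorem star_rcre_base (i : I) (g : G) : star (rcre i) (dl (T.base g) : HH G I) = 0 :=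
  star_push_dl_of_notMem _ (T.rcr_inj i) _ (fun s => T.rcr_ne_base i s g)

theorem star_cre_Om (i : I) : star (cre i) (Om : HH G I) = 0 := star_cre_base i 1

theorem star_rcre_Om (i : I) : star (rcre i) (Om : HH G I) = 0 := star_rcre_base i 1

theorem lam_Om (g : G) : lam g (Om : HH G I) = dl (T.base g) := by
  unfold Om
  rw [lam_dl]; simp [T.vac, T.lmul]

theorem rho_Om (g : G) : rho g (Om : HH G I) = dl (T.base g) := by
  unfold Om
  rw [rho_dl]; simp [T.vac, T.rmul]

theorem cre_Om (i : I) : cre i (Om : HH G I) = dl (T.cons 1 i (T.base 1)) := by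
  unfold Om
  rw [cre_dl]; rfl

theorem rcre_Om (i : I) : rcre i (Om : HH G I) = dl (T.cons 1 i (T.base 1)) := by
  unfold Om
  rw [rcre_dl]; rfl

theorem Sop_Om (i : I) : Sop i (Om : HH G I) = dl (T.cons 1 i (T.base 1)) := by
  unfold Sop
  rw [ContinuousLinearMap.add_apply, star_cre_Om, add_zero, cre_Om]

theorem Srop_Om (i : I) : Srop i (Om : HH G I) = dl (T.cons 1 i (T.base 1)) := by
  unfold Srop
  rw [ContinuousLinearMap.add_apply, star_rcre_Om, add_zero, rcre_Om]

theorem star_cre_lam_Om (i : I) (g : G) : star (cre i) (lam g (Om : HH G I)) = 0 := by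
  rw [lam_Om]; exact star_cre_base i g

theorem star_rcre_lam_Om (i : I) (g : G) : star (rcre i) (lam g (Om : HH G I)) = 0 := by
  rw [lam_Om]; exact star_rcre_base i g

open Classical in
theorem inner_Om_lam_Om (g : G) :
    ⟪(Om : HH G I), lam g Om⟫_ℂ = if g = 1 then 1 else 0 := by
  rw [lam_Om, Om, inner_dl_dl]
  simp only [T.vac, T.base.injEq]
  by_cases h : g = 1
  · subst h; simp
  · simp [h, Ne.symm h]

/-! same side -/

theorem star_cre_cre_self (i : I) (ξ : HH G I) : star (cre i) (cre i ξ) = ξ :=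
  star_push_push _ _ _

theorem star_rcre_rcre_self (i : I) (ξ : HH G I) : star (rcre i) (rcre i ξ) = ξ :=
  star_push_push _ _ _

theorem T.rcr_inj_letter {i j : I} (t s : T G I) (h : T.rcr i t = T.rcr j s) : i = j := by
  induction t generalizing s with
  | base g =>
    cases s with
    | base g' => simp only [T.rcr, T.cons.injEq] at h; exact h.2.1
    | cons g' k s' =>
      simp only [T.rcr, T.cons.injEq] at h
      exact absurd h.2.2.symm (T.rcr_ne_base j s' 1)
  | cons g k t ih =>
    cases s with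
    | base g' =>
      simp only [T.rcr, T.cons.injEq] at h
      exact absurd h.2.2 (T.rcr_ne_base i t 1)
    | cons g' k' s' =>
      simp only [T.rcr, T.cons.injEq] at h
      exact ih s' h.2.2

open Classical in
theorem star_cre_cre (i j : I) (ξ : HH G I) :
    star (cre i) (cre j ξ) = if i = j then ξ else 0 := by
  split_ifs with h
  · subst h; exact star_cre_cre_self i ξ
  · have hz : (star (cre i) * cre j : HH G I →L[ℂ] HH G I) = 0 := by
      refine ext_dl fun t => ?_
      rw [ContinuousLinearMap.mul_apply, cre_dl]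
      refine star_push_dl_of_notMem _ (T.lcr_inj i) _ (fun s hs => h ?_)
      simp only [T.lcr, T.cons.injEq] at hs
      exact hs.2.1
    have := congrArg (fun a : HH G I →L[ℂ] HH G I => a ξ) hz
    simpa using this

open Classical in
theorem star_rcre_rcre (i j : I) (ξ : HH G I) :
    star (rcre i) (rcre j ξ) = if i = j then ξ else 0 := by
  split_ifs with h
  · subst h; exact star_rcre_rcre_self i ξ
  · have hz : (star (rcre i) * rcre j : HH G I →L[ℂ] HH G I) = 0 := by
      refine ext_dl fun t => ?_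
      rw [ContinuousLinearMap.mul_apply, rcre_dl]
      exact star_push_dl_of_notMem _ (T.rcr_inj i) _
        (fun s hs => h (T.rcr_inj_letter _ _ hs))
    have := congrArg (fun a : HH G I →L[ℂ] HH G I => a ξ) hz
    simpa using this

open Classical in
theorem star_cre_lam_cre (i j : I) (g : G) (ξ : HH G I) :
    star (cre i) (lam g (cre j ξ)) = if g = 1 ∧ i = j then ξ else 0 := by
  split_ifs with h
  · obtain ⟨rfl, rfl⟩ := h
    rw [lam_one, ContinuousLinearMap.one_apply, star_cre_cre_self]
  · have hz : (star (cre i) * (lam g * cre j) : HH G I →L[ℂ] HH G I) = 0 := by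
      refine ext_dl fun t => ?_
      rw [ContinuousLinearMap.mul_apply, ContinuousLinearMap.mul_apply, cre_dl, lam_dl]
      refine star_push_dl_of_notMem _ (T.lcr_inj i) _ (fun s hs => h ?_)
      simp only [T.lcr, T.lmul, T.cons.injEq, mul_one] at hs
      exact ⟨hs.1.symm, hs.2.1⟩
    have := congrArg (fun a : HH G I →L[ℂ] HH G I => a ξ) hz
    simpa using this

end Crest.Agent.R89
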