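import Crest.Agent.R89.MB1
/-! Row 89, piece MB2 (owner helper33, proved by helper66): left operators against right operators.
Check on basis
vectors `dl t` via `ext_dl` (MA), cases `t = base g`, `t = cons g j t'`.  `star (cre i) (rcre j (dl t))`
differs from `rcre j (star (cre i) (dl t))` only for `t = base 1`, `i = j`, giving the rank-one term. -/
set_option autoImplicit false
open scoped InnerProductSpace
namespace Crest.Agent.R89

variable {G I : Type} [Group G]

theorem T.lmul_rmul (g h : G) (t : T G I) : T.lmul g (T.rmul h t) = T.rmul h (T.lmul g t) := by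
  cases t <;> simp [T.lmul, T.rmul, mul_assoc]

theorem T.lmul_rcr (g : G) (i : I) (t : T G I) : T.lmul g (T.rcr i t) = T.rcr i (T.lmul g t) := by
  cases t <;> simp [T.lmul, T.rcr]

theorem T.lcr_rmul (i : I) (h : G) (t : T G I) : T.lcr i (T.rmul h t) = T.rmul h (T.lcr i t) := by
  simp [T.lcr, T.rmul]

theorem T.lcr_rcr (i j : I) (t : T G I) : T.lcr i (T.rcr j t) = T.rcr j (T.lcr i t) := by
  simp [T.lcr, T.rcr]

/-- equality of two operators, pointwise -/
theorem op_congr {a b : HH G I →L[ℂ] HH G I} (h : ∀ t, a (dl t) = b (dl t)) (ξ : HH G I) :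
    a ξ = b ξ := by
  rw [ext_dl h]

theorem lam_rho (g h : G) (ξ : HH G I) : lam g (rho h ξ) = rho h (lam g ξ) := by
  refine op_congr (a := lam g * rho h) (b := rho h * lam g) (fun t => ?_) ξ
  simp only [ContinuousLinearMap.mul_apply, lam_dl, rho_dl, T.lmul_rmul]

theorem lam_rcre (g : G) (i : I) (ξ : HH G I) : lam g (rcre i ξ) = rcre i (lam g ξ) := by
  refine op_congr (a := lam g * rcre i) (b := rcre i * lam g) (fun t => ?_) ξ
  simp only [ContinuousLinearMap.mul_apply, lam_dl, rcre_dl, T.lmul_rcr]

theorem star_rcre_lam (g : G) (i : I) (ξ : HH G I) :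
    star (rcre i) (lam g ξ) = lam g (star (rcre i) ξ) := by
  refine ext_inner_right ℂ fun η => ?_
  rw [inner_star_left]
  have h1 : (lam g : HH G I →L[ℂ] HH G I) = star (lam g⁻¹) := by rw [star_lam, inv_inv]
  rw [h1, inner_star_left, inner_star_left, inner_star_left, lam_rcre]

theorem cre_rho (i : I) (h : G) (ξ : HH G I) : cre i (rho h ξ) = rho h (cre i ξ) := by
  refine op_congr (a := cre i * rho h) (b := rho h * cre i) (fun t => ?_) ξ
  simp only [ContinuousLinearMap.mul_apply, cre_dl, rho_dl, T.lcr_rmul]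

theorem star_cre_rho (i : I) (h : G) (ξ : HH G I) :
    star (cre i) (rho h ξ) = rho h (star (cre i) ξ) := by
  refine ext_inner_right ℂ fun η => ?_
  rw [inner_star_left]
  have h1 : (rho h : HH G I →L[ℂ] HH G I) = star (rho h⁻¹) := by rw [star_rho, inv_inv]
  rw [h1, inner_star_left, inner_star_left, inner_star_left, cre_rho]

theorem cre_rcre (i j : I) (ξ : HH G I) : cre i (rcre j ξ) = rcre j (cre i ξ) := by
  refine op_congr (a := cre i * rcre j) (b := rcre j * cre i) (fun t => ?_) ξ
  simp only [ContinuousLinearMap.mul_apply, cre_dl, rcre_dl, T.lcr_rcr]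

theorem star_cre_star_rcre (i j : I) (ξ : HH G I) :
    star (cre i) (star (rcre j) ξ) = star (rcre j) (star (cre i) ξ) := by
  refine ext_inner_right ℂ fun η => ?_
  rw [inner_star_left, inner_star_left, inner_star_left, inner_star_left, cre_rcre]

/-- basis form of `star_cre_rcre` -/
theorem star_cre_rcre_dl [DecidableEq I] [DecidableEq (T G I)] (i j : I) (t : T G I) :
    star (cre i) (rcre j (dl t : HH G I)) = rcre j (star (cre i) (dl t)) +
      if i = j then (if t = T.base 1 then (Om : HH G I) else 0) else 0 := by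
  cases t with
  | base g =>
    rw [star_cre_base, map_zero, zero_add, rcre_dl]
    have hr : T.rcr j (T.base g : T G I) = T.cons g j (T.base 1) := rfl
    rw [hr]
    by_cases hij : i = j
    · subst hij
      rw [if_pos rfl]
      by_cases hg : g = (1 : G)
      · subst hg
        rw [if_pos rfl]
        exact star_push_dl _ (T.lcr_inj i) (T.base 1)
      · rw [if_neg (fun h => hg (T.base.inj h))]
        exact star_push_dl_of_notMem _ (T.lcr_inj i) _ (fun s hs => by
          unfold T.lcr at hs
          exact hg (T.cons.inj hs).1.symm)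
    · rw [if_neg hij]
      exact star_push_dl_of_notMem _ (T.lcr_inj i) _ (fun s hs => by
          unfold T.lcr at hs
          exact hij (T.cons.inj hs).2.1)
  | cons g k t =>
    have h0 : (if i = j then (if T.cons g k t = T.base 1 then (Om : HH G I) else 0) else 0) = 0 := by
      simp
    rw [h0, add_zero, rcre_dl]
    have hr : T.rcr j (T.cons g k t) = T.cons g k (T.rcr j t) := rfl
    rw [hr]
    by_cases hc : g = 1 ∧ k = i
    · obtain ⟨rfl, rfl⟩ := hc
      have h1 : star (cre k) (dl (T.cons 1 k (T.rcr j t)) : HH G I) = dl (T.rcr j t) :=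
        star_push_dl _ (T.lcr_inj k) (T.rcr j t)
      have h2 : star (cre k) (dl (T.cons 1 k t) : HH G I) = dl t :=
        star_push_dl _ (T.lcr_inj k) t
      rw [h1, h2, rcre_dl]
    · have h1 : star (cre i) (dl (T.cons g k (T.rcr j t)) : HH G I) = 0 :=
        star_push_dl_of_notMem _ (T.lcr_inj i) _ (fun s hs => hc (by
          unfold T.lcr at hs
          exact ⟨(T.cons.inj hs).1.symm, (T.cons.inj hs).2.1.symm⟩))
      have h2 : star (cre i) (dl (T.cons g k t) : HH G I) = 0 :=
        star_push_dl_of_notMem _ (T.lcr_inj i) _ (fun s hs => hc (by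
          unfold T.lcr at hs
          exact ⟨(T.cons.inj hs).1.symm, (T.cons.inj hs).2.1.symm⟩))
      rw [h1, h2, map_zero]

open Classical in
theorem star_cre_rcre (i j : I) (ξ : HH G I) :
    star (cre i) (rcre j ξ) = rcre j (star (cre i) ξ) +
      if i = j then ⟪(Om : HH G I), ξ⟫_ℂ • (Om : HH G I) else 0 := by
  have key : (star (cre i) * rcre j : HH G I →L[ℂ] HH G I) = rcre j * star (cre i) +
      if i = j then (innerSL ℂ (Om : HH G I)).smulRight (Om : HH G I) else 0 := by
    refine ext_dl fun t => ?_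
    rw [ContinuousLinearMap.mul_apply, star_cre_rcre_dl, ContinuousLinearMap.add_apply,
      ContinuousLinearMap.mul_apply]
    congr 1
    by_cases h1 : i = j
    · rw [if_pos h1, if_pos h1, ContinuousLinearMap.smulRight_apply, innerSL_apply_apply]
      have h3 : ⟪(Om : HH G I), dl t⟫_ℂ = if t = T.base 1 then 1 else 0 := by
        rw [Om, inner_dl_dl]
        change (if T.base 1 = t then (1 : ℂ) else 0) = _
        by_cases h2 : t = T.base 1
        · rw [if_pos h2, if_pos h2.symm]
        · rw [if_neg h2, if_neg (fun h => h2 h.symm)]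
      rw [h3]
      by_cases h2 : t = T.base 1
      · rw [if_pos h2, if_pos h2, one_smul]
      · rw [if_neg h2, if_neg h2, zero_smul]
    · rw [if_neg h1, if_neg h1, ContinuousLinearMap.zero_apply]
  have := congrArg (fun a : HH G I →L[ℂ] HH G I => a ξ) key
  simp only [ContinuousLinearMap.mul_apply, ContinuousLinearMap.add_apply] at this
  rw [this]
  congr 1
  by_cases h1 : i = j
  · rw [if_pos h1, if_pos h1, ContinuousLinearMap.smulRight_apply, innerSL_apply_apply]
  · rw [if_neg h1, if_neg h1, ContinuousLinearMap.zero_apply]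

open Classical in
theorem star_rcre_cre (i j : I) (ξ : HH G I) :
    star (rcre j) (cre i ξ) = cre i (star (rcre j) ξ) +
      if i = j then ⟪(Om : HH G I), ξ⟫_ℂ • (Om : HH G I) else 0 := by
  refine ext_inner_right ℂ fun η => ?_
  have h1 : ⟪star (rcre j) (cre i ξ), η⟫_ℂ = ⟪ξ, star (cre i) (rcre j η)⟫_ℂ := by
    rw [inner_star_left, inner_star_right]
  have h2 : ⟪cre i (star (rcre j) ξ), η⟫_ℂ = ⟪ξ, rcre j (star (cre i) η)⟫_ℂ := by
    rw [← inner_star_left, inner_star_right]
  rw [h1, inner_add_left, h2, star_cre_rcre, inner_add_right]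
  congr 1
  by_cases h : i = j
  · rw [if_pos h, if_pos h, inner_smul_left, inner_smul_right, inner_conj_symm, mul_comm]
  · rw [if_neg h, if_neg h, inner_zero_left, inner_zero_right]

open Classical in
/-- `[r_j^*, S_i] = δ |Ω⟩⟨Ω|`. -/
theorem star_rcre_Sop (i j : I) (ξ : HH G I) :
    star (rcre j) (Sop i ξ) = Sop i (star (rcre j) ξ) +
      if i = j then ⟪(Om : HH G I), ξ⟫_ℂ • (Om : HH G I) else 0 := by
  unfold Sop
  rw [ContinuousLinearMap.add_apply, ContinuousLinearMap.add_apply, map_add, star_rcre_cre,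
    star_cre_star_rcre]
  abel

theorem Sop_rho (i : I) (h : G) (ξ : HH G I) : Sop i (rho h ξ) = rho h (Sop i ξ) := by
  unfold Sop
  rw [ContinuousLinearMap.add_apply, ContinuousLinearMap.add_apply, map_add, cre_rho,
    star_cre_rho]

theorem lam_Srop (g : G) (i : I) (ξ : HH G I) : lam g (Srop i ξ) = Srop i (lam g ξ) := by
  unfold Srop
  rw [ContinuousLinearMap.add_apply, ContinuousLinearMap.add_apply, map_add, lam_rcre,
    star_rcre_lam]

theorem Sop_Srop (i j : I) (ξ : HH G I) : Sop i (Srop j ξ) = Srop j (Sop i ξ) := by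
  classical
  have h1 : Srop j (Sop i ξ) = rcre j (Sop i ξ) + star (rcre j) (Sop i ξ) := rfl
  have h2 : Sop i (Srop j ξ) = Sop i (rcre j ξ) + Sop i (star (rcre j) ξ) := by
    unfold Srop
    rw [ContinuousLinearMap.add_apply, map_add]
  have h3 : Sop i (rcre j ξ) = cre i (rcre j ξ) + star (cre i) (rcre j ξ) := rfl
  have h4 : rcre j (Sop i ξ) = rcre j (cre i ξ) + rcre j (star (cre i) ξ) := by
    unfold Sop
    rw [ContinuousLinearMap.add_apply, map_add]
  rw [h1, h2, h3, h4, star_rcre_Sop, star_cre_rcre, cre_rcre]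
  abel

end Crest.Agent.R89
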