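import Crest.Agent.R89.MCfaith
/-! Row 89, piece MC (owner helper33): the vacuum state is a faithful tracial state on `AT G I`.

Commutation: the operators commuting with all `rho h` and `Srop i` form a closed *-subalgebra
containing the generators (`star_rho`, `star_Srop`, `star_lam`, `star_Sop`).
Traciality: for a generator `x` with right partner `x'` (`lam g ↔ rho g`, `Sop i ↔ Srop i`),
`xΩ = x'Ω`, `x^*Ω = x'^*Ω`, so `τ(xQ)=⟨x^*Ω,QΩ⟩=⟨x'^*Ω,QΩ⟩=⟨Ω,x'QΩ⟩=⟨Ω,Qx'Ω⟩=τ(Qx)` for all `Q ∈ AT`;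
the set of `a` with `τ(ab)=τ(ba)` for all `b` is a closed subalgebra.
Faithfulness: if `aΩ = 0` then `a (dl t) = 0` for all `t`, by induction on `T.len t`:
`dl (base g) = rho g Ω`; every `t` of length `m+1` is `rmul h (rcr i t')` with `len t' = m`, and
`rcre i = Srop i - star (rcre i)` where `star (rcre i) (dl t')` is `0` or a shorter basis vector. -/
set_option autoImplicit false
open scoped InnerProductSpace
namespace Crest.Agent.R89
open Crest.OpAlg

variable {G I : Type} [Group G]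

variable (G I) in
/-- the right operators -/
def RS : Set (HH G I →L[ℂ] HH G I) :=
  Set.range (rho : G → HH G I →L[ℂ] HH G I) ∪ Set.range (Srop : I → HH G I →L[ℂ] HH G I)

theorem AA_le_centralizer : AA G I ≤ StarSubalgebra.centralizer ℂ (RS G I) := by
  refine StarSubalgebra.topologicalClosure_minimal (StarAlgebra.adjoin_le ?_) ?_
  · rintro _ (⟨g, rfl⟩ | ⟨i, rfl⟩)
    · rw [SetLike.mem_coe, StarSubalgebra.mem_centralizer_iff]
      rintro _ (⟨h, rfl⟩ | ⟨j, rfl⟩)
      · refine ⟨ContinuousLinearMap.ext fun ξ => (lam_rho g h ξ).symm, ?_⟩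
        rw [star_rho]
        exact ContinuousLinearMap.ext fun ξ => (lam_rho g h⁻¹ ξ).symm
      · refine ⟨ContinuousLinearMap.ext fun ξ => (lam_Srop g j ξ).symm, ?_⟩
        rw [star_Srop]
        exact ContinuousLinearMap.ext fun ξ => (lam_Srop g j ξ).symm
    · rw [SetLike.mem_coe, StarSubalgebra.mem_centralizer_iff]
      rintro _ (⟨h, rfl⟩ | ⟨j, rfl⟩)
      · refine ⟨ContinuousLinearMap.ext fun ξ => (Sop_rho i h ξ).symm, ?_⟩
        rw [star_rho]
        exact ContinuousLinearMap.ext fun ξ => (Sop_rho i h⁻¹ ξ).symm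
      · refine ⟨ContinuousLinearMap.ext fun ξ => (Sop_Srop i j ξ).symm, ?_⟩
        rw [star_Srop]
        exact ContinuousLinearMap.ext fun ξ => (Sop_Srop i j ξ).symm
  · rw [StarSubalgebra.coe_centralizer]
    exact Set.isClosed_centralizer _

theorem comm_rho (a : AT G I) (h : G) (ξ : HH G I) :
    (a : HH G I →L[ℂ] HH G I) (rho h ξ) = rho h ((a : HH G I →L[ℂ] HH G I) ξ) := by
  have h1 := ((StarSubalgebra.mem_centralizer_iff ℂ).1 (AA_le_centralizer a.2)) (rho h)
    (Or.inl ⟨h, rfl⟩)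
  exact (DFunLike.congr_fun h1.1 ξ).symm

theorem comm_Srop (a : AT G I) (i : I) (ξ : HH G I) :
    (a : HH G I →L[ℂ] HH G I) (Srop i ξ) = Srop i ((a : HH G I →L[ℂ] HH G I) ξ) := by
  have h1 := ((StarSubalgebra.mem_centralizer_iff ℂ).1 (AA_le_centralizer a.2)) (Srop i)
    (Or.inr ⟨i, rfl⟩)
  exact (DFunLike.congr_fun h1.1 ξ).symm

theorem tau_comm_aux (x : HH G I →L[ℂ] HH G I) (hx : x ∈ A0 G I) :
    ∀ b : AT G I, ⟪(Om : HH G I), x ((b : HH G I →L[ℂ] HH G I) Om)⟫_ℂ =
      ⟪(Om : HH G I), (b : HH G I →L[ℂ] HH G I) (x Om)⟫_ℂ := by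
  induction hx using StarAlgebra.adjoin_induction with
  | mem x hx =>
    intro b
    rcases hx with (⟨g, rfl⟩ | ⟨i, rfl⟩)
    · have e1 : (lam g : HH G I →L[ℂ] HH G I) = star (lam g⁻¹) := by
        rw [star_lam, inv_inv]
      have e2 : (lam g⁻¹ (Om : HH G I)) = rho g⁻¹ Om := by rw [lam_Om, rho_Om]
      have e3 : (lam g (Om : HH G I)) = rho g Om := by rw [lam_Om, rho_Om]
      have e4 : (star (rho g⁻¹) : HH G I →L[ℂ] HH G I) = rho g := by
        rw [star_rho, inv_inv]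
      rw [e3, comm_rho, e1, inner_star_right, e2, ← inner_star_right, e4]
    · have e1 : (Sop i : HH G I →L[ℂ] HH G I) = star (Sop i) := (star_Sop i).symm
      have e2 : (Sop i (Om : HH G I)) = Srop i Om := by rw [Sop_Om, Srop_Om]
      rw [e2, comm_Srop, e1, inner_star_right, e2, ← inner_star_right, star_Srop]
  | algebraMap r =>
    intro b
    simp [Algebra.algebraMap_eq_smul_one]
  | add x y hx hy hxP hyP =>
    intro b
    rw [add_apply, add_apply, inner_add_right, map_add,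
      inner_add_right, hxP b, hyP b]
  | mul x y hx hy hxP hyP =>
    intro b
    have hx' : x ∈ AA G I := (A0 G I).le_topologicalClosure hx
    have hy' : y ∈ AA G I := (A0 G I).le_topologicalClosure hy
    have h1 := hxP ((⟨y, hy'⟩ : AT G I) * b)
    have h2 := hyP (b * (⟨x, hx'⟩ : AT G I))
    exact h1.trans h2
  | star x hx hxP =>
    intro b
    have h1 := hxP (star b)
    have h2 := congrArg (starRingEnd ℂ) h1
    rw [inner_conj_symm, inner_conj_symm] at h2
    have e : ((star b : AT G I) : HH G I →L[ℂ] HH G I) = star (b : HH G I →L[ℂ] HH G I) := rfl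
    rw [e] at h2
    calc ⟪(Om : HH G I), star x ((b : HH G I →L[ℂ] HH G I) Om)⟫_ℂ
        = ⟪x Om, (b : HH G I →L[ℂ] HH G I) Om⟫_ℂ := inner_star_right _ _ _
      _ = ⟪star (b : HH G I →L[ℂ] HH G I) (x Om), Om⟫_ℂ := (inner_star_left _ _ _).symm
      _ = ⟪x (star (b : HH G I →L[ℂ] HH G I) Om), Om⟫_ℂ := h2.symm
      _ = ⟪star (b : HH G I →L[ℂ] HH G I) Om, star x Om⟫_ℂ := (inner_star_right _ _ _).symm
      _ = ⟪(Om : HH G I), (b : HH G I →L[ℂ] HH G I) (star x Om)⟫_ℂ := inner_star_left _ _ _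

theorem tau_comm (a b : AT G I) : tau (a * b) = tau (b * a) := by
  have hcl : IsClosed {x : HH G I →L[ℂ] HH G I |
      ⟪(Om : HH G I), x ((b : HH G I →L[ℂ] HH G I) Om)⟫_ℂ =
      ⟪(Om : HH G I), (b : HH G I →L[ℂ] HH G I) (x Om)⟫_ℂ} := by
    apply isClosed_eq
    · exact continuous_const.inner (ContinuousLinearMap.apply ℂ (HH G I) _).continuous
    · exact continuous_const.inner ((b : HH G I →L[ℂ] HH G I).continuous.comp
        (ContinuousLinearMap.apply ℂ (HH G I) _).continuous)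
  have h1 : (closure (A0 G I : Set (HH G I →L[ℂ] HH G I))) ⊆ _ :=
    closure_minimal (fun x hx => tau_comm_aux x hx b) hcl
  have h2 : (a : HH G I →L[ℂ] HH G I) ∈ closure (A0 G I : Set (HH G I →L[ℂ] HH G I)) := by
    rw [← StarSubalgebra.topologicalClosure_coe]
    exact a.2
  exact h1 h2

theorem eq_zero_of_apply_Om (a : AT G I) (h : (a : HH G I →L[ℂ] HH G I) Om = 0) :
    a = 0 :=
  Subtype.ext (eq_zero_aux (a : HH G I →L[ℂ] HH G I) (fun g ξ => comm_rho a g ξ)
    (fun i ξ => comm_Srop a i ξ) h)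

theorem tau_star_mul (a b : AT G I) :
    tau (star a * b) = ⟪(a : HH G I →L[ℂ] HH G I) Om, (b : HH G I →L[ℂ] HH G I) Om⟫_ℂ :=
  inner_star_right (a : HH G I →L[ℂ] HH G I) Om _

theorem tau_star_mul_self (a : AT G I) :
    tau (star a * a) = ((‖(a : HH G I →L[ℂ] HH G I) Om‖ ^ 2 : ℝ) : ℂ) := by
  rw [tau_star_mul, inner_self_eq_norm_sq_to_K]
  push_cast
  rfl

theorem tau_one : tau (1 : AT G I) = 1 := by
  have h : tau (1 : AT G I) = ⟪(Om : HH G I), Om⟫_ℂ := rfl
  rw [h, inner_self_eq_norm_sq_to_K, norm_Om]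
  simp

/-- the vacuum state is a faithful tracial state. -/
theorem tau_state : IsFaithfulTracialState (tau : AT G I →ₗ[ℂ] ℂ) := by
  refine ⟨tau_one, fun a => ?_, fun a ha => ?_, tau_comm⟩
  · rw [tau_star_mul_self]
    exact ⟨Complex.ofReal_im _, by rw [Complex.ofReal_re]; positivity⟩
  · rw [tau_star_mul_self] at ha
    have h1 : ‖(a : HH G I →L[ℂ] HH G I) Om‖ ^ 2 = 0 := by exact_mod_cast ha
    exact eq_zero_of_apply_Om a (norm_eq_zero.1 (pow_eq_zero_iff (by norm_num) |>.1 h1))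

theorem lamA_one : (lamA (1 : G) : AT G I) = 1 :=
  Subtype.ext lam_one

theorem lamA_mul (g h : G) : (lamA (g * h) : AT G I) = lamA g * lamA h :=
  Subtype.ext (lam_mul g h)

theorem star_lamA (g : G) : star (lamA g : AT G I) = lamA g⁻¹ :=
  Subtype.ext (star_lam g)

theorem isSelfAdjoint_sA (i : I) : IsSelfAdjoint (sA i : AT G I) :=
  Subtype.ext (star_Sop i)

theorem norm_sA_le (i : I) : ‖(sA i : AT G I)‖ ≤ 2 :=
  norm_Sop_le i

theorem norm_lamA_le (g : G) : ‖(lamA g : AT G I)‖ ≤ 1 :=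
  norm_lam_le g

open Classical in
theorem tau_lamA (g : G) : tau (lamA g : AT G I) = if g = 1 then 1 else 0 :=
  inner_Om_lam_Om g

/-- the tuple is self-adjoint. -/
theorem isSelfAdjoint_Xt {n : ℕ} (y : Fin n → G) (hy : ∀ j, y j * y j = 1) (σ : Fin n → ℝ)
    (j : Fin n) : IsSelfAdjoint (Xt y σ j) := by
  unfold Xt
  refine IsSelfAdjoint.add ?_ ?_
  · rw [IsSelfAdjoint, star_lamA, inv_eq_of_mul_eq_one_left (hy j)]
  · refine IsSelfAdjoint.smul ?_ (isSelfAdjoint_sA _)
    rw [IsSelfAdjoint]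
    exact Complex.conj_ofReal _

end Crest.Agent.R89
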