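import Crest.Agent.R89.MB2
/-! Row 89, piece MC2 (helper10): an operator which commutes with all `rho h` and all `Srop i` and
kills the vacuum is zero (the vacuum is cyclic for the right operators). -/
set_option autoImplicit false
open scoped InnerProductSpace
namespace Crest.Agent.R89

variable {G I : Type} [Group G]

/-- every word with `m + 1` letters is `rmul h (rcr i t')` with `t'` of length `m`. -/
theorem T.exists_rmul_rcr (m : ℕ) : ∀ t : T G I, t.len = m + 1 →
    ∃ (h : G) (i : I) (t' : T G I), t'.len = m ∧ t = T.rmul h (T.rcr i t') := by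
  induction m with
  | zero =>
    intro t ht
    cases t with
    | base g => simp [T.len] at ht
    | cons g i t =>
      cases t with
      | base g' => exact ⟨g', i, T.base g, rfl, by simp [T.rcr, T.rmul]⟩
      | cons g' i' t' => simp [T.len] at ht
  | succ m ih =>
    intro t ht
    cases t with
    | base g => simp [T.len] at ht
    | cons g i t =>
      have ht' : t.len = m + 1 := by simpa [T.len] using ht
      obtain ⟨h, j, t', hl, rfl⟩ := ih t ht'
      exact ⟨h, j, T.cons g i t', by simp [T.len, hl], by simp [T.rcr, T.rmul]⟩

theorem T.len_rcr (i : I) (t : T G I) : (T.rcr i t).len = t.len + 1 := by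
  induction t with
  | base g => rfl
  | cons g j t ih => simp [T.rcr, T.len, ih]

theorem eq_zero_aux (a : HH G I →L[ℂ] HH G I)
    (hr : ∀ (h : G) (ξ : HH G I), a (rho h ξ) = rho h (a ξ))
    (hS : ∀ (i : I) (ξ : HH G I), a (Srop i ξ) = Srop i (a ξ))
    (h : a Om = 0) : a = 0 := by
  have key : ∀ m : ℕ, ∀ t : T G I, t.len ≤ m → a (dl t) = 0 := by
    intro m
    induction m with
    | zero =>
      intro t ht
      cases t with
      | base g => rw [← rho_Om, hr, h, map_zero]
      | cons g i t => simp [T.len] at ht
    | succ m ih =>
      intro t ht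
      rcases Nat.lt_or_ge t.len (m + 1) with hlt | hge
      · exact ih t (Nat.lt_succ_iff.1 hlt)
      have ht1 : t.len = m + 1 := le_antisymm ht hge
      obtain ⟨g, i, t', hl, rfl⟩ := T.exists_rmul_rcr m t ht1
      have h1 : (dl (T.rmul g (T.rcr i t')) : HH G I) = rho g (rcre i (dl t')) := by
        rw [rcre_dl, rho_dl]
      have h2 : rcre i (dl t' : HH G I) = Srop i (dl t') - star (rcre i) (dl t') := by
        rw [Srop, ContinuousLinearMap.add_apply]; abel
      have h3 : a (star (rcre i) (dl t')) = 0 := by
        by_cases hex : ∃ s, T.rcr i s = t'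
        · obtain ⟨s, rfl⟩ := hex
          rw [rcre, star_push_dl]
          have : s.len + 1 = m := by rw [← T.len_rcr i s]; exact hl
          exact ih s (by omega)
        · push_neg at hex
          rw [rcre, star_push_dl_of_notMem _ _ _ hex, map_zero]
      rw [h1, hr, h2, map_sub, hS, ih t' hl.le, h3, map_zero, sub_zero, map_zero]
  refine ext_dl fun t => ?_
  rw [key t.len t le_rfl]
  simp

end Crest.Agent.R89
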